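import Vale.Agent.P184.Defs

/-!
# Definitions for the statement on quotients of free groups
-/

namespace Vale.Agent.P184.H444

/-- A group is amenable: there is a left-invariant mean on bounded real functions. -/
def Amen (H : Type*) [Group H] : Prop :=
  ∃ m : (H → ℝ) → ℝ,
    (∀ f g : H → ℝ, (∃ K, ∀ h, |f h| ≤ K) → (∃ K, ∀ h, |g h| ≤ K) → m (f + g) = m f + m g) ∧
    (∀ f : H → ℝ, (∃ K, ∀ h, |f h| ≤ K) → (∀ h, 0 ≤ f h) → 0 ≤ m f) ∧
    (∀ c : ℝ, m (fun _ => c) = c) ∧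
    ∀ (f : H → ℝ) (k : H), (∃ K, ∀ h, |f h| ≤ K) → m (fun h => f (k * h)) = m f

/-- The elements of `N` which are mapped to `1` by all homomorphisms from `N` to the group of
upper unitriangular real matrices of size `c`. -/
def Uker {G : Type*} [Group G] (N : Subgroup G) (c : ℕ) : Subgroup G where
  carrier := {g | ∃ h : g ∈ N, ∀ ρ : N →* Matrix (Fin c) (Fin c) ℝ,
    (∀ n i j, j ≤ i → ρ n i j = (1 : Matrix (Fin c) (Fin c) ℝ) i j) → ρ ⟨g, h⟩ = 1}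
  mul_mem' := by
    rintro a b ⟨ha, ha'⟩ ⟨hb, hb'⟩
    refine ⟨N.mul_mem ha hb, fun ρ hρ => ?_⟩
    have h1 : (⟨a * b, N.mul_mem ha hb⟩ : N) = ⟨a, ha⟩ * ⟨b, hb⟩ := rfl
    rw [h1, map_mul, ha' ρ hρ, hb' ρ hρ, mul_one]
  one_mem' := ⟨N.one_mem, fun ρ _ => map_one ρ⟩
  inv_mem' := by
    rintro a ⟨ha, ha'⟩
    refine ⟨N.inv_mem ha, fun ρ hρ => ?_⟩
    have h1 : (⟨a⁻¹, N.inv_mem ha⟩ : N) * ⟨a, ha⟩ = 1 := Subtype.ext (inv_mul_cancel a)
    have h2 := map_mul ρ ⟨a⁻¹, N.inv_mem ha⟩ ⟨a, ha⟩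
    rw [h1, map_one, ha' ρ hρ, mul_one] at h2
    exact h2.symm

instance Uker.normal {G : Type*} [Group G] (N : Subgroup G) [hN : N.Normal] (c : ℕ) :
    (Uker N c).Normal where
  conj_mem := by
    rintro a ⟨ha, ha'⟩ g
    refine ⟨hN.conj_mem a ha g, fun ρ hρ => ?_⟩
    exact ha' (ρ.comp (MulAut.conjNormal g).toMonoidHom) fun n i j hij => hρ _ i j hij

end Vale.Agent.P184.H444
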