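import Vale.Agent.P184.H444.Nuc

/-!
# Operators on `ℓ¹(I × L)` commuting with the right translations of the group `L`
-/

noncomputable section

open Filter Topology

namespace Vale.Agent.P184.H444

section Basic

variable {I I' L : Type*} [Group L]

/-- right translation -/
def rtr (I : Type*) (l : L) : V (I × L) →L[ℂ] V (I × L) :=
  cols (fun p => dl (p.1, p.2 * l)) 1 fun p => by rw [dl_norm]

theorem rtr_dl (l : L) (i : I) (m : L) : rtr I l (dl (i, m)) = dl (i, m * l) := cols_dl _ _ _ _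

theorem rtr_norm (l : L) (v : V (I × L)) : ‖rtr I l v‖ ≤ ‖v‖ := by
  have h1 : ‖rtr I l‖ ≤ 1 := op_norm_le _ zero_le_one fun p => by
    rw [rtr_dl, dl_norm]
  have h2 := (rtr I l).le_of_opNorm_le h1 v
  rwa [one_mul] at h2

theorem rtr_coord (l : L) (v : V (I × L)) (i : I) (m : L) : rtr I l v (i, m * l) = v (i, m) := by
  have h : (cf (i, m * l)).comp (rtr I l) = cf (i, m) := by
    refine op_ext fun p => ?_
    change rtr I l (dl p) (i, m * l) = (dl p : V (I × L)) (i, m)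
    have hp : p = (p.1, p.2) := rfl
    rw [hp, rtr_dl]
    by_cases h1 : (i, m) = (p.1, p.2)
    · have h2 : i = p.1 := congrArg Prod.fst h1
      have h3 : m = p.2 := congrArg Prod.snd h1
      rw [h2, h3, dl_same, dl_same]
    · rw [dl_ne h1, dl_ne]
      intro h2
      have h3 : i = p.1 := congrArg Prod.fst h2
      have h4 : m * l = p.2 * l := congrArg Prod.snd h2
      exact h1 (Prod.ext h3 (mul_right_cancel h4))
  exact DFunLike.congr_fun h v

/-- `A` commutes with right translations. -/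
def Eqv (A : V (I × L) →L[ℂ] V (I' × L)) : Prop :=
  ∀ (l : L) (v : V (I × L)), A (rtr I l v) = rtr I' l (A v)

theorem eqv_of_dl {A : V (I × L) →L[ℂ] V (I' × L)}
    (h : ∀ (l : L) (p : I × L), A (rtr I l (dl p)) = rtr I' l (A (dl p))) : Eqv A := by
  intro l v
  have h1 : A.comp (rtr I l) = (rtr I' l).comp A := op_ext fun p => h l p
  exact DFunLike.congr_fun h1 v

theorem Eqv.comp {I'' : Type*} {A : V (I' × L) →L[ℂ] V (I'' × L)} {B : V (I × L) →L[ℂ] V (I' × L)}
    (hA : Eqv A) (hB : Eqv B) : Eqv (A.comp B) := by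
  intro l v
  change A (B (rtr I l v)) = rtr I'' l (A (B v))
  rw [hB, hA]

theorem Eqv.add {A B : V (I × L) →L[ℂ] V (I' × L)} (hA : Eqv A) (hB : Eqv B) :
    Eqv (A + B) := by
  intro l v
  change A (rtr I l v) + B (rtr I l v) = rtr I' l (A v + B v)
  rw [hB, hA, map_add]

theorem Eqv.sub {A B : V (I × L) →L[ℂ] V (I' × L)} (hA : Eqv A) (hB : Eqv B) :
    Eqv (A - B) := by
  intro l v
  change A (rtr I l v) - B (rtr I l v) = rtr I' l (A v - B v)
  rw [hB, hA, map_sub]

theorem eqv_one : Eqv (1 : V (I × L) →L[ℂ] V (I × L)) := fun _ _ => rfl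

theorem eqv_closed : IsClosed {A : V (I × L) →L[ℂ] V (I' × L) | Eqv A} := by
  unfold Eqv
  rw [Set.ofPred_forall]
  refine isClosed_iInter fun l => ?_
  rw [Set.ofPred_forall]
  refine isClosed_iInter fun v => ?_
  refine isClosed_eq ?_ ?_
  · exact (ContinuousLinearMap.apply ℂ (V (I' × L)) (rtr I l v)).continuous
  · exact (rtr I' l).continuous.comp (ContinuousLinearMap.apply ℂ (V (I' × L)) v).continuous

theorem dl_rtr (i : I) (l : L) : (dl (i, l) : V (I × L)) = rtr I l (dl (i, 1)) := by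
  rw [rtr_dl, one_mul]

theorem Eqv.coord {A : V (I × L) →L[ℂ] V (I' × L)} (hA : Eqv A) (i : I) (l : L) (k : I') (c : L) :
    A (dl (i, l)) (k, c) = A (dl (i, 1)) (k, c * l⁻¹) := by
  rw [dl_rtr, hA]
  have h := rtr_coord l (A (dl (i, 1))) k (c * l⁻¹)
  rwa [inv_mul_cancel_right] at h

theorem Eqv.norm_dl {A : V (I × L) →L[ℂ] V (I' × L)} (hA : Eqv A) (i : I) (l : L) :
    ‖A (dl (i, l))‖ ≤ ‖A (dl (i, 1))‖ := by
  rw [dl_rtr, hA]
  exact rtr_norm _ _

/-- the columns are summable -/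
def LL (D : V (I × L) →L[ℂ] V (I' × L)) : Prop := Summable fun i => ‖D (dl (i, 1))‖

/-- the sum of the norms of the columns -/
def ln (D : V (I × L) →L[ℂ] V (I' × L)) : ℝ := ∑' i, ‖D (dl (i, 1))‖

open Classical in
/-- the trace at the set `C` -/
def trC (C : Set L) (D : V (I × L) →L[ℂ] V (I × L)) : ℂ :=
  ∑' p : I × L, if p.2 ∈ C then D (dl (p.1, 1)) p else 0

theorem coordHasSum {J J' : Type*} (A : V J →L[ℂ] V J') (w : V J) (i : J') :
    HasSum (fun l => w l * A (dl l) i) (A w i) := by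
  have h := (op_hasSum A w).mapL (cf i)
  have e : (fun l => cf i (w l • A (dl l))) = fun l => w l * A (dl l) i := by
    funext l
    rw [map_smul, smul_eq_mul]
    rfl
  rw [e] at h
  exact h

omit [Group L] in
theorem slice_summable (v : V (I × L)) (i : I) : Summable fun m => ‖v (i, m)‖ :=
  (v_summable v).comp_injective (i := fun m : L => (i, m)) (Prod.mk_right_injective i)

omit [Group L] in
theorem slice_le (v : V (I × L)) (i : I) : ∑' m, ‖v (i, m)‖ ≤ ‖v‖ := by
  rw [v_norm v]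
  have h := (v_summable v).tsum_prod' fun i => slice_summable v i
  rw [h]
  have h2 : Summable fun i => ∑' m, ‖v (i, m)‖ := (v_summable v).prod
  exact h2.le_tsum i fun _ _ => tsum_nonneg fun _ => norm_nonneg _

/-- the master family -/
theorem master {D : V (I × L) →L[ℂ] V (I' × L)} (hD : LL D) (b : I' → V (I × L)) {K : ℝ}
    (hb : ∀ k, ‖b k‖ ≤ K) :
    (Summable fun w : (I × (I' × L)) × L =>
      ‖D (dl (w.1.1, 1)) w.1.2‖ * ‖b w.1.2.1 (w.1.1, w.2)‖) ∧
    ∑' w : (I × (I' × L)) × L, ‖D (dl (w.1.1, 1)) w.1.2‖ * ‖b w.1.2.1 (w.1.1, w.2)‖ ≤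
      K * ln D := by
  have hu0 : (0 : I × (I' × L) → ℝ) ≤ fun z : I × (I' × L) => ‖D (dl (z.1, 1)) z.2‖ :=
    fun z => norm_nonneg (D (dl (z.1, 1)) z.2)
  have hin : ∀ i, Summable fun p : I' × L => ‖D (dl (i, 1)) p‖ := fun i =>
    v_summable (D (dl (i, 1)))
  have hsum : ∀ i, ∑' p : I' × L, ‖D (dl (i, 1)) p‖ = ‖D (dl (i, 1))‖ := fun i =>
    (v_norm (D (dl (i, 1)))).symm
  have hus : Summable fun z : I × (I' × L) => ‖D (dl (z.1, 1)) z.2‖ := by
    refine (summable_prod_of_nonneg hu0).2 ⟨hin, ?_⟩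
    refine Summable.congr hD fun i => ?_
    exact (hsum i).symm
  have hut : ∑' z : I × (I' × L), ‖D (dl (z.1, 1)) z.2‖ = ln D := by
    refine (hus.tsum_prod' hin).trans ?_
    exact tsum_congr hsum
  have hM0 : (0 : (I × (I' × L)) × L → ℝ) ≤ fun w : (I × (I' × L)) × L =>
      ‖D (dl (w.1.1, 1)) w.1.2‖ * ‖b w.1.2.1 (w.1.1, w.2)‖ := fun w =>
    mul_nonneg (norm_nonneg (D (dl (w.1.1, 1)) w.1.2)) (norm_nonneg (b w.1.2.1 (w.1.1, w.2)))
  have hMin : ∀ z : I × (I' × L), Summable fun n : L =>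
      ‖D (dl (z.1, 1)) z.2‖ * ‖b z.2.1 (z.1, n)‖ := fun z =>
    (slice_summable (b z.2.1) z.1).mul_left ‖D (dl (z.1, 1)) z.2‖
  have hMle : ∀ z : I × (I' × L), ∑' n : L,
      ‖D (dl (z.1, 1)) z.2‖ * ‖b z.2.1 (z.1, n)‖ ≤ ‖D (dl (z.1, 1)) z.2‖ * K := by
    intro z
    rw [tsum_mul_left]
    exact mul_le_mul_of_nonneg_left ((slice_le (b z.2.1) z.1).trans (hb z.2.1))
      (norm_nonneg (D (dl (z.1, 1)) z.2))
  have hMs : Summable fun w : (I × (I' × L)) × L =>
      ‖D (dl (w.1.1, 1)) w.1.2‖ * ‖b w.1.2.1 (w.1.1, w.2)‖ := by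
    refine (summable_prod_of_nonneg hM0).2 ⟨hMin, ?_⟩
    exact Summable.of_nonneg_of_le (fun z => tsum_nonneg fun n => hM0 (z, n)) hMle
      (hus.mul_right K)
  refine ⟨hMs, ?_⟩
  have h5 := hMs.tsum_prod' hMin
  refine h5.le.trans ?_
  rw [mul_comm K, ← hut, ← tsum_mul_right]
  exact Summable.tsum_le_tsum hMle hMs.prod (hus.mul_right K)

open Classical in
/-- the trace of `D B` -/
theorem trC_DB {C : Set L} {D : V (I × L) →L[ℂ] V (I' × L)} (hD : LL D) (hDe : Eqv D)
    (B : V (I' × L) →L[ℂ] V (I × L)) :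
    trC C (D.comp B) = ∑' w : (I × (I' × L)) × L, if w.1.2.2 * w.2 ∈ C then
      D (dl (w.1.1, 1)) w.1.2 * B (dl (w.1.2.1, 1)) (w.1.1, w.2) else 0 := by
  obtain ⟨h1, _⟩ := master hD (fun k => B (dl (k, 1))) (K := ‖B‖) fun k => by
    have := B.le_opNorm (dl (k, 1))
    rwa [dl_norm, mul_one] at this
  set g : (I × (I' × L)) × L → ℂ := fun w => if w.1.2.2 * w.2 ∈ C then
      D (dl (w.1.1, 1)) w.1.2 * B (dl (w.1.2.1, 1)) (w.1.1, w.2) else 0 with hg
  have hgs : Summable g := by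
    refine Summable.of_norm_bounded h1 fun w => ?_
    rw [hg]
    dsimp only
    split_ifs
    · rw [norm_mul]
    · rw [norm_zero]
      exact mul_nonneg (norm_nonneg _) (norm_nonneg _)
  let e : (I' × L) × (I × L) ≃ (I × (I' × L)) × L :=
    { toFun := fun z => ((z.2.1, (z.1.1, z.1.2 * z.2.2⁻¹)), z.2.2)
      invFun := fun w => ((w.1.2.1, w.1.2.2 * w.2), (w.1.1, w.2))
      left_inv := fun z => by
        simp only [inv_mul_cancel_right]
      right_inv := fun w => by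
        simp only [mul_inv_cancel_right] }
  have hge : Summable fun z => g (e z) := e.summable_iff.2 hgs
  rw [← e.tsum_eq, hge.tsum_prod]
  unfold trC
  refine tsum_congr fun p => ?_
  have h2 : ∀ z : I × L, g (e (p, z)) = if p.2 ∈ C then
      B (dl (p.1, 1)) z * D (dl z) p else 0 := by
    intro z
    change (if p.2 * z.2⁻¹ * z.2 ∈ C then
      D (dl (z.1, 1)) (p.1, p.2 * z.2⁻¹) * B (dl (p.1, 1)) (z.1, z.2) else 0) = _
    have h3 := hDe.coord z.1 z.2 p.1 p.2
    change D (dl z) p = D (dl (z.1, 1)) (p.1, p.2 * z.2⁻¹) at h3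
    rw [inv_mul_cancel_right, ← h3, mul_comm]
  rw [tsum_congr h2]
  split_ifs with hp
  · exact ((coordHasSum D (B (dl (p.1, 1))) p).tsum_eq).symm
  · rw [tsum_zero]

theorem trC_DB_le {C : Set L} {D : V (I × L) →L[ℂ] V (I' × L)} (hD : LL D) (hDe : Eqv D)
    (B : V (I' × L) →L[ℂ] V (I × L)) : ‖trC C (D.comp B)‖ ≤ ‖B‖ * ln D := by
  classical
  obtain ⟨h1, h2⟩ := master hD (fun k => B (dl (k, 1))) (K := ‖B‖) fun k => by
    have := B.le_opNorm (dl (k, 1))
    rwa [dl_norm, mul_one] at this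
  rw [trC_DB hD hDe B]
  refine le_trans (tsum_of_norm_bounded h1.hasSum fun w => ?_) h2
  split_ifs
  · rw [norm_mul]
  · rw [norm_zero]
    exact mul_nonneg (norm_nonneg _) (norm_nonneg _)

open Classical in
/-- the trace of `B D` -/
theorem trC_BD {C : Set L} {D : V (I × L) →L[ℂ] V (I' × L)} (hD : LL D)
    {B : V (I' × L) →L[ℂ] V (I × L)} (hB : Eqv B) :
    trC C (B.comp D) = ∑' w : (I × (I' × L)) × L, if w.2 * w.1.2.2 ∈ C then
      D (dl (w.1.1, 1)) w.1.2 * B (dl (w.1.2.1, 1)) (w.1.1, w.2) else 0 := by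
  obtain ⟨h1, _⟩ := master hD (fun k => B (dl (k, 1))) (K := ‖B‖) fun k => by
    have := B.le_opNorm (dl (k, 1))
    rwa [dl_norm, mul_one] at this
  set g : (I × (I' × L)) × L → ℂ := fun w => if w.2 * w.1.2.2 ∈ C then
      D (dl (w.1.1, 1)) w.1.2 * B (dl (w.1.2.1, 1)) (w.1.1, w.2) else 0 with hg
  have hgs : Summable g := by
    refine Summable.of_norm_bounded h1 fun w => ?_
    rw [hg]
    dsimp only
    split_ifs
    · rw [norm_mul]
    · rw [norm_zero]
      exact mul_nonneg (norm_nonneg _) (norm_nonneg _)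
  let e : (I × L) × (I' × L) ≃ (I × (I' × L)) × L :=
    { toFun := fun z => ((z.1.1, z.2), z.1.2 * z.2.2⁻¹)
      invFun := fun w => ((w.1.1, w.2 * w.1.2.2), w.1.2)
      left_inv := fun z => by
        simp only [inv_mul_cancel_right]
      right_inv := fun w => by
        simp only [mul_inv_cancel_right] }
  have hge : Summable fun z => g (e z) := e.summable_iff.2 hgs
  rw [← e.tsum_eq, hge.tsum_prod]
  unfold trC
  refine tsum_congr fun p => ?_
  have h2 : ∀ z : I' × L, g (e (p, z)) = if p.2 ∈ C then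
      D (dl (p.1, 1)) z * B (dl z) p else 0 := by
    intro z
    change (if p.2 * z.2⁻¹ * z.2 ∈ C then
      D (dl (p.1, 1)) z * B (dl (z.1, 1)) (p.1, p.2 * z.2⁻¹) else 0) = _
    have h3 := hB.coord z.1 z.2 p.1 p.2
    change B (dl z) p = B (dl (z.1, 1)) (p.1, p.2 * z.2⁻¹) at h3
    rw [inv_mul_cancel_right, ← h3]
  rw [tsum_congr h2]
  split_ifs with hp
  · exact ((coordHasSum B (D (dl (p.1, 1))) p).tsum_eq).symm
  · rw [tsum_zero]

/-- The trace property. -/
theorem trC_comm {C : Set L} (hC : ∀ a b, a * b ∈ C ↔ b * a ∈ C)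
    {D : V (I × L) →L[ℂ] V (I' × L)} (hD : LL D) (hDe : Eqv D)
    {B : V (I' × L) →L[ℂ] V (I × L)} (hB : Eqv B) : trC C (D.comp B) = trC C (B.comp D) := by
  classical
  rw [trC_DB hD hDe, trC_BD hD hB]
  refine tsum_congr fun w => ?_
  by_cases h : w.1.2.2 * w.2 ∈ C
  · rw [if_pos h, if_pos ((hC _ _).1 h)]
  · rw [if_neg h, if_neg fun h' => h ((hC _ _).2 h')]

/-- summability of the diagonal -/
theorem diag_summable {D : V (I × L) →L[ℂ] V (I × L)} (hD : LL D) :
    Summable fun p : I × L => ‖D (dl (p.1, 1)) p‖ := by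
  have h0 : (0 : I × L → ℝ) ≤ fun p : I × L => ‖D (dl (p.1, 1)) p‖ := fun p => norm_nonneg _
  refine (summable_prod_of_nonneg h0).2 ⟨fun i => slice_summable (D (dl (i, 1))) i, ?_⟩
  exact Summable.of_nonneg_of_le (fun i => tsum_nonneg fun m => h0 (i, m))
    (fun i => slice_le (D (dl (i, 1))) i) hD

theorem diag_le' {D : V (I × L) →L[ℂ] V (I × L)} (hD : LL D) :
    ∑' p : I × L, ‖D (dl (p.1, 1)) p‖ ≤ ln D := by
  have h1 := diag_summable hD
  rw [h1.tsum_prod]
  exact Summable.tsum_le_tsum (fun i => slice_le (D (dl (i, 1))) i) h1.prod hD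

end Basic

end Vale.Agent.P184.H444
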