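import Vale.Agent.P184.H444.Nuc

/-!
# The trace of the difference of two idempotent operators is an integer
-/

noncomputable section

open Filter Topology

namespace Vale.Agent.P184.H444

variable {I : Type*}

theorem trace_idem {U : Type*} [AddCommGroup U] [Module ℂ U] [FiniteDimensional ℂ U]
    (f : U →ₗ[ℂ] U) (h : f * f = f) : ∃ n : ℕ, LinearMap.trace ℂ U f = n := by
  have h1 := (LinearMap.isProj_range_iff_isIdempotentElem f).2 h
  exact ⟨_, h1.trace⟩

/-- restriction to an invariant subspace -/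
def rst (E : V I →L[ℂ] V I) (U : Submodule ℂ (V I)) (h : ∀ u ∈ U, E u ∈ U) : U →ₗ[ℂ] U :=
  (E : V I →ₗ[ℂ] V I).restrict h

theorem rst_apply (E : V I →L[ℂ] V I) (U : Submodule ℂ (V I)) (h : ∀ u ∈ U, E u ∈ U) (u : U) :
    ((rst E U h u : U) : V I) = E u := rfl

theorem rst_idem {E : V I →L[ℂ] V I} (hE : E * E = E) (U : Submodule ℂ (V I))
    (h : ∀ u ∈ U, E u ∈ U) : rst E U h * rst E U h = rst E U h := by
  refine LinearMap.ext fun u => Subtype.ext ?_
  change E (E (u : V I)) = E u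
  change (E * E) (u : V I) = E u
  rw [hE]

theorem finrank_int {E F : V I →L[ℂ] V I} (hE : E * E = E) (hF : F * F = F)
    (U : Submodule ℂ (V I)) [FiniteDimensional ℂ U] (hEU : ∀ u ∈ U, E u ∈ U)
    (hFU : ∀ u ∈ U, F u ∈ U) (hR : ∀ v, (E - F) v ∈ U) :
    (∃ c, TrS (E - F) c) ∧ ∃ n : ℤ, tr (E - F) = n := by
  classical
  set b := Module.finBasis ℂ U with hb
  set G : V I →L[ℂ] U := (E - F).codRestrict U hR with hG
  have hGv : ∀ v, ((G v : U) : V I) = (E - F) v := fun v => rfl
  set φ : Fin (Module.finrank ℂ U) → (V I →L[ℂ] ℂ) := fun k =>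
    (LinearMap.toContinuousLinearMap (b.coord k)).comp G with hφ
  have hφv : ∀ k v, φ k v = b.repr (G v) k := fun k v => rfl
  have key : ∀ v, (E - F) v = ∑ k, φ k v • ((b k : U) : V I) := by
    intro v
    have h1 := b.sum_repr (G v)
    have h2 : ((∑ k, b.repr (G v) k • b k : U) : V I) = ∑ k, b.repr (G v) k • ((b k : U) : V I) := by
      rw [Submodule.coe_sum]
      rfl
    rw [← hGv v, ← h1, h2]
    rfl
  have hdiag : ∀ i, (E - F) (dl i) i = ∑ k, ((b k : U) : V I) i * φ k (dl i) := by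
    intro i
    have h1 := key (dl i)
    have h2 : (E - F) (dl i) i = (∑ k, φ k (dl i) • ((b k : U) : V I)) i := by rw [← h1]
    rw [h2, lp.coeFn_sum, Finset.sum_apply]
    refine Finset.sum_congr rfl fun k _ => ?_
    rw [lp.coeFn_smul, Pi.smul_apply, smul_eq_mul, mul_comm]
  have hs : ∀ k, HasSum (fun i => ((b k : U) : V I) i * φ k (dl i)) (φ k (b k : V I)) := fun k =>
    op_hasSum (φ k) (b k : V I)
  have hsum : HasSum (fun i => (E - F) (dl i) i) (∑ k, φ k (b k : V I)) := by
    have h1 := hasSum_sum (s := Finset.univ) fun k _ => hs k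
    exact h1.congr_fun hdiag
  have hns : Summable fun i => ‖(E - F) (dl i) i‖ := by
    have h1 : ∀ i, ‖(E - F) (dl i) i‖ ≤ ∑ k, ‖((b k : U) : V I) i‖ * ‖φ k‖ := by
      intro i
      rw [hdiag i]
      refine (norm_sum_le _ _).trans (Finset.sum_le_sum fun k _ => ?_)
      rw [norm_mul]
      refine mul_le_mul_of_nonneg_left ?_ (norm_nonneg _)
      refine ((φ k).le_opNorm _).trans ?_
      rw [dl_norm, mul_one]
    refine Summable.of_nonneg_of_le (fun _ => norm_nonneg _) h1 ?_
    exact summable_sum fun k _ => (v_summable ((b k : U) : V I)).mul_right _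
  refine ⟨⟨_, hns, le_rfl⟩, ?_⟩
  obtain ⟨n₁, hn₁⟩ := trace_idem (rst E U hEU) (rst_idem hE U hEU)
  obtain ⟨n₂, hn₂⟩ := trace_idem (rst F U hFU) (rst_idem hF U hFU)
  refine ⟨(n₁ : ℤ) - n₂, ?_⟩
  have h3 : tr (E - F) = ∑ k, φ k (b k : V I) := hsum.tsum_eq
  have h4 : LinearMap.trace ℂ U (rst E U hEU - rst F U hFU) = ∑ k, φ k (b k : V I) := by
    rw [LinearMap.trace_eq_matrix_trace ℂ b, Matrix.trace]
    refine Finset.sum_congr rfl fun k _ => ?_
    rw [Matrix.diag_apply, LinearMap.toMatrix_apply, hφv]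
    rfl
  rw [h3, ← h4, map_sub, hn₁, hn₂]
  push_cast
  rfl

theorem int_of_close {z : ℂ} (h : ∀ η : ℝ, 0 < η → ∃ n : ℤ, ‖z - n‖ ≤ η) :
    ∃ n : ℤ, z = n := by
  obtain ⟨n, hn⟩ := h (1 / 4) (by norm_num)
  refine ⟨n, ?_⟩
  have h1 : ∀ η : ℝ, 0 < η → ‖z - n‖ ≤ η := by
    intro η hη
    obtain ⟨m, hm⟩ := h (min η (1 / 4)) (lt_min hη (by norm_num))
    have h2 : ‖((m : ℂ) - n)‖ ≤ 1 / 2 := by
      have h3 : (m : ℂ) - n = (z - n) - (z - m) := by ring
      rw [h3]
      refine (norm_sub_le _ _).trans ?_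
      have := hm.trans (min_le_right _ _)
      linarith
    have h4 : m = n := by
      have h5 : ‖((m - n : ℤ) : ℂ)‖ < 1 := by
        push_cast
        linarith
      rw [Complex.norm_intCast] at h5
      have h6 : |m - n| < 1 := by exact_mod_cast h5
      have h7 := Int.abs_lt_one_iff.1 h6
      omega
    rw [h4] at hm
    exact hm.trans (min_le_left _ _)
  have h2 : ‖z - n‖ ≤ 0 := le_of_forall_pos_le_add fun η hη => by
    rw [zero_add]
    exact h1 η hη
  exact sub_eq_zero.1 (norm_le_zero_iff.1 h2)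

/-- finite part of a summable nonnegative family -/
theorem exists_fin {f : I → ℝ} (hf : Summable f) {s : ℝ} (hs : 0 < s) :
    ∃ S : Finset I, Summable (fun i => Set.indicator (S : Set I)ᶜ f i) ∧
      ∑' i, Set.indicator (S : Set I)ᶜ f i < s := by
  classical
  obtain ⟨S, hS⟩ : ∃ S : Finset I, (∑' i, f i) - s < ∑ i ∈ S, f i := by
    have h1 := hf.hasSum.eventually (lt_mem_nhds (show (∑' i, f i) - s < ∑' i, f i by linarith))
    obtain ⟨S0, hS0⟩ := Filter.eventually_atTop.mp h1
    exact ⟨S0, hS0 S0 le_rfl⟩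
  refine ⟨S, hf.indicator _, ?_⟩
  have h2 := hf.sum_add_tsum_compl (s := S)
  have h3 := tsum_subtype ((S : Set I)ᶜ) f
  have h4 : ∑' i, Set.indicator (S : Set I)ᶜ f i = ∑' i : ((S : Set I)ᶜ : Set I), f i := h3.symm
  rw [h4]
  linarith

/-- the set of operators congruent to `F` modulo `U` and preserving `U` -/
def cong (F : V I →L[ℂ] V I) (U : Submodule ℂ (V I)) : Set (V I →L[ℂ] V I) :=
  {A | (∀ v, (A - F) v ∈ U) ∧ ∀ u ∈ U, A u ∈ U}

theorem cong_closed (F : V I →L[ℂ] V I) (U : Submodule ℂ (V I)) [FiniteDimensional ℂ U] :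
    IsClosed (cong F U) := by
  have hU : IsClosed (U : Set (V I)) := Submodule.closed_of_finiteDimensional U
  have h1 : IsClosed {A : V I →L[ℂ] V I | ∀ v, (A - F) v ∈ U} := by
    rw [Set.ofPred_forall]
    refine isClosed_iInter fun v => ?_
    exact hU.preimage ((ContinuousLinearMap.apply ℂ (V I) v).continuous.comp
      (continuous_id.sub continuous_const))
  have h2 : IsClosed {A : V I →L[ℂ] V I | ∀ u ∈ U, A u ∈ U} := by
    rw [Set.ofPred_forall]
    refine isClosed_iInter fun v => ?_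
    rw [Set.ofPred_forall]
    refine isClosed_iInter fun _ => ?_
    exact hU.preimage (ContinuousLinearMap.apply ℂ (V I) v).continuous
  exact h1.inter h2

theorem cong_newton {F : V I →L[ℂ] V I} (hF : F * F = F) (U : Submodule ℂ (V I))
    (hFU : ∀ u ∈ U, F u ∈ U) : ∀ y ∈ cong F U, newton y ∈ cong F U := by
  rintro y ⟨h1, h2⟩
  have hFF : ∀ v, F (F v) = F v := fun v => by
    change (F * F) v = F v
    rw [hF]
  have hn : newton y = y * y + y * y + y * y - (y * y * y + y * y * y) := by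
    unfold newton
    noncomm_ring
  have hd : ∀ v, y v - F v ∈ U := fun v => h1 v
  have e2 : ∀ v, y (y v) - F v ∈ U := fun v => by
    have : y (y v) - F v = (y (y v) - F (y v)) + F (y v - F v) := by
      rw [map_sub, hFF]
      abel
    rw [this]
    exact U.add_mem (hd _) (hFU _ (hd _))
  have e3 : ∀ v, y (y (y v)) - F v ∈ U := fun v => by
    have : y (y (y v)) - F v = (y (y (y v)) - F (y v)) + F (y v - F v) := by
      rw [map_sub, hFF]
      abel
    rw [this]
    exact U.add_mem (e2 _) (hFU _ (hd _))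
  rw [hn]
  refine ⟨fun v => ?_, fun u hu => ?_⟩
  · have : (y * y + y * y + y * y - (y * y * y + y * y * y) - F) v =
        (y (y v) - F v) + (y (y v) - F v) + (y (y v) - F v) -
          ((y (y (y v)) - F v) + (y (y (y v)) - F v)) := by
      change y (y v) + y (y v) + y (y v) - (y (y (y v)) + y (y (y v))) - F v = _
      abel
    rw [this]
    exact U.sub_mem (U.add_mem (U.add_mem (e2 v) (e2 v)) (e2 v)) (U.add_mem (e3 v) (e3 v))
  · change y (y u) + y (y u) + y (y u) - (y (y (y u)) + y (y (y u))) ∈ U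
    have g2 := h2 _ (h2 _ hu)
    have g3 := h2 _ g2
    exact U.sub_mem (U.add_mem (U.add_mem g2 g2) g2) (U.add_mem g3 g3)

theorem tr_close [Nonempty I] {E F : V I →L[ℂ] V I} (hE : E * E = E) (hF : F * F = F)
    (hD : Summable fun i => ‖(E - F) (dl i)‖) {η : ℝ} (hη : 0 < η) :
    ∃ n : ℤ, ‖tr (E - F) - n‖ ≤ η := by
  classical
  have hnt : Nontrivial (V I) := by
    obtain ⟨i⟩ := ‹Nonempty I›
    refine ⟨⟨dl i, 0, fun h => ?_⟩⟩
    have h1 := dl_norm i
    rw [h, norm_zero] at h1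
    exact zero_ne_one h1
  set M := ‖E‖ with hM
  have hM0 : 0 ≤ M := norm_nonneg _
  set K : ℝ := 4 * (2 * (M + 1) + 1) with hK
  have hK0 : 0 < K := by positivity
  set s : ℝ := min 1 (min (1 / (16 * (2 * M + 2))) (η / (1 + (2 * M + 2) * K))) with hs
  have hs0 : 0 < s := lt_min one_pos (lt_min (by positivity) (by positivity))
  have hs1 : s ≤ 1 := min_le_left _ _
  have hs2 : (2 * M + 2) * s ≤ 1 / 16 := by
    have h1 : s ≤ 1 / (16 * (2 * M + 2)) := (min_le_right _ _).trans (min_le_left _ _)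
    have h2 : (2 * M + 2) * s ≤ (2 * M + 2) * (1 / (16 * (2 * M + 2))) :=
      mul_le_mul_of_nonneg_left h1 (by positivity)
    refine h2.trans (le_of_eq ?_)
    field_simp
  have hs3 : s * (1 + (2 * M + 2) * K) ≤ η := by
    have h1 : s ≤ η / (1 + (2 * M + 2) * K) := (min_le_right _ _).trans (min_le_right _ _)
    exact (le_div_iff₀ (by positivity)).1 h1
  obtain ⟨S, hS1, hS2⟩ := exists_fin hD hs0
  set D : V I →L[ℂ] V I := E - F with hDdef
  set P : V I →L[ℂ] V I := cols (fun i => if i ∈ S then dl i else 0) 1 (fun i => by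
    split_ifs
    · rw [dl_norm]
    · rw [norm_zero]; exact zero_le_one) with hP
  have hPd : ∀ i, P (dl i) = if i ∈ S then dl i else 0 := fun i => cols_dl _ _ _ i
  set N : V I →L[ℂ] V I := D * P - D with hN
  have hNd : ∀ i, ‖N (dl i)‖ = Set.indicator (S : Set I)ᶜ (fun i => ‖D (dl i)‖) i := by
    intro i
    have h1 : N (dl i) = D (P (dl i)) - D (dl i) := rfl
    rw [h1, hPd]
    by_cases hi : i ∈ S
    · rw [if_pos hi, sub_self, norm_zero, Set.indicator_of_notMem]
      simpa using hi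
    · rw [if_neg hi, map_zero, zero_sub, norm_neg, Set.indicator_of_mem]
      simpa using hi
  have hNs : Summable fun i => ‖N (dl i)‖ := hS1.congr fun i => (hNd i).symm
  have hNt : ∑' i, ‖N (dl i)‖ < s := by
    rw [tsum_congr hNd]
    exact hS2
  have hNn : ‖N‖ ≤ s := by
    refine op_norm_le N hs0.le fun i => ?_
    exact (hNs.le_tsum i fun _ _ => norm_nonneg _).trans hNt.le
  set T : V I →L[ℂ] V I := E + N with hT
  have hTF : T = F + D * P := by
    rw [hT, hN, hDdef]
    abel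
  have hTT : T * T - T = E * N + N * E + N * N - N := by
    rw [hT, mul_add, add_mul, add_mul, hE]
    abel
  have hTn : ‖T‖ ≤ M + 1 := (norm_add_le _ _).trans (add_le_add le_rfl (hNn.trans hs1))
  have hTd : ‖T * T - T‖ ≤ 1 / 16 := by
    rw [hTT]
    have h1 : ‖E * N‖ ≤ M * s := (norm_mul_le _ _).trans (mul_le_mul_of_nonneg_left hNn hM0)
    have h2 : ‖N * E‖ ≤ s * M := (norm_mul_le _ _).trans (mul_le_mul_of_nonneg_right hNn hM0)
    have h3 : ‖N * N‖ ≤ s * s :=
      (norm_mul_le _ _).trans (mul_le_mul hNn hNn (norm_nonneg _) hs0.le)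
    have h4 : ‖E * N + N * E + N * N - N‖ ≤ M * s + s * M + s * s + s :=
      (norm_sub_le _ _).trans (add_le_add ((norm_add_le _ _).trans
        (add_le_add ((norm_add_le _ _).trans (add_le_add h1 h2)) h3)) hNn)
    refine h4.trans ?_
    nlinarith
  obtain ⟨f, B, hff, hf, hB, hcl⟩ := newton_corr T hTd
  have hBK : ‖B‖ ≤ K := by
    refine hB.trans ?_
    rw [hK]
    linarith
  -- the invariant subspace
  set U : Submodule ℂ (V I) := Submodule.span ℂ
    (((fun i => D (dl i)) '' (S : Set I)) ∪ ((fun i => F (D (dl i))) '' (S : Set I))) with hU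
  have hUf : FiniteDimensional ℂ U :=
    FiniteDimensional.span_of_finite ℂ ((S.finite_toSet.image _).union (S.finite_toSet.image _))
  have hUc : IsClosed (U : Set (V I)) := Submodule.closed_of_finiteDimensional U
  have hFF : ∀ v, F (F v) = F v := fun v => by
    change (F * F) v = F v
    rw [hF]
  have hFU : ∀ u ∈ U, F u ∈ U := by
    intro u hu
    refine Submodule.span_induction (p := fun u _ => F u ∈ U) ?_ ?_ ?_ ?_ hu
    · rintro x (⟨i, hi, rfl⟩ | ⟨i, hi, rfl⟩)
      · exact Submodule.subset_span (Or.inr ⟨i, hi, rfl⟩)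
      · change F (F (D (dl i))) ∈ U
        rw [hFF]
        exact Submodule.subset_span (Or.inr ⟨i, hi, rfl⟩)
    · rw [map_zero]; exact U.zero_mem
    · intro x y _ _ hx hy
      rw [map_add]
      exact U.add_mem hx hy
    · intro a x _ hx
      rw [map_smul]
      exact U.smul_mem a hx
  have hDP : ∀ v, (D * P) v ∈ U := by
    intro v
    refine hUc.mem_of_tendsto (op_hasSum (D * P) v) (Eventually.of_forall fun J => ?_)
    refine U.sum_mem fun i _ => U.smul_mem _ ?_
    change D (P (dl i)) ∈ U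
    rw [hPd]
    split_ifs with hi
    · exact Submodule.subset_span (Or.inl ⟨i, hi, rfl⟩)
    · rw [map_zero]; exact U.zero_mem
  have hTmem : T ∈ cong F U := by
    refine ⟨fun v => ?_, fun u hu => ?_⟩
    · rw [hTF, add_sub_cancel_left]
      exact hDP v
    · rw [hTF]
      exact U.add_mem (hFU u hu) (hDP u)
  have hfmem : f ∈ cong F U := hcl _ (cong_closed F U) hTmem (cong_newton hF U hFU)
  obtain ⟨⟨c, hc⟩, n, hn⟩ := finrank_int hff hF U hfmem.2 hFU hfmem.1
  refine ⟨n, ?_⟩
  -- the error term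
  have hone : ‖(1 : V I →L[ℂ] V I)‖ = 1 := norm_one
  set t := ∑' i, ‖N (dl i)‖ with ht
  have ht0 : 0 ≤ t := tsum_nonneg fun _ => norm_nonneg _
  have k1 := trS_mul hNs 1 1
  have k2 := trS_mul hNs E B
  have k3 := trS_mul hNs 1 (E * B)
  have k4 := trS_mul hNs 1 (N * B)
  have k5 := (trS_mul hNs 1 B).neg
  have hfE : f - E = 1 * N * 1 + E * N * B + 1 * N * (E * B) + 1 * N * (N * B) +
      -(1 * N * B) := by
    rw [hf, hTT, hT]
    simp only [one_mul, mul_one, add_mul, sub_mul, mul_assoc]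
    abel
  have k6 := (((k1.add k2).add k3).add k4).add k5
  rw [← hfE] at k6
  have h7 := k6.norm_tr_le
  have h8 : E - F = (f - F) + -(f - E) := by abel
  have h9 : tr D = tr (f - F) - tr (f - E) := by
    rw [hDdef, h8, hc.tr_add k6.neg, tr_neg]
    exact (sub_eq_add_neg _ _).symm
  rw [h9, hn]
  have h10 : (n : ℂ) - tr (f - E) - n = -tr (f - E) := by ring
  rw [h10, norm_neg]
  refine h7.trans ?_
  have m2 : ‖E‖ * ‖B‖ * t ≤ M * K * t := by
    refine mul_le_mul_of_nonneg_right ?_ ht0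
    exact mul_le_mul_of_nonneg_left hBK hM0
  have m3 : ‖(1 : V I →L[ℂ] V I)‖ * ‖E * B‖ * t ≤ M * K * t := by
    refine mul_le_mul_of_nonneg_right ?_ ht0
    rw [hone, one_mul]
    exact (norm_mul_le _ _).trans (mul_le_mul_of_nonneg_left hBK hM0)
  have m4 : ‖(1 : V I →L[ℂ] V I)‖ * ‖N * B‖ * t ≤ 1 * K * t := by
    refine mul_le_mul_of_nonneg_right ?_ ht0
    rw [hone, one_mul]
    exact (norm_mul_le _ _).trans (mul_le_mul (hNn.trans hs1) hBK (norm_nonneg _) zero_le_one)
  have m5 : ‖(1 : V I →L[ℂ] V I)‖ * ‖B‖ * t ≤ K * t := by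
    refine mul_le_mul_of_nonneg_right ?_ ht0
    rw [hone, one_mul]
    exact hBK
  have m6 : t * (1 + (2 * M + 2) * K) ≤ η :=
    (mul_le_mul_of_nonneg_right hNt.le (by positivity)).trans hs3
  rw [hone] at *
  linarith

/-- The trace of `E - F` is an integer. -/
theorem tr_int {E F : V I →L[ℂ] V I} (hE : E * E = E) (hF : F * F = F)
    (hD : Summable fun i => ‖(E - F) (dl i)‖) : ∃ n : ℤ, tr (E - F) = n := by
  rcases isEmpty_or_nonempty I with h | h
  · refine ⟨0, ?_⟩
    unfold tr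
    rw [tsum_empty, Int.cast_zero]
  · exact int_of_close fun η hη => tr_close hE hF hD hη

end Vale.Agent.P184.H444
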