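import Vale.Agent.P184.H444.Four
import Vale.Agent.P184.H444.Int

/-!
# Absolutely summable functions with integer valued Fourier series are finitely supported
-/

noncomputable section

open Filter Topology

namespace Vale.Agent.P184.H444

variable {B : Type*} [CommGroup B]

/-- `m` times the Fourier series takes integer values. -/
def IntT (m : ℕ) (c : B → ℂ) : Prop :=
  ∀ σ : B →* Circle, ∃ n : ℤ, (m : ℂ) * ∑' b, c b * (σ b : ℂ) = n

theorem int_small {n : ℤ} (h : ‖(n : ℂ)‖ < 1) : n = 0 := by
  rw [Complex.norm_intCast] at h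
  have h3 : |n| < 1 := by exact_mod_cast h
  exact Int.abs_lt_one_iff.1 h3

theorem small_zero {c : B → ℂ} (hc : Summable fun b => ‖c b‖) {m : ℕ} (hm : 0 < m)
    (hi : IntT m c) (hs : m * ∑' b, ‖c b‖ < 1) (b : B) : c b = 0 := by
  refine fz_zero hc (fun σ => ?_) b
  obtain ⟨n, hn⟩ := hi σ
  have h1 : ‖(n : ℂ)‖ < 1 := by
    rw [← hn, norm_mul, Complex.norm_natCast]
    refine lt_of_le_of_lt (mul_le_mul_of_nonneg_left ?_ (Nat.cast_nonneg m)) hs
    refine tsum_of_norm_bounded hc.hasSum fun b => ?_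
    rw [norm_mul, Circle.norm_coe, mul_one]
  rw [int_small h1, Int.cast_zero] at hn
  refine (mul_eq_zero.1 hn).resolve_left ?_
  exact_mod_cast hm.ne'

open Classical in
/-- If the part where the character `ψ` is not one is small then it vanishes. -/
theorem char_tail {c : B → ℂ} (hc : Summable fun b => ‖c b‖) (hi : IntT 1 c) (ψ : B →* Circle)
    (hs : ∑' b, (if ψ b = 1 then 0 else ‖c b‖) < 1 / 2) {b : B} (hb : ψ b ≠ 1) : c b = 0 := by
  have hsum : Summable fun b => if ψ b = 1 then 0 else ‖c b‖ := by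
    refine Summable.of_nonneg_of_le (fun b => ?_) (fun b => ?_) hc
    · split_ifs
      · exact le_rfl
      · exact norm_nonneg _
    · split_ifs
      · exact norm_nonneg _
      · exact le_rfl
  have hle : ∀ b, ‖c b * ((ψ b : ℂ) - 1)‖ ≤ 2 * (if ψ b = 1 then 0 else ‖c b‖) := by
    intro b
    split_ifs with h
    · rw [h, Circle.coe_one, sub_self, mul_zero, norm_zero, mul_zero]
    · rw [norm_mul, mul_comm]
      refine mul_le_mul_of_nonneg_right ?_ (norm_nonneg _)
      refine (norm_sub_le _ _).trans ?_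
      rw [Circle.norm_coe, norm_one]
      norm_num
  have h2 : Summable fun b => ‖c b * ((ψ b : ℂ) - 1)‖ :=
    Summable.of_nonneg_of_le (fun _ => norm_nonneg _) hle (hsum.mul_left 2)
  have h3 := fz_zero h2 (fun σ => ?_) b
  · refine (mul_eq_zero.1 h3).resolve_right fun h => hb ?_
    apply Circle.ext
    rw [Circle.coe_one]
    exact sub_eq_zero.1 h
  · obtain ⟨n, hn⟩ := hi σ
    obtain ⟨m, hm⟩ := hi (σ * ψ)
    rw [Nat.cast_one, one_mul] at hn hm
    have e : ∀ b, c b * ((ψ b : ℂ) - 1) * (σ b : ℂ) =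
        c b * ((σ * ψ) b : ℂ) - c b * (σ b : ℂ) := by
      intro b
      rw [MonoidHom.mul_apply, Circle.coe_mul]
      ring
    have h4 : ∑' b, c b * ((ψ b : ℂ) - 1) * (σ b : ℂ) = ((m - n : ℤ) : ℂ) := by
      rw [tsum_congr e, (sum_char hc _).tsum_sub (sum_char hc _), hm, hn]
      push_cast
      rfl
    have h5 : ‖((m - n : ℤ) : ℂ)‖ < 1 := by
      rw [← h4]
      have h6 := tsum_of_norm_bounded (hsum.hasSum.mul_left 2)
        (f := fun b => c b * ((ψ b : ℂ) - 1) * (σ b : ℂ)) (fun b => by
          rw [norm_mul, Circle.norm_coe, mul_one]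
          exact hle b)
      linarith
    rw [h4, int_small h5, Int.cast_zero]

theorem char_quot (K : Subgroup B) {b : B} (hb : b ∉ K) :
    ∃ ψ : B →* Circle, (∀ k ∈ K, ψ k = 1) ∧ ψ b ≠ 1 := by
  have h1 : (QuotientGroup.mk' K) b ≠ 1 := by
    intro h
    exact hb ((QuotientGroup.eq_one_iff b).1 h)
  obtain ⟨σ, hσ⟩ := exists_char h1
  refine ⟨σ.comp (QuotientGroup.mk' K), fun k hk => ?_, hσ⟩
  have h2 : (QuotientGroup.mk' K) k = 1 := (QuotientGroup.eq_one_iff k).2 hk
  rw [MonoidHom.comp_apply, h2, map_one]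

/-- Integer valued Fourier series come from finitely supported functions. -/
theorem fin_supp {c : B → ℂ} (hc : Summable fun b => ‖c b‖) (hi : IntT 1 c) :
    {b | c b ≠ 0}.Finite := by
  classical
  have htor : ∀ b, c b ≠ 0 → IsOfFinOrder b := by
    intro b hb
    by_contra h
    refine hb (int_zero hc (fun σ => ?_) h)
    obtain ⟨n, hn⟩ := hi σ
    rw [Nat.cast_one, one_mul] at hn
    exact ⟨n, hn⟩
  obtain ⟨S, hS1, hS2⟩ := exists_fin hc (show (0 : ℝ) < 1 / 2 by norm_num)
  set T : Finset B := S.filter fun b => c b ≠ 0 with hT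
  set K : Subgroup B := Subgroup.closure (T : Set B) with hK
  have hfg : Group.FG K := Group.closure_finset_fg T
  have htors : K ≤ CommGroup.torsion B := by
    rw [hK, Subgroup.closure_le]
    intro b hb
    have hb' : b ∈ T := hb
    exact htor b (Finset.mem_filter.1 hb').2
  have hfin : Finite K := by
    refine CommGroup.finite_of_fg_isMulTorsion K ?_
    intro k
    have h1 : IsOfFinOrder (k : B) := htors k.2
    rwa [← Submonoid.isOfFinOrder_coe (H := K.toSubmonoid)]
  refine (Set.toFinite (K : Set B)).subset fun b hb => ?_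
  by_contra hbK
  obtain ⟨ψ, hψ1, hψ2⟩ := char_quot K hbK
  refine hb (char_tail hc hi ψ ?_ hψ2)
  refine lt_of_le_of_lt ?_ hS2
  have hle : ∀ b, (if ψ b = 1 then 0 else ‖c b‖) ≤ Set.indicator (S : Set B)ᶜ (fun b => ‖c b‖) b := by
    intro b
    split_ifs with h
    · exact Set.indicator_nonneg (fun _ _ => norm_nonneg _) b
    · by_cases hbS : b ∈ (S : Set B)
      · have h2 : c b = 0 := by
          by_contra h3
          refine h (hψ1 b (Subgroup.subset_closure ?_))
          exact Finset.mem_filter.2 ⟨hbS, h3⟩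
        rw [h2, norm_zero]
        exact Set.indicator_nonneg (fun _ _ => norm_nonneg _) b
      · rw [Set.indicator_of_mem (show b ∈ (S : Set B)ᶜ from hbS)]
  refine Summable.tsum_le_tsum hle ?_ hS1
  refine Summable.of_nonneg_of_le (fun b => ?_) hle hS1
  split_ifs
  · exact le_rfl
  · exact norm_nonneg _

/-! ### Restriction to subgroups of finite index -/

open Classical in
theorem geom_circle {z : Circle} {d : ℕ} (hz : z ^ d = 1) :
    ∑ j ∈ Finset.range d, (z : ℂ) ^ j = if z = 1 then (d : ℂ) else 0 := by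
  split_ifs with h
  · rw [h, Circle.coe_one]
    simp
  · have h1 : (z : ℂ) ≠ 1 := by
      intro h2
      apply h
      apply Circle.ext
      rw [h2, Circle.coe_one]
    rw [geom_sum_eq h1, ← Circle.coe_pow, hz, Circle.coe_one, sub_self, zero_div]

open Classical in
theorem intT_restrict {c : B → ℂ} (hc : Summable fun b => ‖c b‖) {m : ℕ} (hi : IntT m c)
    (θ : B →* Circle) {d : ℕ} (hθ : ∀ b, θ b ^ d = 1) :
    IntT (m * d) fun b => if θ b = 1 then 0 else c b := by
  intro σ
  choose n hn using fun j : ℕ => hi (σ * θ ^ j)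
  have hs : Summable fun b => ‖(if θ b = 1 then c b else 0)‖ := by
    refine Summable.of_nonneg_of_le (fun _ => norm_nonneg _) (fun b => ?_) hc
    split_ifs
    · exact le_rfl
    · rw [norm_zero]
      exact norm_nonneg _
  have h1 : ((m * d : ℕ) : ℂ) * ∑' b, (if θ b = 1 then c b else 0) * (σ b : ℂ) =
      ((∑ j ∈ Finset.range d, n j : ℤ) : ℂ) := by
    have h2 : ∀ b, (d : ℂ) * ((if θ b = 1 then c b else 0) * (σ b : ℂ)) =
        ∑ j ∈ Finset.range d, c b * ((σ * θ ^ j) b : ℂ) := by
      intro b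
      have h3 := geom_circle (hθ b)
      have h4 : ∀ j, c b * ((σ * θ ^ j) b : ℂ) = c b * (σ b : ℂ) * (θ b : ℂ) ^ j := by
        intro j
        rw [MonoidHom.mul_apply, MonoidHom.pow_apply, Circle.coe_mul, Circle.coe_pow]
        ring
      rw [Finset.sum_congr rfl fun j _ => h4 j, ← Finset.mul_sum, h3]
      split_ifs
      · ring
      · ring
    have h5 : (d : ℂ) * ∑' b, (if θ b = 1 then c b else 0) * (σ b : ℂ) =
        ∑ j ∈ Finset.range d, ∑' b, c b * ((σ * θ ^ j) b : ℂ) := by
      rw [← tsum_mul_left, tsum_congr h2, Summable.tsum_finsetSum]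
      intro j _
      exact sum_char hc _
    rw [Nat.cast_mul, mul_assoc, h5, Finset.mul_sum, Int.cast_sum]
    exact Finset.sum_congr rfl fun j _ => hn j
  obtain ⟨n₀, hn₀⟩ := hi σ
  refine ⟨d * n₀ - ∑ j ∈ Finset.range d, n j, ?_⟩
  have h6 : ∀ b, (if θ b = 1 then 0 else c b) * (σ b : ℂ) =
      c b * (σ b : ℂ) - (if θ b = 1 then c b else 0) * (σ b : ℂ) := by
    intro b
    split_ifs
    · ring
    · ring
  rw [tsum_congr h6, (sum_char hc _).tsum_sub (sum_char hs _), mul_sub, h1]
  push_cast
  rw [mul_comm (m : ℂ), mul_assoc, hn₀]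

open Classical in
theorem intT_gen {c : B → ℂ} (hc : Summable fun b => ‖c b‖) (hi : IntT 1 c)
    (θ : B →* Circle) {d : ℕ} (hθ : ∀ b, θ b ^ d = 1) (k : ℕ) :
    IntT (d ^ k) fun b => if ∀ j, 0 < j → j ≤ k → θ b ^ j ≠ 1 then c b else 0 := by
  induction k with
  | zero =>
    have h1 : (fun b => if ∀ j, 0 < j → j ≤ 0 → θ b ^ j ≠ 1 then c b else 0) = c := by
      funext b
      rw [if_pos]
      intro j h1 h2
      omega
    rw [h1, pow_zero]
    exact hi
  | succ k ih =>
    have hs : Summable fun b =>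
        ‖(if ∀ j, 0 < j → j ≤ k → θ b ^ j ≠ 1 then c b else 0)‖ := by
      refine Summable.of_nonneg_of_le (fun _ => norm_nonneg _) (fun b => ?_) hc
      split_ifs
      · exact le_rfl
      · rw [norm_zero]
        exact norm_nonneg _
    have h1 := intT_restrict hs ih (θ ^ (k + 1)) (d := d) (fun b => by
      rw [MonoidHom.pow_apply, ← pow_mul, mul_comm, pow_mul, hθ, one_pow])
    rw [pow_succ]
    have h2 : (fun b => if ∀ j, 0 < j → j ≤ k + 1 → θ b ^ j ≠ 1 then c b else 0) =
        fun b => if (θ ^ (k + 1)) b = 1 then 0 else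
          if ∀ j, 0 < j → j ≤ k → θ b ^ j ≠ 1 then c b else 0 := by
      funext b
      rw [MonoidHom.pow_apply]
      by_cases h3 : θ b ^ (k + 1) = 1
      · rw [if_pos h3, if_neg]
        intro h4
        exact h4 (k + 1) (Nat.succ_pos k) le_rfl h3
      · rw [if_neg h3]
        by_cases h4 : ∀ j, 0 < j → j ≤ k → θ b ^ j ≠ 1
        · rw [if_pos h4, if_pos]
          intro j hj1 hj2
          rcases Nat.lt_or_ge k j with h5 | h5
          · have h6 : j = k + 1 := by omega
            rw [h6]
            exact h3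
          · exact h4 j hj1 h5
        · rw [if_neg h4, if_neg]
          intro h5
          exact h4 fun j hj1 hj2 => h5 j hj1 (by omega)
    rw [h2]
    exact h1

end Vale.Agent.P184.H444
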