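import Vale.Agent.P184.H444.Gen
import Vale.Agent.P184.H444.Four2

/-!
# The universal form of the vanishing theorem, with values in an abelian group
-/

noncomputable section

open Filter Topology

namespace Vale.Agent.P184.H444

/-- cocycles with values in the abelian group `A` -/
structure ACoc (G X A : Type*) [Group G] [MulAction G X] [AddCommGroup A] where
  /-- the function -/
  fn : G → X → A
  mul' : ∀ h k x, fn (h * k) x = fn h (k • x) + fn k x

section ACocs

variable {G X A : Type*} [Group G] [MulAction G X] [AddCommGroup A] (Γ : ACoc G X A)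

theorem ACoc.one (x : X) : Γ.fn 1 x = 0 := by
  have h1 := Γ.mul' 1 1 x
  rw [mul_one, one_smul] at h1
  have h2 : Γ.fn 1 x + 0 = Γ.fn 1 x + Γ.fn 1 x := by rw [add_zero]; exact h1
  exact (add_left_cancel h2).symm

theorem ACoc.conj {g : G} {x : X} (hx : g • x = x) (r : G) :
    Γ.fn (r * g * r⁻¹) (r • x) = Γ.fn g x := by
  rw [Γ.mul', Γ.mul', inv_smul_smul, hx]
  have h1 := Γ.mul' r r⁻¹ (r • x)
  rw [mul_inv_cancel, Γ.one, inv_smul_smul] at h1
  calc Γ.fn r x + Γ.fn g x + Γ.fn r⁻¹ (r • x) =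
        (Γ.fn r x + Γ.fn r⁻¹ (r • x)) + Γ.fn g x := by abel
    _ = Γ.fn g x := by rw [← h1, zero_add]

/-- the associated unitary cocycles -/
def ACoc.toCoc (y : Multiplicative A →* Circle) : Coc G X where
  fn h x := (y (Multiplicative.ofAdd (Γ.fn h x)) : ℂ)
  mul' h k x := by rw [Γ.mul', ofAdd_add, map_mul, Circle.coe_mul]
  norm' h x := Circle.norm_coe _

end ACocs

section Sums

variable {G X A : Type*} [Group G] [MulAction G X] [AddCommGroup A] (Γ : ACoc G X A)

open Classical in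
theorem wsum {ℓ : G → ℝ} (hfin : ∀ h, {x | Γ.fn h x ≠ 0}.Finite)
    (hℓ : ∀ h, ({x | Γ.fn h x ≠ 0}.ncard : ℝ) ≤ ℓ h) {w : G → ℝ} (hw : ∀ h, 0 ≤ w h)
    (hs : Summable fun h => w h * ℓ h) :
    (Summable fun z : G × X => if Γ.fn z.1 z.2 ≠ 0 then w z.1 else 0) ∧
      ∑' z : G × X, (if Γ.fn z.1 z.2 ≠ 0 then w z.1 else 0) ≤ ∑' h, w h * ℓ h := by
  have h0 : (0 : G × X → ℝ) ≤ fun z : G × X => if Γ.fn z.1 z.2 ≠ 0 then w z.1 else 0 := by
    intro z
    change 0 ≤ if Γ.fn z.1 z.2 ≠ 0 then w z.1 else 0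
    split_ifs
    · exact hw _
    · exact le_rfl
  have hz : ∀ h, ∀ x ∉ (hfin h).toFinset, (if Γ.fn h x ≠ 0 then w h else 0) = 0 := by
    intro h x hx
    rw [Set.Finite.mem_toFinset] at hx
    exact if_neg hx
  have hb : ∀ h, ∑' x, (if Γ.fn h x ≠ 0 then w h else 0) ≤ w h * ℓ h := by
    intro h
    rw [tsum_eq_sum (hz h)]
    have h2 : ∀ x ∈ (hfin h).toFinset, (if Γ.fn h x ≠ 0 then w h else 0) ≤ w h := by
      intro x _
      split_ifs
      · exact le_rfl
      · exact hw h
    refine (Finset.sum_le_card_nsmul _ _ _ h2).trans ?_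
    rw [nsmul_eq_mul, mul_comm]
    refine mul_le_mul_of_nonneg_left ?_ (hw h)
    rw [← Set.ncard_eq_toFinset_card _ (hfin h)]
    exact hℓ h
  have hsum : Summable fun z : G × X => if Γ.fn z.1 z.2 ≠ 0 then w z.1 else 0 := by
    refine (summable_prod_of_nonneg h0).2 ⟨fun h => summable_of_ne_finset_zero (hz h), ?_⟩
    exact Summable.of_nonneg_of_le (fun h => tsum_nonneg fun x => h0 (h, x)) hb hs
  refine ⟨hsum, ?_⟩
  rw [hsum.tsum_prod]
  exact Summable.tsum_le_tsum hb hsum.prod hs

end Sums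

section Push

variable {Z B : Type*}

open Classical in
theorem push_mass {a : Z → ℂ} (ha : Summable fun z => ‖a z‖) (β : Z → B) (P : B → Prop) :
    (Summable fun b => if P b then ‖∑' z : {z // β z = b}, a z‖ else 0) ∧
    ∑' b, (if P b then ‖∑' z : {z // β z = b}, a z‖ else 0) ≤
      ∑' z, if P (β z) then ‖a z‖ else 0 := by
  have hs : Summable fun z => if P (β z) then ‖a z‖ else 0 := by
    refine Summable.of_nonneg_of_le (fun z => ?_) (fun z => ?_) ha
    · split_ifs
      · exact norm_nonneg _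
      · exact le_rfl
    · split_ifs
      · exact le_rfl
      · exact norm_nonneg _
  have h0 : Summable ((fun z => if P (β z) then ‖a z‖ else 0) ∘ (Equiv.sigmaFiberEquiv β)) :=
    (Equiv.summable_iff (Equiv.sigmaFiberEquiv β)).2 hs
  have h4 := (Equiv.sigmaFiberEquiv β).tsum_eq fun z => if P (β z) then ‖a z‖ else 0
  have h5 := h0.tsum_sigma
  have h6 : ∑' z, (if P (β z) then ‖a z‖ else 0) =
      ∑' b, ∑' z : {z // β z = b}, if P (β z) then ‖a z‖ else 0 := by
    rw [← h4]
    exact h5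
  have h7 : Summable fun b => ∑' z : {z // β z = b}, if P (β z) then ‖a z‖ else 0 := h0.sigma
  have h8 : ∀ b, (if P b then ‖∑' z : {z // β z = b}, a z‖ else 0) ≤
      ∑' z : {z // β z = b}, if P (β z) then ‖a z‖ else 0 := by
    intro b
    split_ifs with hb
    · have h9 : Summable fun z : {z // β z = b} => ‖a z‖ := ha.subtype {z | β z = b}
      refine (norm_tsum_le_tsum_norm h9).trans (le_of_eq ?_)
      refine tsum_congr fun z => ?_
      rw [if_pos]
      rw [z.2]
      exact hb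
    · refine tsum_nonneg fun z => ?_
      split_ifs
      · exact norm_nonneg _
      · exact le_rfl
  have h9 : Summable fun b => if P b then ‖∑' z : {z // β z = b}, a z‖ else 0 := by
    refine Summable.of_nonneg_of_le (fun b => ?_) h8 h7
    split_ifs
    · exact norm_nonneg _
    · exact le_rfl
  refine ⟨h9, ?_⟩
  rw [h6]
  exact Summable.tsum_le_tsum h8 h9 h7

end Push

section Thm

attribute [local instance] Matrix.linftyOpNormedRing Matrix.linftyOpNormedAlgebra

variable {G : Type*} [Group G] {H : Subgroup G} {B A : Type*} [CommGroup B] [AddCommGroup A]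

theorem PP.afn {g : H} {z : G × (G ⧸ H)} (h : PP g z) (Γ : ACoc G (G ⧸ H) A) :
    Γ.fn z.1 z.2 = Γ.fn g ((1 : G) : G ⧸ H) := by
  obtain ⟨r, hr, hg⟩ := h
  have h1 : (g : G) • ((1 : G) : G ⧸ H) = ((1 : G) : G ⧸ H) := by
    change ((g * 1 : G) : G ⧸ H) = ((1 : G) : G ⧸ H)
    rw [QuotientGroup.eq]
    simp
  have h2 := Γ.conj h1 r
  have h3 : r • ((1 : G) : G ⧸ H) = z.2 := by
    change ((r * 1 : G) : G ⧸ H) = z.2
    rw [mul_one, hr]
  rw [h3, hg] at h2
  exact h2

open Classical in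
theorem ct_main (χ : H →* B) (Γ : ACoc G (G ⧸ H) A) {ℓ : G → ℝ}
    (hfin : ∀ h, {x | Γ.fn h x ≠ 0}.Finite) (hℓ : ∀ h, ({x | Γ.fn h x ≠ 0}.ncard : ℝ) ≤ ℓ h)
    {q : ℕ} {f : Matrix (Fin q) (Fin q) (G → ℂ)} (hf : IsIdem f)
    (hs : Summable fun h => ‖toFn f h‖ * ℓ h) :
    ∃ ct : B × Multiplicative A → ℂ, (Summable fun b => ‖ct b‖) ∧ IntT 1 ct ∧
      (∀ (P : B × Multiplicative A → Prop) (R : G → Prop),
        (∀ h x, h • x = x → Γ.fn h x ≠ 0 →
          (P (χ (kap H h x), Multiplicative.ofAdd (Γ.fn h x)) ∨ P (χ (kap H h x), 1)) → R h) →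
        ∑' b, (if P b then ‖ct b‖ else 0) ≤
          2 * ∑' h, (if R h then q * (‖toFn f h‖ * ℓ h) else 0)) ∧
      ∀ g : H, (∀ v : H, χ v = χ g → IsConj g v) → Γ.fn g ((1 : G) : G ⧸ H) ≠ 0 →
        ct (χ g, Multiplicative.ofAdd (Γ.fn g ((1 : G) : G ⧸ H))) = 0 →
        tau (ConjClasses.mk (g : G)) f = 0 := by
  have hfs := toFn_summable hf
  have hfc := toFn_conv hf
  have hℓ0 : ∀ h, 0 ≤ ℓ h := fun h => (Nat.cast_nonneg _).trans (hℓ h)
  set F := toFn f with hF
  set t : G → ℂ := fun h => ∑ j, F h j j with ht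
  have htn : ∀ h, ‖t h‖ ≤ q * ‖F h‖ := by
    intro h
    refine (norm_sum_le _ _).trans ?_
    refine (Finset.sum_le_sum fun j _ => norm_entry_le (F h) j j).trans ?_
    rw [Finset.sum_const, Finset.card_univ, Fintype.card_fin, nsmul_eq_mul]
  set w : G × (G ⧸ H) → ℂ := fun z =>
    if z.1 • z.2 = z.2 ∧ Γ.fn z.1 z.2 ≠ 0 then t z.1 else 0 with hw
  have hwn : ∀ z, ‖w z‖ ≤ if Γ.fn z.1 z.2 ≠ 0 then q * ‖F z.1‖ else 0 := by
    intro z
    rw [hw]
    dsimp only
    by_cases h1 : Γ.fn z.1 z.2 ≠ 0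
    · rw [if_pos h1]
      split_ifs
      · exact htn _
      · rw [norm_zero]
        positivity
    · rw [if_neg h1, if_neg fun h2 => h1 h2.2, norm_zero]
  have hqs : Summable fun h => (q * ‖F h‖) * ℓ h := by
    have := hs.mul_left (q : ℝ)
    simpa only [mul_assoc] using this
  have hws : Summable fun z => ‖w z‖ := by
    refine Summable.of_nonneg_of_le (fun _ => norm_nonneg _) hwn ?_
    exact (wsum Γ hfin hℓ (w := fun h => q * ‖F h‖) (fun h => by positivity) hqs).1
  set β : G × (G ⧸ H) → B × Multiplicative A := fun z =>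
    (χ (kap H z.1 z.2), Multiplicative.ofAdd (Γ.fn z.1 z.2)) with hβ
  set β₀ : G × (G ⧸ H) → B × Multiplicative A := fun z => (χ (kap H z.1 z.2), 1) with hβ₀
  obtain ⟨hc1, hc2⟩ := fiber_sum hws β
  obtain ⟨hd1, hd2⟩ := fiber_sum hws β₀
  refine ⟨fun b => (∑' z : {z // β z = b}, w z) - ∑' z : {z // β₀ z = b}, w z, ?_, ?_, ?_, ?_⟩
  · refine Summable.of_nonneg_of_le (fun _ => norm_nonneg _) (fun b => ?_) (hc1.add hd1)
    exact norm_sub_le _ _
  · intro σ'
    set σ : B →* Circle := σ'.comp (MonoidHom.inl B (Multiplicative A)) with hσ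
    set y : Multiplicative A →* Circle := σ'.comp (MonoidHom.inr B (Multiplicative A)) with hy
    have hσ' : ∀ b a, σ' (b, a) = σ b * y a := by
      intro b a
      change σ' (b, a) = σ' (b, 1) * σ' (1, a)
      rw [← map_mul, Prod.mk_mul_mk, mul_one, one_mul]
    have hne : ∀ h x, ((cocS H χ σ).prod (Γ.toCoc y)).fn h x ≠ (cocS H χ σ).fn h x →
        Γ.fn h x ≠ 0 := by
      intro h x h1 h2
      apply h1
      change (cocS H χ σ).fn h x * (y (Multiplicative.ofAdd (Γ.fn h x)) : ℂ) = _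
      rw [h2, ofAdd_zero, map_one, Circle.coe_one, mul_one]
    have hfin' : ∀ h,
        {x | ((cocS H χ σ).prod (Γ.toCoc y)).fn h x ≠ (cocS H χ σ).fn h x}.Finite :=
      fun h => (hfin h).subset fun x hx => hne h x hx
    have hs' : Summable fun h => ‖F h‖ *
        ({x | ((cocS H χ σ).prod (Γ.toCoc y)).fn h x ≠ (cocS H χ σ).fn h x}.ncard : ℝ) := by
      refine Summable.of_nonneg_of_le (fun h => by positivity) (fun h => ?_) hs
      refine mul_le_mul_of_nonneg_left (le_trans ?_ (hℓ h)) (norm_nonneg _)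
      have h1 : {x | ((cocS H χ σ).prod (Γ.toCoc y)).fn h x ≠ (cocS H χ σ).fn h x}.ncard ≤
        {x | Γ.fn h x ≠ 0}.ncard := Set.ncard_le_ncard (fun x hx => hne h x hx) (hfin h)
      exact_mod_cast h1
    obtain ⟨n, hn⟩ := int_terms _ _ hfin' hs' hfs hfc
    refine ⟨n, ?_⟩
    rw [Nat.cast_one, one_mul, ← hn]
    have e1 : ∀ b, ((∑' z : {z // β z = b}, w z) - ∑' z : {z // β₀ z = b}, w z) * (σ' b : ℂ) =
        (∑' z : {z // β z = b}, w z) * (σ' b : ℂ) -
          (∑' z : {z // β₀ z = b}, w z) * (σ' b : ℂ) := fun b => sub_mul _ _ _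
    have s1 : Summable fun z => w z * (σ' (β z) : ℂ) := by
      refine Summable.of_norm_bounded hws fun z => ?_
      rw [norm_mul, Circle.norm_coe, mul_one]
    have s2 : Summable fun z => w z * (σ' (β₀ z) : ℂ) := by
      refine Summable.of_norm_bounded hws fun z => ?_
      rw [norm_mul, Circle.norm_coe, mul_one]
    rw [tsum_congr e1, (sum_char hc1 σ').tsum_sub (sum_char hd1 σ'), hc2, hd2,
      ← s1.tsum_sub s2]
    refine tsum_congr fun z => ?_
    have h3 : ((cocS H χ σ).prod (Γ.toCoc y)).fn z.1 z.2 - (cocS H χ σ).fn z.1 z.2 =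
        (σ (χ (kap H z.1 z.2)) : ℂ) * (y (Multiplicative.ofAdd (Γ.fn z.1 z.2)) : ℂ) -
          (σ (χ (kap H z.1 z.2)) : ℂ) := rfl
    rw [h3, hβ, hβ₀]
    dsimp only
    rw [hσ', hσ', map_one, mul_one, Circle.coe_mul, hw]
    dsimp only
    by_cases h4 : z.1 • z.2 = z.2
    · by_cases h5 : Γ.fn z.1 z.2 = 0
      · rw [if_neg fun h6 => h6.2 h5, if_pos h4, h5, ofAdd_zero, map_one, Circle.coe_one]
        ring
      · rw [if_pos ⟨h4, h5⟩, if_pos h4]
        ring
    · rw [if_neg fun h6 => h4 h6.1, if_neg h4]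
      ring
  · intro P R hPR
    obtain ⟨m1, m2⟩ := push_mass hws β P
    obtain ⟨m3, m4⟩ := push_mass hws β₀ P
    have m5 : ∀ b, (if P b then ‖(∑' z : {z // β z = b}, w z) - ∑' z : {z // β₀ z = b}, w z‖
        else 0) ≤ (if P b then ‖∑' z : {z // β z = b}, w z‖ else 0) +
          (if P b then ‖∑' z : {z // β₀ z = b}, w z‖ else 0) := by
      intro b
      split_ifs
      · exact norm_sub_le _ _
      · rw [add_zero]
    have m6 : ∑' b, (if P b then ‖(∑' z : {z // β z = b}, w z) - ∑' z : {z // β₀ z = b}, w z‖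
        else 0) ≤ ∑' b, ((if P b then ‖∑' z : {z // β z = b}, w z‖ else 0) +
          (if P b then ‖∑' z : {z // β₀ z = b}, w z‖ else 0)) := by
      refine Summable.tsum_le_tsum m5 ?_ (m1.add m3)
      refine Summable.of_nonneg_of_le (fun b => ?_) m5 (m1.add m3)
      split_ifs
      · exact norm_nonneg _
      · exact le_rfl
    rw [m1.tsum_add m3] at m6
    set u : G → ℝ := fun h => if R h then q * ‖F h‖ else 0 with hu
    have hu0 : ∀ h, 0 ≤ u h := by
      intro h
      rw [hu]
      dsimp only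
      split_ifs
      · positivity
      · exact le_rfl
    have hus : Summable fun h => u h * ℓ h := by
      refine Summable.of_nonneg_of_le (fun h => mul_nonneg (hu0 h) (hℓ0 h)) (fun h => ?_) hqs
      refine mul_le_mul_of_nonneg_right ?_ (hℓ0 h)
      rw [hu]
      dsimp only
      split_ifs
      · exact le_rfl
      · positivity
    obtain ⟨u1, u2⟩ := wsum Γ hfin hℓ hu0 hus
    have key : ∀ (b : G × (G ⧸ H) → B × Multiplicative A),
        (∀ z, z.1 • z.2 = z.2 → Γ.fn z.1 z.2 ≠ 0 → P (b z) → R z.1) →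
        ∑' z, (if P (b z) then ‖w z‖ else 0) ≤ ∑' h, u h * ℓ h := by
      intro b hb
      have h1 : ∀ z, (if P (b z) then ‖w z‖ else 0) ≤ if Γ.fn z.1 z.2 ≠ 0 then u z.1 else 0 := by
        intro z
        by_cases hP : P (b z)
        · rw [if_pos hP]
          by_cases h4 : z.1 • z.2 = z.2 ∧ Γ.fn z.1 z.2 ≠ 0
          · rw [if_pos h4.2, hu]
            dsimp only
            rw [if_pos (hb z h4.1 h4.2 hP), hw]
            dsimp only
            rw [if_pos h4]
            exact htn _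
          · rw [hw]
            dsimp only
            rw [if_neg h4, norm_zero]
            split_ifs
            · exact hu0 _
            · exact le_rfl
        · rw [if_neg hP]
          split_ifs
          · exact hu0 _
          · exact le_rfl
      refine (Summable.tsum_le_tsum h1 ?_ u1).trans u2
      refine Summable.of_nonneg_of_le (fun z => ?_) h1 u1
      split_ifs
      · exact norm_nonneg _
      · exact le_rfl
    have k1 := key β fun z h1 h2 h3 => hPR z.1 z.2 h1 h2 (Or.inl h3)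
    have k2 := key β₀ fun z h1 h2 h3 => hPR z.1 z.2 h1 h2 (Or.inr h3)
    have k3 : ∑' h, u h * ℓ h = ∑' h, (if R h then q * (‖F h‖ * ℓ h) else 0) := by
      refine tsum_congr fun h => ?_
      rw [hu]
      dsimp only
      split_ifs
      · ring
      · ring
    rw [← k3]
    linarith
  · intro g hconj hne hz
    have hg1 : (Multiplicative.ofAdd (Γ.fn g ((1 : G) : G ⧸ H))) ≠ 1 := hne
    have h0 : ∑' z : {z // β₀ z = (χ g, Multiplicative.ofAdd (Γ.fn g ((1 : G) : G ⧸ H)))},
        w z = 0 := by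
      have h1 : IsEmpty {z // β₀ z = (χ g, Multiplicative.ofAdd (Γ.fn g ((1 : G) : G ⧸ H)))} := by
        refine ⟨fun z => hg1 ?_⟩
        exact (congrArg Prod.snd z.2).symm
      exact tsum_empty
    beta_reduce at hz
    rw [h0, sub_zero] at hz
    have hkey : ∀ z, (if PP g z then t z.1 else 0) = Set.indicator
        {z | β z = (χ g, Multiplicative.ofAdd (Γ.fn g ((1 : G) : G ⧸ H)))} w z := by
      intro z
      rw [Set.indicator_apply]
      by_cases hz : PP g z
      · obtain ⟨h1, h2⟩ := (pp_iff χ hconj z).2 hz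
        have h3 := hz.afn Γ
        have h1' : z ∈ {z | β z = (χ g, Multiplicative.ofAdd (Γ.fn g ((1 : G) : G ⧸ H)))} := by
          change (χ (kap H z.1 z.2), Multiplicative.ofAdd (Γ.fn z.1 z.2)) = _
          rw [h1, h3]
        rw [if_pos hz, if_pos h1', hw]
        dsimp only
        rw [if_pos ⟨h2, by rw [h3]; exact hne⟩]
      · rw [if_neg hz]
        split_ifs with h1
        · rw [hw]
          dsimp only
          rw [if_neg]
          intro h2
          exact hz ((pp_iff χ hconj z).1 ⟨congrArg Prod.fst h1, h2.1⟩)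
        · rfl
    have hsum : Summable fun z : G × (G ⧸ H) => if PP g z then t z.1 else 0 := by
      simp only [hkey]
      exact hws.of_norm.indicator _
    have hz0 : ∑' z : G × (G ⧸ H), (if PP g z then t z.1 else 0) = 0 := by
      rw [tsum_congr hkey, ← tsum_subtype]
      exact hz
    have hfinal := pp_sum hsum hz0
    rw [tau_eq, ← hfinal]
    have h5 := tsum_subtype {h : G | ConjClasses.mk h = ConjClasses.mk (g : G)}
      (fun h => ∑ i, f i i h)
    refine h5.trans (tsum_congr fun h => ?_)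
    rw [Set.indicator_apply]
    rfl

end Thm

end Vale.Agent.P184.H444
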