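import Vale.Agent.P184.H444.Wr
import Vale.Agent.P184.H444.Gen2

/-!
# Only finitely many classes carry a trace
-/

noncomputable section

open Filter Topology

namespace Vale.Agent.P184.H444

section Faithful

variable {Q : Type*} [Group Q]

theorem exists_faithful {q : Q} (hq : IsOfFinOrder q) :
    ∃ ψ : Subgroup.zpowers q →* Circle, Function.Injective ψ := by
  have hn : NeZero (orderOf q) := ⟨hq.orderOf_pos.ne'⟩
  have hg : ∀ x : Subgroup.zpowers q, x ∈ Subgroup.zpowers
      (⟨q, Subgroup.mem_zpowers q⟩ : Subgroup.zpowers q) := by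
    intro x
    obtain ⟨i, hi⟩ := Subgroup.mem_zpowers_iff.1 x.2
    exact Subgroup.mem_zpowers_iff.2 ⟨i, Subtype.ext hi⟩
  have hc : Nat.card (Subgroup.zpowers q) = orderOf q := Nat.card_zpowers q
  let e := zmodMulEquivOfGenerator hg hc
  refine ⟨(ZMod.toCircle (N := orderOf q)).toMonoidHom.comp e.symm.toMonoidHom, ?_⟩
  intro x y hxy
  have h1 : ZMod.toCircle (Multiplicative.toAdd (e.symm x)) =
      ZMod.toCircle (Multiplicative.toAdd (e.symm y)) := hxy
  have h2 := ZMod.injective_toCircle h1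
  exact e.symm.injective (Multiplicative.toAdd.injective h2)

end Faithful

section Crossed

variable {G Q A : Type*} [Group G] [Group Q] [AddCommGroup A] (π : G →* Q)
  (a : G → Q →₀ A) (ha : ∀ h k, a (h * k) = a h + (a k).mapDomain (π h * ·))

/-- the additive cocycle -/
def crossA (g : G) (u₀ : Q) : ACoc G (G ⧸ cycH π g) A where
  fn h x := mu (cosW π g u₀ (h • x)) (a h)
  mul' h k x := mu_cross π a ha g u₀ h k x

/-- the size of the support -/
def lsz (h : G) : ℝ := ((a h).support.card : ℝ)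

include ha in
theorem lsz_mul (h k : G) : lsz a (h * k) ≤ lsz a h + lsz a k := by
  classical
  unfold lsz
  have h1 : (a (h * k)).support.card ≤ (a h).support.card + (a k).support.card := by
    rw [ha]
    refine (Finset.card_le_card Finsupp.support_add).trans ?_
    refine (Finset.card_union_le _ _).trans (Nat.add_le_add_left ?_ _)
    refine (Finset.card_le_card Finsupp.mapDomain_support).trans ?_
    exact Finset.card_image_le
  exact_mod_cast h1

theorem crossA_ne (g : G) (u₀ : Q) (h : G) (x : G ⧸ cycH π g)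
    (hx : (crossA π a ha g u₀).fn h x ≠ 0) :
    ∃ u ∈ (a h).support, u ∈ cosW π g u₀ (h • x) := by
  by_contra hne
  push Not at hne
  exact hx (mu_eq_zero hne)

theorem crossA_fin (g : G) (u₀ : Q) (h : G) :
    {x | (crossA π a ha g u₀).fn h x ≠ 0}.Finite ∧
      ({x | (crossA π a ha g u₀).fn h x ≠ 0}.ncard : ℝ) ≤ lsz a h := by
  have h0 : ∀ x, (crossA π a ha g u₀).fn h x ≠ 0 →
      ∃ u, u ∈ (a h).support ∧ u ∈ cosW π g u₀ (h • x) := fun x hx => by
    obtain ⟨u, h1, h2⟩ := crossA_ne π a ha g u₀ h x hx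
    exact ⟨u, h1, h2⟩
  choose! φ hφ using h0
  have hinj : Set.InjOn φ {x | (crossA π a ha g u₀).fn h x ≠ 0} := by
    intro x hx x' hx' hxx
    have h1 := (hφ x hx).2
    have h2 := (hφ x' hx').2
    rw [← hxx] at h2
    exact smul_left_cancel h (cosW_inj π h1 h2)
  have hmap : ∀ x ∈ {x | (crossA π a ha g u₀).fn h x ≠ 0}, φ x ∈ ((a h).support : Set Q) :=
    fun x hx => (hφ x hx).1
  constructor
  · exact Set.Finite.of_injOn hmap hinj (a h).support.finite_toSet
  · have h1 := Set.ncard_le_ncard_of_injOn φ hmap hinj (a h).support.finite_toSet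
    rw [Set.ncard_coe_finset] at h1
    unfold lsz
    exact_mod_cast h1

/-- the sum over the coset -/
def cS (g : G) (u : Q) : A := mu {v | v * u⁻¹ ∈ Subgroup.zpowers (π g)} (a g)

theorem crossA_one {g : G} {u₀ : Q} {h : G} (hh : h ∈ cycH π g) :
    (crossA π a ha g u₀).fn h ((1 : G) : G ⧸ cycH π g) =
      mu {v | v * u₀⁻¹ ∈ Subgroup.zpowers (π g)} (a h) := by
  change mu (cosW π g u₀ (h • ((1 : G) : G ⧸ cycH π g))) (a h) = _
  rw [cosW_one π hh]

theorem self_mem_cycH (g : G) : g ∈ cycH π g := Subgroup.mem_zpowers (π g)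

/-- conjugacy of elements over a generator -/
theorem conj_over (hker : ∀ m n : G, π m = 1 → π n = 1 → m * n = n * m) {g : G}
    (g' : cycH π g) (hg' : π g' = π g) (v : cycH π g)
    (hv : Abelianization.of v = Abelianization.of g') : IsConj g' v := by
  refine isConj_of_ab (π.ker.comap (cycH π g).subtype) ?_ g' ?_ hv
  · intro m hm n hn
    exact Subtype.ext (hker m n hm hn)
  · intro k
    obtain ⟨i, hi⟩ := Subgroup.mem_zpowers_iff.1 (show π k ∈ Subgroup.zpowers (π g) from k.2)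
    refine ⟨k * (g' ^ i)⁻¹, ?_, i, (inv_mul_cancel_right _ _).symm⟩
    change π ((k * (g' ^ i)⁻¹ : cycH π g) : G) = 1
    rw [Subgroup.coe_mul, Subgroup.coe_inv, Subgroup.coe_zpow, map_mul, map_inv, map_zpow, hg', hi,
      mul_inv_cancel]

/-- the character -/
theorem exists_theta {g : G} (hq : IsOfFinOrder (π g)) :
    ∃ θ : Abelianization (cycH π g) × Multiplicative A →* Circle,
      ∀ (k : cycH π g) (s : Multiplicative A) (j : ℕ),
        θ (Abelianization.of k, s) ^ j = 1 ↔ (π k) ^ j = 1 := by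
  obtain ⟨ψ, hψ⟩ := exists_faithful hq
  let p : cycH π g →* Subgroup.zpowers (π g) := π.subgroupComap (Subgroup.zpowers (π g))
  refine ⟨(Abelianization.lift (ψ.comp p)).comp (MonoidHom.fst _ _), fun k s j => ?_⟩
  have h1 : ((Abelianization.lift (ψ.comp p)).comp (MonoidHom.fst _ _) :
      Abelianization (cycH π g) × Multiplicative A →* Circle) (Abelianization.of k, s) =
      ψ (p k) := by
    change Abelianization.lift (ψ.comp p) (Abelianization.of k) = _
    rw [Abelianization.lift_apply_of]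
    rfl
  rw [h1, ← map_pow]
  have h2 : ψ (p k ^ j) = 1 ↔ p k ^ j = 1 := by
    rw [← map_one ψ]
    exact hψ.eq_iff
  rw [h2]
  constructor
  · intro h
    exact congrArg Subtype.val h
  · intro h
    exact Subtype.ext h

/-- the image of the cocycle at a fixed point -/
theorem kap_conj {g h : G} {x : G ⧸ cycH π g} (hx : h • x = x) :
    π (kap (cycH π g) h x) = (π (sec _ x))⁻¹ * π h * π (sec _ x) := by
  change π ((sec _ (h • x))⁻¹ * (h * sec _ x)) = _
  rw [hx, map_mul, map_mul, map_inv, mul_assoc]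

theorem kap_pow {g h : G} {x : G ⧸ cycH π g} (hx : h • x = x) (j : ℕ) :
    π (kap (cycH π g) h x) ^ j = 1 ↔ π h ^ j = 1 := by
  rw [kap_conj π hx]
  have h1 : ((π (sec _ x))⁻¹ * π h * π (sec _ x)) ^ j =
      (π (sec _ x))⁻¹ * π h ^ j * π (sec _ x) := by
    have := conj_pow (i := j) (a := (π (sec _ x))⁻¹) (b := π h)
    rwa [inv_inv] at this
  rw [h1]
  constructor
  · intro h2
    have h3 : π h ^ j = π (sec _ x) * ((π (sec _ x))⁻¹ * π h ^ j * π (sec _ x)) *
        (π (sec _ x))⁻¹ := by group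
    rw [h3, h2]
    group
  · intro h2
    rw [h2]
    group

section Idem

attribute [local instance] Matrix.linftyOpNormedRing Matrix.linftyOpNormedAlgebra

variable {q : ℕ} {f : Matrix (Fin q) (Fin q) (G → ℂ)} (hf : IsIdem f)
  (hs : Summable fun h => ‖toFn f h‖ * lsz a h)
  (hker : ∀ m n : G, π m = 1 → π n = 1 → m * n = n * m)

/-- the weights -/
def wei (f : Matrix (Fin q) (Fin q) (G → ℂ)) (h : G) : ℝ := q * (‖toFn f h‖ * lsz a h)

omit [Group G] [Group Q] in
theorem wei_nonneg (h : G) : 0 ≤ wei a f h := by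
  unfold wei lsz
  positivity

omit [Group G] [Group Q] in
include hs in
theorem wei_summable : Summable (wei a f) := hs.mul_left (q : ℝ)

open Classical in
include ha hf hs in
/-- The function on the abelian group for the element `g` and the coset of `u₀`. -/
theorem ct_cross (g : G) (u₀ : Q) :
    ∃ ct : Abelianization (cycH π g) × Multiplicative A → ℂ, (Summable fun b => ‖ct b‖) ∧
      IntT 1 ct ∧
      (∀ (P : Abelianization (cycH π g) × Multiplicative A → Prop) (R : G → Prop),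
        (∀ h x, h • x = x → (crossA π a ha g u₀).fn h x ≠ 0 →
          (P (Abelianization.of (kap _ h x),
            Multiplicative.ofAdd ((crossA π a ha g u₀).fn h x)) ∨
            P (Abelianization.of (kap _ h x), 1)) → R h) →
        ∑' b, (if P b then ‖ct b‖ else 0) ≤ 2 * ∑' h, (if R h then wei a f h else 0)) ∧
      ∀ g' : cycH π g, (∀ v : cycH π g, Abelianization.of v = Abelianization.of g' →
          IsConj g' v) → mu {v | v * u₀⁻¹ ∈ Subgroup.zpowers (π g)} (a g') ≠ 0 →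
        ct (Abelianization.of g',
          Multiplicative.ofAdd (mu {v | v * u₀⁻¹ ∈ Subgroup.zpowers (π g)} (a g'))) = 0 →
        tau (ConjClasses.mk (g' : G)) f = 0 := by
  obtain ⟨ct, h1, h2, h3, h4⟩ := ct_main (Abelianization.of : cycH π g →* _)
    (crossA π a ha g u₀) (ℓ := lsz a) (fun h => (crossA_fin π a ha g u₀ h).1)
    (fun h => (crossA_fin π a ha g u₀ h).2) hf hs
  refine ⟨ct, h1, h2, h3, fun g' hc hne hz => h4 g' hc ?_ ?_⟩
  · rw [crossA_one π a ha g'.2]
    exact hne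
  · rw [crossA_one π a ha g'.2]
    exact hz

omit [Group G] in
open Classical in
theorem sum_if_le {m : G → ℝ} (hm : Summable m) (hm0 : ∀ h, 0 ≤ m h) (S : Finset G) (R : G → Prop)
    (hR : ∀ h, R h → h ∉ S) :
    ∑' h, (if R h then m h else 0) ≤ ∑' h, Set.indicator (S : Set G)ᶜ m h := by
  have h1 : ∀ h, (if R h then m h else 0) ≤ Set.indicator (S : Set G)ᶜ m h := by
    intro h
    split_ifs with h2
    · rw [Set.indicator_of_mem (show h ∈ (S : Set G)ᶜ from hR h h2)]
    · exact Set.indicator_nonneg (fun _ _ => hm0 _) h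
  refine Summable.tsum_le_tsum h1 ?_ (hm.indicator _)
  refine Summable.of_nonneg_of_le (fun h => ?_) h1 (hm.indicator _)
  split_ifs
  · exact hm0 h
  · exact le_rfl

include ha hf hs hker in
/-- Step 1: the orders of the images are bounded. -/
theorem step_one : ∃ L : ℕ, 0 < L ∧ ∀ (g : G) (u₀ : Q), IsOfFinOrder (π g) → (π g) ^ L ≠ 1 →
    cS π a g u₀ ≠ 0 → tau (ConjClasses.mk g) f = 0 := by
  classical
  have hws := wei_summable a hs
  obtain ⟨S, hS1, hS2⟩ := exists_fin hws (show (0 : ℝ) < 1 / 8 by norm_num)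
  set L : ℕ := ∏ h ∈ S, (if IsOfFinOrder (π h) then orderOf (π h) else 1) with hL
  have hL0 : 0 < L := Finset.prod_pos fun h _ => by
    split_ifs with h1
    · exact h1.orderOf_pos
    · exact one_pos
  refine ⟨L, hL0, fun g u₀ hq hqL hne => ?_⟩
  obtain ⟨ct, h1, h2, h3, h4⟩ := ct_cross π a ha hf hs g u₀
  obtain ⟨θ, hθ⟩ := exists_theta (A := A) π hq
  refine h4 ⟨g, self_mem_cycH π g⟩ (conj_over π hker _ rfl) hne ?_
  have hP := h3 (fun b => ¬ (θ ^ L) b = 1) (fun h => IsOfFinOrder (π h) ∧ π h ^ L ≠ 1) ?_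
  · refine char_tail h1 h2 (θ ^ L) ?_ ?_
    · have h6 := sum_if_le hws (wei_nonneg a) S
        (fun h => IsOfFinOrder (π h) ∧ π h ^ L ≠ 1) (fun h hh hS => hh.2 ?_)
      · refine lt_of_le_of_lt (le_trans (le_of_eq ?_) hP) ?_
        · refine tsum_congr fun b => ?_
          split_ifs
          · rfl
          · rfl
        · refine lt_of_le_of_lt (mul_le_mul_of_nonneg_left h6 (by norm_num)) ?_
          linarith
      · have h7 : orderOf (π h) ∣ L := by
          have h8 := Finset.dvd_prod_of_mem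
            (fun h => if IsOfFinOrder (π h) then orderOf (π h) else 1) hS
          rwa [if_pos hh.1] at h8
        exact orderOf_dvd_iff_pow_eq_one.1 h7
    · rw [MonoidHom.pow_apply]
      intro h5
      exact hqL ((hθ ⟨g, self_mem_cycH π g⟩ _ L).1 h5)
  · intro h x hx _ hP
    have h5 : π (kap (cycH π g) h x) ^ L ≠ 1 := by
      intro h6
      rcases hP with h7 | h7
      · refine h7 ?_
        rw [MonoidHom.pow_apply]
        exact (hθ _ _ L).2 h6
      · refine h7 ?_
        rw [MonoidHom.pow_apply]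
        exact (hθ _ _ L).2 h6
    refine ⟨?_, fun h6 => h5 ((kap_pow π hx L).2 h6)⟩
    obtain ⟨n, hn, hn1⟩ := isOfFinOrder_iff_pow_eq_one.1 hq
    refine isOfFinOrder_iff_pow_eq_one.2 ⟨n, hn, (kap_pow π hx n).1 ?_⟩
    obtain ⟨i, hi⟩ := Subgroup.mem_zpowers_iff.1
      (show π (kap (cycH π g) h x) ∈ Subgroup.zpowers (π g) from (kap (cycH π g) h x).2)
    rw [← hi, ← zpow_natCast, ← zpow_mul, mul_comm, zpow_mul, zpow_natCast, hn1, one_zpow]

/-- the finite set of pairs -/
def pairs (S : Finset G) : Set (Q × Q) :=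
  {p | ∃ h ∈ S, IsOfFinOrder (π h) ∧ p.1 ∈ Subgroup.zpowers (π h) ∧ p.2 ∈ (a h).support}

theorem pairs_finite (S : Finset G) : (pairs π a S).Finite := by
  classical
  have h1 : pairs π a S ⊆ ⋃ h ∈ (S.filter fun h => IsOfFinOrder (π h)),
      ((Subgroup.zpowers (π h) : Set Q) ×ˢ ((a h).support : Set Q)) := by
    rintro p ⟨h, hS, ho, h1, h2⟩
    rw [Set.mem_iUnion₂]
    exact ⟨h, Finset.mem_filter.2 ⟨hS, ho⟩, h1, h2⟩
  refine Set.Finite.subset (Set.Finite.biUnion (Finset.finite_toSet _) fun h hh => ?_) h1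
  have hh' : h ∈ S.filter fun h => IsOfFinOrder (π h) := hh
  have ho := (Finset.mem_filter.1 hh').2
  have : Finite (Subgroup.zpowers (π h)) := finite_zpowers.2 ho
  exact (Set.toFinite _).prod (Finset.finite_toSet _)

include ha hf hs hker in
/-- Step 2: for bounded orders, finitely many pairs suffice. -/
theorem step_two {L : ℕ} (hL : 0 < L) : ∃ S : Finset G, ∀ (g : G) (u₀ : Q), (π g) ^ L = 1 →
    cS π a g u₀ ≠ 0 → tau (ConjClasses.mk g) f ≠ 0 →
      ∃ (g' : G) (v : Q), ConjClasses.mk g' = ConjClasses.mk g ∧ (π g', v) ∈ pairs π a S ∧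
        cS π a g' v ≠ 0 := by
  classical
  have hws := wei_summable a hs
  have hE : (0 : ℝ) < (L : ℝ) ^ L := by positivity
  obtain ⟨S, hS1, hS2⟩ := exists_fin hws (show (0 : ℝ) < 1 / (4 * (L : ℝ) ^ L) by positivity)
  refine ⟨S, fun g u₀ hqL hne htau => ?_⟩
  have hq : IsOfFinOrder (π g) := isOfFinOrder_iff_pow_eq_one.2 ⟨L, hL, hqL⟩
  set n := orderOf (π g) with hn
  have hn0 : 0 < n := hq.orderOf_pos
  have hnL : n ≤ L := Nat.le_of_dvd hL (orderOf_dvd_iff_pow_eq_one.2 hqL)
  obtain ⟨ct, h1, h2, h3, h4⟩ := ct_cross π a ha hf hs g u₀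
  obtain ⟨θ, hθ⟩ := exists_theta (A := A) π hq
  have hθn : ∀ b, θ b ^ n = 1 := by
    rintro ⟨b, s⟩
    obtain ⟨k, rfl⟩ : ∃ k, Abelianization.of k = b := QuotientGroup.mk_surjective b
    refine (hθ k s n).2 ?_
    obtain ⟨i, hi⟩ := Subgroup.mem_zpowers_iff.1 (show π k ∈ Subgroup.zpowers (π g) from k.2)
    rw [← hi, ← zpow_natCast, ← zpow_mul, mul_comm, zpow_mul, zpow_natCast, hn,
      pow_orderOf_eq_one, one_zpow]
  -- a witness
  obtain ⟨h, hhS, x, hx, hΓ, ho⟩ : ∃ h ∈ S, ∃ x : G ⧸ cycH π g, h • x = x ∧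
      (crossA π a ha g u₀).fn h x ≠ 0 ∧ ∀ j, 0 < j → j ≤ n - 1 → π h ^ j ≠ 1 := by
    by_contra hcon
    push Not at hcon
    refine htau (h4 ⟨g, self_mem_cycH π g⟩ (conj_over π hker _ rfl) hne ?_)
    have hP := h3 (fun b => ∀ j, 0 < j → j ≤ n - 1 → θ b ^ j ≠ 1) (fun h => h ∉ S) ?_
    · have h5 := intT_gen h1 h2 θ hθn (n - 1)
      have h6 := sum_if_le hws (wei_nonneg a) S (fun h => h ∉ S) (fun h hh => hh)
      have h7 : Summable fun b => ‖(if ∀ j, 0 < j → j ≤ n - 1 → θ b ^ j ≠ 1 then ct b else 0)‖ := by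
        refine Summable.of_nonneg_of_le (fun _ => norm_nonneg _) (fun b => ?_) h1
        split_ifs
        · exact le_rfl
        · rw [norm_zero]
          exact norm_nonneg _
      have h8 : ∑' b, ‖(if ∀ j, 0 < j → j ≤ n - 1 → θ b ^ j ≠ 1 then ct b else 0)‖ =
          ∑' b, (if ∀ j, 0 < j → j ≤ n - 1 → θ b ^ j ≠ 1 then ‖ct b‖ else 0) := by
        refine tsum_congr fun b => ?_
        split_ifs
        · rfl
        · exact norm_zero
      have h9 : ((n ^ (n - 1) : ℕ) : ℝ) ≤ (L : ℝ) ^ L := by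
        have h10 : n ^ (n - 1) ≤ L ^ L :=
          (Nat.pow_le_pow_left hnL _).trans (Nat.pow_le_pow_right hL (by omega))
        exact_mod_cast h10
      have h10 := small_zero h7 (Nat.pow_pos hn0) h5 ?_
        (Abelianization.of ⟨g, self_mem_cycH π g⟩, Multiplicative.ofAdd (cS π a g u₀))
      · rw [if_pos] at h10
        · exact h10
        · intro j hj1 hj2 h11
          have h12 := (hθ ⟨g, self_mem_cycH π g⟩ _ j).1 h11
          have h13 : orderOf (π g) ≤ j := Nat.le_of_dvd hj1 (orderOf_dvd_iff_pow_eq_one.2 h12)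
          omega
      · rw [h8]
        have h11 : ∑' b, (if ∀ j, 0 < j → j ≤ n - 1 → θ b ^ j ≠ 1 then ‖ct b‖ else 0) <
            2 * (1 / (4 * (L : ℝ) ^ L)) := by
          refine lt_of_le_of_lt hP ?_
          linarith
        have h12 : 0 ≤ ∑' b, (if ∀ j, 0 < j → j ≤ n - 1 → θ b ^ j ≠ 1 then ‖ct b‖ else 0) := by
          refine tsum_nonneg fun b => ?_
          split_ifs
          · exact norm_nonneg _
          · exact le_rfl
        calc ((n ^ (n - 1) : ℕ) : ℝ) *
              ∑' b, (if ∀ j, 0 < j → j ≤ n - 1 → θ b ^ j ≠ 1 then ‖ct b‖ else 0) ≤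
              (L : ℝ) ^ L * ∑' b, (if ∀ j, 0 < j → j ≤ n - 1 → θ b ^ j ≠ 1 then ‖ct b‖ else 0) :=
              mul_le_mul_of_nonneg_right h9 h12
          _ ≤ (L : ℝ) ^ L * (2 * (1 / (4 * (L : ℝ) ^ L))) :=
              mul_le_mul_of_nonneg_left h11.le hE.le
          _ = 1 / 2 := by field_simp; norm_num
          _ < 1 := by norm_num
    · intro h x hx hΓ hP hS
      obtain ⟨j, hj1, hj2, hj3⟩ := hcon h hS x hx hΓ
      have h5 : π (kap (cycH π g) h x) ^ j = 1 := (kap_pow π hx j).2 hj3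
      rcases hP with h6 | h6
      · exact h6 j hj1 hj2 ((hθ _ _ j).2 h5)
      · exact h6 j hj1 hj2 ((hθ _ _ j).2 h5)
  -- the orders agree
  have hk : π (kap (cycH π g) h x) ∈ Subgroup.zpowers (π g) := (kap (cycH π g) h x).2
  have hordk : orderOf (π (kap (cycH π g) h x)) = n := by
    have h5 : orderOf (π (kap (cycH π g) h x)) ∣ n := by
      rw [orderOf_dvd_iff_pow_eq_one]
      obtain ⟨i, hi⟩ := Subgroup.mem_zpowers_iff.1 hk
      rw [← hi, ← zpow_natCast, ← zpow_mul, mul_comm, zpow_mul, zpow_natCast, hn,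
        pow_orderOf_eq_one, one_zpow]
    have h6 := Nat.le_of_dvd hn0 h5
    have h7 : 0 < orderOf (π (kap (cycH π g) h x)) := Nat.pos_of_dvd_of_pos h5 hn0
    by_contra h8
    refine ho _ h7 (by omega) ((kap_pow π hx _).1 (pow_orderOf_eq_one _))
  have hoh : IsOfFinOrder (π h) := isOfFinOrder_iff_pow_eq_one.2
    ⟨n, hn0, (kap_pow π hx n).1 (by rw [← hordk]; exact pow_orderOf_eq_one _)⟩
  have hzp : π g ∈ Subgroup.zpowers (π (kap (cycH π g) h x)) := by
    have hfin : Finite (Subgroup.zpowers (π g)) := finite_zpowers.2 hq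
    have hle : Subgroup.zpowers (π (kap (cycH π g) h x)) ≤ Subgroup.zpowers (π g) :=
      Subgroup.zpowers_le.2 hk
    have h5 : Subgroup.zpowers (π (kap (cycH π g) h x)) = Subgroup.zpowers (π g) := by
      refine Subgroup.eq_of_le_of_card_ge hle ?_
      rw [Nat.card_zpowers, Nat.card_zpowers, hordk]
    rw [h5]
    exact Subgroup.mem_zpowers _
  obtain ⟨v, hv1, hv2⟩ := crossA_ne π a ha g u₀ h x hΓ
  rw [hx] at hv2
  set r : G := sec _ x with hr
  have hrx : (r : G ⧸ cycH π g) = x := sec_mk _ x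
  refine ⟨r * g * r⁻¹, v, ?_, ⟨h, hhS, hoh, ?_, hv1⟩, ?_⟩
  · exact (ConjClasses.mk_eq_mk_iff_isConj.2 (isConj_iff.2 ⟨r, rfl⟩)).symm
  · change π (r * g * r⁻¹) ∈ Subgroup.zpowers (π h)
    obtain ⟨i, hi⟩ := Subgroup.mem_zpowers_iff.1 hzp
    rw [map_mul, map_mul, map_inv, ← hi, kap_conj π hx, ← hr]
    refine Subgroup.mem_zpowers_iff.2 ⟨i, ?_⟩
    have h5 : ((π r)⁻¹ * π h * π r) ^ i = (π r)⁻¹ * π h ^ i * π r := by
      have := conj_zpow (i := i) (a := (π r)⁻¹) (b := π h)
      rwa [inv_inv] at this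
    rw [h5]
    group
  · have h5 := (crossA π a ha g u₀).conj (g := g) (x := ((1 : G) : G ⧸ cycH π g)) ?_ r
    · have h6 : r • ((1 : G) : G ⧸ cycH π g) = x := by
        change ((r * 1 : G) : G ⧸ cycH π g) = x
        rw [mul_one, hrx]
      rw [h6, crossA_one π a ha (self_mem_cycH π g)] at h5
      have h7 : (r * g * r⁻¹) • x = x := by
        rw [← hrx]
        change ((r * g * r⁻¹ * r : G) : G ⧸ cycH π g) = (r : G ⧸ cycH π g)
        rw [inv_mul_cancel_right, QuotientGroup.mk_mul_of_mem _ (self_mem_cycH π g)]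
      have h8 : cosW π g u₀ x = {w | w * v⁻¹ ∈ Subgroup.zpowers (π (r * g * r⁻¹))} := by
        ext w
        have hv3 : (π r)⁻¹ * v * u₀⁻¹ ∈ Subgroup.zpowers (π g) := hv2
        change (π r)⁻¹ * w * u₀⁻¹ ∈ Subgroup.zpowers (π g) ↔
          w * v⁻¹ ∈ Subgroup.zpowers (π (r * g * r⁻¹))
        have h9 : (π r)⁻¹ * w * u₀⁻¹ = ((π r)⁻¹ * (w * v⁻¹) * π r) * ((π r)⁻¹ * v * u₀⁻¹) := by
          group
        rw [h9, Subgroup.mul_mem_cancel_right _ hv3, map_mul, map_mul, map_inv]
        constructor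
        · intro h10
          obtain ⟨i, hi⟩ := Subgroup.mem_zpowers_iff.1 h10
          refine Subgroup.mem_zpowers_iff.2 ⟨i, ?_⟩
          rw [conj_zpow, hi]
          group
        · intro h10
          obtain ⟨i, hi⟩ := Subgroup.mem_zpowers_iff.1 h10
          refine Subgroup.mem_zpowers_iff.2 ⟨i, ?_⟩
          rw [← hi, conj_zpow]
          group
      have h9 : (crossA π a ha g u₀).fn (r * g * r⁻¹) x = cS π a (r * g * r⁻¹) v := by
        change mu (cosW π g u₀ ((r * g * r⁻¹) • x)) (a (r * g * r⁻¹)) = _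
        rw [h7, h8]
        rfl
      rw [← h9, h5]
      exact hne
    · change ((g * 1 : G) : G ⧸ cycH π g) = ((1 : G) : G ⧸ cycH π g)
      rw [QuotientGroup.eq, mul_one, mul_one]
      exact Subgroup.inv_mem _ (self_mem_cycH π g)

include ha hf hs hker in
/-- Step 3: for each pair there are finitely many classes. -/
theorem step_three (p v : Q) : {C : ConjClasses G | ∃ g, C = ConjClasses.mk g ∧ π g = p ∧
    cS π a g v ≠ 0 ∧ tau C f ≠ 0}.Finite := by
  classical
  by_cases hp : ∃ g₁, π g₁ = p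
  · obtain ⟨g₁, hg₁⟩ := hp
    obtain ⟨ct, h1, h2, h3, h4⟩ := ct_cross π a ha hf hs g₁ v
    have hfin := fin_supp h1 h2
    have hsub : {C : ConjClasses G | ∃ g, C = ConjClasses.mk g ∧ π g = p ∧
        cS π a g v ≠ 0 ∧ tau C f ≠ 0} ⊆ ⋃ b ∈ {b | ct b ≠ 0}, {C : ConjClasses G |
          ∃ g' : cycH π g₁, C = ConjClasses.mk (g' : G) ∧ π g' = π g₁ ∧
            b.1 = Abelianization.of g'} := by
      rintro C ⟨g, rfl, hg, hS, htau⟩
      have hgm : g ∈ cycH π g₁ := by
        change π g ∈ Subgroup.zpowers (π g₁)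
        rw [hg, ← hg₁]
        exact Subgroup.mem_zpowers _
      have hgg : π g = π g₁ := by rw [hg, hg₁]
      rw [Set.mem_iUnion₂]
      have hS' : mu {w | w * v⁻¹ ∈ Subgroup.zpowers (π g₁)} (a g) ≠ 0 := by
        rw [← hgg]
        exact hS
      refine ⟨(Abelianization.of ⟨g, hgm⟩, Multiplicative.ofAdd
        (mu {w | w * v⁻¹ ∈ Subgroup.zpowers (π g₁)} (a g))), fun h5 => htau ?_,
        ⟨⟨g, hgm⟩, rfl, hgg, rfl⟩⟩
      exact h4 ⟨g, hgm⟩ (conj_over π hker _ hgg) hS' h5
    refine Set.Finite.subset (Set.Finite.biUnion hfin fun b _ => ?_) hsub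
    refine Set.Subsingleton.finite ?_
    rintro C ⟨g', rfl, h5, h6⟩ C' ⟨g'', rfl, h7, h8⟩
    have h9 := conj_over π hker g' h5 g'' (by rw [← h8, h6])
    obtain ⟨c, hc⟩ := isConj_iff.1 h9
    refine ConjClasses.mk_eq_mk_iff_isConj.2 (isConj_iff.2 ⟨c, ?_⟩)
    exact congrArg Subtype.val hc
  · refine Set.Finite.subset Set.finite_empty ?_
    rintro C ⟨g, _, hg, _⟩
    exact hp ⟨g, hg⟩

include ha hf hs hker in
theorem fin_classes_aux : {C : ConjClasses G | ∃ g u, C = ConjClasses.mk g ∧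
    cS π a g u ≠ 0 ∧ tau C f ≠ 0}.Finite := by
  obtain ⟨L, hL, h1⟩ := step_one π a ha hf hs hker
  obtain ⟨S, h2⟩ := step_two π a ha hf hs hker hL
  have hsub : {C : ConjClasses G | ∃ g u, C = ConjClasses.mk g ∧
      cS π a g u ≠ 0 ∧ tau C f ≠ 0} ⊆ ⋃ p ∈ pairs π a S, {C : ConjClasses G |
        ∃ g, C = ConjClasses.mk g ∧ π g = p.1 ∧ cS π a g p.2 ≠ 0 ∧ tau C f ≠ 0} := by
    rintro C ⟨g, u, rfl, hS, htau⟩
    have hq : IsOfFinOrder (π g) := by
      by_contra hq
      exact htau (vanish_of_crossed π a ha hker g u hS (Or.inl hq) q f hf)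
    have hqL : π g ^ L = 1 := by
      by_contra hqL
      exact htau (h1 g u hq hqL hS)
    obtain ⟨g', v, h3, h4, h5⟩ := h2 g u hqL hS htau
    rw [Set.mem_iUnion₂]
    exact ⟨(π g', v), h4, g', h3.symm, rfl, h5, htau⟩
  exact Set.Finite.subset (Set.Finite.biUnion (pairs_finite π a S) fun p _ =>
    step_three π a ha hf hs hker p.1 p.2) hsub

include ha hker in
/-- Only finitely many classes of elements with nonzero sums over cosets carry a trace. -/
theorem fin_classes {e : Matrix (Fin q) (Fin q) (G → ℂ)} (he : IsIdem e) :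
    {C : ConjClasses G | ∃ g u, C = ConjClasses.mk g ∧ cS π a g u ≠ 0 ∧ tau C e ≠ 0}.Finite := by
  obtain ⟨ε, hε, f, hf, hdec, hτ⟩ := exists_decay (lsz a) (fun h => Nat.cast_nonneg _)
    (lsz_mul π a ha) e he
  have hs : Summable fun h => ‖toFn f h‖ * lsz a h := by
    refine Summable.of_nonneg_of_le (fun h => mul_nonneg (norm_nonneg _) (Nat.cast_nonneg _))
      (fun h => ?_) (hdec.mul_left ε⁻¹)
    have h1 : ε * lsz a h ≤ Real.exp (ε * lsz a h) := by
      have := Real.add_one_le_exp (ε * lsz a h)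
      linarith
    have h2 : lsz a h ≤ ε⁻¹ * Real.exp (ε * lsz a h) := by
      rw [inv_mul_eq_div, le_div_iff₀ hε, mul_comm]
      exact h1
    calc ‖toFn f h‖ * lsz a h ≤ ‖toFn f h‖ * (ε⁻¹ * Real.exp (ε * lsz a h)) :=
          mul_le_mul_of_nonneg_left h2 (norm_nonneg _)
      _ = ε⁻¹ * (‖toFn f h‖ * Real.exp (ε * lsz a h)) := by ring
  have h1 := fin_classes_aux π a ha hf hs hker
  simp only [hτ] at h1
  exact h1

end Idem

end Crossed

end Vale.Agent.P184.H444
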