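import Mathlib

/-!
# Fourier series of absolutely summable functions on discrete abelian groups
-/

noncomputable section

open Filter Topology

namespace Vale.Agent.P184.H444

variable {B : Type*} [CommGroup B]

theorem exists_char {b : B} (hb : b ≠ 1) : ∃ σ : B →* Circle, σ b ≠ 1 := by
  have hb' : (Additive.ofMul b) ≠ 0 := fun h => hb h
  obtain ⟨c, hc⟩ := CharacterModule.exists_character_apply_ne_zero_of_ne_zero hb'
  let f : ℚ →+ Additive Circle :=
    { toFun := fun q => Additive.ofMul (Circle.exp (2 * Real.pi * (q : ℝ)))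
      map_zero' := by
        rw [Rat.cast_zero, mul_zero, Circle.exp_zero]
        rfl
      map_add' := fun x y => by
        rw [Rat.cast_add, mul_add, Circle.exp_add]
        rfl }
  have hf : ∀ q : ℚ, f q = Additive.ofMul (Circle.exp (2 * Real.pi * (q : ℝ))) := fun q => rfl
  have hker : AddSubgroup.zmultiples (1 : ℚ) ≤ f.ker := by
    rw [AddSubgroup.zmultiples_le]
    change f 1 = 0
    rw [hf, Rat.cast_one, mul_one, Circle.exp_two_pi]
    rfl
  let g : AddCircle (1 : ℚ) →+ Additive Circle := QuotientAddGroup.lift _ f hker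
  have hg : ∀ q : ℚ, g (q : AddCircle (1 : ℚ)) = f q := fun q => rfl
  have hinj : ∀ x : AddCircle (1 : ℚ), g x = 0 → x = 0 := by
    intro x
    induction x using QuotientAddGroup.induction_on with
    | H q =>
      intro h
      have h1 : Circle.exp (2 * Real.pi * (q : ℝ)) = 1 := h
      obtain ⟨n, hn⟩ := Circle.exp_eq_one.1 h1
      have hpi := Real.pi_pos
      have h2 : (q : ℝ) = n := by
        have h3 : (2 * Real.pi) * (q : ℝ) = (2 * Real.pi) * n := by rw [hn]; ring
        exact mul_left_cancel₀ (by positivity) h3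
      have h3 : q = (n : ℚ) := by exact_mod_cast h2
      refine (AddCircle.coe_eq_zero_iff (1 : ℚ)).2 ⟨n, ?_⟩
      rw [h3, zsmul_one]
  refine ⟨{ toFun := fun x => (g (c (Additive.ofMul x))).toMul
            map_one' := ?_
            map_mul' := fun x y => ?_ }, fun h => hc (hinj _ ?_)⟩
  · rw [ofMul_one, map_zero, map_zero]
    rfl
  · rw [ofMul_mul, map_add, map_add]
    rfl
  · exact h

/-- all Fourier coefficients of the function vanish -/
def FZ (f : B → ℂ) : Prop := ∀ σ : B →* Circle, ∑' b, f b * (σ b : ℂ) = 0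

theorem norm_half {z : ℂ} (hz : ‖z‖ = 1) : ‖(1 + z) / 2‖ ≤ 1 := by
  rw [norm_div]
  have h1 := norm_add_le (1 : ℂ) z
  rw [norm_one, hz] at h1
  have h2 : ‖(2 : ℂ)‖ = 2 := by norm_num
  rw [h2, div_le_one (by norm_num)]
  linarith

theorem norm_half_lt {z : ℂ} (hz : ‖z‖ = 1) (h1 : z ≠ 1) : ‖(1 + z) / 2‖ < 1 := by
  rw [norm_div]
  have h2 : ‖(2 : ℂ)‖ = 2 := by norm_num
  rw [h2, div_lt_one (by norm_num)]
  have h3 : z.re * z.re + z.im * z.im = 1 := by
    have := Complex.normSq_eq_norm_sq z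
    rw [hz, Complex.normSq_apply] at this
    linarith
  have h4 : z.re < 1 := by
    by_contra hre
    have hre' := not_lt.1 hre
    have h5 : z.re = 1 := by nlinarith [mul_self_nonneg z.im]
    have h6 : z.im = 0 := by
      have : z.im * z.im = 0 := by rw [h5] at h3; linarith
      exact mul_self_eq_zero.1 this
    exact h1 (Complex.ext h5 h6)
  have h5 : ‖1 + z‖ ^ 2 < 2 ^ 2 := by
    rw [← Complex.normSq_eq_norm_sq, Complex.normSq_apply]
    simp only [Complex.add_re, Complex.one_re, Complex.add_im, Complex.one_im]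
    nlinarith
  exact lt_of_pow_lt_pow_left₀ 2 (by norm_num) h5

theorem sum_char {f : B → ℂ} (hf : Summable fun b => ‖f b‖) (σ : B →* Circle) :
    Summable fun b => f b * (σ b : ℂ) := by
  refine Summable.of_norm_bounded hf fun b => ?_
  rw [norm_mul, Circle.norm_coe, mul_one]

theorem fz_half {f : B → ℂ} (hf : Summable fun b => ‖f b‖) (h0 : FZ f) (σ : B →* Circle)
    (w : Circle) : (Summable fun b => ‖f b * ((1 + (σ b : ℂ) * (w : ℂ)) / 2)‖) ∧
      FZ fun b => f b * ((1 + (σ b : ℂ) * (w : ℂ)) / 2) := by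
  have hn : ∀ b, ‖(σ b : ℂ) * (w : ℂ)‖ = 1 := fun b => by
    rw [norm_mul, Circle.norm_coe, Circle.norm_coe, mul_one]
  constructor
  · refine Summable.of_nonneg_of_le (fun _ => norm_nonneg _) (fun b => ?_) hf
    rw [norm_mul]
    exact mul_le_of_le_one_right (norm_nonneg _) (norm_half (hn b))
  · intro χ
    have h1 := sum_char hf χ
    have h2 := sum_char hf (σ * χ)
    have e : ∀ b, f b * ((1 + (σ b : ℂ) * (w : ℂ)) / 2) * (χ b : ℂ) =
        (1 / 2) * (f b * (χ b : ℂ)) + ((w : ℂ) / 2) * (f b * ((σ * χ) b : ℂ)) := by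
      intro b
      rw [MonoidHom.mul_apply, Circle.coe_mul]
      ring
    rw [tsum_congr e, (h1.mul_left _).tsum_add (h2.mul_left _), tsum_mul_left, tsum_mul_left,
      h0 χ, h0 (σ * χ), mul_zero, mul_zero, add_zero]

theorem fz_pow {f : B → ℂ} (hf : Summable fun b => ‖f b‖) (h0 : FZ f) (σ : B →* Circle)
    (w : Circle) (n : ℕ) : (Summable fun b => ‖f b * ((1 + (σ b : ℂ) * (w : ℂ)) / 2) ^ n‖) ∧
      FZ fun b => f b * ((1 + (σ b : ℂ) * (w : ℂ)) / 2) ^ n := by
  induction n with
  | zero =>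
    simp only [pow_zero, mul_one]
    exact ⟨hf, h0⟩
  | succ n ih =>
    have h := fz_half ih.1 ih.2 σ w
    simp only [pow_succ, ← mul_assoc]
    simp only [mul_assoc] at h ⊢
    exact h

open Classical in
theorem fz_ind {f : B → ℂ} (hf : Summable fun b => ‖f b‖) (h0 : FZ f) (σ : B →* Circle)
    (w : Circle) : (Summable fun b => ‖if σ b * w = 1 then f b else 0‖) ∧
      FZ fun b => if σ b * w = 1 then f b else 0 := by
  have hn : ∀ b, ‖(σ b : ℂ) * (w : ℂ)‖ = 1 := fun b => by
    rw [norm_mul, Circle.norm_coe, Circle.norm_coe, mul_one]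
  constructor
  · refine Summable.of_nonneg_of_le (fun _ => norm_nonneg _) (fun b => ?_) hf
    split_ifs
    · exact le_rfl
    · rw [norm_zero]
      exact norm_nonneg _
  · intro χ
    have h1 : Tendsto (fun n : ℕ => ∑' b, f b * ((1 + (σ b : ℂ) * (w : ℂ)) / 2) ^ n * (χ b : ℂ))
        atTop (𝓝 (∑' b, (if σ b * w = 1 then f b else 0) * (χ b : ℂ))) := by
      refine tendsto_tsum_of_dominated_convergence hf (fun b => ?_)
        (Eventually.of_forall fun n b => ?_)
      · refine Tendsto.mul_const _ ?_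
        by_cases hb : σ b * w = 1
        · have h2 : (σ b : ℂ) * (w : ℂ) = 1 := by
            rw [← Circle.coe_mul, hb, Circle.coe_one]
          have h3 : ∀ n : ℕ, f b * ((1 + (σ b : ℂ) * (w : ℂ)) / 2) ^ n = f b := by
            intro n
            rw [h2]
            norm_num
          simp only [h3, if_pos hb]
          exact tendsto_const_nhds
        · rw [if_neg hb]
          have h2 : (σ b : ℂ) * (w : ℂ) ≠ 1 := by
            intro h
            apply hb
            apply Circle.ext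
            rw [Circle.coe_mul, h, Circle.coe_one]
          have h3 := (tendsto_pow_atTop_nhds_zero_of_norm_lt_one
            (norm_half_lt (hn b) h2)).const_mul (f b)
          rwa [mul_zero] at h3
      · rw [norm_mul, norm_mul, norm_pow, Circle.norm_coe, mul_one]
        exact mul_le_of_le_one_right (norm_nonneg _)
          (pow_le_one₀ (norm_nonneg _) (norm_half (hn b)))
    have h2 : (fun n : ℕ => ∑' b, f b * ((1 + (σ b : ℂ) * (w : ℂ)) / 2) ^ n * (χ b : ℂ)) =
        fun _ => 0 := funext fun n => (fz_pow hf h0 σ w n).2 χ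
    rw [h2] at h1
    exact tendsto_nhds_unique h1 tendsto_const_nhds

theorem fz_sep {f : B → ℂ} (hf : Summable fun b => ‖f b‖) (h0 : FZ f) (b₀ : B) (S : Finset B)
    (hS : b₀ ∉ S) : ∃ g : B → ℂ, (∀ b, ‖g b‖ ≤ ‖f b‖) ∧ FZ g ∧ g b₀ = f b₀ ∧ ∀ b ∈ S, g b = 0 := by
  classical
  induction S using Finset.induction_on with
  | empty => exact ⟨f, fun _ => le_rfl, h0, rfl, fun b hb => absurd hb (Finset.notMem_empty b)⟩
  | insert a S ha ih =>
    obtain ⟨g, h1, h2, h3, h4⟩ := ih fun h => hS (Finset.mem_insert_of_mem h)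
    have hne : a * b₀⁻¹ ≠ 1 := by
      intro h
      exact hS (mul_inv_eq_one.1 h ▸ Finset.mem_insert_self _ _)
    obtain ⟨σ, hσ⟩ := exists_char hne
    have hg : Summable fun b => ‖g b‖ := Summable.of_nonneg_of_le (fun _ => norm_nonneg _) h1 hf
    refine ⟨fun b => if σ b * (σ b₀)⁻¹ = 1 then g b else 0, fun b => ?_,
      (fz_ind hg h2 σ (σ b₀)⁻¹).2, ?_, fun b hb => ?_⟩
    · dsimp only
      split_ifs
      · exact h1 b
      · rw [norm_zero]
        exact norm_nonneg _
    · dsimp only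
      rw [if_pos (mul_inv_cancel _), h3]
    · dsimp only
      rcases Finset.mem_insert.1 hb with rfl | hb
      · rw [if_neg]
        rwa [← map_inv, ← map_mul]
      · rw [h4 b hb, ite_self]

/-- Uniqueness of Fourier coefficients. -/
theorem fz_zero {f : B → ℂ} (hf : Summable fun b => ‖f b‖) (h0 : FZ f) (b₀ : B) : f b₀ = 0 := by
  classical
  by_contra hne
  have hpos : 0 < ‖f b₀‖ := norm_pos_iff.2 hne
  obtain ⟨S, hS⟩ : ∃ S : Finset B, (∑' b, ‖f b‖) - ‖f b₀‖ < ∑ b ∈ S, ‖f b‖ := by
    have h1 := hf.hasSum.eventually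
      (lt_mem_nhds (show (∑' b, ‖f b‖) - ‖f b₀‖ < ∑' b, ‖f b‖ by linarith))
    obtain ⟨S0, hS0⟩ := Filter.eventually_atTop.mp h1
    exact ⟨S0, hS0 S0 le_rfl⟩
  obtain ⟨g, h1, h2, h3, h4⟩ := fz_sep hf h0 b₀ (S.erase b₀) (Finset.notMem_erase _ _)
  have hg : Summable fun b => ‖g b‖ := Summable.of_nonneg_of_le (fun _ => norm_nonneg _) h1 hf
  have h5 : ∑' b, g b = 0 := by
    have := h2 1
    simpa using this
  have h6 := hg.of_norm.sum_add_tsum_compl (s := insert b₀ S)
  rw [h5] at h6
  have h7 : ∑ b ∈ insert b₀ S, g b = g b₀ := by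
    refine Finset.sum_eq_single_of_mem b₀ (Finset.mem_insert_self _ _) fun b hb hbne => ?_
    refine h4 b (Finset.mem_erase.2 ⟨hbne, ?_⟩)
    exact (Finset.mem_insert.1 hb).resolve_left hbne
  rw [h7, h3] at h6
  have h8 : ‖f b₀‖ ≤ ∑' b : ((↑(insert b₀ S) : Set B)ᶜ : Set B), ‖f b‖ := by
    have h9 : f b₀ = -∑' b : ((↑(insert b₀ S) : Set B)ᶜ : Set B), g b := eq_neg_of_add_eq_zero_left h6
    rw [h9, norm_neg]
    exact tsum_of_norm_bounded (hf.subtype _).hasSum fun b => h1 b
  have h9 := hf.sum_add_tsum_compl (s := insert b₀ S)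
  have h10 : ∑ b ∈ S, ‖f b‖ ≤ ∑ b ∈ insert b₀ S, ‖f b‖ :=
    Finset.sum_le_sum_of_subset_of_nonneg (Finset.subset_insert _ _) fun _ _ _ => norm_nonneg _
  linarith

theorem exists_real_hom {b : B} (hb : ¬ IsOfFinOrder b) :
    ∃ φ : Additive B →+ ℚ, φ (Additive.ofMul b) ≠ 0 := by
  let f : ℤ →+ Additive B := zmultiplesHom (Additive B) (Additive.ofMul b)
  let g : ℤ →+ ℚ := zmultiplesHom ℚ 1
  have hf : Function.Injective f := by
    intro m n hmn
    have h1 : b ^ m = b ^ n := hmn
    exact injective_zpow_iff_not_isOfFinOrder.2 hb h1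
  obtain ⟨φ, hφ⟩ := (Module.Baer.of_divisible ℚ).extension_property_addMonoidHom f hf g
  refine ⟨φ, ?_⟩
  have h1 : φ (f 1) = g 1 := by rw [← hφ]; rfl
  have h2 : f 1 = Additive.ofMul b := by
    simp [f]
  have h3 : g 1 = 1 := by simp [g]
  rw [← h2, h1, h3]
  exact one_ne_zero

/-- If the Fourier series has integer values then it is carried by the elements of finite
order. -/
theorem int_zero {f : B → ℂ} (hf : Summable fun b => ‖f b‖)
    (h : ∀ σ : B →* Circle, ∃ n : ℤ, ∑' b, f b * (σ b : ℂ) = n) {b₀ : B}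
    (hb : ¬ IsOfFinOrder b₀) : f b₀ = 0 := by
  obtain ⟨φ, hφ⟩ := exists_real_hom hb
  let τ : ℝ → (B →* Circle) := fun θ =>
    { toFun := fun b => Circle.exp (θ * (φ (Additive.ofMul b) : ℝ))
      map_one' := by
        rw [ofMul_one, map_zero, Rat.cast_zero, mul_zero, Circle.exp_zero]
      map_mul' := fun x y => by
        rw [ofMul_mul, map_add, Rat.cast_add, mul_add, Circle.exp_add] }
  have hτ : ∀ θ b, τ θ b = Circle.exp (θ * (φ (Additive.ofMul b) : ℝ)) := fun _ _ => rfl
  have hconst : ∀ (σ : B →* Circle) (θ : ℝ),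
      ∑' b, f b * ((σ * τ θ) b : ℂ) = ∑' b, f b * (σ b : ℂ) := by
    intro σ
    set F : ℝ → ℂ := fun θ => ∑' b, f b * ((σ * τ θ) b : ℂ) with hF
    have hc : Continuous F := by
      refine continuous_tsum (fun b => ?_) hf fun b θ => ?_
      · simp only [MonoidHom.mul_apply, hτ, Circle.coe_mul]
        have h1 : Continuous fun θ : ℝ =>
            ((Circle.exp (θ * (φ (Additive.ofMul b) : ℝ)) : Circle) : ℂ) :=
          continuous_induced_dom.comp
            (Circle.exp.continuous.comp (continuous_id.mul continuous_const))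
        exact continuous_const.mul (continuous_const.mul h1)
      · rw [norm_mul, Circle.norm_coe, mul_one]
    have hi : ∀ θ, ∃ n : ℤ, F θ = n := fun θ => h (σ * τ θ)
    have hl : IsLocallyConstant F := by
      rw [IsLocallyConstant.iff_eventually_eq]
      intro x
      have h1 : ∀ᶠ y in 𝓝 x, dist (F y) (F x) < 1 :=
        (hc.tendsto x).eventually (Metric.ball_mem_nhds (F x) one_pos)
      filter_upwards [h1] with y hy
      obtain ⟨n, hn⟩ := hi y
      obtain ⟨m, hm⟩ := hi x
      rw [hn, hm, dist_eq_norm] at hy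
      have h2 : ‖((n - m : ℤ) : ℂ)‖ < 1 := by
        push_cast
        exact hy
      rw [Complex.norm_intCast] at h2
      have h3 : |n - m| < 1 := by exact_mod_cast h2
      have h4 := Int.abs_lt_one_iff.1 h3
      have h5 : n = m := by omega
      rw [hn, hm, h5]
    intro θ
    have h1 := hl.apply_eq_of_preconnectedSpace θ 0
    change F θ = _
    rw [h1]
    change ∑' b, f b * ((σ * τ 0) b : ℂ) = _
    refine tsum_congr fun b => ?_
    rw [MonoidHom.mul_apply, hτ, zero_mul, Circle.exp_zero, mul_one]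
  set x : ℝ := (φ (Additive.ofMul b₀) : ℝ) with hx
  have hx0 : x ≠ 0 := by
    rw [hx]
    exact_mod_cast hφ
  set θ : ℝ := Real.pi / x with hθ
  have h1 : Summable fun b => ‖f b * ((τ θ b : ℂ) - 1)‖ := by
    refine Summable.of_nonneg_of_le (fun _ => norm_nonneg _) (fun b => ?_) (hf.mul_right 2)
    rw [norm_mul]
    refine mul_le_mul_of_nonneg_left ?_ (norm_nonneg _)
    refine (norm_sub_le _ _).trans ?_
    rw [Circle.norm_coe, norm_one]
    norm_num
  have h2 : FZ fun b => f b * ((τ θ b : ℂ) - 1) := by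
    intro σ
    have e : ∀ b, f b * ((τ θ b : ℂ) - 1) * (σ b : ℂ) =
        f b * ((σ * τ θ) b : ℂ) - f b * (σ b : ℂ) := by
      intro b
      rw [MonoidHom.mul_apply, Circle.coe_mul]
      ring
    rw [tsum_congr e, (sum_char hf _).tsum_sub (sum_char hf _), hconst, sub_self]
  have h3 := fz_zero h1 h2 b₀
  have h4 : ((τ θ b₀ : Circle) : ℂ) = -1 := by
    rw [hτ, ← hx, hθ, div_mul_cancel₀ _ hx0, Circle.coe_exp, Complex.exp_pi_mul_I]
  rw [h4] at h3
  rcases mul_eq_zero.1 h3 with h5 | h5
  · exact h5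
  · norm_num at h5

end Vale.Agent.P184.H444
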