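import Vale.Agent.P184.H444.Wr

/-!
# The groups `F / [N, N]` for a normal subgroup `N` of a free group `F`
-/

noncomputable section

open Filter Topology

namespace Vale.Agent.P184.H444

section Shift

variable {Q M : Type*} [Group Q] [AddCommGroup M]

/-- left translation on functions -/
def shiftEquiv (u : Q) : (Q →₀ M) ≃+ (Q →₀ M) :=
  Finsupp.domCongr (Equiv.mulLeft u)

theorem shiftEquiv_apply (u : Q) (f : Q →₀ M) : shiftEquiv u f = f.mapDomain (u * ·) := by
  change Finsupp.equivMapDomain (Equiv.mulLeft u) f = _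
  rw [Finsupp.equivMapDomain_eq_mapDomain]
  rfl

/-- the action by translations -/
def shiftHom : Q →* MulAut (Multiplicative (Q →₀ M)) where
  toFun u := AddEquiv.toMultiplicative (shiftEquiv u)
  map_one' := by
    refine MulEquiv.ext fun f => ?_
    change Multiplicative.ofAdd (shiftEquiv (1 : Q) (Multiplicative.toAdd f)) = f
    rw [shiftEquiv_apply]
    have h : (fun u : Q => 1 * u) = id := funext fun u => one_mul u
    rw [h, Finsupp.mapDomain_id]
    rfl
  map_mul' u v := by
    refine MulEquiv.ext fun f => ?_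
    change Multiplicative.ofAdd (shiftEquiv (u * v) (Multiplicative.toAdd f)) =
      Multiplicative.ofAdd (shiftEquiv u (shiftEquiv v (Multiplicative.toAdd f)))
    rw [shiftEquiv_apply, shiftEquiv_apply, shiftEquiv_apply, ← Finsupp.mapDomain_comp]
    have h : (fun w : Q => u * v * w) = (fun w => u * w) ∘ fun w => v * w :=
      funext fun w => mul_assoc u v w
    rw [h]

theorem shiftHom_apply (u : Q) (f : Q →₀ M) :
    shiftHom u (Multiplicative.ofAdd f) = Multiplicative.ofAdd (f.mapDomain (u * ·)) := by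
  change Multiplicative.ofAdd (shiftEquiv u f) = _
  rw [shiftEquiv_apply]

end Shift

section Free

variable {X : Type*} (N : Subgroup (FreeGroup X)) [N.Normal]

/-- the quotient of the free group -/
abbrev QN := FreeGroup X ⧸ N

/-- the module -/
abbrev MN := (FreeGroup X ⧸ N) →₀ (X →₀ ℤ)

/-- the Magnus embedding on the free group -/
def mag : FreeGroup X →* (Multiplicative (MN N)) ⋊[shiftHom] (QN N) :=
  FreeGroup.lift fun x =>
    ⟨Multiplicative.ofAdd (Finsupp.single 1 (Finsupp.single x 1)), ((FreeGroup.of x : FreeGroup X) : QN N)⟩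

theorem mag_right (w : FreeGroup X) : (mag N w).right = (w : QN N) := by
  have h : SemidirectProduct.rightHom.comp (mag N) = QuotientGroup.mk' N := by
    refine FreeGroup.ext_hom _ _ fun x => ?_
    change (mag N (FreeGroup.of x)).right = _
    unfold mag
    rw [FreeGroup.lift_apply_of]
    rfl
  exact DFunLike.congr_fun h w

/-- the Fox derivatives -/
def fox (w : FreeGroup X) : MN N := Multiplicative.toAdd (mag N w).left

theorem fox_mul (v w : FreeGroup X) :
    fox N (v * w) = fox N v + (fox N w).mapDomain ((v : QN N) * ·) := by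
  unfold fox
  rw [map_mul, SemidirectProduct.mul_left, mag_right]
  have h := shiftHom_apply (v : QN N) (Multiplicative.toAdd (mag N w).left)
  exact congrArg (fun z : Multiplicative (MN N) =>
    Multiplicative.toAdd (mag N v).left + Multiplicative.toAdd z) h

theorem fox_one : fox N 1 = 0 := by
  unfold fox
  rw [map_one]
  rfl

theorem fox_of (x : X) : fox N (FreeGroup.of x) = Finsupp.single 1 (Finsupp.single x 1) := by
  unfold fox mag
  rw [FreeGroup.lift_apply_of]
  rfl

/-- cosets of `H` -/
def rr (H : Subgroup (FreeGroup X)) (f : FreeGroup X) : H :=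
  ⟨f * sec H ((f⁻¹ : FreeGroup X) : FreeGroup X ⧸ H), by
    have h1 : ((f⁻¹ : FreeGroup X) : FreeGroup X ⧸ H) =
        ((sec H ((f⁻¹ : FreeGroup X) : FreeGroup X ⧸ H) : FreeGroup X) : FreeGroup X ⧸ H) :=
      (sec_mk _ _).symm
    have h2 := QuotientGroup.eq.1 h1
    rwa [inv_inv] at h2⟩

theorem rr_mul (H : Subgroup (FreeGroup X)) (h : H) (f : FreeGroup X) :
    rr H (h * f) = h * rr H f := by
  refine Subtype.ext ?_
  change (h : FreeGroup X) * f * sec H (((h * f)⁻¹ : FreeGroup X) : FreeGroup X ⧸ H) =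
    h * (f * sec H ((f⁻¹ : FreeGroup X) : FreeGroup X ⧸ H))
  have h1 : (((h * f)⁻¹ : FreeGroup X) : FreeGroup X ⧸ H) = ((f⁻¹ : FreeGroup X) : FreeGroup X ⧸ H) := by
    rw [mul_inv_rev]
    exact QuotientGroup.mk_mul_of_mem _ (H.inv_mem h.2)
  rw [h1, mul_assoc]

/-- the potential -/
def pot (H : Subgroup (FreeGroup X)) (f : FreeGroup X) : Additive (Abelianization H) :=
  Additive.ofMul (Abelianization.of (rr H f))

theorem pot_mul (H : Subgroup (FreeGroup X)) (h : H) (f : FreeGroup X) :
    pot H (h * f) = Additive.ofMul (Abelianization.of h) + pot H f := by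
  unfold pot
  rw [rr_mul, map_mul]
  rfl

theorem pot_sub (H : Subgroup (FreeGroup X)) (h : H) (f w : FreeGroup X) :
    pot H (h * f * w) - pot H (h * f) = pot H (f * w) - pot H f := by
  rw [mul_assoc, pot_mul, pot_mul]
  abel

/-- coefficients -/
def Lc (H : Subgroup (FreeGroup X)) (u : QN N) : (X →₀ ℤ) →+ Additive (Abelianization H) :=
  Finsupp.liftAddHom fun x => zmultiplesHom _
    (pot H (Quotient.out u * FreeGroup.of x) - pot H (Quotient.out u))

omit [N.Normal] in
theorem Lc_single (H : Subgroup (FreeGroup X)) (u : QN N) (x : X) (n : ℤ) :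
    Lc N H u (Finsupp.single x n) =
      n • (pot H (Quotient.out u * FreeGroup.of x) - pot H (Quotient.out u)) := by
  unfold Lc
  rw [Finsupp.liftAddHom_apply_single]
  rfl

omit [N.Normal] in
theorem Lc_congr {H : Subgroup (FreeGroup X)} (u : QN N) (f : FreeGroup X)
    (h : f * (Quotient.out u)⁻¹ ∈ H) (x : X) :
    Lc N H u (Finsupp.single x 1) = pot H (f * FreeGroup.of x) - pot H f := by
  rw [Lc_single, one_zsmul]
  have h1 := pot_sub H ⟨_, h⟩ (Quotient.out u) (FreeGroup.of x)
  have h2 : f * (Quotient.out u)⁻¹ * Quotient.out u = f := inv_mul_cancel_right _ _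
  change pot H (f * (Quotient.out u)⁻¹ * Quotient.out u * FreeGroup.of x) -
    pot H (f * (Quotient.out u)⁻¹ * Quotient.out u) = _ at h1
  rw [h2] at h1
  exact h1.symm

/-- the pairing -/
def lam (H : Subgroup (FreeGroup X)) : MN N →+ Additive (Abelianization H) :=
  Finsupp.liftAddHom (Lc N H)

theorem lam_fox {H : Subgroup (FreeGroup X)} (hNH : N ≤ H) (w : FreeGroup X) :
    ∀ f : FreeGroup X, lam N H ((fox N w).mapDomain ((f : QN N) * ·)) = pot H (f * w) - pot H f := by
  have hout : ∀ f : FreeGroup X, f * (Quotient.out (f : QN N))⁻¹ ∈ H := by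
    intro f
    have h1 : ((Quotient.out (f : QN N) : FreeGroup X) : QN N) = (f : QN N) := QuotientGroup.out_eq' _
    have h2 : (Quotient.out (f : QN N))⁻¹ * f ∈ N := QuotientGroup.eq.1 h1
    have h3 := Subgroup.Normal.conj_mem ‹N.Normal› _ h2 (Quotient.out (f : QN N))
    rw [mul_inv_cancel_left] at h3
    exact hNH h3
  have hof : ∀ (x : X) (f : FreeGroup X),
      lam N H ((fox N (FreeGroup.of x)).mapDomain ((f : QN N) * ·)) =
        pot H (f * FreeGroup.of x) - pot H f := by
    intro x f
    rw [fox_of, Finsupp.mapDomain_single, mul_one]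
    unfold lam
    rw [Finsupp.liftAddHom_apply_single]
    exact Lc_congr N _ _ (hout f) x
  induction w using FreeGroup.induction_on with
  | C1 =>
    intro f
    rw [fox_one, Finsupp.mapDomain_zero, map_zero, mul_one, sub_self]
  | of x => exact fun f => hof x f
  | inv_of x _ =>
    intro f
    change lam N H ((fox N (FreeGroup.of x)⁻¹).mapDomain ((f : QN N) * ·)) = 
      pot H (f * (FreeGroup.of x)⁻¹) - pot H f
    have h1 : fox N (FreeGroup.of x)⁻¹ = 
        -(fox N (FreeGroup.of x)).mapDomain ((((FreeGroup.of x)⁻¹ : FreeGroup X) : QN N) * ·) := by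
      have h2 := fox_mul N (FreeGroup.of x)⁻¹ (FreeGroup.of x)
      rw [inv_mul_cancel, fox_one] at h2
      exact eq_neg_of_add_eq_zero_left h2.symm
    have h3 : ((fox N (FreeGroup.of x)⁻¹).mapDomain ((f : QN N) * ·)) =
        -(fox N (FreeGroup.of x)).mapDomain (((f * (FreeGroup.of x)⁻¹ : FreeGroup X) : QN N) * ·) := by
      rw [h1]
      have h4 : ∀ v : MN N, (-v).mapDomain ((f : QN N) * ·) = -(v.mapDomain ((f : QN N) * ·)) :=
        fun v => (Finsupp.mapDomain.addMonoidHom ((f : QN N) * ·)).map_neg v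
      rw [h4, ← Finsupp.mapDomain_comp]
      congr 2
      funext u
      exact (mul_assoc _ _ _).symm
    rw [h3, map_neg, hof, inv_mul_cancel_right]
    abel
  | mul v w hv hw =>
    intro f
    rw [fox_mul, Finsupp.mapDomain_add, map_add, hv f]
    have h1 : ((fox N w).mapDomain ((v : QN N) * ·)).mapDomain ((f : QN N) * ·) =
        (fox N w).mapDomain (((f * v : FreeGroup X) : QN N) * ·) := by
      rw [← Finsupp.mapDomain_comp]
      congr 1
      funext u
      exact (mul_assoc _ _ _).symm
    rw [h1, hw, mul_assoc]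
    abel

/-- if all sums over the cosets of the cyclic group generated by `w` vanish then `w` is trivial
in the abelianization of its inverse image -/
theorem ab_eq_one (w : FreeGroup X) {H : Subgroup (FreeGroup X)}
    (hH : H = (Subgroup.zpowers (w : QN N)).comap (QuotientGroup.mk' N)) (hw : w ∈ H)
    (h0 : ∀ u₀ : QN N, mu {u | u * u₀⁻¹ ∈ Subgroup.zpowers (w : QN N)} (fox N w) = 0) :
    Abelianization.of (⟨w, hw⟩ : H) = 1 := by
  have hNH : N ≤ H := by
    intro n hn
    rw [hH]
    change ((n : FreeGroup X) : QN N) ∈ Subgroup.zpowers (w : QN N)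
    rw [(QuotientGroup.eq_one_iff n).2 hn]
    exact Subgroup.one_mem _
  have hlam : lam N H (fox N w) = 0 := by
    -- pass to cosets
    let rel : Setoid (QN N) := QuotientGroup.rightRel (Subgroup.zpowers (w : QN N))
    let p : QN N → Quotient rel := Quotient.mk rel
    have hp : ∀ u v : QN N, p u = p v ↔ v * u⁻¹ ∈ Subgroup.zpowers (w : QN N) := by
      intro u v
      rw [Quotient.eq]
      exact QuotientGroup.rightRel_apply
    have hL : ∀ u v : QN N, p u = p v → Lc N H u = Lc N H v := by
      intro u v huv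
      refine Finsupp.addHom_ext' fun x => AddMonoidHom.ext_int ?_
      change Lc N H u (Finsupp.single x 1) = Lc N H v (Finsupp.single x 1)
      have h1 : Quotient.out u * (Quotient.out u)⁻¹ ∈ H := by
        rw [mul_inv_cancel]
        exact H.one_mem
      have h2 : Quotient.out u * (Quotient.out v)⁻¹ ∈ H := by
        rw [hH]
        change ((Quotient.out u * (Quotient.out v)⁻¹ : FreeGroup X) : QN N) ∈
          Subgroup.zpowers (w : QN N)
        have h3 : ((Quotient.out u * (Quotient.out v)⁻¹ : FreeGroup X) : QN N) = u * v⁻¹ := by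
          rw [QuotientGroup.mk_mul, QuotientGroup.mk_inv, QuotientGroup.out_eq',
            QuotientGroup.out_eq']
        rw [h3]
        exact (hp v u).1 huv.symm
      rw [Lc_congr N u _ h1, Lc_congr N v _ h2]
    let L' : Quotient rel → ((X →₀ ℤ) →+ Additive (Abelianization H)) := fun c => Lc N H c.out
    have hL' : ∀ u, L' (p u) = Lc N H u := by
      intro u
      refine hL _ _ ?_
      exact Quotient.out_eq (p u)
    have h1 : lam N H (fox N w) = Finsupp.liftAddHom L' ((fox N w).mapDomain p) := by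
      rw [Finsupp.liftAddHom_apply, Finsupp.sum_mapDomain_index_addMonoidHom]
      unfold lam
      rw [Finsupp.liftAddHom_apply]
      refine Finset.sum_congr rfl fun u _ => ?_
      dsimp only
      rw [hL']
    have h2 : (fox N w).mapDomain p = 0 := by
      classical
      refine Finsupp.ext fun c => ?_
      obtain ⟨u₀, rfl⟩ : ∃ u₀, p u₀ = c := Quotient.exists_rep c
      have h3 : p ⁻¹' {p u₀} = {u | u * u₀⁻¹ ∈ Subgroup.zpowers (w : QN N)} := by
        ext u
        rw [Set.mem_preimage, Set.mem_singleton_iff, eq_comm, hp]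
        rfl
      have h4 := h0 u₀
      rw [← h3, ← mu_mapDomain, mu_apply] at h4
      rw [Finsupp.zero_apply, ← h4, Finsupp.sum]
      by_cases h5 : p u₀ ∈ ((fox N w).mapDomain p).support
      · rw [Finset.sum_eq_single_of_mem (p u₀) h5]
        · exact (if_pos rfl).symm
        · intro b _ hb
          exact if_neg hb
      · rw [Finset.sum_eq_zero]
        · exact Finsupp.notMem_support_iff.1 h5
        · intro b hb
          refine if_neg fun h6 => h5 ?_
          have h7 : b = p u₀ := h6
          rwa [h7] at hb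
    rw [h1, h2, map_zero]
  have h1 := lam_fox N hNH w 1
  have h2 : (fox N w).mapDomain (((1 : FreeGroup X) : QN N) * ·) = fox N w := by
    have h3 : (fun u : QN N => ((1 : FreeGroup X) : QN N) * u) = id := by
      funext u
      rw [QuotientGroup.mk_one, one_mul]
      rfl
    rw [h3, Finsupp.mapDomain_id]
  rw [h2, hlam] at h1
  have h3 := pot_mul H ⟨w, hw⟩ 1
  change pot H (w * 1) = _ at h3
  rw [one_mul] at h1
  rw [mul_one] at h3
  rw [h3, add_sub_cancel_right] at h1
  exact h1.symm

theorem mem_comm (w : FreeGroup X)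
    (h0 : ∀ u₀ : QN N, mu {u | u * u₀⁻¹ ∈ Subgroup.zpowers (w : QN N)} (fox N w) = 0) :
    w ∈ ⁅N, N⁆ := by
  set H : Subgroup (FreeGroup X) := (Subgroup.zpowers (w : QN N)).comap (QuotientGroup.mk' N)
    with hH
  have hw : w ∈ H := Subgroup.mem_zpowers (w : QN N)
  have h1 := ab_eq_one N w hH hw h0
  have h2 : (⟨w, hw⟩ : H) ∈ commutator H := (QuotientGroup.eq_one_iff _).1 h1
  have h3 : w ∈ ⁅H, H⁆ := by
    rw [← Subgroup.map_subtype_commutator]
    exact ⟨⟨w, hw⟩, h2, rfl⟩
  have h4 : (w : QN N) = 1 := by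
    let f := QuotientGroup.mk' N
    have h5 : ⁅H, H⁆ ≤ f.ker := by
      rw [Subgroup.commutator_le]
      intro x hx y hy
      obtain ⟨i, hi⟩ := Subgroup.mem_zpowers_iff.1 (show f x ∈ Subgroup.zpowers (w : QN N) from hx)
      obtain ⟨j, hj⟩ := Subgroup.mem_zpowers_iff.1 (show f y ∈ Subgroup.zpowers (w : QN N) from hy)
      rw [MonoidHom.mem_ker, map_commutatorElement, ← hi, ← hj, commutatorElement_eq_one_iff_mul_comm,
        ← zpow_add, ← zpow_add, add_comm]
    exact h5 h3
  have h5 : H = N := by
    rw [hH, h4, Subgroup.zpowers_one_eq_bot, MonoidHom.comap_bot, QuotientGroup.ker_mk']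
  rw [h5] at h3
  exact h3

/-- The traces of all idempotent matrices vanish away from the identity. -/
theorem vanish_free (g : FreeGroup X ⧸ ⁅N, N⁆) (hg : g ≠ 1) : VanishesAt g := by
  have hle : ⁅N, N⁆ ≤ N := Subgroup.commutator_le_left N N
  let π : FreeGroup X ⧸ ⁅N, N⁆ →* QN N := QuotientGroup.map ⁅N, N⁆ N (MonoidHom.id _) hle
  have hπ : ∀ w : FreeGroup X, π (w : FreeGroup X ⧸ ⁅N, N⁆) = (w : QN N) := fun w => rfl
  have hmag : ⁅N, N⁆ ≤ (mag N).ker := by
    rw [Subgroup.commutator_le]
    intro x hx y hy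
    rw [MonoidHom.mem_ker, map_commutatorElement, commutatorElement_eq_one_iff_mul_comm]
    have hx' : (x : QN N) = 1 := (QuotientGroup.eq_one_iff x).2 hx
    have hy' : (y : QN N) = 1 := (QuotientGroup.eq_one_iff y).2 hy
    refine SemidirectProduct.ext ?_ ?_
    · rw [SemidirectProduct.mul_left, SemidirectProduct.mul_left, mag_right, mag_right, hx', hy',
        map_one]
      exact mul_comm _ _
    · rw [SemidirectProduct.mul_right, SemidirectProduct.mul_right, mag_right, mag_right, hx', hy']
  let m : FreeGroup X ⧸ ⁅N, N⁆ →* (Multiplicative (MN N)) ⋊[shiftHom] (QN N) :=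
    QuotientGroup.lift _ (mag N) hmag
  let a : FreeGroup X ⧸ ⁅N, N⁆ → MN N := fun h => Multiplicative.toAdd (m h).left
  have hm : ∀ w : FreeGroup X, m (w : FreeGroup X ⧸ ⁅N, N⁆) = mag N w := fun w => rfl
  have haw : ∀ w : FreeGroup X, a (w : FreeGroup X ⧸ ⁅N, N⁆) = fox N w := fun w => rfl
  have ha : ∀ h k, a (h * k) = a h + (a k).mapDomain (π h * ·) := by
    intro h k
    induction h using QuotientGroup.induction_on with
    | H h =>
    induction k using QuotientGroup.induction_on with
    | H k => exact fox_mul N h k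
  have hker : ∀ h k : FreeGroup X ⧸ ⁅N, N⁆, π h = 1 → π k = 1 → h * k = k * h := by
    intro h k
    induction h using QuotientGroup.induction_on with
    | H h =>
    induction k using QuotientGroup.induction_on with
    | H k =>
    intro h1 h2
    have h1' : h ∈ N := (QuotientGroup.eq_one_iff h).1 h1
    have h2' : k ∈ N := (QuotientGroup.eq_one_iff k).1 h2
    change ((h * k : FreeGroup X) : FreeGroup X ⧸ ⁅N, N⁆) = ((k * h : FreeGroup X) : _)
    rw [QuotientGroup.eq]
    have h3 := Subgroup.commutator_mem_commutator (N.inv_mem h2') (N.inv_mem h1')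
    rw [commutatorElement_def, inv_inv, inv_inv] at h3
    rw [mul_inv_rev, ← mul_assoc]
    exact h3
  induction g using QuotientGroup.induction_on with
  | H w =>
  have hw : ¬ (w ∈ ⁅N, N⁆) := fun h => hg ((QuotientGroup.eq_one_iff w).2 h)
  have hex : ∃ u₀ : QN N, mu {u | u * u₀⁻¹ ∈ Subgroup.zpowers (w : QN N)} (fox N w) ≠ 0 := by
    by_contra hne
    push Not at hne
    exact hw (mem_comm N w hne)
  obtain ⟨u₀, hu₀⟩ := hex
  refine vanish_of_crossed π a ha hker (w : FreeGroup X ⧸ ⁅N, N⁆) u₀ hu₀ (Or.inr fun h => hu₀ ?_)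
  change IsOfFinAddOrder (mu {u | u * u₀⁻¹ ∈ Subgroup.zpowers (w : QN N)} (fox N w)) at h
  obtain ⟨n, hn, h1⟩ := isOfFinAddOrder_iff_nsmul_eq_zero.1 h
  exact (smul_eq_zero.1 h1).resolve_left hn.ne'

theorem l1bass_free : L1Bass (FreeGroup X ⧸ ⁅N, N⁆) := by
  intro q e he
  refine ⟨{ConjClasses.mk 1}, ?_, ?_⟩
  · intro C hC g hg
    rw [Finset.mem_singleton] at hC
    rw [hC, ConjClasses.mem_carrier_iff_mk_eq, ConjClasses.mk_eq_mk_iff_isConj] at hg
    have h1 : g = 1 := by
      obtain ⟨c, hc⟩ := isConj_iff.1 hg.symm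
      rw [mul_one, mul_inv_cancel] at hc
      exact hc.symm
    rw [h1]
    exact IsOfFinOrder.one
  · intro C hC
    obtain ⟨g, rfl⟩ := ConjClasses.mk_surjective C
    refine vanish_free N g (fun h => hC ?_) q e he
    rw [h, Finset.mem_singleton]

end Free

end Vale.Agent.P184.H444
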