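import Vale.Agent.P184.H444.Rep
import Vale.Agent.P184.H444.Four

/-!
# Vanishing of traces from almost trivial twists of induced representations
-/

noncomputable section

open Filter Topology

namespace Vale.Agent.P184.H444

/-! ### Cocycles -/

section Cocycles

variable {G X : Type*} [Group G] [MulAction G X]

theorem Coc.one (A : Coc G X) (x : X) : A.fn 1 x = 1 := by
  have h1 := A.mul' 1 1 x
  rw [mul_one, one_smul] at h1
  have h2 : A.fn 1 x ≠ 0 := by
    intro h
    have := A.norm' 1 x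
    rw [h, norm_zero] at this
    exact zero_ne_one this
  have h3 : A.fn 1 x * A.fn 1 x = A.fn 1 x * 1 := by rw [mul_one]; exact h1.symm
  exact mul_left_cancel₀ h2 h3

/-- products of cocycles -/
def Coc.prod (A A' : Coc G X) : Coc G X where
  fn h x := A.fn h x * A'.fn h x
  mul' h k x := by
    rw [A.mul', A'.mul']
    ring
  norm' h x := by rw [norm_mul, A.norm', A'.norm', mul_one]

theorem Coc.conj (A : Coc G X) {g : G} {x : X} (hx : g • x = x) (r : G) :
    A.fn (r * g * r⁻¹) (r • x) = A.fn g x := by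
  rw [A.mul', A.mul', inv_smul_smul, hx]
  have h1 := A.mul' r r⁻¹ (r • x)
  rw [mul_inv_cancel, A.one, inv_smul_smul] at h1
  calc A.fn r x * A.fn g x * A.fn r⁻¹ (r • x) =
        (A.fn r x * A.fn r⁻¹ (r • x)) * A.fn g x := by ring
    _ = A.fn g x := by rw [← h1, one_mul]

/-- the number of points where the cocycle is not trivial -/
def Coc.num (A : Coc G X) (h : G) : ℝ := ({x | A.fn h x ≠ 1}.ncard : ℝ)

theorem Coc.num_mul (A : Coc G X) (hfin : ∀ h, {x | A.fn h x ≠ 1}.Finite) (h k : G) :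
    A.num (h * k) ≤ A.num h + A.num k := by
  have h1 : {x | A.fn (h * k) x ≠ 1} ⊆
      ((fun x => k⁻¹ • x) '' {x | A.fn h x ≠ 1}) ∪ {x | A.fn k x ≠ 1} := by
    intro x hx
    by_cases hk : A.fn k x = 1
    · left
      refine ⟨k • x, ?_, inv_smul_smul k x⟩
      intro h2
      apply hx
      rw [A.mul', h2, hk, mul_one]
    · exact Or.inr hk
  have h2 := Set.ncard_le_ncard h1 (((hfin h).image _).union (hfin k))
  have h3 := Set.ncard_union_le ((fun x => k⁻¹ • x) '' {x | A.fn h x ≠ 1}) {x | A.fn k x ≠ 1}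
  have h4 : ((fun x => k⁻¹ • x) '' {x | A.fn h x ≠ 1}).ncard ≤ {x | A.fn h x ≠ 1}.ncard :=
    Set.ncard_image_le (hfin h)
  unfold Coc.num
  have h5 : {x | A.fn (h * k) x ≠ 1}.ncard ≤
      {x | A.fn h x ≠ 1}.ncard + {x | A.fn k x ≠ 1}.ncard := by omega
  exact_mod_cast h5

end Cocycles

/-! ### Induced representations -/

section Induced

variable {G : Type*} [Group G] (H : Subgroup G)

/-- representatives of cosets -/
def sec (x : G ⧸ H) : G := Quotient.out x

theorem sec_mk (x : G ⧸ H) : ((sec H x : G) : G ⧸ H) = x := QuotientGroup.out_eq' x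

theorem kap_mem (h : G) (x : G ⧸ H) : (sec H (h • x))⁻¹ * (h * sec H x) ∈ H := by
  rw [← QuotientGroup.eq, sec_mk]
  change h • x = h • ((sec H x : G) : G ⧸ H)
  rw [sec_mk]

/-- the cocycle with values in `H` -/
def kap (h : G) (x : G ⧸ H) : H := ⟨(sec H (h • x))⁻¹ * (h * sec H x), kap_mem H h x⟩

theorem kap_mul (h k : G) (x : G ⧸ H) : kap H (h * k) x = kap H h (k • x) * kap H k x := by
  refine Subtype.ext ?_
  change (sec H ((h * k) • x))⁻¹ * (h * k * sec H x) =
    (sec H (h • k • x))⁻¹ * (h * sec H (k • x)) * ((sec H (k • x))⁻¹ * (k * sec H x))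
  rw [mul_smul]
  group

variable {B : Type*} [CommGroup B] (χ : H →* B)

/-- induced cocycle -/
def cocS (σ : B →* Circle) : Coc G (G ⧸ H) where
  fn h x := (σ (χ (kap H h x)) : ℂ)
  mul' h k x := by rw [kap_mul, map_mul, map_mul, Circle.coe_mul]
  norm' h x := Circle.norm_coe _

variable {H}

/-- pairs `(h, x)` such that `h` corresponds at `x` to a conjugate of `g` -/
def PP (g : H) (z : G × (G ⧸ H)) : Prop :=
  ∃ r : G, (r : G ⧸ H) = z.2 ∧ r * g * r⁻¹ = z.1

theorem pp_iff {g : H} (hconj : ∀ v : H, χ v = χ g → IsConj g v) (z : G × (G ⧸ H)) :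
    (χ (kap H z.1 z.2) = χ g ∧ z.1 • z.2 = z.2) ↔ PP g z := by
  constructor
  · rintro ⟨h1, h2⟩
    obtain ⟨c, hc⟩ := isConj_iff.1 (hconj _ h1)
    have hc' : (c : G) * g * (c : G)⁻¹ = (sec H (z.1 • z.2))⁻¹ * (z.1 * sec H z.2) :=
      congrArg Subtype.val hc
    refine ⟨sec H z.2 * c, ?_, ?_⟩
    · rw [QuotientGroup.mk_mul_of_mem _ c.2, sec_mk]
    · rw [h2] at hc'
      calc sec H z.2 * c * g * (sec H z.2 * c)⁻¹ =
            sec H z.2 * ((c : G) * g * (c : G)⁻¹) * (sec H z.2)⁻¹ := by group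
        _ = z.1 := by
          rw [hc']
          group
  · rintro ⟨r, hr, hg⟩
    have hfix : z.1 • z.2 = z.2 := by
      rw [← hr, ← hg]
      change ((r * g * r⁻¹ * r : G) : G ⧸ H) = (r : G ⧸ H)
      rw [inv_mul_cancel_right, QuotientGroup.mk_mul_of_mem _ g.2]
    refine ⟨?_, hfix⟩
    have hu : r⁻¹ * sec H z.2 ∈ H := by
      rw [← QuotientGroup.eq, sec_mk, hr]
    have h3 : kap H z.1 z.2 = (⟨_, hu⟩ : H)⁻¹ * g * ⟨_, hu⟩ := by
      refine Subtype.ext ?_
      change (sec H (z.1 • z.2))⁻¹ * (z.1 * sec H z.2) =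
        (r⁻¹ * sec H z.2)⁻¹ * g * (r⁻¹ * sec H z.2)
      rw [hfix, ← hg]
      group
    rw [h3, map_mul, map_mul, map_inv, mul_comm, mul_inv_cancel_left]

theorem PP.fn {g : H} {z : G × (G ⧸ H)} (h : PP g z) (γ : Coc G (G ⧸ H)) :
    γ.fn z.1 z.2 = γ.fn g ((1 : G) : G ⧸ H) := by
  obtain ⟨r, hr, hg⟩ := h
  have h1 : (g : G) • ((1 : G) : G ⧸ H) = ((1 : G) : G ⧸ H) := by
    change ((g * 1 : G) : G ⧸ H) = ((1 : G) : G ⧸ H)
    rw [QuotientGroup.eq]
    simp
  have h2 := γ.conj h1 r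
  have h3 : r • ((1 : G) : G ⧸ H) = z.2 := by
    change ((r * 1 : G) : G ⧸ H) = z.2
    rw [mul_one, hr]
  rw [h3, hg] at h2
  exact h2

theorem pp_smul {g : H} {a : G} {x : G ⧸ H} : PP g (a * g * a⁻¹, x) ↔ PP g ((g : G), a⁻¹ • x) := by
  constructor
  · rintro ⟨r, hr, hg⟩
    change (r : G ⧸ H) = x at hr
    change r * g * r⁻¹ = a * g * a⁻¹ at hg
    refine ⟨a⁻¹ * r, ?_, ?_⟩
    · change ((a⁻¹ * r : G) : G ⧸ H) = a⁻¹ • x
      rw [← hr]
      rfl
    · change a⁻¹ * r * g * (a⁻¹ * r)⁻¹ = g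
      calc a⁻¹ * r * g * (a⁻¹ * r)⁻¹ = a⁻¹ * (r * g * r⁻¹) * a := by group
        _ = g := by rw [hg]; group
  · rintro ⟨r, hr, hg⟩
    change (r : G ⧸ H) = a⁻¹ • x at hr
    change r * g * r⁻¹ = g at hg
    refine ⟨a * r, ?_, ?_⟩
    · change ((a * r : G) : G ⧸ H) = x
      have h1 : ((a * r : G) : G ⧸ H) = a • (r : G ⧸ H) := rfl
      rw [h1, hr, smul_inv_smul]
    · change a * r * g * (a * r)⁻¹ = a * g * a⁻¹
      calc a * r * g * (a * r)⁻¹ = a * (r * g * r⁻¹) * a⁻¹ := by group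
        _ = a * g * a⁻¹ := by rw [hg]

end Induced

/-! ### The theorem -/

section Thm

attribute [local instance] Matrix.linftyOpNormedRing Matrix.linftyOpNormedAlgebra

variable {G : Type*} [Group G] {H : Subgroup G} {B : Type*} [CommGroup B]

theorem fiber_sum {Z : Type*} {a : Z → ℂ} (ha : Summable fun z => ‖a z‖) (β : Z → B) :
    (Summable fun b => ‖∑' z : {z // β z = b}, a z‖) ∧ ∀ σ : B →* Circle,
      ∑' b, (∑' z : {z // β z = b}, a z) * (σ b : ℂ) = ∑' z, a z * (σ (β z) : ℂ) := by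
  have h0 : Summable ((fun z => ‖a z‖) ∘ (Equiv.sigmaFiberEquiv β)) :=
    (Equiv.summable_iff (Equiv.sigmaFiberEquiv β)).2 ha
  have h1 : Summable fun b => ∑' z : {z // β z = b}, ‖a z‖ := h0.sigma
  constructor
  · refine Summable.of_nonneg_of_le (fun _ => norm_nonneg _) (fun b => ?_) h1
    have h2 : Summable fun z : {z // β z = b} => ‖a z‖ := ha.subtype {z | β z = b}
    exact norm_tsum_le_tsum_norm h2
  · intro σ
    have h2 : Summable fun z => a z * (σ (β z) : ℂ) := by
      refine Summable.of_norm_bounded ha fun z => ?_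
      rw [norm_mul, Circle.norm_coe, mul_one]
    have h3 : Summable ((fun z => a z * (σ (β z) : ℂ)) ∘ (Equiv.sigmaFiberEquiv β)) :=
      (Equiv.summable_iff (Equiv.sigmaFiberEquiv β)).2 h2
    have h4 := (Equiv.sigmaFiberEquiv β).tsum_eq fun z => a z * (σ (β z) : ℂ)
    rw [← h4]
    refine Eq.trans ?_ h3.tsum_sigma.symm
    refine tsum_congr fun b => ?_
    rw [← tsum_mul_right]
    refine tsum_congr fun z => ?_
    change a z.1 * (σ b : ℂ) = a z.1 * (σ (β z.1) : ℂ)
    rw [z.2]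

open Classical in
theorem pp_sum {g : H} {t : G → ℂ}
    (hs : Summable fun z : G × (G ⧸ H) => if PP g z then t z.1 else 0)
    (h0 : ∑' z : G × (G ⧸ H), (if PP g z then t z.1 else 0) = 0) :
    ∑' h, (if ConjClasses.mk h = ConjClasses.mk (g : G) then t h else 0) = 0 := by
  set D : G → Set (G ⧸ H) := fun h => {x | PP g (h, x)} with hD
  have hDe : ∀ a : G, Nonempty (D (a * g * a⁻¹) ≃ D (g : G)) := by
    intro a
    refine ⟨⟨fun x => ⟨a⁻¹ • x.1, pp_smul.1 x.2⟩, fun x => ⟨a • x.1, ?_⟩, fun x => ?_, fun x => ?_⟩⟩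
    · refine pp_smul.2 ?_
      rw [inv_smul_smul]
      exact x.2
    · exact Subtype.ext (smul_inv_smul a x.1)
    · exact Subtype.ext (inv_smul_smul a x.1)
  have hne : Nonempty (D (g : G)) :=
    ⟨⟨((1 : G) : G ⧸ H), 1, rfl, by rw [one_mul, inv_one, mul_one]⟩⟩
  have h2 : ∀ h, ∑' x, (if PP g (h, x) then t h else 0) = Nat.card (D h) • t h := by
    intro h
    rw [← tsum_const, tsum_subtype (D h) fun _ => t h]
    refine tsum_congr fun x => ?_
    rw [Set.indicator_apply]
    rfl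
  rw [hs.tsum_prod] at h0
  have h3 : ∑' h, Nat.card (D h) • t h = 0 := by
    rw [← h0]
    exact tsum_congr fun h => (h2 h).symm
  have hconj : ∀ h, ConjClasses.mk h = ConjClasses.mk (g : G) → ∃ a, a * g * a⁻¹ = h := by
    intro h hh
    exact isConj_iff.1 (ConjClasses.mk_eq_mk_iff_isConj.1 hh).symm
  rcases finite_or_infinite (D (g : G)) with hF | hF
  · have h4 : ∀ h, Nat.card (D h) • t h = Nat.card (D (g : G)) •
        (if ConjClasses.mk h = ConjClasses.mk (g : G) then t h else 0) := by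
      intro h
      split_ifs with hh
      · obtain ⟨a, rfl⟩ := hconj h hh
        obtain ⟨e⟩ := hDe a
        rw [Nat.card_congr e]
      · have h5 : IsEmpty (D h) := by
          refine ⟨fun x => hh ?_⟩
          obtain ⟨r, _, hr⟩ := x.2
          exact (ConjClasses.mk_eq_mk_iff_isConj.2 (isConj_iff.2 ⟨r, hr⟩)).symm
        rw [Nat.card_of_isEmpty, zero_smul, smul_zero]
    rw [tsum_congr h4] at h3
    simp only [nsmul_eq_mul] at h3
    rw [tsum_mul_left] at h3
    refine (mul_eq_zero.1 h3).resolve_left ?_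
    exact_mod_cast Nat.card_pos.ne'
  · have h4 : ∀ h, (if ConjClasses.mk h = ConjClasses.mk (g : G) then t h else 0) = 0 := by
      intro h
      split_ifs with hh
      · obtain ⟨a, rfl⟩ := hconj h hh
        obtain ⟨e⟩ := hDe a
        have hI : Infinite (D (a * g * a⁻¹)) := e.infinite_iff.2 hF
        have h5 := hs.prod_factor (a * g * a⁻¹)
        have h6 : Summable fun _ : D (a * g * a⁻¹) => t (a * g * a⁻¹) := by
          refine (h5.subtype (D (a * g * a⁻¹))).congr fun x => ?_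
          exact if_pos x.2
        exact (summable_const_iff _).1 h6
      · rfl
    rw [tsum_congr h4, tsum_zero]

theorem vanish_of_twist (χ : H →* B) (γ : Coc G (G ⧸ H))
    (hfin : ∀ h, {x | γ.fn h x ≠ 1}.Finite) (g : H) (hg : γ.fn g ((1 : G) : G ⧸ H) ≠ 1)
    (hord : ¬ IsOfFinOrder (χ g)) (hconj : ∀ v : H, χ v = χ g → IsConj g v) :
    VanishesAt (g : G) := by
  classical
  intro q e he
  obtain ⟨ε, hε, f, hf, hdec, hτ⟩ := exists_decay γ.num (fun h => Nat.cast_nonneg _)
    (γ.num_mul hfin) e he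
  rw [← hτ]
  have hfs := toFn_summable hf
  have hfc := toFn_conv hf
  set F := toFn f with hF
  have hs : Summable fun h => ‖F h‖ * γ.num h := by
    refine Summable.of_nonneg_of_le (fun h => mul_nonneg (norm_nonneg _) (Nat.cast_nonneg _))
      (fun h => ?_) (hdec.mul_left ε⁻¹)
    have h1 : ε * γ.num h ≤ Real.exp (ε * γ.num h) := by
      have := Real.add_one_le_exp (ε * γ.num h)
      linarith
    have h2 : γ.num h ≤ ε⁻¹ * Real.exp (ε * γ.num h) := by
      rw [inv_mul_eq_div, le_div_iff₀ hε, mul_comm]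
      exact h1
    calc ‖F h‖ * γ.num h ≤ ‖F h‖ * (ε⁻¹ * Real.exp (ε * γ.num h)) :=
          mul_le_mul_of_nonneg_left h2 (norm_nonneg _)
      _ = ε⁻¹ * (‖F h‖ * Real.exp (ε * γ.num h)) := by ring
  -- comparison of the twisted cocycles
  have hset : ∀ (σ : B →* Circle) h, {x | ((cocS H χ σ).prod γ).fn h x ≠ (cocS H χ σ).fn h x} =
      {x | γ.fn h x ≠ 1} := by
    intro σ h
    ext x
    have h1 : (cocS H χ σ).fn h x ≠ 0 := by
      intro h2
      have := (cocS H χ σ).norm' h x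
      rw [h2, norm_zero] at this
      exact zero_ne_one this
    change ¬ ((cocS H χ σ).fn h x * γ.fn h x = (cocS H χ σ).fn h x) ↔ ¬ (γ.fn h x = 1)
    exact not_congr ⟨fun h2 => mul_left_cancel₀ h1 (by rw [h2, mul_one]),
      fun h2 => by rw [h2, mul_one]⟩
  have hfin' : ∀ (σ : B →* Circle) h,
      {x | ((cocS H χ σ).prod γ).fn h x ≠ (cocS H χ σ).fn h x}.Finite := fun σ h => by
    rw [hset σ h]
    exact hfin h
  have hs' : ∀ σ : B →* Circle, Summable fun h => ‖F h‖ *
      ({x | ((cocS H χ σ).prod γ).fn h x ≠ (cocS H χ σ).fn h x}.ncard : ℝ) := fun σ => by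
    simp only [hset σ]
    exact hs
  set t : G → ℂ := fun h => ∑ j, F h j j with ht
  set a : G × (G ⧸ H) → ℂ := fun z =>
    if z.1 • z.2 = z.2 then t z.1 * (γ.fn z.1 z.2 - 1) else 0 with ha
  have htn : ∀ h, ‖t h‖ ≤ q * ‖F h‖ := by
    intro h
    refine (norm_sum_le _ _).trans ?_
    refine (Finset.sum_le_sum fun j _ => norm_entry_le (F h) j j).trans ?_
    rw [Finset.sum_const, Finset.card_univ, Fintype.card_fin, nsmul_eq_mul]
  have has : Summable fun z => ‖a z‖ := by
    have h1 := diff_summable _ _ (hfin' 1) (hs' 1)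
    refine Summable.of_nonneg_of_le (fun _ => norm_nonneg _) (fun z => ?_) (h1.mul_left (q : ℝ))
    have h2 : ((cocS H χ 1).prod γ).fn z.1 z.2 - (cocS H χ 1).fn z.1 z.2 = γ.fn z.1 z.2 - 1 := by
      have h3 : (cocS H χ 1).fn z.1 z.2 = 1 := by
        change (((1 : B →* Circle) (χ (kap H z.1 z.2)) : Circle) : ℂ) = 1
        rw [MonoidHom.one_apply, Circle.coe_one]
      change (cocS H χ 1).fn z.1 z.2 * γ.fn z.1 z.2 - (cocS H χ 1).fn z.1 z.2 = _
      rw [h3, one_mul]
    rw [h2, ha]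
    dsimp only
    split_ifs
    · rw [norm_mul, ← mul_assoc]
      exact mul_le_mul_of_nonneg_right (htn _) (norm_nonneg _)
    · rw [norm_zero]
      positivity
  set β : G × (G ⧸ H) → B := fun z => χ (kap H z.1 z.2) with hβ
  obtain ⟨hc1, hc2⟩ := fiber_sum has β
  have hint : ∀ σ : B →* Circle, ∃ n : ℤ,
      ∑' b, (∑' z : {z // β z = b}, a z) * (σ b : ℂ) = n := by
    intro σ
    obtain ⟨n, hn⟩ := int_terms _ _ (hfin' σ) (hs' σ) hfs hfc
    refine ⟨n, ?_⟩
    rw [hc2 σ, ← hn]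
    refine tsum_congr fun z => ?_
    have h3 : ((cocS H χ σ).prod γ).fn z.1 z.2 - (cocS H χ σ).fn z.1 z.2 =
        (γ.fn z.1 z.2 - 1) * (σ (β z) : ℂ) := by
      change (σ (β z) : ℂ) * γ.fn z.1 z.2 - (σ (β z) : ℂ) = _
      ring
    rw [h3, ha]
    dsimp only
    split_ifs
    · ring
    · rw [zero_mul]
  have hzero := int_zero hc1 hint hord
  set y : ℂ := γ.fn g ((1 : G) : G ⧸ H) - 1 with hy
  have hy0 : y ≠ 0 := sub_ne_zero.2 hg
  have hkey : ∀ z, (if PP g z then t z.1 else 0) * y =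
      Set.indicator {z | β z = χ g} a z := by
    intro z
    rw [Set.indicator_apply]
    by_cases hz : PP g z
    · obtain ⟨h1, h2⟩ := (pp_iff χ hconj z).2 hz
      have h1' : z ∈ {z | β z = χ g} := h1
      rw [if_pos hz, if_pos h1', ha]
      dsimp only
      rw [if_pos h2, hz.fn γ]
    · rw [if_neg hz, zero_mul]
      split_ifs with h1
      · rw [ha]
        dsimp only
        rw [if_neg]
        intro h2
        exact hz ((pp_iff χ hconj z).1 ⟨h1, h2⟩)
      · rfl
  have hsum : Summable fun z : G × (G ⧸ H) => if PP g z then t z.1 else 0 := by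
    have h1 : Summable fun z : G × (G ⧸ H) => (if PP g z then t z.1 else 0) * y := by
      simp only [hkey]
      exact has.of_norm.indicator _
    exact (summable_mul_right_iff hy0).1 h1
  have hz0 : ∑' z : G × (G ⧸ H), (if PP g z then t z.1 else 0) = 0 := by
    have h1 : (∑' z : G × (G ⧸ H), (if PP g z then t z.1 else 0)) * y = 0 := by
      rw [← tsum_mul_right, tsum_congr hkey, ← tsum_subtype]
      exact hzero
    exact (mul_eq_zero.1 h1).resolve_right hy0
  have hfinal := pp_sum hsum hz0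
  rw [tau_eq]
  rw [← hfinal]
  have h5 := tsum_subtype {h : G | ConjClasses.mk h = ConjClasses.mk (g : G)}
    (fun h => ∑ i, f i i h)
  refine h5.trans (tsum_congr fun h => ?_)
  rw [Set.indicator_apply]
  rfl

end Thm

end Vale.Agent.P184.H444
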