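import Vale.Agent.P184.H444.Eq
import Vale.Agent.P184.H444.Int
import Vale.Agent.P184.Bdl.B3

/-!
# Traces of differences of equivariant idempotent operators
-/

noncomputable section

open Filter Topology

namespace Vale.Agent.P184.H444

variable {L : Type*} [Group L]

/-- The class of `w` as a set. -/
def cls (w : L) : Set L := {m | ConjClasses.mk m = ConjClasses.mk w}

theorem cls_comm (w : L) (a b : L) : a * b ∈ cls w ↔ b * a ∈ cls w := by
  have h : ConjClasses.mk (a * b) = ConjClasses.mk (b * a) := by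
    rw [ConjClasses.mk_eq_mk_iff_isConj]
    exact isConj_iff.2 ⟨b, by group⟩
  change ConjClasses.mk (a * b) = _ ↔ ConjClasses.mk (b * a) = _
  rw [h]

/-! ### Finite index sets -/

section Finite

variable {T : Type*} [Fintype T]

theorem ll_of_fintype {I' : Type*} (D : V (T × L) →L[ℂ] V (I' × L)) : LL D := Summable.of_finite

/-- the matrix of an operator -/
def mat (f : V (T × L) →L[ℂ] V (T × L)) :
    Matrix (Fin (Fintype.card T)) (Fin (Fintype.card T)) (L → ℂ) := fun i j m =>
  f (dl ((Fintype.equivFin T).symm j, 1)) ((Fintype.equivFin T).symm i, m)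

theorem mat_idem {f : V (T × L) →L[ℂ] V (T × L)} (hf : Eqv f) (hff : f * f = f) :
    IsIdem (mat f) := by
  set e := (Fintype.equivFin T).symm with he
  refine ⟨fun i j => slice_summable (f (dl (e j, 1))) (e i), fun i j g => ?_⟩
  have h1 : ∀ k, ∑' h, mat f i k h * mat f k j (h⁻¹ * g) =
      ∑' m, f (dl (e j, 1)) (e k, m) * f (dl (e k, m)) (e i, g) := by
    intro k
    let ε : L ≃ L :=
      { toFun := fun m => g * m⁻¹
        invFun := fun h => h⁻¹ * g
        left_inv := fun m => by simp only [mul_inv_rev, inv_inv, inv_mul_cancel_right]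
        right_inv := fun h => by simp only [mul_inv_rev, inv_inv, mul_inv_cancel_left] }
    rw [← ε.tsum_eq]
    refine tsum_congr fun m => ?_
    change f (dl (e k, 1)) (e i, g * m⁻¹) * f (dl (e j, 1)) (e k, (g * m⁻¹)⁻¹ * g) = _
    rw [hf.coord (e k) m (e i) g, mul_comm, mul_inv_rev, inv_inv, inv_mul_cancel_right]
  have h2 := coordHasSum f (f (dl (e j, 1))) (e i, g)
  have h3 : f (f (dl (e j, 1))) = f (dl (e j, 1)) := by
    change (f * f) (dl (e j, 1)) = _
    rw [hff]
  rw [h3] at h2
  have h4 := h2.summable.tsum_prod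
  rw [h2.tsum_eq] at h4
  rw [Finset.sum_congr rfl fun k _ => h1 k]
  change _ = f (dl (e j, 1)) (e i, g)
  rw [h4, tsum_fintype, ← e.sum_comp]

theorem trC_finite {f : V (T × L) →L[ℂ] V (T × L)} (hf : Eqv f) (hff : f * f = f) {w : L}
    (hw : VanishesAt w) : trC (cls w) f = 0 := by
  classical
  set e := (Fintype.equivFin T).symm with he
  have h1 := hw _ _ (mat_idem hf hff)
  have h2 := tsum_subtype {m : L | ConjClasses.mk m = ConjClasses.mk w} fun m => ∑ i, mat f i i m
  rw [tau_eq] at h1
  change ∑' m : {m : L | ConjClasses.mk m = ConjClasses.mk w}, ∑ i, mat f i i m = 0 at h1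
  rw [h2] at h1
  have hs := diag_summable (ll_of_fintype f)
  have hs2 : Summable fun p : T × L => if p.2 ∈ cls w then f (dl (p.1, 1)) p else 0 := by
    refine Summable.of_norm_bounded hs fun p => ?_
    split_ifs
    · exact le_rfl
    · rw [norm_zero]
      exact norm_nonneg (f (dl (p.1, 1)) p)
  unfold trC
  rw [hs2.tsum_prod, tsum_fintype, ← e.sum_comp]
  refine Eq.trans ?_ h1
  have h3 : ∀ m : L, Set.indicator {m : L | ConjClasses.mk m = ConjClasses.mk w}
      (fun m => ∑ i, mat f i i m) m = ∑ i, if m ∈ cls w then f (dl (e i, 1)) (e i, m) else 0 := by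
    intro m
    rw [Set.indicator_apply]
    by_cases hm : ConjClasses.mk m = ConjClasses.mk w
    · have hm1 : m ∈ {m : L | ConjClasses.mk m = ConjClasses.mk w} := hm
      have hm2 : m ∈ cls w := hm
      rw [if_pos hm1]
      refine Finset.sum_congr rfl fun i _ => ?_
      rw [if_pos hm2]
      rfl
    · have hm1 : m ∉ {m : L | ConjClasses.mk m = ConjClasses.mk w} := hm
      have hm2 : m ∉ cls w := hm
      rw [if_neg hm1]
      refine (Finset.sum_eq_zero fun i _ => ?_).symm
      rw [if_neg hm2]
  rw [tsum_congr h3, Summable.tsum_finsetSum]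
  intro i _
  exact hs2.prod_factor (e i)

end Finite

/-! ### Compression -/

section Compress

variable {I : Type*} (S : Finset I)

open Classical in
/-- restriction to `S` -/
def ps : V (I × L) →L[ℂ] V (S × L) :=
  cols (fun p => if h : p.1 ∈ S then dl (⟨p.1, h⟩, p.2) else 0) 1 fun p => by
    split_ifs
    · rw [dl_norm]
    · rw [norm_zero]
      exact zero_le_one

/-- inclusion -/
def js : V (S × L) →L[ℂ] V (I × L) :=
  cols (fun p => dl (p.1.1, p.2)) 1 fun p => by rw [dl_norm]

omit [Group L] in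
theorem js_dl (p : S × L) : js S (dl p) = (dl (p.1.1, p.2) : V (I × L)) := cols_dl _ _ _ _

omit [Group L] in
open Classical in
theorem ps_dl (p : I × L) : ps S (dl p) =
    if h : p.1 ∈ S then (dl (⟨p.1, h⟩, p.2) : V (S × L)) else 0 := cols_dl _ _ _ _

omit [Group L] in
theorem js_norm : ‖(js S : V (S × L) →L[ℂ] V (I × L))‖ ≤ 1 :=
  op_norm_le _ zero_le_one fun p => by rw [js_dl, dl_norm]

omit [Group L] in
theorem ps_norm : ‖(ps S : V (I × L) →L[ℂ] V (S × L))‖ ≤ 1 :=
  op_norm_le _ zero_le_one fun p => by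
    rw [ps_dl]
    split_ifs
    · rw [dl_norm]
    · rw [norm_zero]
      exact zero_le_one

omit [Group L] in
theorem ps_js (v : V (S × L)) : ps S (js S v) = v := by
  have h : (ps S).comp (js S) = ContinuousLinearMap.id ℂ (V (S × L)) := op_ext fun p => by
    change ps S (js S (dl p)) = dl p
    rw [js_dl, ps_dl, dif_pos p.1.2]
  exact DFunLike.congr_fun h v

theorem eqv_js : Eqv (js S : V (S × L) →L[ℂ] V (I × L)) := eqv_of_dl fun l p => by
  have hp : p = (p.1, p.2) := rfl
  rw [hp, rtr_dl, js_dl, js_dl, rtr_dl]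

theorem eqv_ps : Eqv (ps S : V (I × L) →L[ℂ] V (S × L)) := eqv_of_dl fun l p => by
  have hp : p = (p.1, p.2) := rfl
  rw [hp, rtr_dl, ps_dl, ps_dl]
  by_cases h : p.1 ∈ S
  · rw [dif_pos h, dif_pos h, rtr_dl]
  · rw [dif_neg h, dif_neg h, map_zero]

omit [Group L] in
theorem ps_coord (v : V (I × L)) (a : S) (m : L) : ps S v (a, m) = v (a.1, m) := by
  have h : (cf (a, m)).comp (ps S) = cf ((a.1, m) : I × L) := op_ext fun p => by
    change ps S (dl p) (a, m) = (dl p : V (I × L)) (a.1, m)
    rw [ps_dl]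
    by_cases h1 : (a.1, m) = p
    · have h2 : p.1 ∈ S := by rw [← h1]; exact a.2
      rw [dif_pos h2]
      have h3 : ((⟨p.1, h2⟩, p.2) : S × L) = (a, m) := by
        refine Prod.ext (Subtype.ext ?_) ?_
        · exact (congrArg Prod.fst h1).symm
        · exact (congrArg Prod.snd h1).symm
      rw [h3, dl_same, h1, dl_same]
    · rw [dl_ne h1]
      split_ifs with h2
      · rw [dl_ne]
        intro h3
        apply h1
        refine Prod.ext ?_ ?_
        · exact congrArg (fun z : S × L => z.1.1) h3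
        · exact congrArg (fun z : S × L => z.2) h3
      · rfl
  exact DFunLike.congr_fun h v

omit [Group L] in
open Classical in
theorem jsps_coord (v : V (I × L)) (p : I × L) :
    js S (ps S v) p = if p.1 ∈ S then v p else 0 := by
  have h : (cf p).comp ((js S).comp (ps S)) = if p.1 ∈ S then cf p else 0 := op_ext fun z => by
    change js S (ps S (dl z)) p = (if p.1 ∈ S then cf p else 0 : V (I × L) →L[ℂ] ℂ) (dl z)
    rw [ps_dl]
    by_cases h1 : p = z
    · rw [h1]
      by_cases h2 : z.1 ∈ S
      · rw [dif_pos h2, if_pos h2, js_dl, cf_apply]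
      · rw [dif_neg h2, if_neg h2, map_zero]
        rfl
    · have h3 : (js S (if h : z.1 ∈ S then (dl (⟨z.1, h⟩, z.2) : V (S × L)) else 0)) p = 0 := by
        split_ifs with h2
        · rw [js_dl]
          exact dl_ne h1
        · rw [map_zero]
          rfl
      rw [h3]
      split_ifs
      · rw [cf_apply, dl_ne h1]
      · rfl
  have h2 := DFunLike.congr_fun h v
  change js S (ps S v) p = (if p.1 ∈ S then cf p else 0 : V (I × L) →L[ℂ] ℂ) v at h2
  rw [h2]
  split_ifs
  · rfl
  · rfl

omit [Group L] in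
open Classical in
theorem tail_norm (v : V (I × L)) :
    ‖js S (ps S v) - v‖ = ∑' p : I × L, if p.1 ∈ S then 0 else ‖v p‖ := by
  rw [v_norm (js S (ps S v) - v)]
  refine tsum_congr fun p => ?_
  have h1 : (js S (ps S v) - v) p = js S (ps S v) p - v p := rfl
  rw [h1, jsps_coord]
  split_ifs
  · rw [sub_self, norm_zero]
  · rw [zero_sub, norm_neg]

theorem trC_add {I : Type*} {C : Set L} {D D' : V (I × L) →L[ℂ] V (I × L)} (hD : LL D)
    (hD' : LL D') : trC C (D + D') = trC C D + trC C D' := by
  classical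
  have h : ∀ {D : V (I × L) →L[ℂ] V (I × L)}, LL D →
      Summable fun p : I × L => if p.2 ∈ C then D (dl (p.1, 1)) p else 0 := by
    intro D hD
    refine Summable.of_norm_bounded (diag_summable hD) fun p => ?_
    split_ifs
    · exact le_rfl
    · rw [norm_zero]
      exact norm_nonneg (D (dl (p.1, 1)) p)
  unfold trC
  rw [← (h hD).tsum_add (h hD')]
  refine tsum_congr fun p => ?_
  split_ifs
  · rfl
  · rw [add_zero]

theorem eqv_newton {I : Type*} {y : V (I × L) →L[ℂ] V (I × L)} (hy : Eqv y) :
    Eqv (newton y) := by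
  have hn : newton y = y * y + y * y + y * y - (y * y * y + y * y * y) := by
    unfold newton
    noncomm_ring
  have h2 : Eqv (y * y) := hy.comp hy
  have h3 : Eqv (y * y * y) := h2.comp hy
  rw [hn]
  exact ((h2.add h2).add h2).sub (h3.add h3)

/-- choice of the finite set -/
theorem exists_set {I : Type*} {D : V (I × L) →L[ℂ] V (I × L)} (hD : LL D) {ε : ℝ}
    (hε : 0 < ε) (i₀ : I) : ∃ S : Finset I, i₀ ∈ S ∧
      (Summable fun i => ‖js S (ps S (D (dl (i, 1)))) - D (dl (i, 1))‖) ∧
      ∑' i, ‖js S (ps S (D (dl (i, 1)))) - D (dl (i, 1))‖ ≤ ε ∧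
      ∀ C : Set L, ‖trC C D - ∑' p : S × L, Set.indicator C
        (fun m => D (dl (p.1.1, 1)) (p.1.1, m)) p.2‖ ≤ ε := by
  classical
  have hu0 : (0 : I × (I × L) → ℝ) ≤ fun z : I × (I × L) => ‖D (dl (z.1, 1)) z.2‖ :=
    fun z => norm_nonneg (D (dl (z.1, 1)) z.2)
  have hin : ∀ i, Summable fun p : I × L => ‖D (dl (i, 1)) p‖ := fun i =>
    v_summable (D (dl (i, 1)))
  have hus : Summable fun z : I × (I × L) => ‖D (dl (z.1, 1)) z.2‖ := by
    refine (summable_prod_of_nonneg hu0).2 ⟨hin, ?_⟩
    refine Summable.congr hD fun i => ?_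
    exact v_norm (D (dl (i, 1)))
  obtain ⟨T, hT1, hT2⟩ := exists_fin hus hε
  set S : Finset I := insert i₀ (T.image fun t => t.2.1) with hS
  have hTS : ∀ z : I × (I × L), z.2.1 ∉ S → z ∉ T := by
    intro z hz hzT
    exact hz (Finset.mem_insert_of_mem (Finset.mem_image.2 ⟨z, hzT, rfl⟩))
  set t : I × (I × L) → ℝ := fun z =>
    Set.indicator (T : Set (I × (I × L)))ᶜ (fun z : I × (I × L) => ‖D (dl (z.1, 1)) z.2‖) z with ht
  have ht0 : 0 ≤ t := fun z => Set.indicator_nonneg (fun z _ => norm_nonneg (D (dl (z.1, 1)) z.2)) z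
  have hle : ∀ z : I × (I × L), (if z.2.1 ∈ S then 0 else ‖D (dl (z.1, 1)) z.2‖) ≤ t z := by
    intro z
    split_ifs with h
    · exact ht0 z
    · rw [ht]
      dsimp only
      rw [Set.indicator_of_mem (show z ∈ (T : Set (I × (I × L)))ᶜ from hTS z h)]
  have h1 : Summable fun z : I × (I × L) => if z.2.1 ∈ S then 0 else ‖D (dl (z.1, 1)) z.2‖ := by
    refine Summable.of_nonneg_of_le (fun z => ?_) hle hT1
    split_ifs
    · exact le_rfl
    · exact norm_nonneg (D (dl (z.1, 1)) z.2)
  have h2 : ∀ i, ∑' p : I × L, (if p.1 ∈ S then 0 else ‖D (dl (i, 1)) p‖) =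
      ‖js S (ps S (D (dl (i, 1)))) - D (dl (i, 1))‖ := fun i => (tail_norm S (D (dl (i, 1)))).symm
  have h3 : ∑' z : I × (I × L), (if z.2.1 ∈ S then 0 else ‖D (dl (z.1, 1)) z.2‖) ≤ ε :=
    (Summable.tsum_le_tsum hle h1 hT1).trans hT2.le
  refine ⟨S, Finset.mem_insert_self _ _, ?_, ?_, fun C => ?_⟩
  · have h4 := h1.prod
    exact h4.congr fun i => h2 i
  · rw [h1.tsum_prod] at h3
    refine le_trans (le_of_eq ?_) h3
    exact tsum_congr fun i => (h2 i).symm
  · have hd := diag_summable hD
    set a : I × L → ℂ := fun p => if p.2 ∈ C then D (dl (p.1, 1)) p else 0 with ha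
    have has : Summable a := by
      refine Summable.of_norm_bounded hd fun p => ?_
      rw [ha]
      dsimp only
      split_ifs
      · exact le_rfl
      · rw [norm_zero]
        exact norm_nonneg (D (dl (p.1, 1)) p)
    set b : I × L → ℂ := fun p => if p.1 ∈ S then a p else 0 with hb
    have hbs : Summable b := by
      refine Summable.of_norm_bounded has.norm fun p => ?_
      rw [hb]
      dsimp only
      split_ifs
      · exact le_rfl
      · rw [norm_zero]
        exact norm_nonneg (a p)
    have h5 : ∑' p : S × L, Set.indicator C (fun m => D (dl (p.1.1, 1)) (p.1.1, m)) p.2 =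
        ∑' p, b p := by
      have hinj : Function.Injective fun p : S × L => ((p.1.1, p.2) : I × L) := by
        rintro ⟨⟨i, hi⟩, m⟩ ⟨⟨i', hi'⟩, m'⟩ h
        have h6 : i = i' := congrArg Prod.fst h
        have h7 : m = m' := congrArg Prod.snd h
        subst h6
        subst h7
        rfl
      have hsup : Function.support b ⊆ Set.range fun p : S × L => ((p.1.1, p.2) : I × L) := by
        intro p hp
        by_cases hpS : p.1 ∈ S
        · exact ⟨(⟨p.1, hpS⟩, p.2), rfl⟩
        · exact absurd (if_neg hpS) hp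
      rw [← hinj.tsum_eq hsup]
      refine tsum_congr fun p => ?_
      rw [Set.indicator_apply, hb]
      dsimp only
      rw [if_pos p.1.2]
    rw [h5]
    unfold trC
    rw [← has.tsum_sub hbs]
    have h6 : ∀ p : I × L, ‖a p - b p‖ ≤ t (p.1, p) := by
      intro p
      rw [hb]
      dsimp only
      by_cases hp : p.1 ∈ S
      · rw [if_pos hp, sub_self, norm_zero]
        exact ht0 _
      · rw [if_neg hp, sub_zero]
        refine le_trans ?_ (hle (p.1, p))
        rw [if_neg hp, ha]
        dsimp only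
        split_ifs
        · exact le_rfl
        · rw [norm_zero]
          exact norm_nonneg (D (dl (p.1, 1)) p)
    have hinj2 : Function.Injective fun p : I × L => ((p.1, p) : I × (I × L)) := by
      intro p p' h
      exact congrArg Prod.snd h
    have h7 : Summable fun p : I × L => t (p.1, p) := Summable.comp_injective hT1 hinj2
    refine (tsum_of_norm_bounded h7.hasSum h6).trans (le_trans ?_ hT2.le)
    exact tsum_comp_le_tsum_of_inj hT1 ht0 hinj2

end Compress

end Vale.Agent.P184.H444
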