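import Vale.Agent.P184.H444.Gen

/-!
# Images of idempotent matrices under homomorphisms of groups
-/

noncomputable section

open Filter Topology

namespace Vale.Agent.P184.H444

variable {G Q : Type*} [Group G] [Group Q] (π : G →* Q)

/-- the equivalence used for the product of the images -/
def pushEquiv (u : Q) : (Σ v : Q, {h : G // π h = v} × {l : G // π l = v⁻¹ * u}) ≃
    {k : G // π k = u} × G where
  toFun p := (⟨p.2.1.1 * p.2.2.1, by rw [map_mul, p.2.1.2, p.2.2.2, mul_inv_cancel_left]⟩, p.2.1.1)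
  invFun p := ⟨π p.2, ⟨p.2, rfl⟩, ⟨p.2⁻¹ * p.1.1, by rw [map_mul, map_inv, p.1.2]⟩⟩
  left_inv := by
    rintro ⟨v, ⟨h, rfl⟩, ⟨l, hl⟩⟩
    have h1 : h⁻¹ * (h * l) = l := inv_mul_cancel_left h l
    simp only [h1]
  right_inv := by
    rintro ⟨⟨k, hk⟩, h⟩
    have h1 : h * (h⁻¹ * k) = k := mul_inv_cancel_left h k
    simp only [h1]

theorem push_summable {a b : G → ℂ} (ha : Summable fun g => ‖a g‖) (hb : Summable fun g => ‖b g‖)
    (u : Q) : Summable fun p : {k : G // π k = u} × G => a p.2 * b (p.2⁻¹ * p.1) := by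
  have h1 : Summable fun z : G × G => a z.1 * b z.2 :=
    summable_mul_of_summable_norm (f := a) (g := b) ha hb
  have h2 : Function.Injective fun p : {k : G // π k = u} × G =>
      ((p.2, p.2⁻¹ * (p.1 : G)) : G × G) := by
    rintro ⟨⟨k, hk⟩, h⟩ ⟨⟨k', hk'⟩, h'⟩ hp
    have h3 : h = h' := congrArg Prod.fst hp
    have h4 : h⁻¹ * k = h'⁻¹ * k' := congrArg Prod.snd hp
    subst h3
    have h5 : k = k' := mul_left_cancel h4
    subst h5
    rfl
  have h6 : Summable ((fun z : G × G => a z.1 * b z.2) ∘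
      fun p : {k : G // π k = u} × G => ((p.2, p.2⁻¹ * (p.1 : G)) : G × G)) :=
    Summable.comp_injective h1 h2
  exact h6

theorem push_conv {a b : G → ℂ} (ha : Summable fun g => ‖a g‖) (hb : Summable fun g => ‖b g‖)
    (u : Q) : ∑' v, (∑' h : {h // π h = v}, a h) * (∑' l : {l // π l = v⁻¹ * u}, b l) =
      ∑' k : {k // π k = u}, ∑' h, a h * b (h⁻¹ * k) := by
  have h1 := push_summable π ha hb u
  have h2 := (pushEquiv π u).summable_iff.2 h1
  have h3 := h1.tsum_prod
  change ∑' p : {k : G // π k = u} × G, a p.2 * b (p.2⁻¹ * p.1) =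
    ∑' k : {k : G // π k = u}, ∑' h, a h * b (h⁻¹ * k) at h3
  rw [← h3, ← (pushEquiv π u).tsum_eq]
  refine Eq.trans ?_ h2.tsum_sigma.symm
  refine tsum_congr fun v => ?_
  have ha' : Summable fun h : {h // π h = v} => ‖a h‖ := ha.subtype {h | π h = v}
  have hb' : Summable fun l : {l // π l = v⁻¹ * u} => ‖b l‖ := hb.subtype {l | π l = v⁻¹ * u}
  rw [tsum_mul_tsum_of_summable_norm ha' hb']
  refine tsum_congr fun p => ?_
  change a p.1 * b p.2 = a p.1 * b ((p.1 : G)⁻¹ * ((p.1 : G) * p.2))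
  rw [inv_mul_cancel_left]

/-- the image of a matrix -/
def push {q : ℕ} (e : Matrix (Fin q) (Fin q) (G → ℂ)) : Matrix (Fin q) (Fin q) (Q → ℂ) :=
  fun i j u => ∑' g : {g // π g = u}, e i j g

theorem push_norm {a : G → ℂ} (ha : Summable fun g => ‖a g‖) :
    Summable fun u : Q => ‖∑' g : {g // π g = u}, a g‖ := by
  have h0 : Summable ((fun z => ‖a z‖) ∘ (Equiv.sigmaFiberEquiv π)) :=
    (Equiv.summable_iff (Equiv.sigmaFiberEquiv π)).2 ha
  have h1 : Summable fun u => ∑' z : {z // π z = u}, ‖a z‖ := h0.sigma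
  refine Summable.of_nonneg_of_le (fun _ => norm_nonneg _) (fun b => ?_) h1
  have h2 : Summable fun z : {z // π z = b} => ‖a z‖ := ha.subtype {z | π z = b}
  exact norm_tsum_le_tsum_norm h2

theorem push_idem {q : ℕ} {e : Matrix (Fin q) (Fin q) (G → ℂ)} (he : IsIdem e) :
    IsIdem (push π e) := by
  refine ⟨fun i j => push_norm π (he.1 i j), fun i j u => ?_⟩
  have h1 : ∀ k, ∑' v, push π e i k v * push π e k j (v⁻¹ * u) =
      ∑' g : {g // π g = u}, ∑' h, e i k h * e k j (h⁻¹ * g) := fun k =>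
    push_conv π (he.1 i k) (he.1 k j) u
  rw [Finset.sum_congr rfl fun k _ => h1 k, ← Summable.tsum_finsetSum]
  · exact tsum_congr fun g => he.2 i j g
  · intro k _
    exact (push_summable π (he.1 i k) (he.1 k j) u).prod

/-- the equivalence used for the traces of the images -/
def classFib (C : ConjClasses Q) : (Σ y : {y : Q // ConjClasses.mk y = C}, {g : G // π g = y}) ≃
    {g : G // ConjClasses.mk (π g) = C} where
  toFun p := ⟨p.2.1, by rw [p.2.2]; exact p.1.2⟩
  invFun g := ⟨⟨π g.1, g.2⟩, ⟨g.1, rfl⟩⟩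
  left_inv := by
    rintro ⟨⟨y, hy⟩, ⟨g, hg⟩⟩
    change π g = y at hg
    subst hg
    rfl
  right_inv g := rfl

theorem push_tau {q : ℕ} {e : Matrix (Fin q) (Fin q) (G → ℂ)} (he : IsIdem e)
    (C : ConjClasses Q) : tau C (push π e) =
      ∑' g : {g : G // ConjClasses.mk (π g) = C}, ∑ i, e i i g := by
  have hs : Summable fun g => ∑ i, e i i g := summable_sum fun i _ => (he.1 i i).of_norm
  have hs1 : Summable fun g : {g : G // ConjClasses.mk (π g) = C} => ∑ i, e i i g :=
    hs.subtype {g | ConjClasses.mk (π g) = C}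
  have hs2 := (classFib π C).summable_iff.2 hs1
  rw [tau_eq, ← (classFib π C).tsum_eq]
  refine Eq.trans ?_ hs2.tsum_sigma.symm
  refine tsum_congr fun y => ?_
  change ∑ i, ∑' g : {g // π g = y}, e i i g = ∑' g : {g // π g = y}, ∑ i, e i i g
  rw [Summable.tsum_finsetSum]
  intro i _
  exact (he.1 i i).of_norm.subtype {g | π g = y}

/-- Vanishing passes to lifts of elements if the other lifts vanish. -/
theorem tau_push {q : ℕ} {e : Matrix (Fin q) (Fin q) (G → ℂ)} (he : IsIdem e) (x : G)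
    (h : ∀ y : G, IsConj (π x) (π y) → ¬ IsConj x y → VanishesAt y) :
    tau (ConjClasses.mk x) e = tau (ConjClasses.mk (π x)) (push π e) := by
  rw [push_tau π he, tau_eq_pushforward π e he x h]

end Vale.Agent.P184.H444
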