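import Vale.Agent.P184.H444.GitZ
import Vale.Agent.P184.H444.Push

/-!
# Extensions
-/

noncomputable section

open Filter Topology

namespace Vale.Agent.P184.H444

/-- If traces vanish off `K` and `N ∩ K = 1` then Q1 passes from `G/N` to `G`. -/
theorem bass_of_off {G : Type*} [Group G] (K N : Subgroup G) [K.Normal] [N.Normal]
    (hKN : K ⊓ N = ⊥) (hv : ∀ g ∉ K, VanishesAt g) (h : L1Bass (G ⧸ N)) : L1Bass G := by
  classical
  intro q e he
  set π : G →* G ⧸ N := QuotientGroup.mk' N with hπ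
  obtain ⟨F, hF, hF'⟩ := h q _ (push_idem π he)
  have hone : ∀ x ∈ K, π x = 1 → x = 1 := by
    intro x hx h1
    have h2 : x ∈ K ⊓ N := ⟨hx, (QuotientGroup.eq_one_iff x).1 h1⟩
    rw [hKN] at h2
    exact h2
  have hinj : ∀ x ∈ K, ∀ y ∈ K, IsConj (π x) (π y) → IsConj x y := by
    intro x hx y hy h1
    obtain ⟨c, hc⟩ := isConj_iff.1 h1
    obtain ⟨g, rfl⟩ := QuotientGroup.mk'_surjective N c
    refine isConj_iff.2 ⟨g, ?_⟩
    have h2 : g * x * g⁻¹ * y⁻¹ = 1 := by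
      refine hone _ (K.mul_mem (Subgroup.Normal.conj_mem inferInstance x hx g) (K.inv_mem hy)) ?_
      rw [map_mul, map_inv, ← hc, map_mul, map_mul, map_inv, mul_inv_cancel]
    exact mul_inv_eq_one.1 h2
  have htau : ∀ x ∈ K, tau (ConjClasses.mk x) e = tau (ConjClasses.mk (π x)) (push π e) := by
    intro x hx
    exact tau_push π he x fun y hy hne => hv y fun hyK => hne (hinj x hx y hyK hy)
  let A : Set (ConjClasses G) :=
    {C | ∃ x ∈ K, ConjClasses.mk x = C ∧ ConjClasses.mk (π x) ∈ F}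
  have hA : A.Finite := by
    refine Set.Finite.of_injOn (f := ConjClasses.map π) (t := (F : Set (ConjClasses (G ⧸ N))))
      ?_ ?_ F.finite_toSet
    · rintro C ⟨x, _, rfl, hx⟩
      exact hx
    · rintro C ⟨x, hx, rfl, _⟩ C' ⟨y, hy, rfl, _⟩ h1
      have h2 : ConjClasses.mk (π x) = ConjClasses.mk (π y) := h1
      exact ConjClasses.mk_eq_mk_iff_isConj.2
        (hinj x hx y hy (ConjClasses.mk_eq_mk_iff_isConj.1 h2))
  refine ⟨hA.toFinset, fun C hC => ?_, fun C hC => ?_⟩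
  · obtain ⟨x, hx, rfl, hxF⟩ := hA.mem_toFinset.1 hC
    have h1 : IsOfFinOrder (π x) := hF _ hxF _ ConjClasses.mem_carrier_mk
    have h2 : IsOfFinOrder x := by
      obtain ⟨n, hn, h3⟩ := isOfFinOrder_iff_pow_eq_one.1 h1
      rw [← map_pow] at h3
      exact isOfFinOrder_iff_pow_eq_one.2 ⟨n, hn, hone _ (K.pow_mem hx n) h3⟩
    intro g hg
    obtain ⟨c, rfl⟩ := isConj_iff.1 (ConjClasses.mk_eq_mk_iff_isConj.1
      (ConjClasses.mem_carrier_iff_mk_eq.1 hg).symm)
    obtain ⟨n, hn, h3⟩ := isOfFinOrder_iff_pow_eq_one.1 h2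
    refine isOfFinOrder_iff_pow_eq_one.2 ⟨n, hn, ?_⟩
    rw [conj_pow, h3, mul_one, mul_inv_cancel]
  · obtain ⟨x, rfl⟩ := ConjClasses.mk_surjective C
    by_cases hx : x ∈ K
    · rw [htau x hx]
      refine hF' _ fun h1 => hC (hA.mem_toFinset.2 ⟨x, hx, rfl, h1⟩)
    · exact hv x hx q e he

end Vale.Agent.P184.H444
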