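import Vale.Agent.P184.H444.GitA

/-!
# The index theorem for equivariant idempotent operators
-/

noncomputable section

open Filter Topology

namespace Vale.Agent.P184.H444

variable {L : Type*} [Group L]

section Comp

variable {I : Type*}

theorem nontriv (i₀ : I) (S : Finset I) (h : i₀ ∈ S) : Nontrivial (V (S × L)) := by
  refine ⟨⟨dl (⟨i₀, h⟩, 1), 0, fun h1 => ?_⟩⟩
  have h2 := dl_norm ((⟨i₀, h⟩, 1) : S × L)
  rw [h1, norm_zero] at h2
  exact zero_ne_one h2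

theorem comp_close {p₀ D : V (I × L) →L[ℂ] V (I × L)}
    (hp : ∀ (S : Finset I) (v : V (S × L)), js S (ps S (p₀ (js S v))) = p₀ (js S v))
    (hp0 : ∀ (i : I) (m : L), m ≠ 1 → p₀ (dl (i, 1)) (i, m) = 0) (hpe : Eqv p₀)
    (hD : LL D) (hDe : Eqv D) (hZ : (p₀ + D) * (p₀ + D) = p₀ + D) {w : L} (hw : VanishesAt w)
    (hw1 : w ≠ 1) (i₀ : I) {ε : ℝ} (hε : 0 < ε) (hε' : ‖p₀ + D‖ * ε ≤ 1 / 16) :
    ‖trC (cls w) D‖ ≤ (4 * (2 * ‖p₀ + D‖ + 1) * ‖p₀ + D‖ + 1) * ε := by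
  classical
  obtain ⟨S, hi₀, hS1, hS2, hS3⟩ := exists_set hD hε i₀
  have hnt := nontriv (L := L) i₀ S hi₀
  set Z := p₀ + D with hZdef
  have hZe : Eqv Z := hpe.add hDe
  have hZZ : ∀ v, Z (Z v) = Z v := fun v => by
    change (Z * Z) v = Z v
    rw [hZ]
  set z : V (S × L) →L[ℂ] V (S × L) := (ps S).comp (Z.comp (js S)) with hz
  have hze : Eqv z := (eqv_ps S).comp (hZe.comp (eqv_js S))
  have hzn : ‖z‖ ≤ ‖Z‖ := by
    have h1 : ‖z‖ ≤ ‖(ps S : V (I × L) →L[ℂ] V (S × L))‖ * (‖Z‖ *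
        ‖(js S : V (S × L) →L[ℂ] V (I × L))‖) :=
      (ContinuousLinearMap.opNorm_comp_le _ _).trans
        (mul_le_mul_of_nonneg_left (ContinuousLinearMap.opNorm_comp_le _ _)
          (norm_nonneg (ps S : V (I × L) →L[ℂ] V (S × L))))
    have h2 : ‖Z‖ * ‖(js S : V (S × L) →L[ℂ] V (I × L))‖ ≤ ‖Z‖ :=
      mul_le_of_le_one_right (norm_nonneg Z) (js_norm S)
    refine h1.trans (le_trans ?_ h2)
    exact mul_le_of_le_one_left (mul_nonneg (norm_nonneg Z)
      (norm_nonneg (js S : V (S × L) →L[ℂ] V (I × L)))) (ps_norm S)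
  set q : V (S × L) →L[ℂ] V (S × L) := z * z - z with hq
  have hqe : Eqv q := (hze.comp hze).sub hze
  have hqv : ∀ v, q v = ps S (Z (js S (ps S (D (js S v))) - D (js S v))) := by
    intro v
    have h3 : js S (ps S (Z (js S v))) - Z (js S v) = js S (ps S (D (js S v))) - D (js S v) := by
      have h4 : Z (js S v) = p₀ (js S v) + D (js S v) := rfl
      rw [h4, map_add, map_add, hp]
      abel
    calc q v = ps S (Z (js S (ps S (Z (js S v))))) - ps S (Z (js S v)) := rfl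
      _ = ps S (Z (js S (ps S (Z (js S v))))) - ps S (Z (Z (js S v))) := by rw [hZZ (js S v)]
      _ = ps S (Z (js S (ps S (Z (js S v))) - Z (js S v))) := by rw [map_sub Z, map_sub]
      _ = ps S (Z (js S (ps S (D (js S v))) - D (js S v))) := by rw [h3]
  have hqn : ∀ a : S, ‖q (dl (a, 1))‖ ≤
      ‖Z‖ * ‖js S (ps S (D (dl (a.1, 1)))) - D (dl (a.1, 1))‖ := by
    intro a
    rw [hqv, js_dl]
    have h1 := (ps S).le_of_opNorm_le (ps_norm (L := L) S)
      (Z (js S (ps S (D (dl (a.1, 1)))) - D (dl (a.1, 1))))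
    rw [one_mul] at h1
    exact h1.trans (Z.le_opNorm _)
  have hsub : Summable fun a : S => ‖js S (ps S (D (dl (a.1, 1)))) - D (dl (a.1, 1))‖ :=
    Summable.of_finite
  have hsub2 : ∑' a : S, ‖js S (ps S (D (dl (a.1, 1)))) - D (dl (a.1, 1))‖ ≤ ε := by
    refine le_trans ?_ hS2
    exact tsum_comp_le_tsum_of_inj hS1
      (fun i => norm_nonneg (js S (ps S (D (dl (i, 1)))) - D (dl (i, 1)))) Subtype.val_injective
  have hln : ln q ≤ ‖Z‖ * ε := by
    unfold ln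
    refine (Summable.tsum_le_tsum hqn (ll_of_fintype q) (hsub.mul_left ‖Z‖)).trans ?_
    rw [tsum_mul_left]
    exact mul_le_mul_of_nonneg_left hsub2 (norm_nonneg Z)
  have hq16 : ‖q‖ ≤ 1 / 16 := by
    refine op_norm_le q (by norm_num) fun p => ?_
    have h1 := hqe.norm_dl p.1 p.2
    refine h1.trans ((hqn p.1).trans (le_trans ?_ hε'))
    refine mul_le_mul_of_nonneg_left ?_ (norm_nonneg Z)
    refine le_trans ?_ hsub2
    exact hsub.le_tsum p.1 fun b _ =>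
      norm_nonneg (js S (ps S (D (dl (b.1, 1)))) - D (dl (b.1, 1)))
  obtain ⟨f, B, hff, hf, hB, hcl⟩ := newton_corr z hq16
  have hfe : Eqv f := hcl {A | Eqv A} eqv_closed hze fun y hy => eqv_newton hy
  have h1 : trC (cls w) f = 0 := trC_finite hfe hff hw
  have h2 : trC (cls w) f = trC (cls w) z + trC (cls w) (q * B) := by
    rw [hf]
    exact trC_add (ll_of_fintype z) (ll_of_fintype (q * B))
  have h3 : ‖trC (cls w) (q * B)‖ ≤ ‖B‖ * ln q := trC_DB_le (ll_of_fintype q) hqe B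
  have h4 : ‖trC (cls w) z‖ ≤ 4 * (2 * ‖Z‖ + 1) * (‖Z‖ * ε) := by
    have h5 : trC (cls w) z = -trC (cls w) (q * B) := by
      rw [h1] at h2
      exact eq_neg_of_add_eq_zero_left h2.symm
    rw [h5, norm_neg]
    refine h3.trans ?_
    have h6 : ‖B‖ ≤ 4 * (2 * ‖Z‖ + 1) := by
      refine hB.trans ?_
      linarith
    exact mul_le_mul h6 hln (tsum_nonneg fun i => norm_nonneg (q (dl (i, 1)))) (by positivity)
  have h5 : trC (cls w) z = ∑' p : S × L, Set.indicator (cls w)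
      (fun m => D (dl (p.1.1, 1)) (p.1.1, m)) p.2 := by
    unfold trC
    refine tsum_congr fun p => ?_
    rw [Set.indicator_apply]
    split_ifs with hm
    · have h6 : z (dl (p.1, 1)) p = Z (dl (p.1.1, 1)) (p.1.1, p.2) := by
        change ps S (Z (js S (dl (p.1, 1)))) (p.1, p.2) = _
        rw [ps_coord, js_dl]
      rw [h6]
      have h7 : Z (dl (p.1.1, 1)) (p.1.1, p.2) = p₀ (dl (p.1.1, 1)) (p.1.1, p.2) +
          D (dl (p.1.1, 1)) (p.1.1, p.2) := rfl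
      have h8 : p.2 ≠ 1 := by
        intro h8
        have h9 : ConjClasses.mk p.2 = ConjClasses.mk w := hm
        rw [h8, ConjClasses.mk_eq_mk_iff_isConj] at h9
        obtain ⟨c, hc⟩ := isConj_iff.1 h9
        rw [mul_one, mul_inv_cancel] at hc
        exact hw1 hc.symm
      rw [h7, hp0 _ _ h8, zero_add]
    · rfl
  have h6 := hS3 (cls w)
  rw [← h5] at h6
  have h7 : trC (cls w) D = (trC (cls w) D - trC (cls w) z) + trC (cls w) z := by ring
  rw [h7]
  refine (norm_add_le _ _).trans ?_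
  nlinarith [h4, h6]

theorem comp_vanish {p₀ D : V (I × L) →L[ℂ] V (I × L)}
    (hp : ∀ (S : Finset I) (v : V (S × L)), js S (ps S (p₀ (js S v))) = p₀ (js S v))
    (hp0 : ∀ (i : I) (m : L), m ≠ 1 → p₀ (dl (i, 1)) (i, m) = 0) (hpe : Eqv p₀)
    (hD : LL D) (hDe : Eqv D) (hZ : (p₀ + D) * (p₀ + D) = p₀ + D) {w : L} (hw : VanishesAt w)
    (hw1 : w ≠ 1) : trC (cls w) D = 0 := by
  classical
  rcases isEmpty_or_nonempty I with h | ⟨⟨i₀⟩⟩
  · unfold trC
    exact tsum_empty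
  rw [← norm_le_zero_iff]
  refine le_of_forall_pos_le_add fun η hη => ?_
  rw [zero_add]
  set K := 4 * (2 * ‖p₀ + D‖ + 1) * ‖p₀ + D‖ + 1 with hK
  have hZ0 := norm_nonneg (p₀ + D)
  have hK0 : 0 < K := by positivity
  set ε := min (1 / (16 * (‖p₀ + D‖ + 1))) (η / K) with hε
  have hε0 : 0 < ε := lt_min (by positivity) (by positivity)
  have h1 : ‖p₀ + D‖ * ε ≤ 1 / 16 := by
    have h2 : ε ≤ 1 / (16 * (‖p₀ + D‖ + 1)) := min_le_left _ _
    have h3 : (‖p₀ + D‖ + 1) * ε ≤ (‖p₀ + D‖ + 1) * (1 / (16 * (‖p₀ + D‖ + 1))) :=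
      mul_le_mul_of_nonneg_left h2 (by positivity)
    have h4 : (‖p₀ + D‖ + 1) * (1 / (16 * (‖p₀ + D‖ + 1))) = 1 / 16 := by field_simp
    nlinarith
  have h2 := comp_close hp hp0 hpe hD hDe hZ hw hw1 i₀ hε0 h1
  refine h2.trans ?_
  have h3 : ε ≤ η / K := min_le_right _ _
  have h4 := (le_div_iff₀ hK0).1 h3
  rw [mul_comm]
  exact h4

end Comp

end Vale.Agent.P184.H444
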