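import Vale.Agent.P184.H444.GitAA

/-!
# Elements which are trivial on an interval
-/

noncomputable section

open Filter Topology Asymptotics

namespace Vale.Agent.P184.H444

section Act

variable {G : Type*} [Group G] (ρ : G →* (ℝ ≃o ℝ)) (hρ : ∀ g, PAn (ρ g))

include hρ

/-- fixed points with a trivial and a nontrivial germ -/
theorem side_vanish (l l' : Filter ℝ) [l.NeBot] [l'.NeBot] (hlr : l ≤ 𝓝[≠] 0)
    (hll : l' ≤ 𝓝[≠] 0) (hex : ∀ g, Ex l (ρ g)) (hex' : ∀ g, Ex l' (ρ g))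
    (ht : ∀ g x, Tendsto (fun t => ρ g (x + t) - ρ g x) l l)
    (ht' : ∀ g x, Tendsto (fun t => ρ g (x + t) - ρ g x) l' l') (g : G) (x : ℝ)
    (hx : ρ g x = x) (hr : ∀ᶠ t in l, ρ g (x + t) = x + t)
    (hl : ¬ ∀ᶠ t in l', ρ g (x + t) = x + t) : VanishesAt g := by
  let _ := lact ρ
  obtain ⟨k, hk, hk1⟩ := jet_ne hll (hex' g) hx hl
  choose J hJ using fun g x => Ex.jt (hlr.trans nhdsWithin_le_nhds) (hex g) k x
  choose J' hJ' using fun g x => Ex.jt (hll.trans nhdsWithin_le_nhds) (hex' g) k x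
  let α := jcoc ρ k l hlr J hJ ht
  let β := jcoc ρ k l' hll J' hJ' ht'
  have hfin : ∀ h, {x | β.fn h x ≠ α.fn h x}.Finite := by
    intro h
    obtain ⟨S, hS⟩ := (hρ h).1
    refine S.finite_toSet.subset fun y hy => ?_
    by_contra h1
    obtain ⟨M, hM⟩ := jt_exists (k := k) (l := 𝓝[≠] 0) nhdsWithin_le_nhds (hS y h1)
      (Eventually.of_forall fun t => rfl) rfl
    refine hy (Subtype.ext (Units.ext ?_))
    change J' h y = J h y
    exact (Jt.unique hll (hJ' h y) (hM.mono hll)).trans (Jt.unique hlr (hM.mono hlr) (hJ h y))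
  have h1 : α.fn g x = 1 := by
    refine Subtype.ext (Units.ext ?_)
    change J g x = 1
    exact Jt.unique hlr (hJ g x) (jt_id hr hx)
  have h2 : β.fn g x ≠ 1 := by
    intro h3
    have h4 : J' g x = 1 := congrArg (fun u : Tri k => u.1.val) h3
    apply hk1
    rw [← h4]
    exact hJ' g x
  refine vanish_pt β α hfin x g hx (fun h3 => h2 ?_) (md_of_amen tri_amen _ fun h3 => h2 ?_)
  · rw [h1] at h3
    exact eq_one_of_conj h3
  · obtain ⟨n, hn, h4⟩ := isOfFinOrder_iff_pow_eq_one.1 h3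
    have h5 : β.fn (g ^ n) x = 1 := (LCoc.pow β hx n).trans h4
    have h6 : J' (g ^ n) x = 1 := congrArg (fun u : Tri k => u.1.val) h5
    have h7 := (hJ' (g ^ n) x).2 ⟨0, hk⟩
    rw [h6] at h7
    simp only [Matrix.one_apply, ite_mul, one_mul, zero_mul, Finset.sum_ite_eq,
      Finset.mem_univ, if_true, zero_add, pow_one] at h7
    have hxn : ρ (g ^ n) x = x := by
      clear h4 h5 h6 h7 hn
      induction n with
      | zero => rw [pow_zero, rho_one]
      | succ n ih => rw [pow_succ, rho_mul, hx, ih]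
    have h8 : (fun t => ρ g (x + t) - ρ g x - t) =O[l'] fun t => t ^ (k + 1) := by
      refine (IsBigO.of_bound 1 (Eventually.of_forall fun t => ?_)).trans h7
      rw [one_mul, Real.norm_eq_abs, Real.norm_eq_abs, hx, hxn, sub_sub, sub_sub]
      have h9 := iter_le (ρ g) (x + t) n hn
      rw [← map_pow] at h9
      exact h9
    have h9 : β.fn g x = 1 := by
      refine Subtype.ext (Units.ext ?_)
      change J' g x = 1
      exact Jt.unique hll (hJ' g x) (jt_one (hll.trans nhdsWithin_le_nhds) h8)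
    exact h9


theorem right_vanish (g : G) (x : ℝ) (hx : ρ g x = x)
    (hr : ∀ᶠ t in 𝓝[<] (0 : ℝ), ρ g (x + t) = x + t)
    (hl : ¬ ∀ᶠ t in 𝓝[>] (0 : ℝ), ρ g (x + t) = x + t) : VanishesAt g := by
  have hlr : (𝓝[>] (0 : ℝ)) ≤ 𝓝[≠] 0 := nhdsWithin_mono _ fun t ht => ne_of_gt ht
  have hll : (𝓝[<] (0 : ℝ)) ≤ 𝓝[≠] 0 := nhdsWithin_mono _ fun t ht => ne_of_lt ht
  exact side_vanish ρ hρ (𝓝[<] 0) (𝓝[>] 0) hll hlr (fun g => (hρ g).ex_l) (fun g => (hρ g).ex_r)
    (fun g x => oi_tendsto_l (ρ g) x) (fun g x => oi_tendsto_r (ρ g) x) g x hx hr hl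

/-- to the right -/
theorem interval_right (g : G) (m b y : ℝ) (hmb : m < b) (hI : ∀ t, m ≤ t → t < b → ρ g t = t)
    (hmy : m ≤ y) (hy : ρ g y ≠ y) : VanishesAt g := by
  set A : Set ℝ := {z | m ≤ z ∧ ∀ t, m ≤ t → t ≤ z → ρ g t = t} with hA
  have hmA : m ∈ A := ⟨le_rfl, fun t h1 h2 => hI t h1 (h2.trans_lt hmb)⟩
  have hbdd : BddAbove A := ⟨y, fun z hz => by
    by_contra h
    exact hy (hz.2 y hmy (not_le.1 h).le)⟩
  set x := sSup A with hxA
  have h1 : ∀ t, m ≤ t → t < x → ρ g t = t := by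
    intro t hmt ht
    obtain ⟨z, hz, hzt⟩ := exists_lt_of_lt_csSup ⟨m, hmA⟩ ht
    exact hz.2 t hmt hzt.le
  have hmx : m < x := by
    have h2 : (m + b) / 2 ∈ A := ⟨by linarith, fun t h3 h4 => hI t h3 (by linarith)⟩
    have h3 := le_csSup hbdd h2
    linarith
  have h2 : ρ g x = x := by
    have h3 : Tendsto (ρ g) (𝓝[<] x) (𝓝 (ρ g x)) :=
      ((ρ g).continuous.tendsto x).mono_left nhdsWithin_le_nhds
    have h4 : Tendsto (fun t : ℝ => t) (𝓝[<] x) (𝓝 x) := nhdsWithin_le_nhds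
    refine tendsto_nhds_unique h3 (h4.congr' ?_)
    filter_upwards [Ioo_mem_nhdsLT hmx] with t ht
    exact (h1 t ht.1.le ht.2).symm
  refine right_vanish ρ hρ g x h2 ?_ fun h4 => ?_
  · filter_upwards [Ioo_mem_nhdsLT (show m - x < 0 by linarith)] with t ht
    exact h1 (x + t) (by linarith [ht.1]) (by linarith [ht.2])
  · obtain ⟨l, hl, h6⟩ := mem_nhdsGT_iff_exists_Ioo_subset.1 h4
    have hl' : 0 < l := hl
    have h7 : x + l / 2 ∈ A := by
      refine ⟨by linarith, fun t h8 h9 => ?_⟩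
      rcases lt_trichotomy t x with h10 | h10 | h10
      · exact h1 t h8 h10
      · rw [h10, h2]
      · have h11 : ρ g (x + (t - x)) = x + (t - x) :=
          h6 (show t - x ∈ Set.Ioo 0 l from ⟨by linarith, by linarith⟩)
        rw [add_sub_cancel] at h11
        exact h11
    have h8 := le_csSup hbdd h7
    linarith

/-- to the left -/
theorem interval_left (g : G) (m b y : ℝ) (hmb : b < m) (hI : ∀ t, b < t → t ≤ m → ρ g t = t)
    (hmy : y ≤ m) (hy : ρ g y ≠ y) : VanishesAt g := by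
  set A : Set ℝ := {z | z ≤ m ∧ ∀ t, z ≤ t → t ≤ m → ρ g t = t} with hA
  have hmA : m ∈ A := ⟨le_rfl, fun t h1 h2 => hI t (hmb.trans_le h1) h2⟩
  have hbdd : BddBelow A := ⟨y, fun z hz => by
    by_contra h
    exact hy (hz.2 y (not_le.1 h).le hmy)⟩
  set x := sInf A with hxA
  have h1 : ∀ t, x < t → t ≤ m → ρ g t = t := by
    intro t ht hmt
    obtain ⟨z, hz, hzt⟩ := exists_lt_of_csInf_lt ⟨m, hmA⟩ ht
    exact hz.2 t hzt.le hmt
  have hmx : x < m := by
    have h2 : (m + b) / 2 ∈ A := ⟨by linarith, fun t h3 h4 => hI t (by linarith) h4⟩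
    have h3 := csInf_le hbdd h2
    linarith
  have h2 : ρ g x = x := by
    have h3 : Tendsto (ρ g) (𝓝[>] x) (𝓝 (ρ g x)) :=
      ((ρ g).continuous.tendsto x).mono_left nhdsWithin_le_nhds
    have h4 : Tendsto (fun t : ℝ => t) (𝓝[>] x) (𝓝 x) := nhdsWithin_le_nhds
    refine tendsto_nhds_unique h3 (h4.congr' ?_)
    filter_upwards [Ioo_mem_nhdsGT hmx] with t ht
    exact (h1 t ht.1 ht.2.le).symm
  refine an_vanish ρ hρ g x h2 ?_ fun h4 => ?_
  · filter_upwards [Ioo_mem_nhdsGT (show 0 < m - x by linarith)] with t ht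
    exact h1 (x + t) (by linarith [ht.1]) (by linarith [ht.2])
  · obtain ⟨l, hl, h6⟩ := mem_nhdsLT_iff_exists_Ioo_subset.1 h4
    have hl' : l < 0 := hl
    have h7 : x + l / 2 ∈ A := by
      refine ⟨by linarith, fun t h8 h9 => ?_⟩
      rcases lt_trichotomy t x with h10 | h10 | h10
      · have h11 : ρ g (x + (t - x)) = x + (t - x) :=
          h6 (show t - x ∈ Set.Ioo l 0 from ⟨by linarith, by linarith⟩)
        rw [add_sub_cancel] at h11
        exact h11
      · rw [h10, h2]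
      · exact h1 t h10 h9
    have h8 := csInf_le hbdd h7
    linarith

/-- **Elements which are trivial on an interval.** -/
theorem an_interval (g : G) (hg : ρ g ≠ 1) (a b : ℝ) (hab : a < b)
    (hI : ∀ t, a < t → t < b → ρ g t = t) : VanishesAt g := by
  obtain ⟨y, hy⟩ : ∃ y, ρ g y ≠ y := by
    by_contra h
    push Not at h
    exact hg (RelIso.ext h)
  rcases le_total ((a + b) / 2) y with h | h
  · exact interval_right ρ hρ g ((a + b) / 2) b y (by linarith)
      (fun t h1 h2 => hI t (by linarith) h2) h hy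
  · exact interval_left ρ hρ g ((a + b) / 2) a y (by linarith)
      (fun t h1 h2 => hI t h1 (by linarith)) h hy

end Act

end Vale.Agent.P184.H444
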