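import Vale.Agent.P184.H444.GitB

/-!
# The index theorem for pairs of equivariant idempotent operators
-/

noncomputable section

open Filter Topology

namespace Vale.Agent.P184.H444

section Abstract

variable {W₁ W₂ : Type*} [NormedAddCommGroup W₁] [NormedSpace ℂ W₁] [NormedAddCommGroup W₂]
  [NormedSpace ℂ W₂]

theorem sim_idem {c : W₁ →L[ℂ] W₂} {r : W₂ →L[ℂ] W₁} {p : W₂ →L[ℂ] W₂} {D F : W₁ →L[ℂ] W₁}
    (hrc : ∀ v, r (c v) = v) (hpc : ∀ v, p (c v) = c (F v)) (hrp : ∀ v, r (p v) = F (r v))
    (hpp : ∀ v, p (p v) = p v) (hD : ∀ v, F (D v) + D (F v) + D (D v) = D v) :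
    (p + c.comp (D.comp r)) * (p + c.comp (D.comp r)) = p + c.comp (D.comp r) := by
  refine ContinuousLinearMap.ext fun v => ?_
  change p (p v + c (D (r v))) + c (D (r (p v + c (D (r v))))) = p v + c (D (r v))
  have h1 : p (p v + c (D (r v))) = p v + c (F (D (r v))) := by rw [map_add, hpp, hpc]
  have h2 : r (p v + c (D (r v))) = F (r v) + D (r v) := by rw [map_add, hrp, hrc]
  have h3 : D (F (r v) + D (r v)) = D (F (r v)) + D (D (r v)) := map_add D _ _
  rw [h1, h2, h3, add_assoc, ← map_add c, ← add_assoc, hD]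

theorem sub_idem {E F : W₁ →L[ℂ] W₁} (hE : E * E = E) (hF : F * F = F) (v : W₁) :
    F ((E - F) v) + (E - F) (F v) + (E - F) ((E - F) v) = (E - F) v := by
  have hFF : ∀ v, F (F v) = F v := fun v => by
    change (F * F) v = F v
    rw [hF]
  have hEE : ∀ v, E (E v) = E v := fun v => by
    change (E * E) v = E v
    rw [hE]
  have hDv : ∀ v, (E - F) v = E v - F v := fun v => rfl
  rw [hDv, hDv, hDv, map_sub, map_sub, hFF, hEE]
  abel

end Abstract

section Blocks

variable {I L : Type*}

/-- inclusion of a summand -/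
def ib (b : Bool) : V (I × L) →L[ℂ] V ((Bool × I) × L) :=
  cols (fun p => dl ((b, p.1), p.2)) 1 fun p => by rw [dl_norm]

/-- projection to a summand -/
def rb (b : Bool) : V ((Bool × I) × L) →L[ℂ] V (I × L) :=
  cols (fun p => if p.1.1 = b then dl (p.1.2, p.2) else 0) 1 fun p => by
    split_ifs
    · rw [dl_norm]
    · rw [norm_zero]
      exact zero_le_one

theorem ib_dl (b : Bool) (p : I × L) : ib b (dl p) = (dl ((b, p.1), p.2) : V ((Bool × I) × L)) :=
  cols_dl _ _ _ _

theorem rb_dl (b : Bool) (p : (Bool × I) × L) :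
    rb b (dl p) = if p.1.1 = b then (dl (p.1.2, p.2) : V (I × L)) else 0 := cols_dl _ _ _ _

theorem rb_ib (b : Bool) (v : V (I × L)) : rb b (ib b v) = v := by
  have h : (rb b).comp (ib b) = ContinuousLinearMap.id ℂ (V (I × L)) := op_ext fun p => by
    change rb b (ib b (dl p)) = dl p
    rw [ib_dl, rb_dl, if_pos rfl]
  exact DFunLike.congr_fun h v

theorem rb_ib_ne {b b' : Bool} (hb : b' ≠ b) (v : V (I × L)) : rb b (ib b' v) = 0 := by
  have h : (rb b).comp (ib b') = (0 : V (I × L) →L[ℂ] V (I × L)) := op_ext fun p => by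
    change rb b (ib b' (dl p)) = 0
    rw [ib_dl, rb_dl, if_neg hb]
  exact DFunLike.congr_fun h v

variable [Group L]

theorem eqv_ib (b : Bool) : Eqv (ib b : V (I × L) →L[ℂ] V ((Bool × I) × L)) :=
  eqv_of_dl fun l p => by
    have hp : p = (p.1, p.2) := rfl
    rw [hp, rtr_dl, ib_dl, ib_dl, rtr_dl]

theorem eqv_rb (b : Bool) : Eqv (rb b : V ((Bool × I) × L) →L[ℂ] V (I × L)) :=
  eqv_of_dl fun l p => by
    have hp : p = (p.1, p.2) := rfl
    rw [hp, rtr_dl, rb_dl, rb_dl]
    by_cases h : p.1.1 = b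
    · rw [if_pos h, if_pos h, rtr_dl]
    · rw [if_neg h, if_neg h, map_zero]

variable (F : V (I × L) →L[ℂ] V (I × L))

/-- the first map of the similarity -/
def cc : V (I × L) →L[ℂ] V ((Bool × I) × L) := (ib false).comp F + (ib true).comp (1 - F)

/-- the second map of the similarity -/
def rc : V ((Bool × I) × L) →L[ℂ] V (I × L) := F.comp (rb false) + (1 - F).comp (rb true)

/-- the standard projection -/
def pz (I L : Type*) : V ((Bool × I) × L) →L[ℂ] V ((Bool × I) × L) := (ib false).comp (rb false)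

omit [Group L] in
theorem cc_apply (v : V (I × L)) : cc F v = ib false (F v) + ib true (v - F v) := rfl

omit [Group L] in
theorem rc_apply (v : V ((Bool × I) × L)) :
    rc F v = F (rb false v) + (rb true v - F (rb true v)) := rfl

omit [Group L] in
theorem pz_apply (v : V ((Bool × I) × L)) : pz I L v = ib false (rb false v) := rfl

variable {F}

omit [Group L] in
theorem rc_cc (hF : F * F = F) (v : V (I × L)) : rc F (cc F v) = v := by
  have hFF : ∀ v, F (F v) = F v := fun v => by
    change (F * F) v = F v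
    rw [hF]
  have h1 : rb false (cc F v) = F v := by
    rw [cc_apply, map_add, rb_ib, rb_ib_ne (b := false) (b' := true) (by decide), add_zero]
  have h2 : rb true (cc F v) = v - F v := by
    rw [cc_apply, map_add, rb_ib_ne (b := true) (b' := false) (by decide), rb_ib, zero_add]
  have h3 : F (v - F v) = 0 := by rw [map_sub, hFF, sub_self]
  rw [rc_apply, h1, h2, h3, hFF, sub_zero, add_sub_cancel]

omit [Group L] in
theorem pz_cc (hF : F * F = F) (v : V (I × L)) : pz I L (cc F v) = cc F (F v) := by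
  have hFF : ∀ v, F (F v) = F v := fun v => by
    change (F * F) v = F v
    rw [hF]
  have h1 : rb false (cc F v) = F v := by
    rw [cc_apply, map_add, rb_ib, rb_ib_ne (b := false) (b' := true) (by decide), add_zero]
  rw [pz_apply, h1, cc_apply, hFF, sub_self, map_zero, add_zero]

omit [Group L] in
theorem rc_pz (hF : F * F = F) (v : V ((Bool × I) × L)) : rc F (pz I L v) = F (rc F v) := by
  have hFF : ∀ v, F (F v) = F v := fun v => by
    change (F * F) v = F v
    rw [hF]
  have h1 : rb false (pz I L v) = rb false v := by rw [pz_apply, rb_ib]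
  have h2 : rb true (pz I L v) = 0 := by
    rw [pz_apply, rb_ib_ne (b := true) (b' := false) (by decide)]
  rw [rc_apply, rc_apply, h1, h2, map_zero, sub_zero, add_zero, map_add, map_sub, hFF, hFF,
    sub_self, add_zero]

omit [Group L] in
theorem pz_pz (v : V ((Bool × I) × L)) : pz I L (pz I L v) = pz I L v := by
  rw [pz_apply, pz_apply, rb_ib]

omit [Group L] in
theorem jsps_dl {J : Type*} (S : Finset J) (i : J) (hi : i ∈ S) (l : L) :
    js S (ps S (dl (i, l))) = (dl (i, l) : V (J × L)) := by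
  rw [ps_dl, dif_pos hi, js_dl]

omit [Group L] in
theorem pz_dl (b : Bool) (i : I) (l : L) : pz I L (dl ((b, i), l)) =
    if b = false then (dl ((false, i), l) : V ((Bool × I) × L)) else 0 := by
  rw [pz_apply, rb_dl]
  split_ifs
  · rw [ib_dl]
  · rw [map_zero]

omit [Group L] in
theorem pz_comm (S : Finset (Bool × I)) (v : V (S × L)) :
    js S (ps S (pz I L (js S v))) = pz I L (js S v) := by
  have h : ((js S).comp ((ps S).comp ((pz I L).comp (js S)))) = (pz I L).comp (js S) := by
    refine op_ext fun p => ?_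
    obtain ⟨⟨⟨b, i⟩, hS⟩, l⟩ := p
    have h1 : js S (dl (⟨(b, i), hS⟩, l)) = (dl ((b, i), l) : V ((Bool × I) × L)) := js_dl S _
    have h2 : js S (ps S (pz I L (dl ((b, i), l)))) = pz I L (dl ((b, i), l)) := by
      rw [pz_dl]
      rcases b with _ | _
      · rw [if_pos rfl]
        exact jsps_dl S _ hS l
      · rw [if_neg (fun h : true = false => Bool.false_ne_true h.symm), map_zero, map_zero]
    rw [← h1] at h2
    exact h2
  exact DFunLike.congr_fun h v

omit [Group L] in
theorem pz_off [One L] (p : Bool × I) (m : L) (hm : m ≠ 1) :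
    pz I L (dl (p, 1)) (p, m) = 0 := by
  obtain ⟨b, i⟩ := p
  rw [pz_dl]
  rcases b with _ | _
  · rw [if_pos rfl, dl_ne]
    intro h
    exact hm (congrArg Prod.snd h)
  · rw [if_neg (fun h : true = false => Bool.false_ne_true h.symm)]
    rfl

theorem eqv_cc (hF : Eqv F) : Eqv (cc F) :=
  ((eqv_ib false).comp hF).add ((eqv_ib true).comp (eqv_one.sub hF))

theorem eqv_rc (hF : Eqv F) : Eqv (rc F) :=
  (hF.comp (eqv_rb false)).add ((eqv_one.sub hF).comp (eqv_rb true))

theorem eqv_pz : Eqv (pz I L) := (eqv_ib false).comp (eqv_rb false)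

theorem idem_vanish {E : V (I × L) →L[ℂ] V (I × L)} (hE : E * E = E) (hF : F * F = F)
    (hEe : Eqv E) (hFe : Eqv F) (hD : LL (E - F)) (hDF : LL ((E - F).comp F)) {w : L}
    (hw : VanishesAt w) (hw1 : w ≠ 1) : trC (cls w) (E - F) = 0 := by
  classical
  set D := E - F with hDdef
  have hDe : Eqv D := hEe.sub hFe
  have hDr : LL (D.comp (rc F)) := by
    have h0 : ∀ p : Bool × I, ‖(D.comp (rc F)) (dl (p, 1))‖ ≤
        ‖D (dl (p.2, 1))‖ + ‖D (F (dl (p.2, 1)))‖ := by
      rintro ⟨b, i⟩
      change ‖D (rc F (dl ((b, i), 1)))‖ ≤ _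
      rw [rc_apply, rb_dl, rb_dl]
      rcases b with _ | _
      · rw [if_pos rfl, if_neg Bool.false_ne_true, map_zero, sub_zero, add_zero]
        exact le_add_of_nonneg_left (norm_nonneg (D (dl (i, 1))))
      · rw [if_neg (fun h : true = false => Bool.false_ne_true h.symm), if_pos rfl, map_zero,
          zero_add, map_sub]
        exact norm_sub_le (D (dl (i, 1))) (D (F (dl (i, 1))))
    have h1 : Summable fun i => ‖D (dl (i, 1))‖ + ‖D (F (dl (i, 1)))‖ := hD.add hDF
    have h2 : Summable fun p : Bool × I => (1 : ℝ) * (‖D (dl (p.2, 1))‖ + ‖D (F (dl (p.2, 1)))‖) :=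
      Summable.mul_of_nonneg (f := fun _ : Bool => (1 : ℝ)) Summable.of_finite h1
        (fun _ => zero_le_one) (fun i => add_nonneg (norm_nonneg (D (dl (i, 1))))
          (norm_nonneg (D (F (dl (i, 1))))))
    refine Summable.of_nonneg_of_le
      (fun p => norm_nonneg ((D.comp (rc F)) (dl (p, 1)))) (fun p => ?_) h2
    rw [one_mul]
    exact h0 p
  have hDre : Eqv (D.comp (rc F)) := hDe.comp (eqv_rc hFe)
  set D' := (cc F).comp (D.comp (rc F)) with hD'
  have hD'e : Eqv D' := (eqv_cc hFe).comp hDre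
  have hD'L : LL D' := by
    refine Summable.of_nonneg_of_le (fun p => norm_nonneg (D' (dl (p, 1))))
      (fun p => (cc F).le_opNorm _) (hDr.mul_left ‖cc F‖)
  have h1 : trC (cls w) D' = trC (cls w) D := by
    have h2 := trC_comm (cls_comm w) hDr hDre (eqv_cc hFe)
    rw [hD', ← h2]
    congr 1
    refine ContinuousLinearMap.ext fun v => ?_
    change D (rc F (cc F v)) = D v
    rw [rc_cc hF]
  rw [← h1]
  exact comp_vanish (p₀ := pz I L) pz_comm pz_off eqv_pz hD'L hD'e
    (sim_idem (rc_cc hF) (pz_cc hF) (rc_pz hF) pz_pz (sub_idem hE hF)) hw hw1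

end Blocks

end Vale.Agent.P184.H444
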