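import Vale.Agent.P184.H444.GitBB

/-!
# Groups of piecewise analytic homeomorphisms with a common fixed point
-/

noncomputable section

open Filter Topology Asymptotics

namespace Vale.Agent.P184.H444

section Act

variable {G : Type*} [Group G] (ρ : G →* (ℝ ≃o ℝ))

theorem jt_torsion {l : Filter ℝ} (hl : l ≤ 𝓝 0) {k : ℕ} (hk : 0 < k) (g : G) (x : ℝ)
    (hx : ρ g x = x) (n : ℕ) (hn : 0 < n)
    (h : Jt l (ρ (g ^ n)) x (1 : Matrix (Fin k) (Fin k) ℝ)) :
    Jt l (ρ g) x (1 : Matrix (Fin k) (Fin k) ℝ) := by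
  have h7 := h.2 ⟨0, hk⟩
  simp only [Matrix.one_apply, ite_mul, one_mul, zero_mul, Finset.sum_ite_eq,
    Finset.mem_univ, if_true, zero_add, pow_one] at h7
  have hxn : ρ (g ^ n) x = x := by
    clear h h7 hn
    induction n with
    | zero => rw [pow_zero, rho_one]
    | succ n ih => rw [pow_succ, rho_mul, hx, ih]
  refine jt_one hl ?_
  refine (IsBigO.of_bound 1 (Eventually.of_forall fun t => ?_)).trans h7
  rw [one_mul, Real.norm_eq_abs, Real.norm_eq_abs, hx, hxn, sub_sub, sub_sub]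
  have h9 := iter_le (ρ g) (x + t) n hn
  rw [← map_pow] at h9
  exact h9

/-- a common fixed point with a nontrivial germ -/
theorem common_vanish (l : Filter ℝ) [l.NeBot] (hll : l ≤ 𝓝[≠] 0) (hex : ∀ g, Ex l (ρ g))
    (ht : ∀ g x, Tendsto (fun t => ρ g (x + t) - ρ g x) l l) (p : ℝ) (hp : ∀ g, ρ g p = p)
    (g : G) (hg : ¬ ∀ᶠ t in l, ρ g (p + t) = p + t) : VanishesAt g := by
  obtain ⟨k, hk, hk1⟩ := jet_ne hll (hex g) (hp g) hg
  choose J hJ using fun g x => Ex.jt (hll.trans nhdsWithin_le_nhds) (hex g) k x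
  let _ := lact ρ
  let α := jcoc ρ k l hll J hJ ht
  let φ : G →* Tri k := MonoidHom.mk' (fun g => α.fn g p) fun g h => by
    rw [α.mul' g h p]
    have h1 : h • p = p := hp h
    rw [h1]
  refine (Md.hom φ (x := g) (md_of_amen tri_amen _ fun h3 => hk1 ?_)).vanish
  obtain ⟨n, hn, h4⟩ := isOfFinOrder_iff_pow_eq_one.1 h3
  rw [← map_pow] at h4
  have h6 : J (g ^ n) p = 1 := congrArg (fun u : Tri k => u.1.val) h4
  refine jt_torsion ρ (hll.trans nhdsWithin_le_nhds) hk g p (hp g) n hn ?_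
  rw [← h6]
  exact hJ (g ^ n) p

/-- **Piecewise analytic homeomorphisms with a common fixed point.** -/
theorem fix_all (hρ : ∀ g, PAn (ρ g)) (p : ℝ) (hp : ∀ g, ρ g p = p) (g : G) (hg : ρ g ≠ 1) :
    VanishesAt g := by
  have hlr : (𝓝[>] (0 : ℝ)) ≤ 𝓝[≠] 0 := nhdsWithin_mono _ fun t ht => ne_of_gt ht
  by_cases h : ∀ᶠ t in 𝓝[>] (0 : ℝ), ρ g (p + t) = p + t
  · obtain ⟨l, hl, h6⟩ := mem_nhdsGT_iff_exists_Ioo_subset.1 h
    have hl' : 0 < l := hl
    refine an_interval ρ hρ g hg p (p + l) (by linarith) fun t h1 h2 => ?_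
    have h3 : ρ g (p + (t - p)) = p + (t - p) :=
      h6 (show t - p ∈ Set.Ioo 0 l from ⟨by linarith, by linarith⟩)
    rw [add_sub_cancel] at h3
    exact h3
  · exact common_vanish ρ (𝓝[>] 0) hlr (fun g => (hρ g).ex_r) (fun g x => oi_tendsto_r (ρ g) x)
      p hp g h

theorem fix_or_aff (hρ : ∀ g, PAn (ρ g))
    (h : (∃ p, ∀ g, ρ g p = p) ∨ ∀ g, ∃ a b : ℝ, ∀ᶠ t in atTop, ρ g t = a * t + b) (g : G)
    (hg : ρ g ≠ 1) : VanishesAt g := by
  rcases h with ⟨p, hp⟩ | htop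
  · exact fix_all ρ hρ p hp g hg
  · exact an_all ρ hρ htop g hg

theorem fix_or_aff_bass (hρ : ∀ g, PAn (ρ g))
    (h : (∃ p, ∀ g, ρ g p = p) ∨ ∀ g, ∃ a b : ℝ, ∀ᶠ t in atTop, ρ g t = a * t + b)
    (hinj : Function.Injective ρ) : L1Bass G :=
  l1Bass_of_vanish fun g hg => fix_or_aff ρ hρ h g fun h => hg (hinj (h.trans (map_one ρ).symm))

end Act

end Vale.Agent.P184.H444
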