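import Vale.Agent.P184.H444.Int
import Vale.Agent.P184.Bdl.B3

/-!
# Monomial representations on `ℓ¹(X)` twisted by cocycles
-/

noncomputable section

open Filter Topology

namespace Vale.Agent.P184.H444

/-- Cocycles of `G` on `X` with values in the complex numbers of modulus one. -/
structure Coc (G X : Type*) [Group G] [MulAction G X] where
  /-- the function -/
  fn : G → X → ℂ
  mul' : ∀ h k x, fn (h * k) x = fn h (k • x) * fn k x
  norm' : ∀ h x, ‖fn h x‖ = 1

section Rep

attribute [local instance] Matrix.linftyOpNormedRing Matrix.linftyOpNormedAlgebra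

variable {G X : Type*} [Group G] [MulAction G X] {q : ℕ}

/-- complex matrices -/
abbrev Mq (q : ℕ) := Matrix (Fin q) (Fin q) ℂ

/-- columns -/
def colv (A : Coc G X) (h : G) (m : Mq q) (z : X × Fin q) : V (X × Fin q) :=
  ∑ i, (m i z.2 * A.fn h z.1) • dl (h • z.1, i)

theorem colv_norm (A : Coc G X) (h : G) (m : Mq q) (z : X × Fin q) :
    ‖colv A h m z‖ ≤ q * ‖m‖ := by
  refine (norm_sum_le _ _).trans ?_
  have h1 : ∀ i, ‖(m i z.2 * A.fn h z.1) • (dl (h • z.1, i) : V (X × Fin q))‖ ≤ ‖m‖ := by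
    intro i
    rw [norm_smul, dl_norm, mul_one, norm_mul, A.norm', mul_one]
    exact norm_entry_le m i z.2
  refine (Finset.sum_le_sum fun i _ => h1 i).trans ?_
  rw [Finset.sum_const, Finset.card_univ, Fintype.card_fin, nsmul_eq_mul]

theorem colv_add (A : Coc G X) (h : G) (m n : Mq q) (z : X × Fin q) :
    colv A h (m + n) z = colv A h m z + colv A h n z := by
  unfold colv
  rw [← Finset.sum_add_distrib]
  refine Finset.sum_congr rfl fun i _ => ?_
  rw [← add_smul, Matrix.add_apply, add_mul]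

theorem colv_smul (A : Coc G X) (h : G) (c : ℂ) (m : Mq q) (z : X × Fin q) :
    colv A h (c • m) z = c • colv A h m z := by
  unfold colv
  rw [Finset.smul_sum]
  refine Finset.sum_congr rfl fun i _ => ?_
  rw [smul_smul, Matrix.smul_apply, smul_eq_mul, mul_assoc]

/-- the operators -/
def phi (A : Coc G X) (h : G) : Mq q →L[ℂ] (V (X × Fin q) →L[ℂ] V (X × Fin q)) :=
  LinearMap.mkContinuous
    { toFun := fun m => cols (colv A h m) (q * ‖m‖) (colv_norm A h m)
      map_add' := fun m n => op_ext fun z => by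
        rw [_root_.add_apply, cols_dl, cols_dl, cols_dl, colv_add]
      map_smul' := fun c m => op_ext fun z => by
        rw [RingHom.id_apply, _root_.smul_apply, cols_dl, cols_dl, colv_smul] } q
    fun m => op_norm_le _ (by positivity) fun z => by
      change ‖cols (colv A h m) (q * ‖m‖) (colv_norm A h m) (dl z)‖ ≤ _
      rw [cols_dl]
      exact colv_norm A h m z

theorem phi_dl (A : Coc G X) (h : G) (m : Mq q) (z : X × Fin q) :
    phi A h m (dl z) = colv A h m z := cols_dl _ _ (colv_norm A h m) z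

theorem phi_norm (A : Coc G X) (h : G) (m : Mq q) : ‖phi A h m‖ ≤ q * ‖m‖ :=
  op_norm_le _ (by positivity) fun z => by
    rw [phi_dl]
    exact colv_norm A h m z

theorem phi_mul (A : Coc G X) (h k : G) (m n : Mq q) :
    phi A h m * phi A k n = phi A (h * k) (m * n) := by
  refine op_ext fun z => ?_
  change phi A h m (phi A k n (dl z)) = _
  rw [phi_dl, phi_dl]
  unfold colv
  rw [map_sum]
  have h1 : ∀ l, phi A h m ((n l z.2 * A.fn k z.1) • dl (k • z.1, l)) =
      ∑ i, (m i l * n l z.2 * A.fn (h * k) z.1) • dl ((h * k) • z.1, i) := by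
    intro l
    rw [map_smul, phi_dl, colv, Finset.smul_sum]
    refine Finset.sum_congr rfl fun i _ => ?_
    rw [smul_smul, mul_smul h k z.1, A.mul']
    congr 1
    ring
  rw [Finset.sum_congr rfl fun l _ => h1 l, Finset.sum_comm]
  refine Finset.sum_congr rfl fun i _ => ?_
  rw [← Finset.sum_smul, ← Finset.sum_mul, Matrix.mul_apply]

/-- the operator given by a summable matrix valued function -/
def opr (A : Coc G X) (f : G → Mq q) : V (X × Fin q) →L[ℂ] V (X × Fin q) :=
  ∑' h, phi A h (f h)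

theorem phi_summable (A : Coc G X) {f : G → Mq q} (hf : Summable fun h => ‖f h‖) :
    Summable fun h => ‖phi A h (f h)‖ :=
  Summable.of_nonneg_of_le (fun _ => norm_nonneg _) (fun h => phi_norm A h (f h))
    (hf.mul_left (q : ℝ))

theorem opr_idem (A : Coc G X) {f : G → Mq q} (hf : Summable fun h => ‖f h‖)
    (hc : ∀ k, ∑' h, f h * f (h⁻¹ * k) = f k) : opr A f * opr A f = opr A f := by
  unfold opr
  rw [tsum_conv _ (phi_summable A hf)]
  refine tsum_congr fun k => ?_
  have h1 : ∀ h, phi A h (f h) * phi A (h⁻¹ * k) (f (h⁻¹ * k)) =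
      phi A k (f h * f (h⁻¹ * k)) := by
    intro h
    rw [phi_mul, mul_inv_cancel_left]
  rw [tsum_congr h1, ← (phi A k).map_tsum (conv_summable hf k), hc]

theorem opr_dl (A : Coc G X) {f : G → Mq q} (hf : Summable fun h => ‖f h‖) (z : X × Fin q) :
    HasSum (fun h => colv A h (f h) z) (opr A f (dl z)) := by
  have h1 := (phi_summable A hf).of_norm.hasSum.mapL
    (ContinuousLinearMap.apply ℂ (V (X × Fin q)) (dl z))
  have e : (fun h => ContinuousLinearMap.apply ℂ (V (X × Fin q)) (dl z) (phi A h (f h))) =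
      fun h => colv A h (f h) z := by
    funext h
    exact phi_dl A h (f h) z
  rw [e] at h1
  exact h1

/-- the difference of columns -/
theorem colv_sub (A A' : Coc G X) (h : G) (m : Mq q) (z : X × Fin q) :
    colv A h m z - colv A' h m z =
      ∑ i, (m i z.2 * (A.fn h z.1 - A'.fn h z.1)) • dl (h • z.1, i) := by
  unfold colv
  rw [← Finset.sum_sub_distrib]
  refine Finset.sum_congr rfl fun i _ => ?_
  rw [← sub_smul, mul_sub]

theorem colv_sub_norm (A A' : Coc G X) (h : G) (m : Mq q) (z : X × Fin q) :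
    ‖colv A h m z - colv A' h m z‖ ≤ q * (‖m‖ * ‖A.fn h z.1 - A'.fn h z.1‖) := by
  rw [colv_sub]
  refine (norm_sum_le _ _).trans ?_
  have h1 : ∀ i, ‖(m i z.2 * (A.fn h z.1 - A'.fn h z.1)) • (dl (h • z.1, i) : V (X × Fin q))‖ ≤
      ‖m‖ * ‖A.fn h z.1 - A'.fn h z.1‖ := by
    intro i
    rw [norm_smul, dl_norm, mul_one, norm_mul]
    exact mul_le_mul_of_nonneg_right (norm_entry_le m i z.2) (norm_nonneg _)
  refine (Finset.sum_le_sum fun i _ => h1 i).trans ?_
  rw [Finset.sum_const, Finset.card_univ, Fintype.card_fin, nsmul_eq_mul]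

open Classical in
theorem colv_sub_diag (A A' : Coc G X) (h : G) (m : Mq q) (z : X × Fin q) :
    (colv A h m z - colv A' h m z) z =
      if h • z.1 = z.1 then m z.2 z.2 * (A.fn h z.1 - A'.fn h z.1) else 0 := by
  rw [colv_sub, lp.coeFn_sum, Finset.sum_apply]
  have h1 : ∀ i, ((m i z.2 * (A.fn h z.1 - A'.fn h z.1)) • (dl (h • z.1, i) : V (X × Fin q))) z =
      (m i z.2 * (A.fn h z.1 - A'.fn h z.1)) * (dl (h • z.1, i) : V (X × Fin q)) z := by
    intro i
    rw [lp.coeFn_smul, Pi.smul_apply, smul_eq_mul]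
  rw [Finset.sum_congr rfl fun i _ => h1 i]
  split_ifs with hz
  · rw [Finset.sum_eq_single z.2]
    · have e : (h • z.1, z.2) = z := Prod.ext hz rfl
      rw [e, dl_same, mul_one]
    · intro i _ hi
      rw [dl_ne, mul_zero]
      intro h2
      exact hi (congrArg Prod.snd h2).symm
    · intro h2
      exact absurd (Finset.mem_univ _) h2
  · refine Finset.sum_eq_zero fun i _ => ?_
    rw [dl_ne, mul_zero]
    intro h2
    exact hz (congrArg Prod.fst h2).symm

section Main

variable (A A' : Coc G X) {f : G → Mq q} (hfin : ∀ h, {x | A.fn h x ≠ A'.fn h x}.Finite)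
  (hs : Summable fun h => ‖f h‖ * ({x | A.fn h x ≠ A'.fn h x}.ncard : ℝ))

include hfin hs

theorem diff_summable :
    Summable fun z : G × X => ‖f z.1‖ * ‖A.fn z.1 z.2 - A'.fn z.1 z.2‖ := by
  have h0 : (0 : G × X → ℝ) ≤ fun z : G × X => ‖f z.1‖ * ‖A.fn z.1 z.2 - A'.fn z.1 z.2‖ :=
    fun z => mul_nonneg (norm_nonneg _) (norm_nonneg _)
  have hz : ∀ h, ∀ x ∉ (hfin h).toFinset, ‖f h‖ * ‖A.fn h x - A'.fn h x‖ = 0 := by
    intro h x hx
    rw [Set.Finite.mem_toFinset] at hx
    have h1 : A.fn h x = A'.fn h x := not_not.1 hx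
    rw [h1, sub_self, norm_zero, mul_zero]
  refine (summable_prod_of_nonneg h0).2 ⟨fun h => ?_, ?_⟩
  · exact summable_of_ne_finset_zero (hz h)
  · refine Summable.of_nonneg_of_le (fun h => tsum_nonneg fun x => h0 (h, x)) (fun h => ?_)
      (hs.mul_right 2)
    change ∑' x, ‖f h‖ * ‖A.fn h x - A'.fn h x‖ ≤ _
    rw [tsum_eq_sum (hz h)]
    have h2 : ∀ x ∈ (hfin h).toFinset, ‖f h‖ * ‖A.fn h x - A'.fn h x‖ ≤ ‖f h‖ * 2 := by
      intro x _
      refine mul_le_mul_of_nonneg_left ?_ (norm_nonneg _)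
      refine (norm_sub_le _ _).trans ?_
      rw [A.norm', A'.norm']
      norm_num
    refine (Finset.sum_le_card_nsmul _ _ _ h2).trans (le_of_eq ?_)
    rw [nsmul_eq_mul, Set.ncard_eq_toFinset_card _ (hfin h)]
    ring

theorem col_summable (hf : Summable fun h => ‖f h‖) :
    Summable fun z : X × Fin q => ‖(opr A f - opr A' f) (dl z)‖ := by
  have h1 := diff_summable A A' hfin hs
  have h2 : Summable fun z : X × G => ‖f z.2‖ * ‖A.fn z.2 z.1 - A'.fn z.2 z.1‖ :=
    (Equiv.prodComm X G).summable_iff.2 h1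
  have h0 : (0 : X × G → ℝ) ≤ fun z : X × G => ‖f z.2‖ * ‖A.fn z.2 z.1 - A'.fn z.2 z.1‖ :=
    fun z => mul_nonneg (norm_nonneg _) (norm_nonneg _)
  obtain ⟨h3, h4⟩ := (summable_prod_of_nonneg h0).1 h2
  have h5 : Summable fun z : X × Fin q =>
      (∑' h, ‖f h‖ * ‖A.fn h z.1 - A'.fn h z.1‖) * (1 : ℝ) :=
    h4.mul_of_nonneg (g := fun _ : Fin q => (1 : ℝ)) (Summable.of_finite)
      (fun x => tsum_nonneg fun h => h0 (x, h)) (fun _ => zero_le_one)
  refine Summable.of_nonneg_of_le (fun _ => norm_nonneg _) (fun z => ?_) (h5.mul_left (q : ℝ))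
  have h6 : HasSum (fun h => colv A h (f h) z - colv A' h (f h) z)
      ((opr A f - opr A' f) (dl z)) := (opr_dl A hf z).sub (opr_dl A' hf z)
  have h7 := tsum_of_norm_bounded ((h3 z.1).hasSum.mul_left (q : ℝ))
    (fun h => colv_sub_norm A A' h (f h) z)
  rw [h6.tsum_eq] at h7
  rw [mul_one]
  exact h7

open Classical in
theorem int_terms (hf : Summable fun h => ‖f h‖) (hc : ∀ k, ∑' h, f h * f (h⁻¹ * k) = f k) :
    ∃ n : ℤ, ∑' z : G × X, (if z.1 • z.2 = z.2 then
      (∑ j, f z.1 j j) * (A.fn z.1 z.2 - A'.fn z.1 z.2) else 0) = n := by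
  obtain ⟨n, hn⟩ := tr_int (opr_idem A hf hc) (opr_idem A' hf hc) (col_summable A A' hfin hs hf)
  refine ⟨n, ?_⟩
  rw [← hn]
  have h1 := diff_summable A A' hfin hs
  set v : (G × X) × Fin q → ℂ := fun w => if w.1.1 • w.1.2 = w.1.2 then
    f w.1.1 w.2 w.2 * (A.fn w.1.1 w.1.2 - A'.fn w.1.1 w.1.2) else 0 with hv
  have hvs : Summable v := by
    have h2 : Summable fun w : (G × X) × Fin q =>
        (‖f w.1.1‖ * ‖A.fn w.1.1 w.1.2 - A'.fn w.1.1 w.1.2‖) * (1 : ℝ) :=
      h1.mul_of_nonneg (g := fun _ : Fin q => (1 : ℝ)) (Summable.of_finite)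
        (fun z => mul_nonneg (norm_nonneg _) (norm_nonneg _)) (fun _ => zero_le_one)
    refine Summable.of_norm_bounded h2 fun w => ?_
    rw [hv, mul_one]
    dsimp only
    split_ifs
    · rw [norm_mul]
      exact mul_le_mul_of_nonneg_right (norm_entry_le _ _ _) (norm_nonneg _)
    · rw [norm_zero]
      exact mul_nonneg (norm_nonneg _) (norm_nonneg _)
  have h3 : ∀ z : G × X, (if z.1 • z.2 = z.2 then
      (∑ j, f z.1 j j) * (A.fn z.1 z.2 - A'.fn z.1 z.2) else 0) = ∑' j, v (z, j) := by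
    intro z
    rw [tsum_fintype]
    simp only [hv]
    split_ifs
    · rw [Finset.sum_mul]
    · rw [Finset.sum_const_zero]
  rw [tsum_congr h3, ← hvs.tsum_prod]
  let e : (X × Fin q) × G ≃ (G × X) × Fin q :=
    { toFun := fun w => ((w.2, w.1.1), w.1.2)
      invFun := fun w => ((w.1.2, w.2), w.1.1)
      left_inv := fun w => rfl
      right_inv := fun w => rfl }
  have h8 : Summable fun w => v (e w) := e.summable_iff.2 hvs
  rw [← e.tsum_eq, h8.tsum_prod]
  unfold tr
  refine tsum_congr fun z => ?_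
  have h6 : HasSum (fun h => colv A h (f h) z - colv A' h (f h) z)
      ((opr A f - opr A' f) (dl z)) := (opr_dl A hf z).sub (opr_dl A' hf z)
  have h7 := (h6.mapL (cf z)).tsum_eq
  change ∑' h, cf z (colv A h (f h) z - colv A' h (f h) z) = (opr A f - opr A' f) (dl z) z at h7
  rw [← h7]
  refine tsum_congr fun h => ?_
  rw [cf_apply, colv_sub_diag]
  rfl

end Main

end Rep

end Vale.Agent.P184.H444
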