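import Vale.Agent.P184.H444.GitC
import Vale.Agent.P184.H444.Rep

/-!
# The index theorem for cocycles with values in a group
-/

noncomputable section

open Filter Topology

namespace Vale.Agent.P184.H444

/-- Cocycles of `G` on `X` with values in the group `L`. -/
structure LCoc (G X L : Type*) [Group G] [MulAction G X] [Group L] where
  /-- the function -/
  fn : G → X → L
  mul' : ∀ h k x, fn (h * k) x = fn h (k • x) * fn k x

section Rep

attribute [local instance] Matrix.linftyOpNormedRing Matrix.linftyOpNormedAlgebra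

variable {G X L : Type*} [Group G] [MulAction G X] [Group L] {q : ℕ}

/-- columns -/
def colL (α : LCoc G X L) (h : G) (m : Mq q) (z : (X × Fin q) × L) : V ((X × Fin q) × L) :=
  ∑ i, m i z.1.2 • dl ((h • z.1.1, i), α.fn h z.1.1 * z.2)

theorem colL_norm (α : LCoc G X L) (h : G) (m : Mq q) (z : (X × Fin q) × L) :
    ‖colL α h m z‖ ≤ q * ‖m‖ := by
  refine (norm_sum_le _ _).trans ?_
  have h1 : ∀ i, ‖m i z.1.2 • (dl ((h • z.1.1, i), α.fn h z.1.1 * z.2) :
      V ((X × Fin q) × L))‖ ≤ ‖m‖ := by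
    intro i
    rw [norm_smul, dl_norm, mul_one]
    exact norm_entry_le m i z.1.2
  refine (Finset.sum_le_sum fun i _ => h1 i).trans ?_
  rw [Finset.sum_const, Finset.card_univ, Fintype.card_fin, nsmul_eq_mul]

theorem colL_add (α : LCoc G X L) (h : G) (m n : Mq q) (z : (X × Fin q) × L) :
    colL α h (m + n) z = colL α h m z + colL α h n z := by
  unfold colL
  rw [← Finset.sum_add_distrib]
  refine Finset.sum_congr rfl fun i _ => ?_
  rw [← add_smul, Matrix.add_apply]

theorem colL_smul (α : LCoc G X L) (h : G) (c : ℂ) (m : Mq q) (z : (X × Fin q) × L) :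
    colL α h (c • m) z = c • colL α h m z := by
  unfold colL
  rw [Finset.smul_sum]
  refine Finset.sum_congr rfl fun i _ => ?_
  rw [smul_smul, Matrix.smul_apply, smul_eq_mul]

/-- the operators -/
def phL (α : LCoc G X L) (h : G) :
    Mq q →L[ℂ] (V ((X × Fin q) × L) →L[ℂ] V ((X × Fin q) × L)) :=
  LinearMap.mkContinuous
    { toFun := fun m => cols (colL α h m) (q * ‖m‖) (colL_norm α h m)
      map_add' := fun m n => op_ext fun z => by
        rw [_root_.add_apply, cols_dl, cols_dl, cols_dl, colL_add]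
      map_smul' := fun c m => op_ext fun z => by
        rw [RingHom.id_apply, _root_.smul_apply, cols_dl, cols_dl, colL_smul] } q
    fun m => op_norm_le _ (by positivity) fun z => by
      change ‖cols (colL α h m) (q * ‖m‖) (colL_norm α h m) (dl z)‖ ≤ _
      rw [cols_dl]
      exact colL_norm α h m z

theorem phL_dl (α : LCoc G X L) (h : G) (m : Mq q) (z : (X × Fin q) × L) :
    phL α h m (dl z) = colL α h m z := cols_dl _ _ (colL_norm α h m) z

theorem phL_norm (α : LCoc G X L) (h : G) (m : Mq q) : ‖phL α h m‖ ≤ q * ‖m‖ :=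
  op_norm_le _ (by positivity) fun z => by
    rw [phL_dl]
    exact colL_norm α h m z

theorem phL_mul (α : LCoc G X L) (h k : G) (m n : Mq q) :
    phL α h m * phL α k n = phL α (h * k) (m * n) := by
  refine op_ext fun z => ?_
  change phL α h m (phL α k n (dl z)) = _
  rw [phL_dl, phL_dl]
  unfold colL
  rw [map_sum]
  have h1 : ∀ l, phL α h m (n l z.1.2 • dl ((k • z.1.1, l), α.fn k z.1.1 * z.2)) =
      ∑ i, (m i l * n l z.1.2) • dl (((h * k) • z.1.1, i), α.fn (h * k) z.1.1 * z.2) := by
    intro l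
    rw [map_smul, phL_dl, colL, Finset.smul_sum]
    refine Finset.sum_congr rfl fun i _ => ?_
    rw [smul_smul, mul_smul h k z.1.1, α.mul', mul_comm, mul_assoc]
  rw [Finset.sum_congr rfl fun l _ => h1 l, Finset.sum_comm]
  refine Finset.sum_congr rfl fun i _ => ?_
  rw [← Finset.sum_smul, Matrix.mul_apply]

theorem eqv_phL (α : LCoc G X L) (h : G) (m : Mq q) : Eqv (phL α h m) :=
  eqv_of_dl fun l p => by
    have hp : p = (p.1, p.2) := rfl
    rw [hp, rtr_dl, phL_dl, phL_dl]
    unfold colL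
    rw [map_sum]
    refine Finset.sum_congr rfl fun i _ => ?_
    rw [map_smul, rtr_dl, mul_assoc]

/-- the operator given by a summable matrix valued function -/
def oprL (α : LCoc G X L) (f : G → Mq q) : V ((X × Fin q) × L) →L[ℂ] V ((X × Fin q) × L) :=
  ∑' h, phL α h (f h)

theorem phL_summable (α : LCoc G X L) {f : G → Mq q} (hf : Summable fun h => ‖f h‖) :
    Summable fun h => ‖phL α h (f h)‖ :=
  Summable.of_nonneg_of_le (fun _ => norm_nonneg _) (fun h => phL_norm α h (f h))
    (hf.mul_left (q : ℝ))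

theorem oprL_idem (α : LCoc G X L) {f : G → Mq q} (hf : Summable fun h => ‖f h‖)
    (hc : ∀ k, ∑' h, f h * f (h⁻¹ * k) = f k) : oprL α f * oprL α f = oprL α f := by
  unfold oprL
  rw [tsum_conv _ (phL_summable α hf)]
  refine tsum_congr fun k => ?_
  have h1 : ∀ h, phL α h (f h) * phL α (h⁻¹ * k) (f (h⁻¹ * k)) =
      phL α k (f h * f (h⁻¹ * k)) := by
    intro h
    rw [phL_mul, mul_inv_cancel_left]
  rw [tsum_congr h1, ← (phL α k).map_tsum (conv_summable hf k), hc]

theorem oprL_v (α : LCoc G X L) {f : G → Mq q} (hf : Summable fun h => ‖f h‖)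
    (v : V ((X × Fin q) × L)) : HasSum (fun h => phL α h (f h) v) (oprL α f v) :=
  (phL_summable α hf).of_norm.hasSum.mapL
    (ContinuousLinearMap.apply ℂ (V ((X × Fin q) × L)) v)

theorem eqv_oprL (α : LCoc G X L) {f : G → Mq q} (hf : Summable fun h => ‖f h‖) :
    Eqv (oprL α f) := by
  intro l v
  have h1 := oprL_v α hf (rtr _ l v)
  have h2 := (oprL_v α hf v).mapL (rtr _ l)
  have e : (fun h => phL α h (f h) (rtr _ l v)) = fun h => rtr _ l (phL α h (f h) v) :=
    funext fun h => eqv_phL α h (f h) l v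
  rw [e] at h1
  exact h1.unique h2

open Classical in
/-- the indicator of the difference -/
def del (α β : LCoc G X L) (h : G) (x : X) : ℝ := if α.fn h x = β.fn h x then 0 else 1

theorem del_nonneg (α β : LCoc G X L) (h : G) (x : X) : 0 ≤ del α β h x := by
  unfold del
  split_ifs
  · exact le_rfl
  · exact zero_le_one

theorem dif_norm (α β : LCoc G X L) (h : G) (m : Mq q) (z : (X × Fin q) × L) :
    ‖(phL α h m - phL β h m) (dl z)‖ ≤ 2 * q * (‖m‖ * del α β h z.1.1) := by
  change ‖phL α h m (dl z) - phL β h m (dl z)‖ ≤ _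
  rw [phL_dl, phL_dl]
  unfold del
  split_ifs with h1
  · have h2 : colL α h m z = colL β h m z := by
      unfold colL
      rw [h1]
    rw [h2, sub_self, norm_zero, mul_zero, mul_zero]
  · refine (norm_sub_le _ _).trans ?_
    have h2 := colL_norm α h m z
    have h3 := colL_norm β h m z
    rw [mul_one]
    linarith

theorem D_norm (α β : LCoc G X L) {f : G → Mq q} (hf : Summable fun h => ‖f h‖)
    (z : X × Fin q) (h3 : Summable fun h => ‖f h‖ * del α β h z.1) :
    ‖(oprL α f - oprL β f) (dl (z, 1))‖ ≤ 2 * q * ∑' h, ‖f h‖ * del α β h z.1 := by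
  have h6 : HasSum (fun h => phL α h (f h) (dl (z, 1)) - phL β h (f h) (dl (z, 1)))
      (oprL α f (dl (z, 1)) - oprL β f (dl (z, 1))) := (oprL_v α hf _).sub (oprL_v β hf _)
  have h7 : ∀ h, ‖phL α h (f h) (dl (z, 1)) - phL β h (f h) (dl (z, 1))‖ ≤
      2 * q * (‖f h‖ * del α β h z.1) := fun h => dif_norm α β h (f h) (z, 1)
  have h8 := tsum_of_norm_bounded (h3.hasSum.mul_left (2 * q : ℝ)) h7
  rw [h6.tsum_eq] at h8
  exact h8

section Main

variable (α β : LCoc G X L) {f : G → Mq q} (hf : Summable fun h => ‖f h‖)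
  (hfin : ∀ h, {x | α.fn h x ≠ β.fn h x}.Finite)
  (hs : Summable fun h => ‖f h‖ * ({x | α.fn h x ≠ β.fn h x}.ncard : ℝ))

include hfin

theorem del_zero (h : G) (c : ℝ) : ∀ x ∉ (hfin h).toFinset, c * del α β h x = 0 := by
  intro x hx
  rw [Set.Finite.mem_toFinset] at hx
  unfold del
  rw [if_pos (not_not.1 hx), mul_zero]

theorem del_sum (h : G) {c : ℝ} (hc : 0 ≤ c) : (Summable fun x => c * del α β h x) ∧
    ∑' x, c * del α β h x ≤ c * ({x | α.fn h x ≠ β.fn h x}.ncard : ℝ) := by
  refine ⟨summable_of_ne_finset_zero (del_zero α β hfin h c), ?_⟩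
  rw [tsum_eq_sum (del_zero α β hfin h c)]
  have h2 : ∀ x ∈ (hfin h).toFinset, c * del α β h x ≤ c := by
    intro x _
    refine mul_le_of_le_one_right hc ?_
    unfold del
    split_ifs
    · exact zero_le_one
    · exact le_rfl
  refine (Finset.sum_le_card_nsmul _ _ _ h2).trans (le_of_eq ?_)
  rw [nsmul_eq_mul, Set.ncard_eq_toFinset_card _ (hfin h), mul_comm]

include hs

theorem del_summable : Summable fun z : G × X => ‖f z.1‖ * del α β z.1 z.2 := by
  have h0 : (0 : G × X → ℝ) ≤ fun z : G × X => ‖f z.1‖ * del α β z.1 z.2 :=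
    fun z => mul_nonneg (norm_nonneg _) (del_nonneg _ _ _ _)
  refine (summable_prod_of_nonneg h0).2
    ⟨fun h => (del_sum α β hfin h (norm_nonneg (f h))).1, ?_⟩
  exact Summable.of_nonneg_of_le (fun h => tsum_nonneg fun x => h0 (h, x))
    (fun h => (del_sum α β hfin h (norm_nonneg (f h))).2) hs

include hf

theorem ll_D : LL (oprL α f - oprL β f) := by
  have h1 := del_summable α β hfin hs
  have h2 : Summable fun z : X × G => ‖f z.2‖ * del α β z.2 z.1 :=
    (Equiv.prodComm X G).summable_iff.2 h1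
  have h0 : (0 : X × G → ℝ) ≤ fun z : X × G => ‖f z.2‖ * del α β z.2 z.1 :=
    fun z => mul_nonneg (norm_nonneg _) (del_nonneg _ _ _ _)
  obtain ⟨h3, h4⟩ := (summable_prod_of_nonneg h0).1 h2
  have h5 : Summable fun z : X × Fin q => (∑' h, ‖f h‖ * del α β h z.1) * (1 : ℝ) :=
    h4.mul_of_nonneg (g := fun _ : Fin q => (1 : ℝ)) (Summable.of_finite)
      (fun x => tsum_nonneg fun h => h0 (x, h)) (fun _ => zero_le_one)
  refine Summable.of_nonneg_of_le (fun z => norm_nonneg ((oprL α f - oprL β f) (dl (z, 1))))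
    (fun z => ?_) (h5.mul_left (2 * q : ℝ))
  rw [mul_one]
  exact D_norm α β hf z (h3 z.1)

end Main

end Rep

end Vale.Agent.P184.H444
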