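import Vale.Agent.P184.H444.GitCC

/-!
# The circle
-/

noncomputable section

open Filter Topology Asymptotics

namespace Vale.Agent.P184.H444

/-- the circle -/
abbrev Cir : Type := ℝ ⧸ AddSubgroup.zmultiples (1 : ℝ)

theorem cir_eq {x y : ℝ} : (x : Cir) = (y : Cir) ↔ ∃ n : ℤ, y = x + n := by
  rw [QuotientAddGroup.eq, AddSubgroup.mem_zmultiples_iff]
  constructor
  · rintro ⟨n, hn⟩
    refine ⟨n, ?_⟩
    rw [zsmul_one] at hn
    linarith
  · rintro ⟨n, rfl⟩
    refine ⟨n, ?_⟩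
    rw [zsmul_one]
    ring

theorem out_mk (x : ℝ) : ∃ n : ℤ, Quotient.out (x : Cir) = x + n := by
  have h : ((Quotient.out (x : Cir) : ℝ) : Cir) = (x : Cir) := Quotient.out_eq _
  exact cir_eq.1 h.symm

theorem Jt.add_const {k : ℕ} {l : Filter ℝ} {f : ℝ → ℝ} {x : ℝ} {M : Matrix (Fin k) (Fin k) ℝ}
    (h : Jt l f x M) (f' : ℝ → ℝ) (c : ℝ) (hf : ∀ y, f' y = f y + c) : Jt l f' x M := by
  have h1 : ∀ t, f' (x + t) - f' x = f (x + t) - f x := fun t => by
    rw [hf, hf]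
    ring
  refine ⟨h.1.congr_left fun t => (h1 t).symm, fun i => (h.2 i).congr_left fun t => ?_⟩
  rw [h1]

theorem Jt.shift {k : ℕ} {l : Filter ℝ} {f : ℝ → ℝ} {x : ℝ} {M : Matrix (Fin k) (Fin k) ℝ}
    (h : Jt l f x M) (a : ℝ) (hf : ∀ y, f (y + a) = f y + a) : Jt l f (x + a) M := by
  have h1 : ∀ t, f (x + a + t) - f (x + a) = f (x + t) - f x := fun t => by
    rw [show x + a + t = x + t + a by ring, hf, hf]
    ring
  refine ⟨h.1.congr_left fun t => (h1 t).symm, fun i => (h.2 i).congr_left fun t => ?_⟩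
  rw [h1]

theorem jt_torsion' {l : Filter ℝ} (hl : l ≤ 𝓝 0) {k : ℕ} (hk : 0 < k) (f : ℝ ≃o ℝ) (x : ℝ)
    (hx : f x = x) (n : ℕ) (hn : 0 < n)
    (h : Jt l (f ^ n : ℝ ≃o ℝ) x (1 : Matrix (Fin k) (Fin k) ℝ)) :
    Jt l f x (1 : Matrix (Fin k) (Fin k) ℝ) := by
  have h7 := h.2 ⟨0, hk⟩
  simp only [Matrix.one_apply, ite_mul, one_mul, zero_mul, Finset.sum_ite_eq,
    Finset.mem_univ, if_true, zero_add, pow_one] at h7
  have hxn : (f ^ n : ℝ ≃o ℝ) x = x := by
    clear h h7 hn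
    induction n with
    | zero => rfl
    | succ n ih =>
      rw [pow_succ]
      change (f ^ n : ℝ ≃o ℝ) (f x) = x
      rw [hx, ih]
  refine jt_one hl ?_
  refine (IsBigO.of_bound 1 (Eventually.of_forall fun t => ?_)).trans h7
  rw [one_mul, Real.norm_eq_abs, Real.norm_eq_abs, hx, hxn, sub_sub, sub_sub]
  exact iter_le f (x + t) n hn

theorem edge_right (f : ℝ ≃o ℝ) (m b y : ℝ) (hmb : m < b) (hI : ∀ t, m ≤ t → t < b → f t = t)
    (hmy : m ≤ y) (hy : f y ≠ y) : ∃ x, f x = x ∧ (∀ᶠ t in 𝓝[<] (0 : ℝ), f (x + t) = x + t) ∧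
      ¬ ∀ᶠ t in 𝓝[>] (0 : ℝ), f (x + t) = x + t := by
  set A : Set ℝ := {z | m ≤ z ∧ ∀ t, m ≤ t → t ≤ z → f t = t} with hA
  have hmA : m ∈ A := ⟨le_rfl, fun t h1 h2 => hI t h1 (h2.trans_lt hmb)⟩
  have hbdd : BddAbove A := ⟨y, fun z hz => by
    by_contra h
    exact hy (hz.2 y hmy (not_le.1 h).le)⟩
  set x := sSup A with hxA
  have h1 : ∀ t, m ≤ t → t < x → f t = t := by
    intro t hmt ht
    obtain ⟨z, hz, hzt⟩ := exists_lt_of_lt_csSup ⟨m, hmA⟩ ht
    exact hz.2 t hmt hzt.le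
  have hmx : m < x := by
    have h2 : (m + b) / 2 ∈ A := ⟨by linarith, fun t h3 h4 => hI t h3 (by linarith)⟩
    have h3 := le_csSup hbdd h2
    linarith
  have h2 : f x = x := by
    have h3 : Tendsto f (𝓝[<] x) (𝓝 (f x)) := (f.continuous.tendsto x).mono_left nhdsWithin_le_nhds
    have h4 : Tendsto (fun t : ℝ => t) (𝓝[<] x) (𝓝 x) := nhdsWithin_le_nhds
    refine tendsto_nhds_unique h3 (h4.congr' ?_)
    filter_upwards [Ioo_mem_nhdsLT hmx] with t ht
    exact (h1 t ht.1.le ht.2).symm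
  refine ⟨x, h2, ?_, fun h4 => ?_⟩
  · filter_upwards [Ioo_mem_nhdsLT (show m - x < 0 by linarith)] with t ht
    exact h1 (x + t) (by linarith [ht.1]) (by linarith [ht.2])
  · obtain ⟨l, hl, h6⟩ := mem_nhdsGT_iff_exists_Ioo_subset.1 h4
    have hl' : 0 < l := hl
    have h7 : x + l / 2 ∈ A := by
      refine ⟨by linarith, fun t h8 h9 => ?_⟩
      rcases lt_trichotomy t x with h10 | h10 | h10
      · exact h1 t h8 h10
      · rw [h10, h2]
      · have h11 : f (x + (t - x)) = x + (t - x) :=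
          h6 (show t - x ∈ Set.Ioo 0 l from ⟨by linarith, by linarith⟩)
        rw [add_sub_cancel] at h11
        exact h11
    have h8 := le_csSup hbdd h7
    linarith

section Circle

variable {G : Type*} [Group G] (σ : G → (ℝ ≃o ℝ)) (hper : ∀ g x, σ g (x + 1) = σ g x + 1)
  (hmul : ∀ g h, ∃ n : ℤ, ∀ x, σ (g * h) x = σ g (σ h x) + n)

omit [Group G] in
include hper in
theorem per_int (g : G) (x : ℝ) (n : ℤ) : σ g (x + n) = σ g x + n := by
  have hp : Function.Periodic (fun x => σ g x - x) 1 := fun x => by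
    change σ g (x + 1) - (x + 1) = σ g x - x
    rw [hper]
    ring
  have h1 := (hp.int_mul n) x
  rw [mul_one] at h1
  linarith

include hmul in
theorem lift_one : ∃ n : ℤ, ∀ y, σ 1 y = y + n := by
  obtain ⟨n, hn⟩ := hmul 1 1
  refine ⟨-n, fun y => ?_⟩
  have h1 := hn ((σ 1).symm y)
  rw [mul_one, OrderIso.apply_symm_apply] at h1
  push_cast
  linarith

/-- the action on the circle -/
@[reducible]
def cact : MulAction G Cir where
  smul g c := ((σ g (Quotient.out c) : ℝ) : Cir)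
  one_smul c := by
    obtain ⟨n, hn⟩ := lift_one σ hmul
    change ((σ 1 (Quotient.out c) : ℝ) : Cir) = c
    rw [hn]
    have h : ((Quotient.out c : ℝ) : Cir) = c := Quotient.out_eq _
    rw [← (cir_eq.2 ⟨n, rfl⟩ : ((Quotient.out c : ℝ) : Cir) = _), h]
  mul_smul g h c := by
    obtain ⟨n, hn⟩ := hmul g h
    change ((σ (g * h) (Quotient.out c) : ℝ) : Cir) =
      ((σ g (Quotient.out ((σ h (Quotient.out c) : ℝ) : Cir)) : ℝ) : Cir)
    obtain ⟨m, hm⟩ := out_mk (σ h (Quotient.out c))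
    rw [hm, hn, per_int σ hper]
    refine cir_eq.2 ⟨m - n, ?_⟩
    push_cast
    ring

theorem cact_mk (g : G) (x : ℝ) :
    (cact σ hper hmul).smul g (x : Cir) = ((σ g x : ℝ) : Cir) := by
  change ((σ g (Quotient.out (x : Cir)) : ℝ) : Cir) = _
  obtain ⟨m, hm⟩ := out_mk x
  rw [hm, per_int σ hper]
  exact (cir_eq.2 ⟨m, rfl⟩).symm

/-- a cocycle of jets -/
def ccoc (k : ℕ) (l : Filter ℝ) [l.NeBot] (hl : l ≤ 𝓝[≠] 0)
    (J : G → ℝ → Matrix (Fin k) (Fin k) ℝ) (hJ : ∀ g x, Jt l (σ g) x (J g x))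
    (ht : ∀ g x, Tendsto (fun t => σ g (x + t) - σ g x) l l) :
    @LCoc G Cir (Tri k) _ (cact σ hper hmul) _ :=
  letI := cact σ hper hmul
  have hm : ∀ g h x, J (g * h) x = J g (σ h x) * J h x := fun g h x => by
    obtain ⟨n, hn⟩ := hmul g h
    have h3 := Jt.comp (hJ g (σ h x)) (hJ h x) (ht h x)
    exact Jt.unique hl (hJ (g * h) x) (h3.add_const _ n hn)
  have hs : ∀ g x (n : ℤ), J g (x + n) = J g x := fun g x n =>
    Jt.unique hl (hJ g (x + n)) ((hJ g x).shift n fun y => per_int σ hper g y n)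
  have hone : ∀ x, J 1 x = 1 := fun x => by
    obtain ⟨n, hn⟩ := lift_one σ hmul
    have h1 : Jt l (fun y : ℝ => y) x (1 : Matrix (Fin k) (Fin k) ℝ) :=
      jt_id (Eventually.of_forall fun t => rfl) rfl
    exact Jt.unique hl (hJ 1 x) (h1.add_const _ n hn)
  have hinv : ∀ g x, J g (σ g⁻¹ (σ g x)) = J g x := fun g x => by
    obtain ⟨n, hn⟩ := hmul g⁻¹ g
    obtain ⟨m, hm⟩ := lift_one σ hmul
    have h1 := hn x
    rw [inv_mul_cancel, hm] at h1
    have h2 : σ g⁻¹ (σ g x) = x + ((m - n : ℤ) : ℝ) := by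
      push_cast
      linarith
    rw [h2, hs]
  { fn := fun g c => ⟨⟨J g (Quotient.out c), J g⁻¹ (σ g (Quotient.out c)), by
        rw [← hinv g, ← hm, mul_inv_cancel, hone], by
        rw [← hm, inv_mul_cancel, hone]⟩,
      fun i j hij => (hJ g _).tri hl i j hij, fun i j hij => (hJ g⁻¹ _).tri hl i j hij⟩
    mul' := fun g h c => by
      refine Subtype.ext (Units.ext ?_)
      change J (g * h) (Quotient.out c) =
        J g (Quotient.out ((σ h (Quotient.out c) : ℝ) : Cir)) * J h (Quotient.out c)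
      obtain ⟨m, hm'⟩ := out_mk (σ h (Quotient.out c))
      rw [hm', hs, hm] }

end Circle

end Vale.Agent.P184.H444
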