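import Vale.Agent.P184.H444.GitD

/-!
# The index theorem for cocycles with values in a group
-/

noncomputable section

open Filter Topology

namespace Vale.Agent.P184.H444

section Rep

attribute [local instance] Matrix.linftyOpNormedRing Matrix.linftyOpNormedAlgebra

variable {G X L : Type*} [Group G] [MulAction G X] [Group L] {q : ℕ}

/-- column sums -/
def cs (D : V ((X × Fin q) × L) →L[ℂ] V ((X × Fin q) × L)) (y : X) : ℝ :=
  ∑ i : Fin q, ‖D (dl ((y, i), 1))‖

theorem cs_nonneg (D : V ((X × Fin q) × L) →L[ℂ] V ((X × Fin q) × L)) (y : X) : 0 ≤ cs D y :=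
  Finset.sum_nonneg fun i _ => norm_nonneg (D (dl ((y, i), 1)))

theorem cs_summable {D : V ((X × Fin q) × L) →L[ℂ] V ((X × Fin q) × L)} (hD : LL D) :
    Summable (cs D) := by
  have h1 : Summable fun z : X × Fin q => ‖D (dl (z, 1))‖ := hD
  have h2 := h1.prod
  refine h2.congr fun y => ?_
  exact tsum_fintype _

theorem comp_one (β : LCoc G X L) {D : V ((X × Fin q) × L) →L[ℂ] V ((X × Fin q) × L)}
    (hDe : Eqv D) (h : G) (m : Mq q) (z : X × Fin q) :
    ‖D (phL β h m (dl (z, 1)))‖ ≤ ‖m‖ * cs D (h • z.1) := by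
  rw [phL_dl]
  unfold colL cs
  rw [map_sum, Finset.mul_sum]
  refine (norm_sum_le _ _).trans (Finset.sum_le_sum fun i _ => ?_)
  rw [map_smul, norm_smul]
  exact mul_le_mul (norm_entry_le m i z.2) (hDe.norm_dl _ _)
    (norm_nonneg (D (dl ((h • z.1, i), β.fn h z.1 * 1)))) (norm_nonneg m)

theorem comp_norm (β : LCoc G X L) {D : V ((X × Fin q) × L) →L[ℂ] V ((X × Fin q) × L)}
    (hDe : Eqv D) {f : G → Mq q} (hf : Summable fun h => ‖f h‖) (z : X × Fin q)
    (h3 : Summable fun h => ‖f h‖ * cs D (h • z.1)) :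
    ‖D (oprL β f (dl (z, 1)))‖ ≤ ∑' h, ‖f h‖ * cs D (h • z.1) := by
  have h6 : HasSum (fun h => D (phL β h (f h) (dl (z, 1)))) (D (oprL β f (dl (z, 1)))) :=
    (oprL_v β hf (dl (z, 1))).mapL D
  have h8 := tsum_of_norm_bounded h3.hasSum fun h => comp_one β hDe h (f h) z
  rw [h6.tsum_eq] at h8
  exact h8

theorem shift_summable {a : G → ℝ} {d : X → ℝ} (ha : Summable a) (hd : Summable d)
    (ha0 : ∀ h, 0 ≤ a h) (hd0 : ∀ y, 0 ≤ d y) :
    (∀ x, Summable fun h => a h * d (h • x)) ∧ Summable fun x => ∑' h, a h * d (h • x) := by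
  have h1 : Summable fun z : G × X => a z.1 * d z.2 := ha.mul_of_nonneg hd ha0 hd0
  let e : X × G ≃ G × X :=
    { toFun := fun z => (z.2, z.2 • z.1)
      invFun := fun z => (z.1⁻¹ • z.2, z.1)
      left_inv := fun z => by simp only [inv_smul_smul]
      right_inv := fun z => by simp only [smul_inv_smul] }
  have h2 : Summable fun z : X × G => a z.2 * d (z.2 • z.1) := e.summable_iff.2 h1
  have h0 : (0 : X × G → ℝ) ≤ fun z : X × G => a z.2 * d (z.2 • z.1) :=
    fun z => mul_nonneg (ha0 _) (hd0 _)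
  exact (summable_prod_of_nonneg h0).1 h2

theorem ll_comp (β : LCoc G X L) {D : V ((X × Fin q) × L) →L[ℂ] V ((X × Fin q) × L)}
    (hDe : Eqv D) (hD : LL D) {f : G → Mq q} (hf : Summable fun h => ‖f h‖) :
    LL (D.comp (oprL β f)) := by
  obtain ⟨h3, h4⟩ := shift_summable (X := X) hf (cs_summable hD) (fun h => norm_nonneg (f h))
    (cs_nonneg D)
  have h5 : Summable fun z : X × Fin q => (∑' h, ‖f h‖ * cs D (h • z.1)) * (1 : ℝ) :=
    h4.mul_of_nonneg (g := fun _ : Fin q => (1 : ℝ)) (Summable.of_finite)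
      (fun x => tsum_nonneg fun h => mul_nonneg (norm_nonneg (f h)) (cs_nonneg D _))
      (fun _ => zero_le_one)
  refine Summable.of_nonneg_of_le
    (fun z => norm_nonneg ((D.comp (oprL β f)) (dl (z, 1)))) (fun z => ?_) h5
  rw [mul_one]
  exact comp_norm β hDe hf z (h3 z.1)

open Classical in
theorem colL_diag (α : LCoc G X L) (h : G) (m : Mq q) (x : X) (j : Fin q) (l : L) :
    colL α h m ((x, j), 1) ((x, j), l) = if h • x = x ∧ l = α.fn h x then m j j else 0 := by
  unfold colL
  rw [lp.coeFn_sum, Finset.sum_apply]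
  have h1 : ∀ i, (m i j • (dl ((h • x, i), α.fn h x * 1) : V ((X × Fin q) × L))) ((x, j), l) =
      m i j * (dl ((h • x, i), α.fn h x * 1) : V ((X × Fin q) × L)) ((x, j), l) := by
    intro i
    rw [lp.coeFn_smul, Pi.smul_apply, smul_eq_mul]
  rw [Finset.sum_congr rfl fun i _ => h1 i]
  split_ifs with hz
  · rw [Finset.sum_eq_single j]
    · rw [hz.1, mul_one, ← hz.2, dl_same, mul_one]
    · intro i _ hi
      rw [dl_ne, mul_zero]
      intro h2
      exact hi (congrArg (fun p => p.1.2) h2).symm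
    · intro h2
      exact absurd (Finset.mem_univ _) h2
  · refine Finset.sum_eq_zero fun i _ => ?_
    rw [dl_ne, mul_zero]
    intro h2
    refine hz ⟨(congrArg (fun p => p.1.1) h2).symm, ?_⟩
    have h3 := congrArg (fun p => p.2) h2
    dsimp only at h3
    rw [h3, mul_one]

open Classical in
theorem diag_sum (α : LCoc G X L) (C : Set L) (h : G) (m : Mq q) (x : X) :
    HasSum (fun p : Fin q × L => if p.2 ∈ C then
      colL α h m ((x, p.1), 1) ((x, p.1), p.2) else 0)
      (if h • x = x then (∑ j, m j j) * (if α.fn h x ∈ C then 1 else 0) else 0) := by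
  have h1 : ∀ p : Fin q × L, (if p.2 ∈ C then
      colL α h m ((x, p.1), 1) ((x, p.1), p.2) else 0) =
      if h • x = x ∧ p.2 = α.fn h x ∧ p.2 ∈ C then m p.1 p.1 else 0 := by
    intro p
    rw [colL_diag]
    by_cases a : p.2 ∈ C
    · rw [if_pos a]
      refine if_congr ?_ rfl rfl
      tauto
    · rw [if_neg a, if_neg]
      tauto
  rw [funext h1]
  have hinj : Function.Injective fun j : Fin q => (j, α.fn h x) := fun a b e =>
    congrArg Prod.fst e
  refine (Function.Injective.hasSum_iff hinj ?_).1 ?_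
  · intro p hp
    rw [if_neg]
    rintro ⟨_, h2, _⟩
    exact hp ⟨p.1, Prod.ext rfl h2.symm⟩
  · have h2 : ((fun p : Fin q × L => if h • x = x ∧ p.2 = α.fn h x ∧ p.2 ∈ C then m p.1 p.1
        else 0) ∘ fun j : Fin q => (j, α.fn h x)) = fun j =>
        if h • x = x then m j j * (if α.fn h x ∈ C then 1 else 0) else 0 := by
      funext j
      change (if h • x = x ∧ α.fn h x = α.fn h x ∧ α.fn h x ∈ C then m j j else 0) = _
      by_cases a : h • x = x
      · by_cases b : α.fn h x ∈ C
        · rw [if_pos ⟨a, rfl, b⟩, if_pos a, if_pos b, mul_one]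
        · rw [if_neg (fun c => b c.2.2), if_pos a, if_neg b, mul_zero]
      · rw [if_neg (fun c => a c.1), if_neg a]
    rw [h2]
    have h3 := hasSum_fintype fun j : Fin q =>
      if h • x = x then m j j * (if α.fn h x ∈ C then (1 : ℂ) else 0) else 0
    convert h3 using 1
    split_ifs
    · rw [Finset.sum_mul]
    · rw [Finset.sum_mul]
    · rw [Finset.sum_const_zero]

end Rep

end Vale.Agent.P184.H444
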