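import Vale.Agent.P184.H444.VDefs2

/-!
# Definitions for the statement on homeomorphisms of the circle
-/

open Filter Topology

namespace Vale.Agent.P184.H444

/-- Piecewise analytic maps of the circle `ℝ/ℤ`, written for a lift `f` to the line: the same
condition as in `PAn`, the finite set being taken modulo `ℤ`. -/
def CAn (f : ℝ → ℝ) : Prop :=
  (∃ S : Finset ℝ, ∀ x : ℝ, (∀ s ∈ S, ∀ n : ℤ, x ≠ s + n) → AnalyticAt ℝ f x) ∧ ∀ x : ℝ,
    (∃ φ : ℝ → ℝ, AnalyticAt ℝ φ x ∧ ∀ᶠ y in 𝓝[>] x, f y = φ y) ∧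
    ∃ φ : ℝ → ℝ, AnalyticAt ℝ φ x ∧ ∀ᶠ y in 𝓝[<] x, f y = φ y

/-- `σ` describes an action of `G` on the circle `ℝ/ℤ` by orientation preserving, piecewise
analytic homeomorphisms: `σ g` is a lift of `g` to the line. -/
def CircAct {G : Type*} [Group G] (σ : G → (ℝ ≃o ℝ)) : Prop :=
  (∀ g x, σ g (x + 1) = σ g x + 1) ∧ (∀ g h, ∃ n : ℤ, ∀ x, σ (g * h) x = σ g (σ h x) + n) ∧
    ∀ g, CAn (σ g)

end Vale.Agent.P184.H444
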