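import Vale.Agent.P184.H444.GitDD
import Vale.Agent.P184.H444.VDefs3

/-!
# Elements which are trivial on an interval of the circle
-/

noncomputable section

open Filter Topology Asymptotics

namespace Vale.Agent.P184.H444

theorem CAn.ex_r {f : ℝ → ℝ} (hf : CAn f) : Ex (𝓝[>] 0) f := fun x =>
  let ⟨φ, h1, h2⟩ := (hf.2 x).1
  ⟨φ, h1, (tend_r x).eventually h2⟩

theorem CAn.ex_l {f : ℝ → ℝ} (hf : CAn f) : Ex (𝓝[<] 0) f := fun x =>
  let ⟨φ, h1, h2⟩ := (hf.2 x).2
  ⟨φ, h1, (tend_l x).eventually h2⟩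

/-- the translated map -/
def trz (f : ℝ ≃o ℝ) (m : ℤ) : ℝ ≃o ℝ := f.trans (OrderIso.addRight (-(m : ℝ)))

theorem trz_apply (f : ℝ ≃o ℝ) (m : ℤ) (y : ℝ) : trz f m y = f y + -(m : ℝ) := rfl

theorem Ex.trz {l : Filter ℝ} {f : ℝ ≃o ℝ} (hf : Ex l f) (m : ℤ) : Ex l (trz f m) := by
  intro x
  obtain ⟨φ, h1, h2⟩ := hf x
  refine ⟨fun y => φ y + -(m : ℝ), h1.add analyticAt_const, ?_⟩
  filter_upwards [h2] with t ht
  rw [trz_apply, ht]

section Circle

variable {G : Type*} [Group G] (σ : G → (ℝ ≃o ℝ)) (hσ : CircAct σ)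

include hσ

theorem circle_point (g : G) (m : ℤ) (x : ℝ) (hx : trz (σ g) m x = x)
    (hr : ∀ᶠ t in 𝓝[<] (0 : ℝ), trz (σ g) m (x + t) = x + t)
    (hl : ¬ ∀ᶠ t in 𝓝[>] (0 : ℝ), trz (σ g) m (x + t) = x + t) : VanishesAt g := by
  obtain ⟨hper, hmul, han⟩ := hσ
  have hlr : (𝓝[>] (0 : ℝ)) ≤ 𝓝[≠] 0 := nhdsWithin_mono _ fun t ht => ne_of_gt ht
  have hll : (𝓝[<] (0 : ℝ)) ≤ 𝓝[≠] 0 := nhdsWithin_mono _ fun t ht => ne_of_lt ht
  obtain ⟨k, hk, hk1⟩ := jet_ne hlr ((han g).ex_r.trz m) hx hl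
  choose J hJ using fun g x => Ex.jt (hll.trans nhdsWithin_le_nhds) (han g).ex_l k x
  choose J' hJ' using fun g x => Ex.jt (hlr.trans nhdsWithin_le_nhds) (han g).ex_r k x
  let _ := cact σ hper hmul
  let α := ccoc σ hper hmul k (𝓝[<] 0) hll J hJ (fun g x => oi_tendsto_l (σ g) x)
  let β := ccoc σ hper hmul k (𝓝[>] 0) hlr J' hJ' (fun g x => oi_tendsto_r (σ g) x)
  have hfin : ∀ h, {x | β.fn h x ≠ α.fn h x}.Finite := by
    intro h
    obtain ⟨S, hS⟩ := (han h).1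
    refine (S.finite_toSet.image fun s : ℝ => (s : Cir)).subset fun c hc => ?_
    by_contra h1
    have h2 : AnalyticAt ℝ (σ h) (Quotient.out c) := by
      refine hS _ fun s hs n h3 => h1 ⟨s, hs, ?_⟩
      have h4 : ((Quotient.out c : ℝ) : Cir) = c := Quotient.out_eq _
      change ((s : ℝ) : Cir) = c
      rw [← h4]
      exact cir_eq.2 ⟨n, h3⟩
    obtain ⟨M, hM⟩ := jt_exists (k := k) (l := 𝓝[≠] 0) nhdsWithin_le_nhds h2
      (Eventually.of_forall fun t => rfl) rfl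
    refine hc (Subtype.ext (Units.ext ?_))
    change J' h (Quotient.out c) = J h (Quotient.out c)
    exact (Jt.unique hlr (hJ' h _) (hM.mono hlr)).trans (Jt.unique hll (hM.mono hll) (hJ h _))
  obtain ⟨a, ha⟩ := out_mk x
  have hshift : ∀ (g : G) (y : ℝ) (n : ℤ), J g (y + n) = J g y := fun g y n =>
    Jt.unique hll (hJ g (y + n)) ((hJ g y).shift n fun z => per_int σ hper g z n)
  have hshift' : ∀ (g : G) (y : ℝ) (n : ℤ), J' g (y + n) = J' g y := fun g y n =>
    Jt.unique hlr (hJ' g (y + n)) ((hJ' g y).shift n fun z => per_int σ hper g z n)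
  have hαv : ∀ g, (α.fn g (x : Cir)).1.val = J g x := fun g => by
    change J g (Quotient.out (x : Cir)) = J g x
    rw [ha, hshift]
  have hβv : ∀ g, (β.fn g (x : Cir)).1.val = J' g x := fun g => by
    change J' g (Quotient.out (x : Cir)) = J' g x
    rw [ha, hshift']
  have hσ' : ∀ y, σ g y = trz (σ g) m y + m := fun y => by
    rw [trz_apply]
    ring
  have hgx : g • (x : Cir) = (x : Cir) := by
    have h1 : g • (x : Cir) = ((σ g x : ℝ) : Cir) := cact_mk σ hper hmul g x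
    rw [h1]
    refine (cir_eq.2 ⟨m, ?_⟩).symm
    rw [hσ', hx]
  have h1 : α.fn g (x : Cir) = 1 := by
    refine Subtype.ext (Units.ext ?_)
    rw [hαv]
    exact Jt.unique hll (hJ g x) ((jt_id hr hx).add_const _ m hσ')
  have h2 : β.fn g (x : Cir) ≠ 1 := by
    intro h3
    have h4 : J' g x = 1 := by
      rw [← hβv, h3]
      rfl
    apply hk1
    rw [← h4]
    exact (hJ' g x).add_const _ (-(m : ℝ)) fun y => rfl
  refine vanish_pt β α hfin (x : Cir) g hgx (fun h3 => h2 ?_) (md_of_amen tri_amen _ fun h3 => ?_)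
  · rw [h1] at h3
    exact eq_one_of_conj h3
  · obtain ⟨n, hn, h4⟩ := isOfFinOrder_iff_pow_eq_one.1 h3
    have h5 : β.fn (g ^ n) (x : Cir) = 1 := (LCoc.pow β hgx n).trans h4
    have h6 : J' (g ^ n) x = 1 := by
      rw [← hβv, h5]
      rfl
    have h7 : ∀ n : ℕ, ∃ c : ℝ, ∀ y, (trz (σ g) m ^ n : ℝ ≃o ℝ) y = σ (g ^ n) y + c := by
      intro n
      induction n with
      | zero =>
        obtain ⟨b, hb⟩ := lift_one σ hmul
        refine ⟨-(b : ℝ), fun y => ?_⟩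
        rw [pow_zero, pow_zero, hb]
        change y = _
        ring
      | succ n ih =>
        obtain ⟨c, hc⟩ := ih
        obtain ⟨b, hb⟩ := hmul (g ^ n) g
        refine ⟨c - b - m, fun y => ?_⟩
        rw [pow_succ, pow_succ, hb]
        change (trz (σ g) m ^ n : ℝ ≃o ℝ) (trz (σ g) m y) = _
        rw [hc, hσ', per_int σ hper]
        ring
    obtain ⟨c, hc⟩ := h7 n
    have h8 : Jt (𝓝[>] 0) (trz (σ g) m ^ n : ℝ ≃o ℝ) x (1 : Matrix (Fin k) (Fin k) ℝ) := by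
      rw [← h6]
      exact (hJ' (g ^ n) x).add_const _ c hc
    exact hk1 (jt_torsion' (hlr.trans nhdsWithin_le_nhds) hk _ x hx n hn h8)

/-- **Elements which are trivial on an interval of the circle.** -/
theorem circle_interval (g : G) (m : ℤ) (a b : ℝ) (hab : a < b)
    (hI : ∀ t, a < t → t < b → σ g t = t + m) (hy : ∃ y, σ g y ≠ y + m) : VanishesAt g := by
  obtain ⟨y, hy⟩ := hy
  have hper := hσ.1
  obtain ⟨n, hn⟩ := exists_nat_gt ((a + b) / 2 - y)
  have hne : trz (σ g) m (y + n) ≠ y + n := by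
    intro h
    apply hy
    have h4 := per_int σ hper g y (n : ℤ)
    push_cast at h4
    rw [trz_apply, h4] at h
    linarith
  obtain ⟨x, h1, h2, h3⟩ := edge_right (trz (σ g) m) ((a + b) / 2) b (y + n) (by linarith)
    (fun t h1 h2 => by
      rw [trz_apply, hI t (by linarith) h2]
      ring) (by linarith) hne
  exact circle_point σ hσ g m x h1 h2 h3

end Circle

end Vale.Agent.P184.H444
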