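import Vale.Agent.P184.H444.GitE

/-!
# The index theorem for cocycles with values in a group
-/

noncomputable section

open Filter Topology

namespace Vale.Agent.P184.H444

section Rep

attribute [local instance] Matrix.linftyOpNormedRing Matrix.linftyOpNormedAlgebra

theorem fam_summable {Z X L : Type*} {q : ℕ} (b : Z → Fin q → V ((X × Fin q) × L)) (x : Z → X)
    {c : Z → ℝ} (hc : Summable c) (hb : ∀ z j, ‖b z j‖ ≤ c z) :
    Summable fun w : Z × (Fin q × L) => ‖b w.1 w.2.1 ((x w.1, w.2.1), w.2.2)‖ := by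
  have h0 : (0 : Z × (Fin q × L) → ℝ) ≤
      fun w => ‖b w.1 w.2.1 ((x w.1, w.2.1), w.2.2)‖ :=
    fun w => norm_nonneg (b w.1 w.2.1 ((x w.1, w.2.1), w.2.2))
  have h1 : ∀ z, Summable fun p : Fin q × L => ‖b z p.1 ((x z, p.1), p.2)‖ := fun z =>
    (summable_prod_of_nonneg fun p => h0 (z, p)).2
      ⟨fun j => slice_summable (b z j) (x z, j), Summable.of_finite⟩
  refine (summable_prod_of_nonneg h0).2 ⟨h1, ?_⟩
  refine Summable.of_nonneg_of_le (fun z => tsum_nonneg fun p => h0 (z, p)) (fun z => ?_)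
    (hc.mul_left (q : ℝ))
  change ∑' p : Fin q × L, ‖b z p.1 ((x z, p.1), p.2)‖ ≤ _
  rw [(h1 z).tsum_prod, tsum_fintype]
  have h2 : ∀ j ∈ (Finset.univ : Finset (Fin q)), ∑' l, ‖b z j ((x z, j), l)‖ ≤ c z := fun j _ =>
    (slice_le (b z j) (x z, j)).trans (hb z j)
  refine (Finset.sum_le_card_nsmul _ _ _ h2).trans (le_of_eq ?_)
  rw [Finset.card_univ, Fintype.card_fin, nsmul_eq_mul]

variable {G X L : Type*} [Group G] [MulAction G X] [Group L] {q : ℕ}

open Classical in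
/-- the trace formula -/
theorem trC_formula (α β : LCoc G X L) {f : G → Mq q} (hf : Summable fun h => ‖f h‖)
    (hfin : ∀ h, {x | α.fn h x ≠ β.fn h x}.Finite)
    (hs : Summable fun h => ‖f h‖ * ({x | α.fn h x ≠ β.fn h x}.ncard : ℝ)) (C : Set L) :
    trC C (oprL α f - oprL β f) = ∑' z : G × X, (if z.1 • z.2 = z.2 then
      (∑ j, f z.1 j j) * ((if α.fn z.1 z.2 ∈ C then 1 else 0) -
        (if β.fn z.1 z.2 ∈ C then 1 else 0)) else 0) := by
  set b : G × X → Fin q → V ((X × Fin q) × L) := fun z j =>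
    (phL α z.1 (f z.1) - phL β z.1 (f z.1)) (dl ((z.2, j), 1)) with hb
  have hbn : ∀ z j, ‖b z j‖ ≤ 2 * q * (‖f z.1‖ * del α β z.1 z.2) := fun z j =>
    dif_norm α β z.1 (f z.1) ((z.2, j), 1)
  have hsum := fam_summable b (fun z : G × X => z.2)
    ((del_summable α β hfin hs).mul_left (2 * q : ℝ)) hbn
  set v : (G × X) × (Fin q × L) → ℂ := fun w =>
    if w.2.2 ∈ C then b w.1 w.2.1 ((w.1.2, w.2.1), w.2.2) else 0 with hv
  have hvs : Summable v := by
    refine Summable.of_norm_bounded hsum fun w => ?_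
    rw [hv]
    dsimp only
    split_ifs
    · exact le_rfl
    · rw [norm_zero]
      exact norm_nonneg (b w.1 w.2.1 ((w.1.2, w.2.1), w.2.2))
  have h3 : ∀ z : G × X, (if z.1 • z.2 = z.2 then
      (∑ j, f z.1 j j) * ((if α.fn z.1 z.2 ∈ C then 1 else 0) -
        (if β.fn z.1 z.2 ∈ C then 1 else 0)) else 0) = ∑' p, v (z, p) := by
    intro z
    have h4 := (diag_sum α C z.1 (f z.1) z.2).sub (diag_sum β C z.1 (f z.1) z.2)
    have h5 : (fun p : Fin q × L => (if p.2 ∈ C then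
        colL α z.1 (f z.1) ((z.2, p.1), 1) ((z.2, p.1), p.2) else 0) -
        (if p.2 ∈ C then
        colL β z.1 (f z.1) ((z.2, p.1), 1) ((z.2, p.1), p.2) else 0)) = fun p => v (z, p) := by
      funext p
      have h6 : b z p.1 = colL α z.1 (f z.1) ((z.2, p.1), 1) -
          colL β z.1 (f z.1) ((z.2, p.1), 1) := by
        change phL α z.1 (f z.1) (dl ((z.2, p.1), 1)) - phL β z.1 (f z.1) (dl ((z.2, p.1), 1)) = _
        rw [phL_dl, phL_dl]
      rw [hv]
      dsimp only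
      rw [h6]
      split_ifs
      · rfl
      · rw [sub_zero]
    rw [h5] at h4
    rw [h4.tsum_eq]
    split_ifs <;> ring
  rw [tsum_congr h3, ← hvs.tsum_prod]
  let e : ((X × Fin q) × L) × G ≃ (G × X) × (Fin q × L) :=
    { toFun := fun w => ((w.2, w.1.1.1), (w.1.1.2, w.1.2))
      invFun := fun w => (((w.1.2, w.2.1), w.2.2), w.1.1)
      left_inv := fun w => rfl
      right_inv := fun w => rfl }
  have h8 : Summable fun w => v (e w) := e.summable_iff.2 hvs
  rw [← e.tsum_eq, h8.tsum_prod]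
  unfold trC
  refine tsum_congr fun p => ?_
  have h6 : HasSum (fun h => phL α h (f h) (dl (p.1, 1)) - phL β h (f h) (dl (p.1, 1)))
      (oprL α f (dl (p.1, 1)) - oprL β f (dl (p.1, 1))) := (oprL_v α hf _).sub (oprL_v β hf _)
  have h7 := (h6.mapL (cf p)).tsum_eq
  have h9 : ∀ h, v (e (p, h)) = if p.2 ∈ C then
      cf p (phL α h (f h) (dl (p.1, 1)) - phL β h (f h) (dl (p.1, 1))) else 0 := fun h => rfl
  rw [tsum_congr h9]
  split_ifs
  · rw [h7]
    rfl
  · rw [tsum_zero]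

open Classical in
/-- **The index theorem.** -/
theorem git (α β : LCoc G X L) {f : G → Mq q} (hf : Summable fun h => ‖f h‖)
    (hc : ∀ k, ∑' h, f h * f (h⁻¹ * k) = f k)
    (hfin : ∀ h, {x | α.fn h x ≠ β.fn h x}.Finite)
    (hs : Summable fun h => ‖f h‖ * ({x | α.fn h x ≠ β.fn h x}.ncard : ℝ))
    {w : L} (hw : VanishesAt w) (hw1 : w ≠ 1) :
    ∑' z : G × X, (if z.1 • z.2 = z.2 then
      (∑ j, f z.1 j j) * ((if α.fn z.1 z.2 ∈ cls w then 1 else 0) -
        (if β.fn z.1 z.2 ∈ cls w then 1 else 0)) else 0) = 0 := by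
  rw [← trC_formula α β hf hfin hs (cls w)]
  have hD : LL (oprL α f - oprL β f) := ll_D α β hf hfin hs
  have hDe : Eqv (oprL α f - oprL β f) := (eqv_oprL α hf).sub (eqv_oprL β hf)
  exact idem_vanish (oprL_idem α hf hc) (oprL_idem β hf hc) (eqv_oprL α hf) (eqv_oprL β hf) hD
    (ll_comp β hDe hD hf) hw hw1

end Rep

end Vale.Agent.P184.H444
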