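import Vale.Agent.P184.H444.GitF
import Vale.Agent.P184.H444.Gen

/-!
# The transfer theorem
-/

noncomputable section

open Filter Topology

namespace Vale.Agent.P184.H444

section Coc

variable {G X L : Type*} [Group G] [MulAction G X] [Group L]

theorem LCoc.one (α : LCoc G X L) (x : X) : α.fn 1 x = 1 := by
  have h1 := α.mul' 1 1 x
  rw [mul_one, one_smul] at h1
  exact left_eq_mul.1 h1

theorem LCoc.conj (α : LCoc G X L) {g : G} {x : X} (hx : g • x = x) (r : G) :
    IsConj (α.fn g x) (α.fn (r * g * r⁻¹) (r • x)) := by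
  rw [α.mul', α.mul', inv_smul_smul, hx]
  have h1 := α.mul' r r⁻¹ (r • x)
  rw [mul_inv_cancel, α.one, inv_smul_smul] at h1
  have h2 : α.fn r⁻¹ (r • x) = (α.fn r x)⁻¹ := by
    rw [eq_inv_iff_mul_eq_one]
    have h3 := α.mul' r⁻¹ r x
    rw [inv_mul_cancel, α.one] at h3
    exact h3.symm
  rw [h2]
  exact isConj_iff.2 ⟨α.fn r x, rfl⟩

/-- the number of points where the cocycles differ -/
def dnum (α β : LCoc G X L) (h : G) : ℝ := ({x | α.fn h x ≠ β.fn h x}.ncard : ℝ)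

theorem dnum_mul (α β : LCoc G X L) (hfin : ∀ h, {x | α.fn h x ≠ β.fn h x}.Finite) (h k : G) :
    dnum α β (h * k) ≤ dnum α β h + dnum α β k := by
  have h1 : {x | α.fn (h * k) x ≠ β.fn (h * k) x} ⊆
      ((fun x => k⁻¹ • x) '' {x | α.fn h x ≠ β.fn h x}) ∪ {x | α.fn k x ≠ β.fn k x} := by
    intro x hx
    by_cases hk : α.fn k x = β.fn k x
    · left
      refine ⟨k • x, ?_, inv_smul_smul k x⟩
      intro h2
      apply hx
      rw [α.mul', β.mul', h2, hk]
    · exact Or.inr hk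
  have h2 := Set.ncard_le_ncard h1 (((hfin h).image _).union (hfin k))
  have h3 := Set.ncard_union_le ((fun x => k⁻¹ • x) '' {x | α.fn h x ≠ β.fn h x})
    {x | α.fn k x ≠ β.fn k x}
  have h4 : ((fun x => k⁻¹ • x) '' {x | α.fn h x ≠ β.fn h x}).ncard ≤
      {x | α.fn h x ≠ β.fn h x}.ncard := Set.ncard_image_le (hfin h)
  unfold dnum
  have h5 : {x | α.fn (h * k) x ≠ β.fn (h * k) x}.ncard ≤
      {x | α.fn h x ≠ β.fn h x}.ncard + {x | α.fn k x ≠ β.fn k x}.ncard := by omega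
  exact_mod_cast h5

end Coc

section Pair

variable {G : Type*} [Group G] {H : Subgroup G} {K : Type*} [Group K]

/-- the cocycle together with the section cocycle -/
def hat (α : LCoc G (G ⧸ H) K) : LCoc G (G ⧸ H) (H × K) where
  fn h x := (kap H h x, α.fn h x)
  mul' h k x := by rw [kap_mul, α.mul', Prod.mk_mul_mk]

theorem pp_iff' {g : H} (z : G × (G ⧸ H)) :
    (IsConj g (kap H z.1 z.2) ∧ z.1 • z.2 = z.2) ↔ PP g z := by
  constructor
  · rintro ⟨h1, h2⟩
    obtain ⟨c, hc⟩ := isConj_iff.1 h1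
    have hc' : (c : G) * g * (c : G)⁻¹ = (sec H (z.1 • z.2))⁻¹ * (z.1 * sec H z.2) :=
      congrArg Subtype.val hc
    refine ⟨sec H z.2 * c, ?_, ?_⟩
    · rw [QuotientGroup.mk_mul_of_mem _ c.2, sec_mk]
    · rw [h2] at hc'
      calc sec H z.2 * c * g * (sec H z.2 * c)⁻¹ =
            sec H z.2 * ((c : G) * g * (c : G)⁻¹) * (sec H z.2)⁻¹ := by group
        _ = z.1 := by
          rw [hc']
          group
  · rintro ⟨r, hr, hg⟩
    have hfix : z.1 • z.2 = z.2 := by
      rw [← hr, ← hg]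
      change ((r * g * r⁻¹ * r : G) : G ⧸ H) = (r : G ⧸ H)
      rw [inv_mul_cancel_right, QuotientGroup.mk_mul_of_mem _ g.2]
    refine ⟨?_, hfix⟩
    have hu : r⁻¹ * sec H z.2 ∈ H := by
      rw [← QuotientGroup.eq, sec_mk, hr]
    have h3 : kap H z.1 z.2 = (⟨_, hu⟩ : H)⁻¹ * g * ⟨_, hu⟩ := by
      refine Subtype.ext ?_
      change (sec H (z.1 • z.2))⁻¹ * (z.1 * sec H z.2) =
        (r⁻¹ * sec H z.2)⁻¹ * g * (r⁻¹ * sec H z.2)
      rw [hfix, ← hg]
      group
    rw [h3]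
    exact isConj_iff.2 ⟨(⟨_, hu⟩ : H)⁻¹, by rw [inv_inv]⟩

theorem fix_one (g : H) : (g : G) • ((1 : G) : G ⧸ H) = ((1 : G) : G ⧸ H) := by
  change ((g * 1 : G) : G ⧸ H) = ((1 : G) : G ⧸ H)
  rw [QuotientGroup.eq]
  simp

theorem PP.conj {g : H} {z : G × (G ⧸ H)} (h : PP g z) (γ : LCoc G (G ⧸ H) K) :
    IsConj (γ.fn g ((1 : G) : G ⧸ H)) (γ.fn z.1 z.2) := by
  obtain ⟨r, hr, hg⟩ := h
  have h2 := γ.conj (fix_one g) r
  have h3 : r • ((1 : G) : G ⧸ H) = z.2 := by
    change ((r * 1 : G) : G ⧸ H) = z.2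
    rw [mul_one, hr]
  rw [h3, hg] at h2
  exact h2

theorem isConj_prod {A B : Type*} [Group A] [Group B] {a a' : A} {b b' : B} :
    IsConj (a, b) (a', b') ↔ IsConj a a' ∧ IsConj b b' := by
  constructor
  · intro h
    obtain ⟨c, hc⟩ := isConj_iff.1 h
    exact ⟨isConj_iff.2 ⟨c.1, congrArg Prod.fst hc⟩, isConj_iff.2 ⟨c.2, congrArg Prod.snd hc⟩⟩
  · rintro ⟨h1, h2⟩
    obtain ⟨c, hc⟩ := isConj_iff.1 h1
    obtain ⟨d, hd⟩ := isConj_iff.1 h2
    exact isConj_iff.2 ⟨(c, d), Prod.ext hc hd⟩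

theorem mem_cls {L : Type*} [Group L] {w m : L} : m ∈ cls w ↔ IsConj w m := by
  change ConjClasses.mk m = ConjClasses.mk w ↔ _
  rw [eq_comm, ConjClasses.mk_eq_mk_iff_isConj]

end Pair

section Thm

attribute [local instance] Matrix.linftyOpNormedRing Matrix.linftyOpNormedAlgebra

variable {G : Type*} [Group G] {H : Subgroup G} {K : Type*} [Group K]

theorem transfer (α β : LCoc G (G ⧸ H) K) (hfin : ∀ h, {x | α.fn h x ≠ β.fn h x}.Finite) (g : H)
    (hne : ¬ IsConj (α.fn g ((1 : G) : G ⧸ H)) (β.fn g ((1 : G) : G ⧸ H)))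
    (hv : VanishesAt ((g, α.fn g ((1 : G) : G ⧸ H)) : H × K)) : VanishesAt (g : G) := by
  classical
  intro q e he
  obtain ⟨ε, hε, f, hf, hdec, hτ⟩ := exists_decay (dnum α β) (fun h => Nat.cast_nonneg _)
    (dnum_mul α β hfin) e he
  rw [← hτ]
  have hfs := toFn_summable hf
  have hfc := toFn_conv hf
  set F := toFn f with hF
  have hs : Summable fun h => ‖F h‖ * dnum α β h := by
    refine Summable.of_nonneg_of_le (fun h => mul_nonneg (norm_nonneg _) (Nat.cast_nonneg _))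
      (fun h => ?_) (hdec.mul_left ε⁻¹)
    have h1 : ε * dnum α β h ≤ Real.exp (ε * dnum α β h) := by
      have := Real.add_one_le_exp (ε * dnum α β h)
      linarith
    have h2 : dnum α β h ≤ ε⁻¹ * Real.exp (ε * dnum α β h) := by
      rw [inv_mul_eq_div, le_div_iff₀ hε, mul_comm]
      exact h1
    calc ‖F h‖ * dnum α β h ≤ ‖F h‖ * (ε⁻¹ * Real.exp (ε * dnum α β h)) :=
          mul_le_mul_of_nonneg_left h2 (norm_nonneg _)
      _ = ε⁻¹ * (‖F h‖ * Real.exp (ε * dnum α β h)) := by ring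
  have hset : ∀ h, {x | (hat α).fn h x ≠ (hat β).fn h x} = {x | α.fn h x ≠ β.fn h x} := by
    intro h
    ext x
    change ¬ ((kap H h x, α.fn h x) = (kap H h x, β.fn h x)) ↔ ¬ (α.fn h x = β.fn h x)
    rw [Prod.mk_right_inj]
  have hfin' : ∀ h, {x | (hat α).fn h x ≠ (hat β).fn h x}.Finite := fun h => by
    rw [hset]
    exact hfin h
  have hs' : Summable fun h => ‖F h‖ * ({x | (hat α).fn h x ≠ (hat β).fn h x}.ncard : ℝ) := by
    simp only [hset]
    exact hs
  set w : H × K := (g, α.fn g ((1 : G) : G ⧸ H)) with hw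
  have hw1 : w ≠ 1 := by
    intro h
    have h1 : g = 1 := congrArg Prod.fst h
    apply hne
    rw [h1, Subgroup.coe_one, α.one, β.one]
  have hgit := git (hat α) (hat β) hfs hfc hfin' hs' hv hw1
  set t : G → ℂ := fun h => ∑ j, F h j j with ht
  have htn : ∀ h, ‖t h‖ ≤ q * ‖F h‖ := by
    intro h
    refine (norm_sum_le _ _).trans ?_
    refine (Finset.sum_le_sum fun j _ => norm_entry_le (F h) j j).trans ?_
    rw [Finset.sum_const, Finset.card_univ, Fintype.card_fin, nsmul_eq_mul]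
  have hkey : ∀ z : G × (G ⧸ H), (if z.1 • z.2 = z.2 then
      t z.1 * ((if (hat α).fn z.1 z.2 ∈ cls w then 1 else 0) -
        (if (hat β).fn z.1 z.2 ∈ cls w then 1 else 0)) else 0) =
      if PP g z then t z.1 else 0 := by
    intro z
    have ha : (hat α).fn z.1 z.2 ∈ cls w ↔ IsConj g (kap H z.1 z.2) ∧
        IsConj (α.fn g ((1 : G) : G ⧸ H)) (α.fn z.1 z.2) := mem_cls.trans isConj_prod
    have hb : (hat β).fn z.1 z.2 ∈ cls w ↔ IsConj g (kap H z.1 z.2) ∧
        IsConj (α.fn g ((1 : G) : G ⧸ H)) (β.fn z.1 z.2) := mem_cls.trans isConj_prod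
    by_cases hz : PP g z
    · obtain ⟨h1, h2⟩ := (pp_iff' z).2 hz
      have hb' : ¬ (hat β).fn z.1 z.2 ∈ cls w := by
        rw [hb]
        rintro ⟨_, h3⟩
        exact hne (h3.trans (hz.conj β).symm)
      rw [if_pos hz, if_pos h2, if_pos (ha.2 ⟨h1, hz.conj α⟩), if_neg hb', sub_zero, mul_one]
    · rw [if_neg hz]
      by_cases h2 : z.1 • z.2 = z.2
      · have h1 : ¬ IsConj g (kap H z.1 z.2) := fun h => hz ((pp_iff' z).1 ⟨h, h2⟩)
        rw [if_pos h2, if_neg fun h => h1 (ha.1 h).1, if_neg fun h => h1 (hb.1 h).1, sub_zero,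
          mul_zero]
      · rw [if_neg h2]
  have hgit' : ∑' z : G × (G ⧸ H), (if PP g z then t z.1 else 0) = 0 := by
    refine (tsum_congr fun z => ?_).trans hgit
    rw [← hkey z]
    by_cases h2 : z.1 • z.2 = z.2
    · rw [if_pos h2, if_pos h2]
    · rw [if_neg h2, if_neg h2]
  have hsum : Summable fun z : G × (G ⧸ H) => if PP g z then t z.1 else 0 := by
    refine Summable.of_norm_bounded
      ((del_summable (hat α) (hat β) hfin' hs').mul_left (q : ℝ)) fun z => ?_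
    split_ifs with hz
    · have h3 : (hat α).fn z.1 z.2 ≠ (hat β).fn z.1 z.2 := by
        intro h
        have h4 : α.fn z.1 z.2 = β.fn z.1 z.2 := congrArg Prod.snd h
        have h5 := hz.conj α
        rw [h4] at h5
        exact hne (h5.trans (hz.conj β).symm)
      have h6 : del (hat α) (hat β) z.1 z.2 = 1 := if_neg h3
      rw [h6, mul_one]
      exact htn _
    · rw [norm_zero]
      exact mul_nonneg (Nat.cast_nonneg _) (mul_nonneg (norm_nonneg _) (del_nonneg _ _ _ _))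
  have hfinal := pp_sum hsum hgit'
  rw [tau_eq]
  rw [← hfinal]
  have h5 := tsum_subtype {h : G | ConjClasses.mk h = ConjClasses.mk (g : G)}
    (fun h => ∑ i, f i i h)
  refine h5.trans (tsum_congr fun h => ?_)
  rw [Set.indicator_apply]
  rfl

end Thm

end Vale.Agent.P184.H444
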