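import Vale.Agent.P184.H444.GitG

/-!
# Cocycles on free groups
-/

noncomputable section

open Filter Topology

namespace Vale.Agent.P184.H444

section FreeCoc

variable {I G X K : Type*} [Group G] [MulAction G X] [Group K] (p : FreeGroup I →* G)

/-- the permutation given by a generator -/
def cperm (v : I → X → K) (i : I) : Equiv.Perm (X × K) where
  toFun z := (p (FreeGroup.of i) • z.1, v i z.1 * z.2)
  invFun z := ((p (FreeGroup.of i))⁻¹ • z.1, (v i ((p (FreeGroup.of i))⁻¹ • z.1))⁻¹ * z.2)
  left_inv z := by simp only [inv_smul_smul, inv_mul_cancel_left]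
  right_inv z := by simp only [smul_inv_smul, mul_inv_cancel_left]

/-- the action on the product -/
def cth (v : I → X → K) : FreeGroup I →* Equiv.Perm (X × K) := FreeGroup.lift (cperm p v)

theorem cth_of (v : I → X → K) (i : I) : cth p v (FreeGroup.of i) = cperm p v i := by
  unfold cth
  rw [FreeGroup.lift_apply_of]

theorem cth_inv (v : I → X → K) (i : I) (z : X × K) : cth p v (FreeGroup.of i)⁻¹ z =
    ((p (FreeGroup.of i))⁻¹ • z.1, (v i ((p (FreeGroup.of i))⁻¹ • z.1))⁻¹ * z.2) := by
  rw [map_inv, cth_of]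
  rfl

theorem cth_form (v : I → X → K) (h : FreeGroup I) : ∀ x k,
    cth p v h (x, k) = (p h • x, (cth p v h (x, 1)).2 * k) := by
  induction h using FreeGroup.induction_on with
  | C1 =>
    intro x k
    rw [map_one, map_one, one_smul, Equiv.Perm.one_apply, Equiv.Perm.one_apply, one_mul]
  | of i =>
    intro x k
    rw [cth_of]
    change (p (FreeGroup.of i) • x, v i x * k) = (p (FreeGroup.of i) • x, v i x * 1 * k)
    rw [mul_one]
  | inv_of i _ =>
    intro x k
    rw [cth_inv, cth_inv, mul_one, map_inv]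
  | mul h k hh hk =>
    intro x l
    rw [map_mul, Equiv.Perm.mul_apply, Equiv.Perm.mul_apply, hk x l, hh, hk x 1, hh _ (_ * 1),
      map_mul, mul_smul, mul_one, mul_assoc]

/-- the cocycle with given values on the generators -/
def pfn (v : I → X → K) (h : FreeGroup I) (x : X) : K := (cth p v h (x, 1)).2

theorem pfn_mul (v : I → X → K) (h k : FreeGroup I) (x : X) :
    pfn p v (h * k) x = pfn p v h (p k • x) * pfn p v k x := by
  unfold pfn
  rw [map_mul, Equiv.Perm.mul_apply, cth_form p v k x 1, cth_form p v h, mul_one]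

theorem pfn_of (v : I → X → K) (i : I) (x : X) : pfn p v (FreeGroup.of i) x = v i x := by
  unfold pfn
  rw [cth_of]
  exact mul_one _

theorem pfn_one (v : I → X → K) (x : X) : pfn p v 1 x = 1 := by
  unfold pfn
  rw [map_one]
  rfl

theorem pfn_inv (v : I → X → K) (h : FreeGroup I) (x : X) :
    pfn p v h⁻¹ x = (pfn p v h ((p h)⁻¹ • x))⁻¹ := by
  have h1 := pfn_mul p v h h⁻¹ x
  rw [mul_inv_cancel, pfn_one, map_inv] at h1
  exact (inv_eq_of_mul_eq_one_right h1.symm).symm

open Classical in
/-- truncated values -/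
def tv (κ : FreeGroup I → X → K) (D : Finset X) (i : I) (x : X) : K :=
  if x ∈ D then κ (FreeGroup.of i) x else 1

theorem tv_fin (κ : FreeGroup I → X → K) (D : Finset X) (h : FreeGroup I) :
    {x | pfn p (tv κ D) h x ≠ 1}.Finite := by
  induction h using FreeGroup.induction_on with
  | C1 =>
    refine Set.Finite.subset Set.finite_empty fun x hx => hx (pfn_one p _ x)
  | of i =>
    refine D.finite_toSet.subset fun x hx => ?_
    by_contra h
    refine hx ?_
    rw [pfn_of]
    exact if_neg h
  | inv_of i hi =>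
    refine (hi.image fun x => p (FreeGroup.of i) • x).subset fun x hx => ?_
    refine ⟨(p (FreeGroup.of i))⁻¹ • x, fun h => hx ?_, smul_inv_smul _ x⟩
    rw [pfn_inv, h, inv_one]
  | mul h k hh hk =>
    refine ((hh.image fun x => (p k)⁻¹ • x).union hk).subset fun x hx => ?_
    by_cases h1 : pfn p (tv κ D) k x = 1
    · left
      refine ⟨p k • x, fun h2 => hx ?_, inv_smul_smul _ x⟩
      rw [pfn_mul, h1, h2, mul_one]
    · exact Or.inr h1

theorem tv_agree (κ : FreeGroup I → X → K)
    (hκ : ∀ h k x, κ (h * k) x = κ h (p k • x) * κ k x) (h : FreeGroup I) :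
    ∀ x, ∃ D₀ : Finset X, ∀ D, D₀ ⊆ D → pfn p (tv κ D) h x = κ h x := by
  classical
  have hκ1 : ∀ x, κ 1 x = 1 := by
    intro x
    have h1 := hκ 1 1 x
    rw [mul_one, map_one, one_smul] at h1
    exact left_eq_mul.1 h1
  have hκi : ∀ h x, κ h⁻¹ x = (κ h ((p h)⁻¹ • x))⁻¹ := by
    intro h x
    have h1 := hκ h h⁻¹ x
    rw [mul_inv_cancel, hκ1, map_inv] at h1
    exact (inv_eq_of_mul_eq_one_right h1.symm).symm
  induction h using FreeGroup.induction_on with
  | C1 => exact fun x => ⟨∅, fun D _ => by rw [pfn_one, hκ1]⟩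
  | of i =>
    refine fun x => ⟨{x}, fun D hD => ?_⟩
    rw [pfn_of]
    exact if_pos (hD (Finset.mem_singleton_self x))
  | inv_of i hi =>
    intro x
    obtain ⟨D₀, h0⟩ := hi ((p (FreeGroup.of i))⁻¹ • x)
    refine ⟨D₀, fun D hD => ?_⟩
    rw [pfn_inv, hκi]
    exact congrArg _ (h0 D hD)
  | mul h k hh hk =>
    intro x
    obtain ⟨D₁, h1⟩ := hh (p k • x)
    obtain ⟨D₂, h2⟩ := hk x
    refine ⟨D₁ ∪ D₂, fun D hD => ?_⟩
    rw [pfn_mul, hκ, h1 D (Finset.union_subset_left hD), h2 D (Finset.union_subset_right hD)]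

/-- the cocycle on the quotient -/
def desc (hp : Function.Surjective p) (c : FreeGroup I → X → K)
    (hc : ∀ h k x, c (h * k) x = c h (p k • x) * c k x)
    (hker : ∀ m, p m = 1 → ∀ x, c m x = 1) : LCoc G X K where
  fn g x := c (Function.surjInv hp g) x
  mul' g k x := by
    have h1 : p (Function.surjInv hp (g * k)) =
        p (Function.surjInv hp g * Function.surjInv hp k) := by
      rw [map_mul, Function.surjInv_eq hp (g * k), Function.surjInv_eq hp g,
        Function.surjInv_eq hp k]
    have h2 : p ((Function.surjInv hp g * Function.surjInv hp k)⁻¹ *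
        Function.surjInv hp (g * k)) = 1 := by
      rw [map_mul, map_inv, h1, inv_mul_cancel]
    have h3 := hc (Function.surjInv hp g * Function.surjInv hp k)
      ((Function.surjInv hp g * Function.surjInv hp k)⁻¹ * Function.surjInv hp (g * k)) x
    rw [mul_inv_cancel_left, h2, one_smul, hker _ h2, mul_one, hc, Function.surjInv_eq hp k] at h3
    exact h3

theorem desc_fn (hp : Function.Surjective p) (c : FreeGroup I → X → K)
    (hc : ∀ h k x, c (h * k) x = c h (p k • x) * c k x)
    (hker : ∀ m, p m = 1 → ∀ x, c m x = 1) (h : FreeGroup I) (x : X) :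
    (desc p hp c hc hker).fn (p h) x = c h x := by
  change c (Function.surjInv hp (p h)) x = c h x
  have h1 : p (h⁻¹ * Function.surjInv hp (p h)) = 1 := by
    rw [map_mul, map_inv, Function.surjInv_eq hp (p h), inv_mul_cancel]
  have h3 := hc h (h⁻¹ * Function.surjInv hp (p h)) x
  rw [mul_inv_cancel_left, h1, one_smul, hker _ h1, mul_one] at h3
  exact h3

end FreeCoc

end Vale.Agent.P184.H444
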