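import Vale.Agent.P184.H444.GitH

/-!
# Traces for quotients of free groups
-/

noncomputable section

open Filter Topology

namespace Vale.Agent.P184.H444

theorem VanishesAt.of_conj {G : Type*} [Group G] {x y : G} (h : VanishesAt x) (hxy : IsConj x y) :
    VanishesAt y := by
  intro q e he
  rw [← ConjClasses.mk_eq_mk_iff_isConj.2 hxy]
  exact h q e he

/-- the trivial cocycle -/
def LCoc.triv (G X K : Type*) [Group G] [MulAction G X] [Group K] : LCoc G X K where
  fn _ _ := 1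
  mul' _ _ _ := (mul_one 1).symm

theorem eq_one_of_conj {G : Type*} [Group G] {x : G} (h : IsConj x 1) : x = 1 := by
  obtain ⟨c, hc⟩ := isConj_iff.1 h
  have h1 : c * x = c := by
    calc c * x = c * x * c⁻¹ * c := by group
      _ = c := by rw [hc, one_mul]
  exact mul_eq_left.1 h1

section Free

variable {I G K : Type*} [Group G] [Group K] (p : FreeGroup I →* G)
  (hp : Function.Surjective p) {H : Subgroup G}

/-- section -/
def sF (x : G ⧸ H) : FreeGroup I := Function.surjInv hp (sec H x)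

theorem p_sF (x : G ⧸ H) : p (sF p hp x) = sec H x := Function.surjInv_eq hp _

theorem kF_mem (h : FreeGroup I) (x : G ⧸ H) :
    (sF p hp (p h • x))⁻¹ * (h * sF p hp x) ∈ H.comap p := by
  rw [Subgroup.mem_comap, map_mul, map_inv, map_mul, p_sF, p_sF]
  exact kap_mem H (p h) x

/-- the section cocycle -/
def kF (f : H.comap p →* K) (h : FreeGroup I) (x : G ⧸ H) : K :=
  f ⟨(sF p hp (p h • x))⁻¹ * (h * sF p hp x), kF_mem p hp h x⟩

theorem kF_mul (f : H.comap p →* K) (h k : FreeGroup I) (x : G ⧸ H) :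
    kF p hp f (h * k) x = kF p hp f h (p k • x) * kF p hp f k x := by
  unfold kF
  rw [← map_mul]
  refine congrArg f (Subtype.ext ?_)
  change (sF p hp (p (h * k) • x))⁻¹ * (h * k * sF p hp x) =
    (sF p hp (p h • p k • x))⁻¹ * (h * sF p hp (p k • x)) *
      ((sF p hp (p k • x))⁻¹ * (k * sF p hp x))
  rw [map_mul, mul_smul]
  group

theorem kF_one (f : H.comap p →* K) (w : FreeGroup I) (hw : w ∈ H.comap p) :
    IsConj (f ⟨w, hw⟩) (kF p hp f w ((1 : G) : G ⧸ H)) := by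
  have h1 : sF p hp ((1 : G) : G ⧸ H) ∈ H.comap p := by
    rw [Subgroup.mem_comap, p_sF]
    have h2 : ((sec H ((1 : G) : G ⧸ H) : G) : G ⧸ H) = ((1 : G) : G ⧸ H) := sec_mk H _
    have h3 := QuotientGroup.eq.1 h2.symm
    rwa [inv_one, one_mul] at h3
  have h2 : p w • ((1 : G) : G ⧸ H) = ((1 : G) : G ⧸ H) := fix_one (⟨p w, hw⟩ : H)
  have h3 : kF p hp f w ((1 : G) : G ⧸ H) = (f ⟨_, h1⟩)⁻¹ * f ⟨w, hw⟩ * ((f ⟨_, h1⟩)⁻¹)⁻¹ := by
    rw [inv_inv, ← map_inv, ← map_mul, ← map_mul]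
    unfold kF
    refine congrArg f (Subtype.ext ?_)
    change (sF p hp (p w • ((1 : G) : G ⧸ H)))⁻¹ * (w * sF p hp ((1 : G) : G ⧸ H)) =
      (sF p hp ((1 : G) : G ⧸ H))⁻¹ * w * sF p hp ((1 : G) : G ⧸ H)
    rw [h2, mul_assoc]
  rw [h3]
  exact isConj_iff.2 ⟨_, rfl⟩

include hp in
theorem free_vanish (N : Subgroup (FreeGroup I)) (hN : ∀ n ∈ N, ∀ x : G ⧸ H, p n • x = x)
    (hkN : ∀ m, p m = 1 → m ∈ N) (hkill : ∀ (φ : N →* K) (m : N), p m = 1 → φ m = 1)
    (f : H.comap p →* K) (w : FreeGroup I) (hw : w ∈ H.comap p) (hf : f ⟨w, hw⟩ ≠ 1)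
    (hv : VanishesAt ((⟨p w, hw⟩, f ⟨w, hw⟩) : H × K)) : VanishesAt (p w) := by
  obtain ⟨D, hD⟩ := tv_agree p (kF p hp f) (kF_mul p hp f) w ((1 : G) : G ⧸ H)
  have hDw := hD D (Finset.Subset.refl D)
  set v := tv (kF p hp f) D with hvdef
  have hker : ∀ m, p m = 1 → ∀ x : G ⧸ H, pfn p v m x = 1 := by
    intro m hm x
    let φ : N →* K :=
      { toFun := fun n => pfn p v n x
        map_one' := pfn_one p v x
        map_mul' := fun n n' => by
          change pfn p v (n * n') x = _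
          rw [pfn_mul, hN n' n'.2] }
    exact hkill φ ⟨m, hkN m hm⟩ hm
  set α : LCoc G (G ⧸ H) K := desc p hp (pfn p v) (pfn_mul p v) hker with hα
  have hαp : ∀ h x, α.fn (p h) x = pfn p v h x := fun h x => desc_fn p hp _ _ _ h x
  have hfin : ∀ g, {x | α.fn g x ≠ (LCoc.triv G (G ⧸ H) K).fn g x}.Finite := by
    intro g
    obtain ⟨h, rfl⟩ := hp g
    refine (tv_fin p (kF p hp f) D h).subset fun x hx => ?_
    have h1 : α.fn (p h) x ≠ 1 := hx
    rw [hαp] at h1
    exact h1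
  have hconj := kF_one p hp f w hw
  have hval : α.fn (p w) ((1 : G) : G ⧸ H) = kF p hp f w ((1 : G) : G ⧸ H) := (hαp _ _).trans hDw
  have hne : ¬ IsConj (α.fn (p w) ((1 : G) : G ⧸ H))
      ((LCoc.triv G (G ⧸ H) K).fn (p w) ((1 : G) : G ⧸ H)) := by
    intro h
    rw [hval] at h
    exact hf (eq_one_of_conj (hconj.trans h))
  refine transfer α (LCoc.triv G (G ⧸ H) K) hfin ⟨p w, hw⟩ hne ?_
  refine VanishesAt.of_conj hv (isConj_prod.2 ⟨IsConj.refl _, ?_⟩)
  change IsConj (f ⟨w, hw⟩) (α.fn (p w) ((1 : G) : G ⧸ H))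
  rw [hval]
  exact hconj

end Free

/-- characters into the integers -/
theorem vanish_of_int {A : Type*} [Group A] (χ : A →* Multiplicative ℤ) (x : A) (hx : χ x ≠ 1) :
    VanishesAt x := by
  refine vanishesAt_of_charged ⟨fun g => ((Multiplicative.toAdd (χ g) : ℤ) : ℝ),
    fun g => ((Multiplicative.toAdd (χ g) : ℤ) : ℝ), fun g h => ?_, fun g h _ _ => ?_,
    fun g _ => le_rfl, ?_⟩
  · beta_reduce
    rw [map_mul, toAdd_mul, Int.cast_add]
  · beta_reduce
    rw [map_mul, toAdd_mul, Int.cast_add]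
  · rw [Int.cast_ne_zero]
    exact hx

end Vale.Agent.P184.H444
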