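import Vale.Agent.P184.H444.GitI

/-!
# Quotients of free groups by fully invariant subgroups of normal subgroups
-/

noncomputable section

open Filter Topology

namespace Vale.Agent.P184.H444

theorem exists_intchar {A : Type*} [Group A] [IsFreeGroup A] (a : A) (ha : a ∉ commutator A) :
    ∃ χ : A →* Multiplicative ℤ, χ a ≠ 1 := by
  let e := IsFreeGroup.toFreeGroup A
  let J := IsFreeGroup.Generators A
  let θ : A → FreeAbelianGroup J := fun x =>
    (Additive.ofMul (Abelianization.of (e x)) : Additive (Abelianization (FreeGroup J)))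
  have hθ : ∀ x y, θ (x * y) = θ x + θ y := by
    intro x y
    change Additive.ofMul (Abelianization.of (e (x * y))) =
      Additive.ofMul (Abelianization.of (e x)) + Additive.ofMul (Abelianization.of (e y))
    rw [map_mul, map_mul, ofMul_mul]
  have h1 : θ a ≠ 0 := by
    intro h
    apply ha
    have h2 : Abelianization.of (e a) = 1 := h
    have h3 : e a ∈ commutator (FreeGroup J) := (QuotientGroup.eq_one_iff _).1 h2
    have h4 : Abelianization.of a = 1 := by
      have h5 : (commutator (FreeGroup J)).map e.symm.toMonoidHom ≤ commutator A := by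
        rw [commutator_def, Subgroup.map_commutator, commutator_def]
        exact Subgroup.commutator_mono le_top le_top
      have h6 : e.symm (e a) ∈ commutator A := h5 ⟨e a, h3, rfl⟩
      rw [e.symm_apply_apply] at h6
      exact (QuotientGroup.eq_one_iff _).2 h6
    exact (QuotientGroup.eq_one_iff _).1 h4
  have h2 : FreeAbelianGroup.toFinsupp (θ a) ≠ 0 := by
    intro h
    exact h1 ((FreeAbelianGroup.equivFinsupp J).injective (h.trans (map_zero _).symm))
  obtain ⟨j, hj⟩ := Finsupp.ne_iff.1 h2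
  refine ⟨⟨⟨fun x => Multiplicative.ofAdd (FreeAbelianGroup.toFinsupp (θ x) j), ?_⟩, ?_⟩, hj⟩
  · have h3 := hθ 1 1
    rw [mul_one] at h3
    have h4 : θ 1 = 0 := left_eq_add.1 h3
    rw [h4, map_zero]
    rfl
  · intro x y
    change Multiplicative.ofAdd (FreeAbelianGroup.toFinsupp (θ (x * y)) j) = _
    rw [hθ, map_add, Finsupp.add_apply, ofAdd_add]

section Quot

variable {I : Type*} (N M : Subgroup (FreeGroup I)) [N.Normal] [M.Normal]

/-- elements outside of the commutator subgroup -/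
theorem vanish_outside (hM : M ≤ ⁅N, N⁆) (w : FreeGroup I) (hw : w ∉ ⁅N, N⁆) :
    VanishesAt (w : FreeGroup I ⧸ M) := by
  have hMN : M ≤ N := hM.trans (Subgroup.commutator_le_left N N)
  let p : FreeGroup I →* FreeGroup I ⧸ M := QuotientGroup.mk' M
  let π : FreeGroup I ⧸ M →* FreeGroup I ⧸ N := QuotientGroup.map M N (MonoidHom.id _) hMN
  have hπp : ∀ x, π (p x) = (x : FreeGroup I ⧸ N) := fun x => rfl
  let H : Subgroup (FreeGroup I ⧸ M) := (Subgroup.zpowers (w : FreeGroup I ⧸ N)).comap π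
  have hwH : w ∈ H.comap p := Subgroup.mem_zpowers (w : FreeGroup I ⧸ N)
  have hmem : ∀ x, x ∈ H.comap p ↔ (x : FreeGroup I ⧸ N) ∈ Subgroup.zpowers (w : FreeGroup I ⧸ N) :=
    fun x => Iff.rfl
  have hnc : (⟨w, hwH⟩ : H.comap p) ∉ commutator (H.comap p) := by
    intro h2
    apply hw
    have h3 : w ∈ ⁅H.comap p, H.comap p⁆ := by
      rw [← Subgroup.map_subtype_commutator]
      exact ⟨⟨w, hwH⟩, h2, rfl⟩
    have h4 : (w : FreeGroup I ⧸ N) = 1 := by
      let f := QuotientGroup.mk' N
      have h5 : ⁅H.comap p, H.comap p⁆ ≤ f.ker := by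
        rw [Subgroup.commutator_le]
        intro x hx y hy
        obtain ⟨i, hi⟩ := Subgroup.mem_zpowers_iff.1 ((hmem x).1 hx)
        obtain ⟨j, hj⟩ := Subgroup.mem_zpowers_iff.1 ((hmem y).1 hy)
        have hi' : f x = (w : FreeGroup I ⧸ N) ^ i := hi.symm
        have hj' : f y = (w : FreeGroup I ⧸ N) ^ j := hj.symm
        rw [MonoidHom.mem_ker, map_commutatorElement, hi', hj',
          commutatorElement_eq_one_iff_mul_comm, ← zpow_add, ← zpow_add, add_comm]
      exact h5 h3
    have h5 : H.comap p = N := by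
      ext x
      rw [hmem, h4, Subgroup.zpowers_one_eq_bot, Subgroup.mem_bot, QuotientGroup.eq_one_iff]
    rwa [h5] at h3
  obtain ⟨χ, hχ⟩ := exists_intchar _ hnc
  refine free_vanish p (QuotientGroup.mk'_surjective M) (H := H) N ?_ ?_ ?_ χ w hwH hχ ?_
  · intro n hn x
    induction x using QuotientGroup.induction_on with
    | H a =>
    change ((p n * a : FreeGroup I ⧸ M) : (FreeGroup I ⧸ M) ⧸ H) = (a : (FreeGroup I ⧸ M) ⧸ H)
    rw [QuotientGroup.eq]
    change π ((p n * a)⁻¹ * a) ∈ Subgroup.zpowers (w : FreeGroup I ⧸ N)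
    have h1 : π (p n) = 1 := (QuotientGroup.eq_one_iff n).2 hn
    rw [map_mul, map_inv, map_mul, h1, one_mul, inv_mul_cancel]
    exact Subgroup.one_mem _
  · exact fun m hm => hMN ((QuotientGroup.eq_one_iff m).1 hm)
  · intro φ m hm
    have h1 : (m : FreeGroup I) ∈ ⁅N, N⁆ := hM ((QuotientGroup.eq_one_iff (m : FreeGroup I)).1 hm)
    rw [← Subgroup.map_subtype_commutator] at h1
    obtain ⟨m', hm', hmm⟩ := h1
    have h2 : m' = m := Subtype.ext hmm
    rw [h2] at hm'
    exact Abelianization.commutator_subset_ker φ hm'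
  · exact vanish_of_int (MonoidHom.snd _ _) _ hχ

variable {N M}

/-- elements of the normal subgroup -/
theorem vanish_inside (hMN : M ≤ N)
    (hinv : ∀ (φ : N →* N) (n : N), (n : FreeGroup I) ∈ M → (φ n : FreeGroup I) ∈ M)
    (x : N.map (QuotientGroup.mk' M)) (hx : x ≠ 1)
    (hv : VanishesAt ((x, x) : N.map (QuotientGroup.mk' M) × N.map (QuotientGroup.mk' M))) :
    VanishesAt (x : FreeGroup I ⧸ M) := by
  let p : FreeGroup I →* FreeGroup I ⧸ M := QuotientGroup.mk' M
  have hp : Function.Surjective p := QuotientGroup.mk'_surjective M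
  let P : Subgroup (FreeGroup I ⧸ M) := N.map (QuotientGroup.mk' M)
  have hPn : P.Normal := Subgroup.Normal.map ‹N.Normal› p hp
  obtain ⟨w, hwN, hwx⟩ := x.2
  have hw : w ∈ P.comap p := by
    rw [Subgroup.mem_comap]
    exact ⟨w, hwN, rfl⟩
  let f : P.comap p →* P :=
    { toFun := fun n => ⟨p n, n.2⟩
      map_one' := Subtype.ext (map_one p)
      map_mul' := fun a b => Subtype.ext (map_mul p (a : FreeGroup I) (b : FreeGroup I)) }
  have hfx : f ⟨w, hw⟩ = x := Subtype.ext hwx
  have hwx' : (⟨p w, hw⟩ : P) = x := Subtype.ext hwx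
  rw [← hwx]
  refine free_vanish p hp (H := P) N ?_ ?_ ?_ f w hw ?_ ?_
  · intro n hn y
    induction y using QuotientGroup.induction_on with
    | H a =>
    change ((p n * a : FreeGroup I ⧸ M) : (FreeGroup I ⧸ M) ⧸ P) = (a : (FreeGroup I ⧸ M) ⧸ P)
    rw [QuotientGroup.eq]
    have h1 : (p n)⁻¹ ∈ P := P.inv_mem ⟨n, hn, rfl⟩
    have h2 := hPn.conj_mem _ h1 a⁻¹
    have h3 : (p n * a)⁻¹ * a = a⁻¹ * (p n)⁻¹ * a⁻¹⁻¹ := by group
    rw [h3]
    exact h2
  · exact fun m hm => hMN ((QuotientGroup.eq_one_iff m).1 hm)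
  · intro φ m hm
    have hm' : (m : FreeGroup I) ∈ M := (QuotientGroup.eq_one_iff (m : FreeGroup I)).1 hm
    have hch : ∀ j : IsFreeGroup.Generators N, ∃ n : N, p n = (φ (IsFreeGroup.of j) : FreeGroup I ⧸ M) := by
      intro j
      obtain ⟨n, hn, h1⟩ := (φ (IsFreeGroup.of j)).2
      exact ⟨⟨n, hn⟩, h1⟩
    choose ν hν using hch
    let ψ : N →* N := IsFreeGroup.lift ν
    let r : N →* P :=
      { toFun := fun n => ⟨p n, ⟨n, n.2, rfl⟩⟩
        map_one' := Subtype.ext (map_one p)
        map_mul' := fun a b => Subtype.ext (map_mul p (a : FreeGroup I) (b : FreeGroup I)) }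
    have h1 : r.comp ψ = φ := by
      refine IsFreeGroup.ext_hom fun j => Subtype.ext ?_
      change p (ψ (IsFreeGroup.of j)) = _
      rw [IsFreeGroup.lift_of, hν]
    rw [← h1]
    refine Subtype.ext ?_
    change p (ψ m) = 1
    exact (QuotientGroup.eq_one_iff _).2 (hinv ψ m hm')
  · rw [hfx]
    exact hx
  · rw [hfx, hwx']
    exact hv

/-- The traces vanish away from the identity. -/
theorem var_vanish (hM : M ≤ ⁅N, N⁆)
    (hinv : ∀ (φ : N →* N) (n : N), (n : FreeGroup I) ∈ M → (φ n : FreeGroup I) ∈ M)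
    (hv : ∀ x : N.map (QuotientGroup.mk' M), x ≠ 1 →
      VanishesAt ((x, x) : N.map (QuotientGroup.mk' M) × N.map (QuotientGroup.mk' M)))
    (g : FreeGroup I ⧸ M) (hg : g ≠ 1) : VanishesAt g := by
  have hMN : M ≤ N := hM.trans (Subgroup.commutator_le_left N N)
  induction g using QuotientGroup.induction_on with
  | H w =>
  by_cases hw : w ∈ ⁅N, N⁆
  · have h1 : (w : FreeGroup I ⧸ M) ∈ N.map (QuotientGroup.mk' M) :=
      ⟨w, Subgroup.commutator_le_left N N hw, rfl⟩
    have h2 : (⟨_, h1⟩ : N.map (QuotientGroup.mk' M)) ≠ 1 := fun h => hg (congrArg Subtype.val h)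
    exact vanish_inside hMN hinv ⟨_, h1⟩ h2 (hv _ h2)
  · exact vanish_outside N M hM w hw

end Quot

/-- the conjecture, if the traces vanish away from the identity -/
theorem l1Bass_of_vanish {G : Type*} [Group G] (h : ∀ g : G, g ≠ 1 → VanishesAt g) : L1Bass G := by
  intro q e he
  refine ⟨{ConjClasses.mk 1}, ?_, ?_⟩
  · intro C hC g hg
    rw [Finset.mem_singleton] at hC
    rw [hC, ConjClasses.mem_carrier_iff_mk_eq, ConjClasses.mk_eq_mk_iff_isConj] at hg
    rw [eq_one_of_conj hg]
    exact IsOfFinOrder.one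
  · intro C hC
    obtain ⟨g, rfl⟩ := ConjClasses.mk_surjective C
    refine h g (fun h => hC ?_) q e he
    rw [h, Finset.mem_singleton]

end Vale.Agent.P184.H444
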