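import Vale.Agent.P184.H444.GitJ
import Vale.Agent.P184.H444.VDefs
import Vale.Agent.P184.Bdl.B4

/-!
# Examples
-/

noncomputable section

open Filter Topology

namespace Vale.Agent.P184.H444

theorem uni_vanish {A : Type*} [Group A] {c : ℕ} (ρ : A →* Matrix (Fin c) (Fin c) ℝ)
    (hρ : ∀ a i j, j ≤ i → ρ a i j = (1 : Matrix (Fin c) (Fin c) ℝ) i j) (x : A) (hx : ρ x ≠ 1) :
    VanishesAt x := by
  refine vanishesAt_of_tame (tame_of_uniDetected
    ⟨⊤, 1, c, ρ.comp (⊤ : Subgroup A).subtype, Subgroup.mem_top _, inferInstance,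
      fun g i j hij => hρ _ i j hij, ?_⟩)
  change ρ (x ^ 1) ≠ 1
  rwa [pow_one]

theorem bass_infinite {A : Type*} [Group A] (h : L1Bass A) (x : A) (hx : ¬ IsOfFinOrder x) :
    VanishesAt x := by
  intro q e he
  obtain ⟨F, hF, hF'⟩ := h q e he
  exact hF' _ fun h1 => hx (hF _ h1 x ConjClasses.mem_carrier_mk)

theorem amen_vanish {P : Type*} [Group P] (hP : Amen P) (ht : ∀ x : P, x ≠ 1 → ¬ IsOfFinOrder x)
    (x : P) (hx : x ≠ 1) : VanishesAt ((x, x) : P × P) := by
  have hP' : IsAmenable P := hP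
  refine bass_infinite (l1Bass_of_nice (nice_of_amenable (isAmenable_prod hP' hP'))) _ fun h => ?_
  exact ht x hx (MonoidHom.isOfFinOrder (MonoidHom.fst P P) h)

section Uni

variable {I : Type*} (N : Subgroup (FreeGroup I)) [N.Normal] (c : ℕ)

omit [N.Normal] in
theorem uker_le : Uker N c ≤ N := fun _ h => h.1

omit [N.Normal] in
theorem uker_le_comm (hc : 2 ≤ c) : Uker N c ≤ ⁅N, N⁆ := by
  rintro w ⟨hw, hw'⟩
  by_contra hn
  have h1 : (⟨w, hw⟩ : N) ∉ commutator N := by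
    intro h
    apply hn
    rw [← Subgroup.map_subtype_commutator]
    exact ⟨⟨w, hw⟩, h, rfl⟩
  obtain ⟨χ, hχ⟩ := exists_intchar _ h1
  let i : Fin c := ⟨0, by omega⟩
  let j : Fin c := ⟨1, by omega⟩
  have hij : i ≠ j := by
    intro h
    have := congrArg Fin.val h
    simp [i, j] at this
  let ρ : N →* Matrix (Fin c) (Fin c) ℝ :=
    { toFun := fun n => Matrix.transvection i j ((Multiplicative.toAdd (χ n) : ℤ) : ℝ)
      map_one' := by
        rw [map_one, toAdd_one, Int.cast_zero, Matrix.transvection_zero]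
      map_mul' := fun a b => by
        rw [map_mul, toAdd_mul, Int.cast_add]
        exact (Matrix.transvection_mul_transvection_same i j hij _ _).symm }
  have hρ : ∀ n a b, b ≤ a → ρ n a b = (1 : Matrix (Fin c) (Fin c) ℝ) a b := by
    intro n a b hab
    change (1 + Matrix.single i j ((Multiplicative.toAdd (χ n) : ℤ) : ℝ)) a b = _
    rw [Matrix.add_apply, Matrix.single_apply_of_ne, add_zero]
    rintro ⟨rfl, rfl⟩
    exact absurd hab (by simp [i, j])
  have h2 := hw' ρ hρ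
  have h3 : (1 + Matrix.single i j ((Multiplicative.toAdd (χ ⟨w, hw⟩) : ℤ) : ℝ)) i j =
      (1 : Matrix (Fin c) (Fin c) ℝ) i j := congrFun (congrFun h2 i) j
  rw [Matrix.add_apply, Matrix.single_apply_same, add_eq_left, Int.cast_eq_zero] at h3
  exact hχ h3

theorem uker_vanish (x : N.map (QuotientGroup.mk' (Uker N c))) (hx : x ≠ 1) :
    VanishesAt ((x, x) : N.map (QuotientGroup.mk' (Uker N c)) ×
      N.map (QuotientGroup.mk' (Uker N c))) := by
  let p : FreeGroup I →* FreeGroup I ⧸ Uker N c := QuotientGroup.mk' (Uker N c)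
  let P : Subgroup (FreeGroup I ⧸ Uker N c) := N.map (QuotientGroup.mk' (Uker N c))
  obtain ⟨w, hwN, hwx⟩ := x.2
  have hwM : w ∉ Uker N c := by
    intro h
    apply hx
    refine Subtype.ext ?_
    rw [← hwx]
    exact (QuotientGroup.eq_one_iff w).2 h
  obtain ⟨ρ, hρ, hρw⟩ : ∃ ρ : N →* Matrix (Fin c) (Fin c) ℝ,
      (∀ n i j, j ≤ i → ρ n i j = (1 : Matrix (Fin c) (Fin c) ℝ) i j) ∧ ρ ⟨w, hwN⟩ ≠ 1 := by
    by_contra hne
    push Not at hne
    exact hwM ⟨hwN, hne⟩
  have hker : ∀ n : N, p n = 1 → ρ n = 1 := by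
    intro n hn
    obtain ⟨h1, h2⟩ := (QuotientGroup.eq_one_iff (n : FreeGroup I)).1 hn
    exact h2 ρ hρ
  have hlift : ∀ y : P, ∃ n : N, p n = y := by
    intro y
    obtain ⟨n, hn, h1⟩ := y.2
    exact ⟨⟨n, hn⟩, h1⟩
  choose σ hσ using hlift
  have hρσ : ∀ (n : N) (y : P), p n = y → ρ (σ y) = ρ n := by
    intro n y hn
    have h1 : p ((n⁻¹ * σ y : N) : FreeGroup I) = 1 := by
      change p ((n : FreeGroup I)⁻¹ * (σ y : FreeGroup I)) = 1
      rw [map_mul, map_inv, hσ, hn, inv_mul_cancel]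
    have h2 := hker _ h1
    have h3 : σ y = n * (n⁻¹ * σ y) := (mul_inv_cancel_left _ _).symm
    rw [h3, map_mul, h2, mul_one]
  let ρ' : P →* Matrix (Fin c) (Fin c) ℝ :=
    { toFun := fun y => ρ (σ y)
      map_one' := by
        rw [hρσ 1 1 (map_one p), map_one]
      map_mul' := fun y z => by
        rw [hρσ (σ y * σ z) (y * z) ?_, map_mul]
        change p ((σ y : FreeGroup I) * (σ z : FreeGroup I)) = _
        rw [map_mul, hσ, hσ]
        rfl }
  have hx' : ρ' x = ρ ⟨w, hwN⟩ := hρσ ⟨w, hwN⟩ x hwx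
  refine uni_vanish (ρ'.comp (MonoidHom.fst P P)) (fun y i j hij => hρ _ i j hij) _ ?_
  change ρ' x ≠ 1
  rw [hx']
  exact hρw

theorem uker_all (hc : 2 ≤ c) (g : FreeGroup I ⧸ Uker N c) (hg : g ≠ 1) : VanishesAt g := by
  refine var_vanish (N := N) (uker_le_comm N c hc) ?_ (uker_vanish N c) g hg
  rintro φ n ⟨h1, h2⟩
  refine ⟨(φ n).2, fun ρ hρ => ?_⟩
  exact h2 (ρ.comp φ) fun n i j hij => hρ _ i j hij

end Uni

end Vale.Agent.P184.H444
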