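import Vale.Agent.P184.H444.GitK

/-!
# Pulling back along homomorphisms
-/

noncomputable section

open Filter Topology

namespace Vale.Agent.P184.H444

/-- locally tame or with slow maps -/
def Md {G : Type*} [Group G] (x : G) : Prop := LocCyc x ∨ GoodD x

theorem Md.vanish {G : Type*} [Group G] {x : G} (h : Md x) : VanishesAt x :=
  h.elim vanishesAt_of_locCyc vanishesAt_of_goodD

theorem Md.hom {G K : Type*} [Group G] [Group K] (f : G →* K) {x : G} (h : Md (f x)) : Md x :=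
  h.imp (locCyc_of_map f) (goodD_of_hom f)

theorem Md.index {G : Type*} [Group G] (D : Subgroup G) [D.FiniteIndex] {x : G} {m : ℕ}
    (hm0 : m ≠ 0) (hm : x ^ m ∈ D) (h : Md (⟨x ^ m, hm⟩ : D)) : Md x :=
  h.imp (locCyc_of_finiteIndex D hm0 hm) (goodD_of_finiteIndex_pow D hm)

theorem md_of_amen {P : Type*} [Group P] (hP : Amen P) (x : P) (hx : ¬ IsOfFinOrder x) : Md x := by
  have hP' : IsAmenable P := hP
  exact ((nice_of_amenable hP').locTame_or_good x hx).imp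
    (fun h S hS => cycTame_of_tame (h S hS)) goodD_of_good

section Pull

variable {G' G K : Type*} [Group G'] [Group G] [Group K] (ϕ : G' →* G) (H : Subgroup G)

/-- the map of coset spaces -/
def cmap (x : G' ⧸ H.comap ϕ) : G ⧸ H := ((ϕ (sec (H.comap ϕ) x) : G) : G ⧸ H)

theorem cmap_mk (a : G') : cmap ϕ H (a : G' ⧸ H.comap ϕ) = ((ϕ a : G) : G ⧸ H) := by
  unfold cmap
  rw [QuotientGroup.eq, ← map_inv, ← map_mul]
  exact QuotientGroup.eq.1 (sec_mk (H.comap ϕ) (a : G' ⧸ H.comap ϕ))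

theorem cmap_smul (g : G') (x : G' ⧸ H.comap ϕ) : cmap ϕ H (g • x) = ϕ g • cmap ϕ H x := by
  induction x using QuotientGroup.induction_on with
  | H a =>
  change cmap ϕ H ((g * a : G') : G' ⧸ H.comap ϕ) = _
  rw [cmap_mk, cmap_mk, map_mul]
  rfl

theorem cmap_inj : Function.Injective (cmap ϕ H) := by
  intro x y h
  induction x using QuotientGroup.induction_on with
  | H a =>
  induction y using QuotientGroup.induction_on with
  | H b =>
  rw [cmap_mk, cmap_mk, QuotientGroup.eq, ← map_inv, ← map_mul] at h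
  exact QuotientGroup.eq.2 h

/-- the pull back of a cocycle -/
def LCoc.pull (α : LCoc G (G ⧸ H) K) : LCoc G' (G' ⧸ H.comap ϕ) K where
  fn g x := α.fn (ϕ g) (cmap ϕ H x)
  mul' g k x := by rw [map_mul, α.mul', cmap_smul]

variable {H} {ϕ}

theorem transfer_pull (α β : LCoc G (G ⧸ H) K) (hfin : ∀ h, {x | α.fn h x ≠ β.fn h x}.Finite)
    (g : G') (hg : ϕ g ∈ H)
    (hne : ¬ IsConj (α.fn (ϕ g) ((1 : G) : G ⧸ H)) (β.fn (ϕ g) ((1 : G) : G ⧸ H)))
    (hv : VanishesAt ((⟨g, hg⟩, α.fn (ϕ g) ((1 : G) : G ⧸ H)) : H.comap ϕ × K)) :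
    VanishesAt g := by
  have h1 : cmap ϕ H ((1 : G') : G' ⧸ H.comap ϕ) = ((1 : G) : G ⧸ H) := by
    rw [cmap_mk, map_one]
  have hval : ∀ α : LCoc G (G ⧸ H) K, (α.pull ϕ H).fn g ((1 : G') : G' ⧸ H.comap ϕ) =
      α.fn (ϕ g) ((1 : G) : G ⧸ H) := fun α => by
    change α.fn (ϕ g) (cmap ϕ H ((1 : G') : G' ⧸ H.comap ϕ)) = _
    rw [h1]
  refine transfer (α.pull ϕ H) (β.pull ϕ H) (fun h => ?_) ⟨g, hg⟩ ?_ ?_
  · exact (hfin (ϕ h)).preimage (cmap_inj ϕ H).injOn
  · change ¬ IsConj ((α.pull ϕ H).fn g _) ((β.pull ϕ H).fn g _)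
    rw [hval, hval]
    exact hne
  · change VanishesAt ((⟨g, hg⟩, (α.pull ϕ H).fn g ((1 : G') : G' ⧸ H.comap ϕ)) : H.comap ϕ × K)
    rw [hval]
    exact hv

end Pull

section Free

variable {I G K : Type*} [Group G] [Group K] (p : FreeGroup I →* G)
  (hp : Function.Surjective p) {H : Subgroup G}

include hp in
theorem free_coc (N : Subgroup (FreeGroup I)) (hN : ∀ n ∈ N, ∀ x : G ⧸ H, p n • x = x)
    (hkN : ∀ m, p m = 1 → m ∈ N) (hkill : ∀ (φ : N →* K) (m : N), p m = 1 → φ m = 1)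
    (f : H.comap p →* K) (w : FreeGroup I) (hw : w ∈ H.comap p) :
    ∃ α : LCoc G (G ⧸ H) K, (∀ g, {x | α.fn g x ≠ (LCoc.triv G (G ⧸ H) K).fn g x}.Finite) ∧
      IsConj (f ⟨w, hw⟩) (α.fn (p w) ((1 : G) : G ⧸ H)) := by
  obtain ⟨D, hD⟩ := tv_agree p (kF p hp f) (kF_mul p hp f) w ((1 : G) : G ⧸ H)
  have hDw := hD D (Finset.Subset.refl D)
  set v := tv (kF p hp f) D with hvdef
  have hker : ∀ m, p m = 1 → ∀ x : G ⧸ H, pfn p v m x = 1 := by
    intro m hm x
    let φ : N →* K :=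
      { toFun := fun n => pfn p v n x
        map_one' := pfn_one p v x
        map_mul' := fun n n' => by
          change pfn p v (n * n') x = _
          rw [pfn_mul, hN n' n'.2] }
    exact hkill φ ⟨m, hkN m hm⟩ hm
  set α : LCoc G (G ⧸ H) K := desc p hp (pfn p v) (pfn_mul p v) hker with hα
  have hαp : ∀ h x, α.fn (p h) x = pfn p v h x := fun h x => desc_fn p hp _ _ _ h x
  refine ⟨α, ?_, ?_⟩
  · intro g
    obtain ⟨h, rfl⟩ := hp g
    refine (tv_fin p (kF p hp f) D h).subset fun x hx => ?_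
    have h1 : α.fn (p h) x ≠ 1 := hx
    rw [hαp] at h1
    exact h1
  · rw [hαp, hDw]
    exact kF_one p hp f w hw

include hp in
theorem free_pull {G' : Type*} [Group G'] (ϕ : G' →* G) (N : Subgroup (FreeGroup I))
    (hN : ∀ n ∈ N, ∀ x : G ⧸ H, p n • x = x)
    (hkN : ∀ m, p m = 1 → m ∈ N) (hkill : ∀ (φ : N →* K) (m : N), p m = 1 → φ m = 1)
    (f : H.comap p →* K) (w : FreeGroup I) (hw : w ∈ H.comap p) (hf : f ⟨w, hw⟩ ≠ 1)
    (g : G') (hg : ϕ g = p w) (hgH : ϕ g ∈ H)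
    (hv : VanishesAt ((⟨g, hgH⟩, f ⟨w, hw⟩) : H.comap ϕ × K)) : VanishesAt g := by
  obtain ⟨α, hfin, hconj⟩ := free_coc p hp N hN hkN hkill f w hw
  rw [← hg] at hconj
  refine transfer_pull α (LCoc.triv G (G ⧸ H) K) hfin g hgH ?_ ?_
  · intro h
    exact hf (eq_one_of_conj (hconj.trans h))
  · exact VanishesAt.of_conj hv (isConj_prod.2 ⟨IsConj.refl _, hconj⟩)

end Free

end Vale.Agent.P184.H444
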