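import Vale.Agent.P184.H444.GitL

/-!
# Homomorphisms to quotients of free groups
-/

noncomputable section

open Filter Topology

namespace Vale.Agent.P184.H444

section Quot

variable {I : Type*} (N M : Subgroup (FreeGroup I)) [N.Normal] [M.Normal]
  {G : Type*} [Group G]

/-- the trivial action of `N` on coset spaces -/
theorem act_triv {H : Subgroup (FreeGroup I ⧸ M)} (π : FreeGroup I ⧸ M →* FreeGroup I ⧸ N)
    (hπ : ∀ x : FreeGroup I, π (x : FreeGroup I ⧸ M) = (x : FreeGroup I ⧸ N))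
    (hH : ∀ x, π x = 1 → x ∈ H) (n : FreeGroup I) (hn : n ∈ N) (x : (FreeGroup I ⧸ M) ⧸ H) :
    (QuotientGroup.mk' M) n • x = x := by
  induction x using QuotientGroup.induction_on with
  | H a =>
  change (((QuotientGroup.mk' M) n * a : FreeGroup I ⧸ M) : (FreeGroup I ⧸ M) ⧸ H) =
    (a : (FreeGroup I ⧸ M) ⧸ H)
  rw [QuotientGroup.eq]
  refine hH _ ?_
  have h1 : π ((QuotientGroup.mk' M) n) = 1 := (hπ n).trans ((QuotientGroup.eq_one_iff n).2 hn)
  rw [map_mul, map_inv, map_mul, h1, one_mul, inv_mul_cancel]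

theorem outside_pull (hM : M ≤ ⁅N, N⁆) (ϕ : G →* FreeGroup I ⧸ M) (g : G) (w : FreeGroup I)
    (hg : ϕ g = (w : FreeGroup I ⧸ M)) (hw : w ∉ ⁅N, N⁆) : VanishesAt g := by
  have hMN : M ≤ N := hM.trans (Subgroup.commutator_le_left N N)
  let p : FreeGroup I →* FreeGroup I ⧸ M := QuotientGroup.mk' M
  let π : FreeGroup I ⧸ M →* FreeGroup I ⧸ N := QuotientGroup.map M N (MonoidHom.id _) hMN
  let H : Subgroup (FreeGroup I ⧸ M) := (Subgroup.zpowers (w : FreeGroup I ⧸ N)).comap π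
  have hwH : w ∈ H.comap p := Subgroup.mem_zpowers (w : FreeGroup I ⧸ N)
  have hmem : ∀ x, x ∈ H.comap p ↔ (x : FreeGroup I ⧸ N) ∈ Subgroup.zpowers (w : FreeGroup I ⧸ N) :=
    fun x => Iff.rfl
  have hnc : (⟨w, hwH⟩ : H.comap p) ∉ commutator (H.comap p) := by
    intro h2
    apply hw
    have h3 : w ∈ ⁅H.comap p, H.comap p⁆ := by
      rw [← Subgroup.map_subtype_commutator]
      exact ⟨⟨w, hwH⟩, h2, rfl⟩
    have h4 : (w : FreeGroup I ⧸ N) = 1 := by
      let f := QuotientGroup.mk' N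
      have h5 : ⁅H.comap p, H.comap p⁆ ≤ f.ker := by
        rw [Subgroup.commutator_le]
        intro x hx y hy
        obtain ⟨i, hi⟩ := Subgroup.mem_zpowers_iff.1 ((hmem x).1 hx)
        obtain ⟨j, hj⟩ := Subgroup.mem_zpowers_iff.1 ((hmem y).1 hy)
        have hi' : f x = (w : FreeGroup I ⧸ N) ^ i := hi.symm
        have hj' : f y = (w : FreeGroup I ⧸ N) ^ j := hj.symm
        rw [MonoidHom.mem_ker, map_commutatorElement, hi', hj',
          commutatorElement_eq_one_iff_mul_comm, ← zpow_add, ← zpow_add, add_comm]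
      exact h5 h3
    have h5 : H.comap p = N := by
      ext x
      rw [hmem, h4, Subgroup.zpowers_one_eq_bot, Subgroup.mem_bot, QuotientGroup.eq_one_iff]
    rwa [h5] at h3
  obtain ⟨χ, hχ⟩ := exists_intchar _ hnc
  have hgH : ϕ g ∈ H := by
    rw [hg]
    exact hwH
  refine free_pull p (QuotientGroup.mk'_surjective M) (H := H) ϕ N
    (fun n hn x => act_triv N M π (fun x => rfl) (fun x hx => ?_) n hn x)
    (fun m hm => hMN ((QuotientGroup.eq_one_iff m).1 hm)) ?_ χ w hwH hχ g hg hgH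
    (vanish_of_int (MonoidHom.snd _ _) _ hχ)
  · change π x ∈ Subgroup.zpowers (w : FreeGroup I ⧸ N)
    rw [hx]
    exact Subgroup.one_mem _
  · intro φ m hm
    have h1 : (m : FreeGroup I) ∈ ⁅N, N⁆ := hM ((QuotientGroup.eq_one_iff (m : FreeGroup I)).1 hm)
    rw [← Subgroup.map_subtype_commutator] at h1
    obtain ⟨m', hm', hmm⟩ := h1
    have h2 : m' = m := Subtype.ext hmm
    rw [h2] at hm'
    exact Abelianization.commutator_subset_ker φ hm'

variable {N M}

/-- fully invariant subgroups are killed by homomorphisms to the quotient -/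
theorem kill_of_inv
    (hinv : ∀ (φ : N →* N) (n : N), (n : FreeGroup I) ∈ M → (φ n : FreeGroup I) ∈ M)
    (φ : N →* N.map (QuotientGroup.mk' M)) (m : N)
    (hm : (QuotientGroup.mk' M) (m : FreeGroup I) = 1) : φ m = 1 := by
  let p : FreeGroup I →* FreeGroup I ⧸ M := QuotientGroup.mk' M
  have hm' : (m : FreeGroup I) ∈ M := (QuotientGroup.eq_one_iff (m : FreeGroup I)).1 hm
  have hch : ∀ j : IsFreeGroup.Generators N,
      ∃ n : N, p n = (φ (IsFreeGroup.of j) : FreeGroup I ⧸ M) := by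
    intro j
    obtain ⟨n, hn, h1⟩ := (φ (IsFreeGroup.of j)).2
    exact ⟨⟨n, hn⟩, h1⟩
  choose ν hν using hch
  let ψ : N →* N := IsFreeGroup.lift ν
  let r : N →* N.map (QuotientGroup.mk' M) :=
    { toFun := fun n => ⟨p n, ⟨n, n.2, rfl⟩⟩
      map_one' := Subtype.ext (map_one p)
      map_mul' := fun a b => Subtype.ext (map_mul p (a : FreeGroup I) (b : FreeGroup I)) }
  have h1 : r.comp ψ = φ := by
    refine IsFreeGroup.ext_hom fun j => Subtype.ext ?_
    change p (ψ (IsFreeGroup.of j)) = _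
    rw [IsFreeGroup.lift_of, hν]
  rw [← h1]
  refine Subtype.ext ?_
  change p (ψ m) = 1
  exact (QuotientGroup.eq_one_iff _).2 (hinv ψ m hm')

/-- the action of `N` on the cosets of its image is trivial -/
theorem act_triv' (n : FreeGroup I) (hn : n ∈ N)
    (x : (FreeGroup I ⧸ M) ⧸ N.map (QuotientGroup.mk' M)) : (QuotientGroup.mk' M) n • x = x := by
  have hPn : (N.map (QuotientGroup.mk' M)).Normal :=
    Subgroup.Normal.map ‹N.Normal› _ (QuotientGroup.mk'_surjective M)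
  induction x using QuotientGroup.induction_on with
  | H a =>
  change (((QuotientGroup.mk' M) n * a : FreeGroup I ⧸ M) :
    (FreeGroup I ⧸ M) ⧸ N.map (QuotientGroup.mk' M)) = (a : (FreeGroup I ⧸ M) ⧸ _)
  rw [QuotientGroup.eq]
  have h1 : ((QuotientGroup.mk' M) n)⁻¹ ∈ N.map (QuotientGroup.mk' M) :=
    Subgroup.inv_mem _ ⟨n, hn, rfl⟩
  have h2 := hPn.conj_mem _ h1 a⁻¹
  have h3 : ((QuotientGroup.mk' M) n * a)⁻¹ * a =
      a⁻¹ * ((QuotientGroup.mk' M) n)⁻¹ * a⁻¹⁻¹ := by group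
  rw [h3]
  exact h2

/-- the cocycle for elements of the normal subgroup -/
theorem inside_coc (hMN : M ≤ N)
    (hinv : ∀ (φ : N →* N) (n : N), (n : FreeGroup I) ∈ M → (φ n : FreeGroup I) ∈ M)
    (x : N.map (QuotientGroup.mk' M)) :
    ∃ α : LCoc (FreeGroup I ⧸ M) ((FreeGroup I ⧸ M) ⧸ N.map (QuotientGroup.mk' M))
      (N.map (QuotientGroup.mk' M)),
      (∀ g, {y | α.fn g y ≠ (LCoc.triv (FreeGroup I ⧸ M) _ _).fn g y}.Finite) ∧
      IsConj x (α.fn (x : FreeGroup I ⧸ M) ((1 : FreeGroup I ⧸ M) :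
        (FreeGroup I ⧸ M) ⧸ N.map (QuotientGroup.mk' M))) := by
  let p : FreeGroup I →* FreeGroup I ⧸ M := QuotientGroup.mk' M
  let P : Subgroup (FreeGroup I ⧸ M) := N.map (QuotientGroup.mk' M)
  obtain ⟨w, hwN, hwx⟩ := x.2
  have hw : w ∈ P.comap p := by
    rw [Subgroup.mem_comap]
    exact ⟨w, hwN, rfl⟩
  let f : P.comap p →* P :=
    { toFun := fun n => ⟨p n, n.2⟩
      map_one' := Subtype.ext (map_one p)
      map_mul' := fun a b => Subtype.ext (map_mul p (a : FreeGroup I) (b : FreeGroup I)) }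
  have hfx : f ⟨w, hw⟩ = x := Subtype.ext hwx
  obtain ⟨α, h1, h2⟩ := free_coc p (QuotientGroup.mk'_surjective M) (H := P) N act_triv'
    (fun m hm => hMN ((QuotientGroup.eq_one_iff m).1 hm)) (kill_of_inv hinv) f w hw
  refine ⟨α, h1, ?_⟩
  rw [hfx] at h2
  have h3 : p w = (x : FreeGroup I ⧸ M) := hwx
  rwa [h3] at h2

theorem inside_pull (hMN : M ≤ N)
    (hinv : ∀ (φ : N →* N) (n : N), (n : FreeGroup I) ∈ M → (φ n : FreeGroup I) ∈ M)
    (ϕ : G →* FreeGroup I ⧸ M) (g : G) (hg : ϕ g ∈ N.map (QuotientGroup.mk' M)) (hg1 : ϕ g ≠ 1)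
    (hv : VanishesAt ((⟨g, hg⟩, ⟨ϕ g, hg⟩) :
      (N.map (QuotientGroup.mk' M)).comap ϕ × N.map (QuotientGroup.mk' M))) : VanishesAt g := by
  obtain ⟨α, h1, h2⟩ := inside_coc hMN hinv ⟨ϕ g, hg⟩
  refine transfer_pull α _ h1 g hg ?_ (VanishesAt.of_conj hv (isConj_prod.2 ⟨IsConj.refl _, h2⟩))
  intro h
  have h3 := eq_one_of_conj (h2.trans h)
  exact hg1 (congrArg Subtype.val h3)

end Quot

end Vale.Agent.P184.H444
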