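import Vale.Agent.P184.H444.GitM

/-!
# Induction of cocycles
-/

noncomputable section

open Filter Topology

namespace Vale.Agent.P184.H444

theorem LCoc.pow {G X L : Type*} [Group G] [MulAction G X] [Group L] (α : LCoc G X L) {g : G}
    {x : X} (hx : g • x = x) (m : ℕ) : α.fn (g ^ m) x = α.fn g x ^ m := by
  induction m with
  | zero => rw [pow_zero, pow_zero, α.one]
  | succ m ih => rw [pow_succ, α.mul', hx, ih, pow_succ]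

section Ind

variable {Γ K : Type*} [Group Γ] [Group K] {P H : Subgroup Γ}

/-- the inclusion of the fibre -/
def jm (c : H ⧸ P.subgroupOf H) : Γ ⧸ P := ((sec (P.subgroupOf H) c : H) : Γ)

theorem jm_mk (a : H) : jm (a : H ⧸ P.subgroupOf H) = (((a : H) : Γ) : Γ ⧸ P) := by
  unfold jm
  rw [QuotientGroup.eq]
  have h1 := QuotientGroup.eq.1 (sec_mk (P.subgroupOf H) (a : H ⧸ P.subgroupOf H))
  exact h1

theorem jm_smul (a : H) (c : H ⧸ P.subgroupOf H) : jm (a • c) = (a : Γ) • jm c := by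
  induction c using QuotientGroup.induction_on with
  | H b =>
  change jm ((a * b : H) : H ⧸ P.subgroupOf H) = _
  rw [jm_mk, jm_mk]
  rfl

theorem key_eq (k : Γ) (x : Γ ⧸ H) (c : H ⧸ P.subgroupOf H) :
    sec H (k • x) • jm (kap H k x • c) = k • sec H x • jm c := by
  rw [jm_smul, smul_smul, smul_smul]
  congr 1
  change sec H (k • x) * ((sec H (k • x))⁻¹ * (k * sec H x)) = _
  rw [mul_inv_cancel_left]

/-- the permutations -/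
def iperm (γ : LCoc Γ (Γ ⧸ P) K) (h : Γ) (x : Γ ⧸ H) :
    Equiv.Perm ((H ⧸ P.subgroupOf H) × K) where
  toFun z := (kap H h x • z.1, γ.fn h (sec H x • jm z.1) * z.2)
  invFun z := ((kap H h x)⁻¹ • z.1, (γ.fn h (sec H x • jm ((kap H h x)⁻¹ • z.1)))⁻¹ * z.2)
  left_inv z := by simp only [inv_smul_smul, inv_mul_cancel_left]
  right_inv z := by simp only [smul_inv_smul, mul_inv_cancel_left]

/-- the induced cocycle -/
def indc (H : Subgroup Γ) (γ : LCoc Γ (Γ ⧸ P) K) :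
    LCoc Γ (Γ ⧸ H) (Equiv.Perm ((H ⧸ P.subgroupOf H) × K)) where
  fn := iperm γ
  mul' h k x := by
    refine Equiv.ext fun z => ?_
    change (kap H (h * k) x • z.1, γ.fn (h * k) (sec H x • jm z.1) * z.2) =
      (kap H h (k • x) • kap H k x • z.1,
        γ.fn h (sec H (k • x) • jm (kap H k x • z.1)) * (γ.fn k (sec H x • jm z.1) * z.2))
    rw [kap_mul, mul_smul, key_eq, γ.mul', mul_assoc]

theorem indc_fin (hPH : P ≤ H) (γ : LCoc Γ (Γ ⧸ P) K) (hfin : ∀ h, {y | γ.fn h y ≠ 1}.Finite)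
    (h : Γ) : {x | (indc H γ).fn h x ≠ (indc H (LCoc.triv Γ (Γ ⧸ P) K)).fn h x}.Finite := by
  refine ((hfin h).image fun y => ((sec P y : Γ) : Γ ⧸ H)).subset fun x hx => ?_
  have h1 : ∃ z : (H ⧸ P.subgroupOf H) × K, γ.fn h (sec H x • jm z.1) ≠ 1 := by
    by_contra hne
    push Not at hne
    refine hx (Equiv.ext fun z => ?_)
    change (kap H h x • z.1, γ.fn h (sec H x • jm z.1) * z.2) = (kap H h x • z.1, 1 * z.2)
    rw [hne z]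
  obtain ⟨z, hz⟩ := h1
  refine ⟨sec H x • jm z.1, hz, ?_⟩
  obtain ⟨c, k⟩ := z
  induction c using QuotientGroup.induction_on with
  | H a =>
  dsimp only
  rw [jm_mk]
  have h2 : sec H x • (((a : H) : Γ) : Γ ⧸ P) = ((sec H x * a : Γ) : Γ ⧸ P) := rfl
  rw [h2]
  have h3 := hPH (QuotientGroup.eq.1 (sec_mk P ((sec H x * a : Γ) : Γ ⧸ P)))
  rw [QuotientGroup.eq.2 h3, QuotientGroup.mk_mul_of_mem _ a.2, sec_mk]

theorem fin_pull {G : Type*} [Group G] (ϕ : G →* Γ) [P.Normal] (hPH : P ≤ H)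
    (γ : LCoc Γ (Γ ⧸ P) K) (hfin : ∀ h, {y | γ.fn h y ≠ 1}.Finite) (g : G) (m : ℕ)
    (hgH : ϕ g ∈ H) (hgm : ϕ g ^ m ∈ P) (hγ : γ.fn (ϕ g ^ m) ((1 : Γ) : Γ ⧸ P) ≠ 1)
    (hv : ∀ k : Equiv.Perm ((H ⧸ P.subgroupOf H) × K),
      VanishesAt ((⟨g, hgH⟩, k) : H.comap ϕ × Equiv.Perm ((H ⧸ P.subgroupOf H) × K))) :
    VanishesAt g := by
  refine transfer_pull (indc H γ) (indc H (LCoc.triv Γ (Γ ⧸ P) K)) (indc_fin hPH γ hfin) g hgH ?_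
    (hv _)
  intro hc
  have hfix : ϕ g • ((1 : Γ) : Γ ⧸ H) = ((1 : Γ) : Γ ⧸ H) := fix_one (⟨ϕ g, hgH⟩ : H)
  have hc' := hc.pow m
  rw [← LCoc.pow _ hfix, ← LCoc.pow _ hfix] at hc'
  have htriv : (indc H (LCoc.triv Γ (Γ ⧸ P) K)).fn (ϕ g ^ m) ((1 : Γ) : Γ ⧸ H) = 1 := by
    refine Equiv.ext fun z => ?_
    change (kap H (ϕ g ^ m) ((1 : Γ) : Γ ⧸ H) • z.1, 1 * z.2) = z
    have hmem : (kap H (ϕ g ^ m) ((1 : Γ) : Γ ⧸ H) : Γ) ∈ P := by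
      have hfix' : ϕ g ^ m • ((1 : Γ) : Γ ⧸ H) = ((1 : Γ) : Γ ⧸ H) :=
        fix_one (⟨ϕ g ^ m, hPH hgm⟩ : H)
      change (sec H (ϕ g ^ m • ((1 : Γ) : Γ ⧸ H)))⁻¹ * (ϕ g ^ m * sec H ((1 : Γ) : Γ ⧸ H)) ∈ P
      rw [hfix']
      have h1 := Subgroup.Normal.conj_mem ‹P.Normal› _ hgm (sec H ((1 : Γ) : Γ ⧸ H))⁻¹
      rw [inv_inv, mul_assoc] at h1
      exact h1
    have h1 : kap H (ϕ g ^ m) ((1 : Γ) : Γ ⧸ H) • z.1 = z.1 := by
      obtain ⟨c, k⟩ := z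
      dsimp only
      induction c using QuotientGroup.induction_on with
      | H a =>
      change ((kap H (ϕ g ^ m) ((1 : Γ) : Γ ⧸ H) * a : H) : H ⧸ P.subgroupOf H) = _
      rw [QuotientGroup.eq]
      change ((kap H (ϕ g ^ m) ((1 : Γ) : Γ ⧸ H) * a : H)⁻¹ * a : Γ) ∈ P
      have h2 := Subgroup.Normal.conj_mem ‹P.Normal› _ (P.inv_mem hmem) ((a : Γ)⁻¹)
      have h3 : (((kap H (ϕ g ^ m) ((1 : Γ) : Γ ⧸ H) * a : H) : Γ))⁻¹ * (a : Γ) =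
          (a : Γ)⁻¹ * (kap H (ϕ g ^ m) ((1 : Γ) : Γ ⧸ H) : Γ)⁻¹ * (a : Γ)⁻¹⁻¹ := by
        rw [Subgroup.coe_mul]
        group
      rw [← h3] at h2
      exact h2
    rw [h1, one_mul]
  rw [htriv] at hc'
  have h1 := eq_one_of_conj hc'
  have hs : (sec H ((1 : Γ) : Γ ⧸ H))⁻¹ ∈ H := by
    have h2 : ((sec H ((1 : Γ) : Γ ⧸ H) : Γ) : Γ ⧸ H) = ((1 : Γ) : Γ ⧸ H) := sec_mk H _
    have h3 := QuotientGroup.eq.1 h2
    rwa [mul_one] at h3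
  have h2 := DFunLike.congr_fun h1
    ((((⟨_, hs⟩ : H) : H ⧸ P.subgroupOf H), (1 : K)) : (H ⧸ P.subgroupOf H) × K)
  have h3 := congrArg Prod.snd h2
  change γ.fn (ϕ g ^ m) (sec H ((1 : Γ) : Γ ⧸ H) • jm ((⟨_, hs⟩ : H) : H ⧸ P.subgroupOf H)) * 1 =
    1 at h3
  rw [jm_mk, mul_one] at h3
  have h4 : sec H ((1 : Γ) : Γ ⧸ H) • (((sec H ((1 : Γ) : Γ ⧸ H))⁻¹ : Γ) : Γ ⧸ P) =
      ((1 : Γ) : Γ ⧸ P) := by
    change ((sec H ((1 : Γ) : Γ ⧸ H) * (sec H ((1 : Γ) : Γ ⧸ H))⁻¹ : Γ) : Γ ⧸ P) = _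
    rw [mul_inv_cancel]
  rw [h4] at h3
  exact hγ h3

end Ind

end Vale.Agent.P184.H444
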