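import Vale.Agent.P184.H444.GitN

/-!
# Elements of infinite order
-/

noncomputable section

open Filter Topology

namespace Vale.Agent.P184.H444

/-- the character of an infinite cyclic group -/
theorem exists_zchar {A : Type*} [Group A] (x : A) (hx : ¬ IsOfFinOrder x) :
    ∃ χ : Subgroup.zpowers x →* Multiplicative ℤ,
      χ ⟨x, Subgroup.mem_zpowers x⟩ = Multiplicative.ofAdd 1 := by
  have hinj : Function.Injective fun n : ℤ => x ^ n := injective_zpow_iff_not_isOfFinOrder.2 hx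
  have hch : ∀ y : Subgroup.zpowers x, ∃ n : ℤ, x ^ n = y := fun y =>
    Subgroup.mem_zpowers_iff.1 y.2
  choose n hn using hch
  refine ⟨⟨⟨fun y => Multiplicative.ofAdd (n y), ?_⟩, ?_⟩, ?_⟩
  · have h1 : n 1 = 0 := hinj (by
      beta_reduce
      rw [hn 1, zpow_zero]
      rfl)
    rw [h1]
    rfl
  · intro y z
    have h1 : n (y * z) = n y + n z := hinj (by
      beta_reduce
      rw [hn, zpow_add, hn, hn]
      rfl)
    change Multiplicative.ofAdd (n (y * z)) = _
    rw [h1]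
    rfl
  · have h1 : n ⟨x, Subgroup.mem_zpowers x⟩ = 1 := hinj (by
      beta_reduce
      rw [hn, zpow_one])
    change Multiplicative.ofAdd (n ⟨x, Subgroup.mem_zpowers x⟩) = _
    rw [h1]

section Quot

variable {I : Type*} {N M : Subgroup (FreeGroup I)} [N.Normal] [M.Normal]
  {G : Type*} [Group G]

omit [N.Normal] in
theorem exists_S (hMN : M ≤ N) (hne : M ≠ N)
    (hinv : ∀ (φ : N →* N) (n : N), (n : FreeGroup I) ∈ M → (φ n : FreeGroup I) ∈ M) :
    ∃ S : AddSubgroup ℤ, (1 : ℤ) ∉ S ∧ ∀ (χ : N →* Multiplicative ℤ) (m : N),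
      (m : FreeGroup I) ∈ M → Multiplicative.toAdd (χ m) ∈ S := by
  obtain ⟨b, hb⟩ : ∃ b : IsFreeGroup.Generators N,
      ((IsFreeGroup.of b : N) : FreeGroup I) ∉ M := by
    by_contra hall
    push Not at hall
    apply hne
    refine le_antisymm hMN fun n hn => ?_
    let r : N →* FreeGroup I ⧸ M := (QuotientGroup.mk' M).comp N.subtype
    have h1 : r = 1 := IsFreeGroup.ext_hom fun b => (QuotientGroup.eq_one_iff _).2 (hall b)
    have h2 : r ⟨n, hn⟩ = 1 := by
      rw [h1]
      rfl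
    exact (QuotientGroup.eq_one_iff n).1 h2
  let S : AddSubgroup ℤ :=
    { carrier := {s | (((IsFreeGroup.of b : N) ^ s : N) : FreeGroup I) ∈ M}
      add_mem' := fun {s t} hs ht => by
        change (((IsFreeGroup.of b : N) ^ (s + t) : N) : FreeGroup I) ∈ M
        rw [zpow_add, Subgroup.coe_mul]
        exact M.mul_mem hs ht
      zero_mem' := by
        change (((IsFreeGroup.of b : N) ^ (0 : ℤ) : N) : FreeGroup I) ∈ M
        rw [zpow_zero, Subgroup.coe_one]
        exact M.one_mem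
      neg_mem' := fun {s} hs => by
        change (((IsFreeGroup.of b : N) ^ (-s) : N) : FreeGroup I) ∈ M
        rw [zpow_neg, Subgroup.coe_inv]
        exact M.inv_mem hs }
  refine ⟨S, fun h => hb ?_, fun χ m hm => ?_⟩
  · have h1 : (((IsFreeGroup.of b : N) ^ (1 : ℤ) : N) : FreeGroup I) ∈ M := h
    rwa [zpow_one] at h1
  · exact hinv ((zpowersHom N (IsFreeGroup.of b)).comp χ) m hm

theorem infinite_pull (hMN : M ≤ N) (hne : M ≠ N)
    (hinv : ∀ (φ : N →* N) (n : N), (n : FreeGroup I) ∈ M → (φ n : FreeGroup I) ∈ M)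
    (ϕ : G →* FreeGroup I ⧸ M) (g : G)
    (hg : ¬ IsOfFinOrder (QuotientGroup.map M N (MonoidHom.id _) hMN (ϕ g))) :
    VanishesAt g := by
  obtain ⟨S, hS1, hS⟩ := exists_S hMN hne hinv
  let p : FreeGroup I →* FreeGroup I ⧸ M := QuotientGroup.mk' M
  let π : FreeGroup I ⧸ M →* FreeGroup I ⧸ N := QuotientGroup.map M N (MonoidHom.id _) hMN
  let q : FreeGroup I ⧸ N := π (ϕ g)
  obtain ⟨w, hw⟩ := QuotientGroup.mk'_surjective M (ϕ g)
  have hwg : ϕ g = p w := hw.symm
  let H : Subgroup (FreeGroup I ⧸ M) := (Subgroup.zpowers q).comap π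
  have hgH : ϕ g ∈ H := Subgroup.mem_zpowers q
  have hwH : w ∈ H.comap p := by
    rw [Subgroup.mem_comap, ← hwg]
    exact hgH
  obtain ⟨χ, hχ⟩ := exists_zchar q hg
  let πH : H →* Subgroup.zpowers q :=
    { toFun := fun y => ⟨π y, y.2⟩
      map_one' := Subtype.ext (map_one π)
      map_mul' := fun a b => Subtype.ext (map_mul π (a : FreeGroup I ⧸ M) b) }
  let r : H.comap p →* H :=
    { toFun := fun y => ⟨p y, y.2⟩
      map_one' := Subtype.ext (map_one p)
      map_mul' := fun a b => Subtype.ext (map_mul p (a : FreeGroup I) b) }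
  let s : Multiplicative ℤ →* Multiplicative (ℤ ⧸ S) :=
    AddMonoidHom.toMultiplicative (QuotientAddGroup.mk' S)
  have hs : ∀ z : Multiplicative ℤ, s z = 1 ↔ Multiplicative.toAdd z ∈ S := fun z =>
    QuotientAddGroup.eq_zero_iff (Multiplicative.toAdd z)
  let f : H.comap p →* Multiplicative (ℤ ⧸ S) := s.comp (χ.comp (πH.comp r))
  have hrw : πH (r ⟨w, hwH⟩) = ⟨q, Subgroup.mem_zpowers q⟩ := by
    refine Subtype.ext ?_
    change π (p w) = π (ϕ g)
    rw [hwg]
  have hf : f ⟨w, hwH⟩ ≠ 1 := by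
    change s (χ (πH (r ⟨w, hwH⟩))) ≠ 1
    rw [hrw, hχ, Ne, hs]
    exact hS1
  refine free_pull p (QuotientGroup.mk'_surjective M) (H := H) ϕ N
    (fun n hn x => act_triv N M π (fun x => rfl) (fun x hx => ?_) n hn x)
    (fun m hm => hMN ((QuotientGroup.eq_one_iff m).1 hm)) ?_ f w hwH hf g hwg hgH ?_
  · change π x ∈ Subgroup.zpowers q
    rw [hx]
    exact Subgroup.one_mem _
  · intro φ m hm
    have hm' : (m : FreeGroup I) ∈ M := (QuotientGroup.eq_one_iff (m : FreeGroup I)).1 hm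
    have hch : ∀ j : IsFreeGroup.Generators N, ∃ z : Multiplicative ℤ, s z = φ (IsFreeGroup.of j) :=
      fun j => QuotientAddGroup.mk'_surjective S (Multiplicative.toAdd (φ (IsFreeGroup.of j)))
    choose ν hν using hch
    have h1 : s.comp (IsFreeGroup.lift ν) = φ := by
      refine IsFreeGroup.ext_hom fun j => ?_
      change s (IsFreeGroup.lift ν (IsFreeGroup.of j)) = _
      rw [IsFreeGroup.lift_of, hν]
    rw [← h1]
    exact (hs _).2 (hS _ m hm')
  · let ψ : H.comap ϕ →* H :=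
      { toFun := fun y => ⟨ϕ y, y.2⟩
        map_one' := Subtype.ext (map_one ϕ)
        map_mul' := fun a b => Subtype.ext (map_mul ϕ (a : G) b) }
    refine vanish_of_int ((χ.comp (πH.comp ψ)).comp (MonoidHom.fst _ _)) _ ?_
    change χ (πH (ψ ⟨g, hgH⟩)) ≠ 1
    have h1 : πH (ψ ⟨g, hgH⟩) = ⟨q, Subgroup.mem_zpowers q⟩ := rfl
    rw [h1, hχ]
    intro h
    exact one_ne_zero (ofAdd_eq_one.1 h)

theorem finite_pull (hMN : M ≤ N)
    (hinv : ∀ (φ : N →* N) (n : N), (n : FreeGroup I) ∈ M → (φ n : FreeGroup I) ∈ M)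
    (hP : ∀ x : N.map (QuotientGroup.mk' M), ¬ IsOfFinOrder x → Md x)
    (ϕ : G →* FreeGroup I ⧸ M) (g : G) (hg : ¬ IsOfFinOrder (ϕ g))
    (hq : IsOfFinOrder (QuotientGroup.map M N (MonoidHom.id _) hMN (ϕ g))) :
    VanishesAt g := by
  let P : Subgroup (FreeGroup I ⧸ M) := N.map (QuotientGroup.mk' M)
  have hPn : P.Normal := Subgroup.Normal.map ‹N.Normal› _ (QuotientGroup.mk'_surjective M)
  let π : FreeGroup I ⧸ M →* FreeGroup I ⧸ N := QuotientGroup.map M N (MonoidHom.id _) hMN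
  have hker : ∀ x, x ∈ P ↔ π x = 1 := by
    intro x
    constructor
    · rintro ⟨w, hw, rfl⟩
      exact (QuotientGroup.eq_one_iff w).2 hw
    · intro h
      obtain ⟨w, rfl⟩ := QuotientGroup.mk'_surjective M x
      exact ⟨w, (QuotientGroup.eq_one_iff w).1 h, rfl⟩
  let q : FreeGroup I ⧸ N := π (ϕ g)
  let H : Subgroup (FreeGroup I ⧸ M) := (Subgroup.zpowers q).comap π
  have hgH : ϕ g ∈ H := Subgroup.mem_zpowers q
  have hPH : P ≤ H := by
    intro x hx
    change π x ∈ Subgroup.zpowers q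
    rw [(hker x).1 hx]
    exact Subgroup.one_mem _
  obtain ⟨m, hm0, hm⟩ := isOfFinOrder_iff_pow_eq_one.1 hq
  have hgm : ϕ g ^ m ∈ P := by
    rw [hker, map_pow]
    exact hm
  have hinf : ¬ IsOfFinOrder (⟨ϕ g ^ m, hgm⟩ : P) := by
    intro h
    apply hg
    have h1 : IsOfFinOrder (ϕ g ^ m) := MonoidHom.isOfFinOrder P.subtype h
    exact (isOfFinOrder_pow.1 h1).resolve_right hm0.ne'
  obtain ⟨γ, h1, h2⟩ := inside_coc hMN hinv ⟨ϕ g ^ m, hgm⟩
  let πH : H →* Subgroup.zpowers q :=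
    { toFun := fun y => ⟨π y, y.2⟩
      map_one' := Subtype.ext (map_one π)
      map_mul' := fun a b => Subtype.ext (map_mul π (a : FreeGroup I ⧸ M) b) }
  have hfinq : Finite (Subgroup.zpowers q) := by
    have h3 := finite_zpowers.2 hq
    exact h3.to_subtype
  have hkerH : πH.ker = P.subgroupOf H := by
    ext y
    rw [MonoidHom.mem_ker, Subgroup.mem_subgroupOf, hker]
    constructor
    · intro h
      exact congrArg Subtype.val h
    · intro h
      exact Subtype.ext h
  have hFI : (P.subgroupOf H).FiniteIndex := by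
    rw [← hkerH]
    infer_instance
  let ψ : H.comap ϕ →* H :=
    { toFun := fun y => ⟨ϕ y, y.2⟩
      map_one' := Subtype.ext (map_one ϕ)
      map_mul' := fun a b => Subtype.ext (map_mul ϕ (a : G) b) }
  let ρ : P.subgroupOf H →* P :=
    { toFun := fun y => ⟨((y : H) : FreeGroup I ⧸ M), y.2⟩
      map_one' := rfl
      map_mul' := fun a b => rfl }
  have hmd : Md (⟨ϕ g, hgH⟩ : H) := by
    refine Md.index (P.subgroupOf H) hm0.ne' (m := m) ?_ ?_
    · rw [Subgroup.mem_subgroupOf]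
      exact hgm
    · exact Md.hom ρ (hP _ hinf)
  refine fin_pull (K := P) ϕ hPH γ h1 g m hgH hgm ?_ fun k => ?_
  · intro h
    have h3 : IsConj (⟨ϕ g ^ m, hgm⟩ : P) 1 := by
      have h4 := h2
      rw [h] at h4
      exact h4
    have h5 := eq_one_of_conj h3
    apply hinf
    rw [h5]
    exact IsOfFinOrder.one
  · exact (Md.hom (ψ.comp (MonoidHom.fst _ _)) hmd).vanish

end Quot

end Vale.Agent.P184.H444
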