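import Vale.Agent.P184.H444.GitO

/-!
# The final statements on homomorphisms to quotients of free groups
-/

noncomputable section

open Filter Topology

namespace Vale.Agent.P184.H444

section Quot

variable {I : Type*} {N M : Subgroup (FreeGroup I)} [N.Normal] [M.Normal]
  {G : Type*} [Group G]

/-- all elements of infinite order -/
theorem all_infinite (hMN : M ≤ N) (hne : M ≠ N)
    (hinv : ∀ (φ : N →* N) (n : N), (n : FreeGroup I) ∈ M → (φ n : FreeGroup I) ∈ M)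
    (hP : ∀ x : N.map (QuotientGroup.mk' M), ¬ IsOfFinOrder x → Md x)
    (ϕ : G →* FreeGroup I ⧸ M) (g : G) (hg : ¬ IsOfFinOrder (ϕ g)) : VanishesAt g := by
  by_cases hq : IsOfFinOrder (QuotientGroup.map M N (MonoidHom.id _) hMN (ϕ g))
  · exact finite_pull hMN hinv hP ϕ g hg hq
  · exact infinite_pull hMN hne hinv ϕ g hq

/-- all elements with nontrivial image -/
theorem all_pull (hM : M ≤ ⁅N, N⁆)
    (hinv : ∀ (φ : N →* N) (n : N), (n : FreeGroup I) ∈ M → (φ n : FreeGroup I) ∈ M)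
    (hP : ∀ x : N.map (QuotientGroup.mk' M), x ≠ 1 → Md x)
    (ϕ : G →* FreeGroup I ⧸ M) (g : G) (hg : ϕ g ≠ 1) : VanishesAt g := by
  have hMN : M ≤ N := hM.trans (Subgroup.commutator_le_left N N)
  obtain ⟨w, hw⟩ := QuotientGroup.mk'_surjective M (ϕ g)
  by_cases hwc : w ∈ ⁅N, N⁆
  · have h1 : ϕ g ∈ N.map (QuotientGroup.mk' M) :=
      ⟨w, Subgroup.commutator_le_left N N hwc, hw⟩
    refine inside_pull hMN hinv ϕ g h1 hg ?_
    refine (Md.hom (MonoidHom.snd _ _) (hP ⟨ϕ g, h1⟩ fun h => hg (congrArg Subtype.val h))).vanish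
  · exact outside_pull N M hM ϕ g w hw.symm hwc

end Quot

theorem md_of_uni {A : Type*} [Group A] {c : ℕ} (ρ : A →* Matrix (Fin c) (Fin c) ℝ)
    (hρ : ∀ a i j, j ≤ i → ρ a i j = (1 : Matrix (Fin c) (Fin c) ℝ) i j) (x : A) (hx : ρ x ≠ 1) :
    Md x := by
  refine Or.inl (locCyc_of_cyc (cycTame_of_tame (tame_of_uniDetected
    ⟨⊤, 1, c, ρ.comp (⊤ : Subgroup A).subtype, Subgroup.mem_top _, inferInstance,
      fun g i j hij => hρ _ i j hij, ?_⟩)))
  change ρ (x ^ 1) ≠ 1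
  rwa [pow_one]

section Uni

variable {I : Type*} (N : Subgroup (FreeGroup I)) [N.Normal] (c : ℕ)

theorem uker_md (x : N.map (QuotientGroup.mk' (Uker N c))) (hx : x ≠ 1) : Md x := by
  let p : FreeGroup I →* FreeGroup I ⧸ Uker N c := QuotientGroup.mk' (Uker N c)
  let P : Subgroup (FreeGroup I ⧸ Uker N c) := N.map (QuotientGroup.mk' (Uker N c))
  obtain ⟨w, hwN, hwx⟩ := x.2
  have hwM : w ∉ Uker N c := by
    intro h
    apply hx
    refine Subtype.ext ?_
    rw [← hwx]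
    exact (QuotientGroup.eq_one_iff w).2 h
  obtain ⟨ρ, hρ, hρw⟩ : ∃ ρ : N →* Matrix (Fin c) (Fin c) ℝ,
      (∀ n i j, j ≤ i → ρ n i j = (1 : Matrix (Fin c) (Fin c) ℝ) i j) ∧ ρ ⟨w, hwN⟩ ≠ 1 := by
    by_contra hne
    push Not at hne
    exact hwM ⟨hwN, hne⟩
  have hker : ∀ n : N, p n = 1 → ρ n = 1 := by
    intro n hn
    obtain ⟨h1, h2⟩ := (QuotientGroup.eq_one_iff (n : FreeGroup I)).1 hn
    exact h2 ρ hρ
  have hlift : ∀ y : P, ∃ n : N, p n = y := by
    intro y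
    obtain ⟨n, hn, h1⟩ := y.2
    exact ⟨⟨n, hn⟩, h1⟩
  choose σ hσ using hlift
  have hρσ : ∀ (n : N) (y : P), p n = y → ρ (σ y) = ρ n := by
    intro n y hn
    have h1 : p ((n⁻¹ * σ y : N) : FreeGroup I) = 1 := by
      change p ((n : FreeGroup I)⁻¹ * (σ y : FreeGroup I)) = 1
      rw [map_mul, map_inv, hσ, hn, inv_mul_cancel]
    have h2 := hker _ h1
    have h3 : σ y = n * (n⁻¹ * σ y) := (mul_inv_cancel_left _ _).symm
    rw [h3, map_mul, h2, mul_one]
  let ρ' : P →* Matrix (Fin c) (Fin c) ℝ :=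
    { toFun := fun y => ρ (σ y)
      map_one' := by
        rw [hρσ 1 1 (map_one p), map_one]
      map_mul' := fun y z => by
        rw [hρσ (σ y * σ z) (y * z) ?_, map_mul]
        change p ((σ y : FreeGroup I) * (σ z : FreeGroup I)) = _
        rw [map_mul, hσ, hσ]
        rfl }
  have hx' : ρ' x = ρ ⟨w, hwN⟩ := hρσ ⟨w, hwN⟩ x hwx
  refine md_of_uni ρ' (fun y i j hij => hρ _ i j hij) x ?_
  rw [hx']
  exact hρw

omit [N.Normal] in
theorem uker_inv (φ : N →* N) (n : N) (hn : (n : FreeGroup I) ∈ Uker N c) :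
    (φ n : FreeGroup I) ∈ Uker N c := by
  obtain ⟨h1, h2⟩ := hn
  refine ⟨(φ n).2, fun ρ hρ => ?_⟩
  exact h2 (ρ.comp φ) fun n i j hij => hρ _ i j hij

theorem uker_pull (hc : 2 ≤ c) {G : Type*} [Group G] (ϕ : G →* FreeGroup I ⧸ Uker N c) (g : G)
    (hg : ϕ g ≠ 1) : VanishesAt g :=
  all_pull (N := N) (uker_le_comm N c hc) (uker_inv N c) (uker_md N c) ϕ g hg

end Uni

end Vale.Agent.P184.H444
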