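import Vale.Agent.P184.H444.GitP

/-!
# Linear relations between the traces
-/

noncomputable section

open Filter Topology

namespace Vale.Agent.P184.H444

section Rel

attribute [local instance] Matrix.linftyOpNormedRing Matrix.linftyOpNormedAlgebra

variable {G X L : Type*} [Group G] [MulAction G X] [Group L]

/-- points with value `w` for the first cocycle only -/
def only (α β : LCoc G X L) (w : L) (g : G) : Set X :=
  {x | g • x = x ∧ IsConj w (α.fn g x) ∧ ¬ IsConj w (β.fn g x)}

theorem only_sub (α β : LCoc G X L) (w : L) (g : G) :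
    only α β w g ⊆ {x | α.fn g x ≠ β.fn g x} := by
  rintro x ⟨_, h2, h3⟩ h4
  rw [h4] at h2
  exact h3 h2

open Classical in
theorem tsum_ind {Y : Type*} {S : Set Y} (hS : S.Finite) :
    Summable (fun x => if x ∈ S then (1 : ℂ) else 0) ∧
      ∑' x, (if x ∈ S then (1 : ℂ) else 0) = (S.ncard : ℂ) := by
  have h0 : ∀ x ∉ hS.toFinset, (if x ∈ S then (1 : ℂ) else 0) = 0 := by
    intro x hx
    rw [Set.Finite.mem_toFinset] at hx
    exact if_neg hx
  refine ⟨summable_of_ne_finset_zero h0, ?_⟩
  rw [tsum_eq_sum h0, Set.ncard_eq_toFinset_card _ hS]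
  rw [Finset.sum_congr rfl fun x hx => if_pos (hS.mem_toFinset.1 hx)]
  rw [Finset.sum_const, nsmul_eq_mul, mul_one]

open Classical in
theorem inner_sum (α β : LCoc G X L) (hfin : ∀ h, {x | α.fn h x ≠ β.fn h x}.Finite) (w : L)
    (h : G) (t : ℂ) :
    ∑' x, (if h • x = x then t * ((if α.fn h x ∈ cls w then 1 else 0) -
        (if β.fn h x ∈ cls w then 1 else 0)) else 0) =
      t * (((only α β w h).ncard : ℂ) - ((only β α w h).ncard : ℂ)) := by
  have hf1 : (only α β w h).Finite := (hfin h).subset (only_sub α β w h)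
  have hf2 : (only β α w h).Finite := by
    refine (hfin h).subset fun x hx => ?_
    exact fun h => (only_sub β α w _ hx) h.symm
  obtain ⟨h1, h2⟩ := tsum_ind hf1
  obtain ⟨h3, h4⟩ := tsum_ind hf2
  rw [← h2, ← h4, ← h1.tsum_sub h3, ← tsum_mul_left]
  refine tsum_congr fun x => ?_
  have ha : α.fn h x ∈ cls w ↔ IsConj w (α.fn h x) := mem_cls
  have hb : β.fn h x ∈ cls w ↔ IsConj w (β.fn h x) := mem_cls
  by_cases hx : h • x = x
  · by_cases h5 : IsConj w (α.fn h x)
    · by_cases h6 : IsConj w (β.fn h x)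
      · rw [if_pos hx, if_pos (ha.2 h5), if_pos (hb.2 h6),
          if_neg (fun h7 : x ∈ only α β w h => h7.2.2 h6),
          if_neg (fun h7 : x ∈ only β α w h => h7.2.2 h5)]
        ring
      · rw [if_pos hx, if_pos (ha.2 h5), if_neg (fun h7 => h6 (hb.1 h7)),
          if_pos (show x ∈ only α β w h from ⟨hx, h5, h6⟩),
          if_neg (fun h7 : x ∈ only β α w h => h7.2.2 h5)]
    · by_cases h6 : IsConj w (β.fn h x)
      · rw [if_pos hx, if_neg (fun h7 => h5 (ha.1 h7)), if_pos (hb.2 h6),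
          if_neg (fun h7 : x ∈ only α β w h => h7.2.2 h6),
          if_pos (show x ∈ only β α w h from ⟨hx, h6, h5⟩)]
      · rw [if_pos hx, if_neg (fun h7 => h5 (ha.1 h7)), if_neg (fun h7 => h6 (hb.1 h7)),
          if_neg (fun h7 : x ∈ only α β w h => h5 h7.2.1),
          if_neg (fun h7 : x ∈ only β α w h => h6 h7.2.1)]
  · rw [if_neg hx, if_neg (fun h7 : x ∈ only α β w h => hx h7.1),
      if_neg (fun h7 : x ∈ only β α w h => hx h7.1)]
    ring

/-- sums over classes -/
theorem class_sum {t : G → ℂ} (D : ConjClasses G → ℂ)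
    (hs : Summable fun h => t h * D (ConjClasses.mk h)) (h0 : ∑' h, t h * D (ConjClasses.mk h) = 0) :
    (Summable fun C : ConjClasses G => D C * ∑' g : C.carrier, t g) ∧
      ∑' C : ConjClasses G, D C * ∑' g : C.carrier, t g = 0 := by
  let e : (Σ C : ConjClasses G, C.carrier) ≃ G :=
    { toFun := fun z => z.2
      invFun := fun g => ⟨ConjClasses.mk g, g, ConjClasses.mem_carrier_mk⟩
      left_inv := by
        rintro ⟨C, g, hg⟩
        have h1 : ConjClasses.mk g = C := ConjClasses.mem_carrier_iff_mk_eq.1 hg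
        subst h1
        rfl
      right_inv := fun g => rfl }
  have h1 : Summable fun z : Σ C : ConjClasses G, C.carrier =>
      t (e z) * D (ConjClasses.mk (e z)) := e.summable_iff.2 hs
  have h2 : ∀ (C : ConjClasses G) (g : C.carrier), t (e ⟨C, g⟩) * D (ConjClasses.mk (e ⟨C, g⟩)) =
      D C * t g := by
    rintro C ⟨g, hg⟩
    change t g * D (ConjClasses.mk g) = _
    rw [ConjClasses.mem_carrier_iff_mk_eq.1 hg, mul_comm]
  have h3 := h1.sigma
  have h4 : (fun C : ConjClasses G => ∑' g : C.carrier, t (e ⟨C, g⟩) *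
      D (ConjClasses.mk (e ⟨C, g⟩))) = fun C => D C * ∑' g : C.carrier, t g := by
    funext C
    rw [← tsum_mul_left]
    exact tsum_congr fun g => h2 C g
  rw [h4] at h3
  refine ⟨h3, ?_⟩
  have h5 := h1.tsum_sigma
  rw [e.tsum_eq (fun h => t h * D (ConjClasses.mk h)), h0, h4] at h5
  exact h5.symm

theorem relation (α β : LCoc G X L) (hfin : ∀ h, {x | α.fn h x ≠ β.fn h x}.Finite) {w : L}
    (hw : VanishesAt w) (hw1 : w ≠ 1) (D : ConjClasses G → ℤ)
    (hD : ∀ g, D (ConjClasses.mk g) = ((only α β w g).ncard : ℤ) - ((only β α w g).ncard : ℤ))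
    {q : ℕ} {e : Matrix (Fin q) (Fin q) (G → ℂ)} (he : IsIdem e) :
    (Summable fun C : ConjClasses G => (D C : ℂ) * tau C e) ∧
      ∑' C : ConjClasses G, (D C : ℂ) * tau C e = 0 := by
  classical
  obtain ⟨ε, hε, f, hf, hdec, hτ⟩ := exists_decay (dnum α β) (fun h => Nat.cast_nonneg _)
    (dnum_mul α β hfin) e he
  have hfs := toFn_summable hf
  have hfc := toFn_conv hf
  set F := toFn f with hF
  have hs : Summable fun h => ‖F h‖ * dnum α β h := by
    refine Summable.of_nonneg_of_le (fun h => mul_nonneg (norm_nonneg _) (Nat.cast_nonneg _))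
      (fun h => ?_) (hdec.mul_left ε⁻¹)
    have h1 : ε * dnum α β h ≤ Real.exp (ε * dnum α β h) := by
      have := Real.add_one_le_exp (ε * dnum α β h)
      linarith
    have h2 : dnum α β h ≤ ε⁻¹ * Real.exp (ε * dnum α β h) := by
      rw [inv_mul_eq_div, le_div_iff₀ hε, mul_comm]
      exact h1
    calc ‖F h‖ * dnum α β h ≤ ‖F h‖ * (ε⁻¹ * Real.exp (ε * dnum α β h)) :=
          mul_le_mul_of_nonneg_left h2 (norm_nonneg _)
      _ = ε⁻¹ * (‖F h‖ * Real.exp (ε * dnum α β h)) := by ring
  have hgit := git α β hfs hfc hfin hs hw hw1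
  set t : G → ℂ := fun h => ∑ j, F h j j with ht
  have htn : ∀ h, ‖t h‖ ≤ q * ‖F h‖ := by
    intro h
    refine (norm_sum_le _ _).trans ?_
    refine (Finset.sum_le_sum fun j _ => norm_entry_le (F h) j j).trans ?_
    rw [Finset.sum_const, Finset.card_univ, Fintype.card_fin, nsmul_eq_mul]
  set v : G × X → ℂ := fun z => if z.1 • z.2 = z.2 then
      t z.1 * ((if α.fn z.1 z.2 ∈ cls w then 1 else 0) -
        (if β.fn z.1 z.2 ∈ cls w then 1 else 0)) else 0 with hv
  have hv0 : ∑' z, v z = 0 := hgit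
  have hvs : Summable v := by
    refine Summable.of_norm_bounded
      ((del_summable α β hfin hs).mul_left (q : ℝ)) fun z => ?_
    rw [hv]
    dsimp only
    by_cases h1 : α.fn z.1 z.2 = β.fn z.1 z.2
    · rw [h1, sub_self, mul_zero, ite_self, norm_zero]
      exact mul_nonneg (Nat.cast_nonneg _) (mul_nonneg (norm_nonneg _) (del_nonneg _ _ _ _))
    · have h6 : del α β z.1 z.2 = 1 := if_neg h1
      rw [h6, mul_one]
      split_ifs
      · rw [sub_self, mul_zero, norm_zero]
        exact mul_nonneg (Nat.cast_nonneg _) (norm_nonneg _)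
      · rw [sub_zero, mul_one]
        exact htn _
      · rw [zero_sub, mul_neg, mul_one, norm_neg]
        exact htn _
      · rw [sub_self, mul_zero, norm_zero]
        exact mul_nonneg (Nat.cast_nonneg _) (norm_nonneg _)
      · rw [norm_zero]
        exact mul_nonneg (Nat.cast_nonneg _) (norm_nonneg _)
  have hin : ∀ h, ∑' x, v (h, x) = t h * ((D (ConjClasses.mk h) : ℤ) : ℂ) := by
    intro h
    rw [hD h]
    push_cast
    exact inner_sum α β hfin w h (t h)
  have h1 : Summable fun h => t h * ((D (ConjClasses.mk h) : ℤ) : ℂ) :=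
    hvs.prod.congr hin
  have h2 : ∑' h, t h * ((D (ConjClasses.mk h) : ℤ) : ℂ) = 0 := by
    rw [← hv0, hvs.tsum_prod]
    exact tsum_congr fun h => (hin h).symm
  obtain ⟨h3, h4⟩ := class_sum (fun C => ((D C : ℤ) : ℂ)) h1 h2
  have h5 : ∀ C : ConjClasses G, ∑' g : C.carrier, t g = tau C e := by
    intro C
    rw [← hτ C]
    rfl
  simp only [h5] at h3 h4
  exact ⟨h3, h4⟩

end Rel

end Vale.Agent.P184.H444
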