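import Vale.Agent.P184.H444.GitR

/-!
# The class function of a pair of cocycles
-/

noncomputable section

open Filter Topology

namespace Vale.Agent.P184.H444

variable {G X L : Type*} [Group G] [MulAction G X] [Group L]

theorem only_smul (α β : LCoc G X L) (w : L) (g r : G) {x : X} (hx : x ∈ only α β w g) :
    r • x ∈ only α β w (r * g * r⁻¹) := by
  obtain ⟨h1, h2, h3⟩ := hx
  refine ⟨?_, h2.trans (α.conj h1 r), fun h4 => h3 (h4.trans (β.conj h1 r).symm)⟩
  rw [mul_smul, mul_smul, inv_smul_smul, h1]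

theorem only_ncard (α β : LCoc G X L) (w : L) (g r : G) :
    (only α β w (r * g * r⁻¹)).ncard = (only α β w g).ncard := by
  have h1 : only α β w (r * g * r⁻¹) = (fun x => r • x) '' only α β w g := by
    ext y
    constructor
    · intro hy
      refine ⟨r⁻¹ • y, ?_, smul_inv_smul r y⟩
      have h2 := only_smul α β w (r * g * r⁻¹) r⁻¹ hy
      have h3 : r⁻¹ * (r * g * r⁻¹) * r⁻¹⁻¹ = g := by group
      rwa [h3] at h2
    · rintro ⟨x, hx, rfl⟩
      exact only_smul α β w g r hx
  rw [h1]
  exact Set.ncard_image_of_injective _ (MulAction.injective r)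

theorem relation' (α β : LCoc G X L) (hfin : ∀ h, {x | α.fn h x ≠ β.fn h x}.Finite) {w : L}
    (hw : VanishesAt w) (hw1 : w ≠ 1) : ∃ D : ConjClasses G → ℤ,
    (∀ g, D (ConjClasses.mk g) = ((only α β w g).ncard : ℤ) - ((only β α w g).ncard : ℤ)) ∧
    ∀ (q : ℕ) (e : Matrix (Fin q) (Fin q) (G → ℂ)), IsIdem e →
      (Summable fun C : ConjClasses G => (D C : ℂ) * tau C e) ∧
      ∑' C : ConjClasses G, (D C : ℂ) * tau C e = 0 := by
  let D : ConjClasses G → ℤ := fun C => ((only α β w (Quotient.out C)).ncard : ℤ) -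
      ((only β α w (Quotient.out C)).ncard : ℤ)
  have hD : ∀ g, D (ConjClasses.mk g) =
      ((only α β w g).ncard : ℤ) - ((only β α w g).ncard : ℤ) := by
    intro g
    have h1 : ConjClasses.mk (Quotient.out (ConjClasses.mk g)) = ConjClasses.mk g :=
      Quotient.out_eq (ConjClasses.mk g)
    obtain ⟨r, hr⟩ := isConj_iff.1 (ConjClasses.mk_eq_mk_iff_isConj.1 h1).symm
    change ((only α β w (Quotient.out (ConjClasses.mk g))).ncard : ℤ) -
      ((only β α w (Quotient.out (ConjClasses.mk g))).ncard : ℤ) = _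
    rw [← hr, only_ncard, only_ncard]
  exact ⟨D, hD, fun q e he => relation α β hfin hw hw1 D hD he⟩

end Vale.Agent.P184.H444
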