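import Vale.Agent.P184.H444.GitT

/-!
# The affine group
-/

noncomputable section

open Filter Topology

namespace Vale.Agent.P184.H444

/-- increasing affine maps -/
@[ext]
structure Af where
  d : ℝ
  c : ℝ
  pos : 0 < d

namespace Af

instance : Mul Af := ⟨fun v w => ⟨v.d * w.d, v.d * w.c + v.c, mul_pos v.pos w.pos⟩⟩
instance : One Af := ⟨⟨1, 0, one_pos⟩⟩
instance : Inv Af := ⟨fun v => ⟨v.d⁻¹, -(v.d⁻¹ * v.c), inv_pos.2 v.pos⟩⟩

@[simp] theorem mul_d (v w : Af) : (v * w).d = v.d * w.d := rfl
@[simp] theorem mul_c (v w : Af) : (v * w).c = v.d * w.c + v.c := rfl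
@[simp] theorem one_d : (1 : Af).d = 1 := rfl
@[simp] theorem one_c : (1 : Af).c = 0 := rfl
@[simp] theorem inv_d (v : Af) : v⁻¹.d = v.d⁻¹ := rfl
@[simp] theorem inv_c (v : Af) : v⁻¹.c = -(v.d⁻¹ * v.c) := rfl

instance : Group Af :=
  Group.ofLeftAxioms
    (fun a b c => by
      ext
      · simp only [mul_d]
        ring
      · simp only [mul_d, mul_c]
        ring)
    (fun a => by
      ext
      · simp only [mul_d, one_d, one_mul]
      · simp only [mul_c, one_d, one_c, one_mul, add_zero])
    (fun a => by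
      have h := a.pos.ne'
      ext
      · simp only [mul_d, inv_d, one_d]
        exact inv_mul_cancel₀ h
      · simp only [mul_c, inv_d, inv_c, one_c]
        ring)

/-- the translations -/
def T : Subgroup Af where
  carrier := {v | v.d = 1}
  mul_mem' := by
    intro a b ha hb
    change a.d * b.d = 1
    rw [show a.d = 1 from ha, show b.d = 1 from hb, one_mul]
  one_mem' := rfl
  inv_mem' := by
    intro a ha
    change a.d⁻¹ = 1
    rw [show a.d = 1 from ha, inv_one]

theorem mem_T {v : Af} : v ∈ T ↔ v.d = 1 := Iff.rfl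

instance : T.Normal where
  conj_mem := by
    intro n hn g
    rw [mem_T] at hn ⊢
    change g.d * n.d * g.d⁻¹ = 1
    rw [hn, mul_one, mul_inv_cancel₀ g.pos.ne']

theorem amen : Amen Af := by
  refine Fol.amen_of_folner (Fol.isAmenable_of_ext T (Fol.isAmenable_of_comm _ ?_)
    (Fol.isAmenable_of_comm _ ?_))
  · rintro ⟨a, ha⟩ ⟨b, hb⟩
    rw [mem_T] at ha hb
    refine Subtype.ext ?_
    change a * b = b * a
    ext
    · simp only [mul_d, mul_comm]
    · simp only [mul_c, ha, hb]
      ring
  · intro a b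
    induction a using QuotientGroup.induction_on with
    | H a =>
    induction b using QuotientGroup.induction_on with
    | H b =>
    change ((a * b : Af) : Af ⧸ T) = ((b * a : Af) : Af ⧸ T)
    rw [QuotientGroup.eq, mem_T]
    change (a.d * b.d)⁻¹ * (b.d * a.d) = 1
    rw [mul_comm b.d a.d]
    exact inv_mul_cancel₀ (mul_pos a.pos b.pos).ne'

theorem pow_d (v : Af) (n : ℕ) : (v ^ n).d = v.d ^ n := by
  induction n with
  | zero => rw [pow_zero, pow_zero, one_d]
  | succ n ih => rw [pow_succ, pow_succ, mul_d, ih]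

theorem infinite {v : Af} (hv : v ≠ 1) : ¬ IsOfFinOrder v := by
  intro h
  obtain ⟨n, hn, h1⟩ := isOfFinOrder_iff_pow_eq_one.1 h
  have h2 : v.d ^ n = 1 := by
    rw [← pow_d, h1, one_d]
  have h3 : v.d = 1 := (pow_eq_one_iff_of_nonneg v.pos.le hn.ne').1 h2
  have h4 : ∀ m : ℕ, (v ^ m).c = m * v.c := by
    intro m
    induction m with
    | zero => rw [pow_zero, one_c, Nat.cast_zero, zero_mul]
    | succ m ih =>
      rw [pow_succ, mul_c, ih, pow_d, h3, one_pow]
      push_cast
      ring
  have h5 := h4 n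
  rw [h1, one_c] at h5
  have hn' : (n : ℝ) ≠ 0 := by
    have := hn.ne'
    exact_mod_cast this
  have h6 : v.c = 0 := by
    rcases mul_eq_zero.1 h5.symm with h7 | h7
    · exact absurd h7 hn'
    · exact h7
  exact hv (Af.ext h3 h6)

theorem md {v : Af} (hv : v ≠ 1) : Md v := md_of_amen amen v (infinite hv)

end Af

section Pt

variable {G X K : Type*} [Group G] [MulAction G X] [Group K]

theorem vanish_pt (α β : LCoc G X K) (hfin : ∀ h, {x | α.fn h x ≠ β.fn h x}.Finite) (x : X)
    (g : G) (hg : g • x = x) (hne : ¬ IsConj (α.fn g x) (β.fn g x)) (hv : Md (α.fn g x)) :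
    VanishesAt g := by
  let H : Subgroup G := MulAction.stabilizer G x
  have hgH : g ∈ H := hg
  have horb : ∀ (h : G) (c : G ⧸ H), MulAction.ofQuotientStabilizer G x (h • c) =
      h • MulAction.ofQuotientStabilizer G x c := fun h c =>
    MulAction.ofQuotientStabilizer_smul G x h c
  have hinj := MulAction.injective_ofQuotientStabilizer G x
  let res : LCoc G X K → LCoc G (G ⧸ H) K := fun γ =>
    ⟨fun h c => γ.fn h (MulAction.ofQuotientStabilizer G x c), fun h k c => by
      rw [γ.mul', horb]⟩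
  have h1 : ∀ γ : LCoc G X K, (res γ).fn g ((1 : G) : G ⧸ H) = γ.fn g x := by
    intro γ
    change γ.fn g (MulAction.ofQuotientStabilizer G x ((1 : G) : G ⧸ H)) = _
    rw [MulAction.ofQuotientStabilizer_mk, one_smul]
  refine transfer (res α) (res β) (fun h => ?_) ⟨g, hgH⟩ ?_ ?_
  · exact (hfin h).preimage hinj.injOn
  · rw [h1, h1]
    exact hne
  · refine (Md.hom (MonoidHom.snd _ _) ?_).vanish
    change Md ((res α).fn g ((1 : G) : G ⧸ H))
    rw [h1]
    exact hv

end Pt

end Vale.Agent.P184.H444
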