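import Vale.Agent.P184.H444.GitU

/-!
# Germs of piecewise projective maps
-/

noncomputable section

open Filter Topology

namespace Vale.Agent.P184.H444

/-- `w` describes `f` at `x` along the filter `l` at zero -/
def Gm (l : Filter ℝ) (f : ℝ → ℝ) (x : ℝ) (w : Af) : Prop :=
  ∀ᶠ t in l, (f (x + t) - f x) * (w.d + w.c * t) = t

theorem Gm.mono {l l' : Filter ℝ} (h : l ≤ l') {f : ℝ → ℝ} {x : ℝ} {w : Af} (hw : Gm l' f x w) :
    Gm l f x w := h hw

theorem Gm.comp {l : Filter ℝ} {f g : ℝ → ℝ} {x : ℝ} {w w' : Af} (hf : Gm l f (g x) w)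
    (hg : Gm l g x w') (ht : Tendsto (fun t => g (x + t) - g x) l l) :
    Gm l (fun y => f (g y)) x (w * w') := by
  filter_upwards [hg, ht.eventually hf] with t h1 h2
  rw [add_sub_cancel] at h2
  rw [Af.mul_d, Af.mul_c]
  linear_combination (w'.d + w'.c * t) * h2 +
    (1 - (f (g (x + t)) - f (g x)) * w.c) * h1

theorem Gm.unique {l : Filter ℝ} [l.NeBot] (hl : l ≤ 𝓝[≠] 0) {f : ℝ → ℝ} {x : ℝ} {w w' : Af}
    (h : Gm l f x w) (h' : Gm l f x w') : w = w' := by
  have h0 : ∀ᶠ t in l, t ≠ 0 := hl self_mem_nhdsWithin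
  have h1 : ∀ᶠ t in l, w.d + w.c * t = w'.d + w'.c * t := by
    filter_upwards [h, h', h0] with t h1 h2 h3
    have h4 : f (x + t) - f x ≠ 0 := by
      intro h4
      rw [h4, zero_mul] at h1
      exact h3 h1.symm
    exact mul_left_cancel₀ h4 (h1.trans h2.symm)
  have hl' : l ≤ 𝓝 0 := hl.trans nhdsWithin_le_nhds
  have h2 : ∀ v : Af, Tendsto (fun t : ℝ => v.d + v.c * t) l (𝓝 v.d) := by
    intro v
    have h3 : Tendsto (fun t : ℝ => v.d + v.c * t) (𝓝 0) (𝓝 (v.d + v.c * 0)) := by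
      apply Continuous.tendsto
      fun_prop
    rw [mul_zero, add_zero] at h3
    exact h3.mono_left hl'
  have h3 : w.d = w'.d := tendsto_nhds_unique ((h2 w).congr' h1) (h2 w')
  obtain ⟨t, h4, h5⟩ := (h1.and h0).exists
  refine Af.ext h3 ?_
  rw [h3] at h4
  exact mul_right_cancel₀ h5 (add_left_cancel h4)

theorem oi_tendsto_r (f : ℝ ≃o ℝ) (x : ℝ) :
    Tendsto (fun t => f (x + t) - f x) (𝓝[>] 0) (𝓝[>] 0) := by
  have hc : Tendsto (fun t => f (x + t) - f x) (𝓝 0) (𝓝 (f (x + 0) - f x)) := by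
    apply Continuous.tendsto
    exact (f.continuous.comp (continuous_const.add continuous_id)).sub continuous_const
  rw [add_zero, sub_self] at hc
  refine tendsto_nhdsWithin_iff.2 ⟨hc.mono_left nhdsWithin_le_nhds, ?_⟩
  filter_upwards [self_mem_nhdsWithin] with t ht
  have : f x < f (x + t) := f.lt_iff_lt.2 (lt_add_of_pos_right x ht)
  exact sub_pos.2 this

theorem oi_tendsto_l (f : ℝ ≃o ℝ) (x : ℝ) :
    Tendsto (fun t => f (x + t) - f x) (𝓝[<] 0) (𝓝[<] 0) := by
  have hc : Tendsto (fun t => f (x + t) - f x) (𝓝 0) (𝓝 (f (x + 0) - f x)) := by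
    apply Continuous.tendsto
    exact (f.continuous.comp (continuous_const.add continuous_id)).sub continuous_const
  rw [add_zero, sub_self] at hc
  refine tendsto_nhdsWithin_iff.2 ⟨hc.mono_left nhdsWithin_le_nhds, ?_⟩
  filter_upwards [self_mem_nhdsWithin] with t ht
  have : f (x + t) < f x := f.lt_iff_lt.2 (add_lt_of_neg_right x ht)
  exact sub_neg.2 this

theorem germ_exists {l : Filter ℝ} [l.NeBot] (hl : l ≤ 𝓝[≠] 0) (f : ℝ ≃o ℝ) (x a b c d : ℝ)
    (h : ∀ᶠ t in l, c * (x + t) + d ≠ 0 ∧ f (x + t) = (a * (x + t) + b) / (c * (x + t) + d)) :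
    ∃ w, Gm l f x w := by
  have h0 : ∀ᶠ t in l, t ≠ 0 := hl self_mem_nhdsWithin
  have hl' : l ≤ 𝓝 0 := hl.trans nhdsWithin_le_nhds
  have h1 : ∀ᶠ t in l, f (x + t) * (c * (x + t) + d) = a * (x + t) + b := by
    filter_upwards [h] with t ht
    rw [ht.2, div_mul_cancel₀ _ ht.1]
  have hfc : Tendsto (fun t => f (x + t)) l (𝓝 (f x)) := by
    have h2 : Tendsto (fun t => f (x + t)) (𝓝 0) (𝓝 (f (x + 0))) :=
      Continuous.tendsto (f.continuous.comp (continuous_const.add continuous_id)) 0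
    rw [add_zero] at h2
    exact h2.mono_left hl'
  have hq : Tendsto (fun t => c * (x + t) + d) l (𝓝 (c * x + d)) := by
    have h2 : Tendsto (fun t => c * (x + t) + d) (𝓝 0) (𝓝 (c * (x + 0) + d)) := by
      apply Continuous.tendsto
      fun_prop
    rw [add_zero] at h2
    exact h2.mono_left hl'
  have hp : Tendsto (fun t => a * (x + t) + b) l (𝓝 (a * x + b)) := by
    have h2 : Tendsto (fun t => a * (x + t) + b) (𝓝 0) (𝓝 (a * (x + 0) + b)) := by
      apply Continuous.tendsto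
      fun_prop
    rw [add_zero] at h2
    exact h2.mono_left hl'
  have h2 : f x * (c * x + d) = a * x + b := tendsto_nhds_unique ((hfc.mul hq).congr' h1) hp
  have hinj : ∀ t, t ≠ 0 → f (x + t) ≠ f x := by
    intro t ht h3
    exact ht (add_eq_left.1 (f.injective h3))
  have hqx : c * x + d ≠ 0 := by
    intro h3
    have h4 : a * x + b = 0 := by rw [← h2, h3, mul_zero]
    have h5 : ∀ᶠ t in l, f (x + t) * c = a := by
      filter_upwards [h1, h0] with t h5 h6
      refine mul_right_cancel₀ h6 ?_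
      linear_combination h5 - f (x + t) * h3 + h4
    have h6 : f x * c = a :=
      tendsto_nhds_unique ((hfc.mul_const c).congr' h5) tendsto_const_nhds
    obtain ⟨t, ⟨h7, h8⟩, h9⟩ := ((h5.and h0).and h).exists
    rw [← h6] at h7
    have hc0 : c ≠ 0 := by
      rintro rfl
      apply h9.1
      linear_combination h3
    exact hinj t h8 (mul_right_cancel₀ hc0 h7)
  set D := a * d - b * c with hD
  have h3 : ∀ᶠ t in l, (f (x + t) - f x) * ((c * (x + t) + d) * (c * x + d)) = t * D := by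
    filter_upwards [h1] with t h4
    linear_combination (c * x + d) * h4 - (c * (x + t) + d) * h2
  have hqq : ∀ᶠ t in l, 0 < (c * (x + t) + d) * (c * x + d) := by
    have h4 := hq.mul_const (c * x + d)
    exact h4.eventually (lt_mem_nhds (mul_self_pos.2 hqx))
  have hDpos : 0 < D := by
    obtain ⟨t, ⟨h4, h5⟩, h6⟩ := ((h3.and hqq).and h0).exists
    rcases lt_or_gt_of_ne h6 with h7 | h7
    · have h8 : f (x + t) < f x := f.lt_iff_lt.2 (add_lt_of_neg_right x h7)
      have h9 : (f (x + t) - f x) * ((c * (x + t) + d) * (c * x + d)) < 0 :=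
        mul_neg_of_neg_of_pos (sub_neg.2 h8) h5
      rw [h4] at h9
      by_contra h10
      exact absurd h9 (not_lt.2 (mul_nonneg_of_nonpos_of_nonpos h7.le (not_lt.1 h10)))
    · have h8 : f x < f (x + t) := f.lt_iff_lt.2 (lt_add_of_pos_right x h7)
      have h9 : 0 < (f (x + t) - f x) * ((c * (x + t) + d) * (c * x + d)) :=
        mul_pos (sub_pos.2 h8) h5
      rw [h4] at h9
      exact (pos_iff_pos_of_mul_pos h9).1 h7
  refine ⟨⟨(c * x + d) ^ 2 / D, c * (c * x + d) / D, by positivity⟩, ?_⟩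
  filter_upwards [h3] with t h4
  have hD0 : D ≠ 0 := hDpos.ne'
  have h5 : (c * x + d) ^ 2 / D + c * (c * x + d) / D * t =
      ((c * (x + t) + d) * (c * x + d)) / D := by
    rw [div_mul_eq_mul_div, ← add_div]
    congr 1
    ring
  rw [h5, ← mul_div_assoc, h4, mul_div_assoc, div_self hD0, mul_one]

end Vale.Agent.P184.H444
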