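import Vale.Agent.P184.H444.VDefs

/-!
# Definitions for the statements on cocycles and on homeomorphisms of the line
-/

open Filter Topology

namespace Vale.Agent.P184.H444

/-- Two cocycles `G × X → L` over a `G`-set `X`, which for each `g` are equal at all but finitely
many points. -/
def CocPair {G X L : Type*} [Group G] [MulAction G X] [Group L] (α β : G → X → L) : Prop :=
  (∀ g h x, α (g * h) x = α g (h • x) * α h x) ∧ (∀ g h x, β (g * h) x = β g (h • x) * β h x) ∧
    ∀ g, {x | α g x ≠ β g x}.Finite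

/-- Piecewise projective maps of the line: for some finite set `S`, the map is given by a
fractional linear map on each interval without points of `S`. -/
def PProj (f : ℝ → ℝ) : Prop :=
  ∃ S : Finset ℝ, ∀ I : Set ℝ, I.OrdConnected → (∀ s ∈ S, s ∉ I) →
    ∃ a b c d : ℝ, ∀ t ∈ I, c * t + d ≠ 0 ∧ f t = (a * t + b) / (c * t + d)

/-- Piecewise analytic maps of the line: analytic off a finite set, and at each point `x` equal
to an analytic function on the right of `x`, and to an analytic function on the left of `x`. -/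
def PAn (f : ℝ → ℝ) : Prop :=
  (∃ S : Finset ℝ, ∀ x ∉ S, AnalyticAt ℝ f x) ∧ ∀ x : ℝ,
    (∃ φ : ℝ → ℝ, AnalyticAt ℝ φ x ∧ ∀ᶠ y in 𝓝[>] x, f y = φ y) ∧
    ∃ φ : ℝ → ℝ, AnalyticAt ℝ φ x ∧ ∀ᶠ y in 𝓝[<] x, f y = φ y

end Vale.Agent.P184.H444
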