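import Vale.Agent.P184.H444.GitV
import Vale.Agent.P184.H444.VDefs2

/-!
# Groups of piecewise projective homeomorphisms of the line
-/

noncomputable section

open Filter Topology

namespace Vale.Agent.P184.H444

theorem exists_eps (S : Finset ℝ) (x : ℝ) :
    ∃ ε : ℝ, 0 < ε ∧ ∀ s ∈ S, x - ε < s → s < x + ε → s = x := by
  classical
  have h1 : ((S.erase x : Finset ℝ) : Set ℝ)ᶜ ∈ 𝓝 x := by
    refine (S.erase x).finite_toSet.isClosed.isOpen_compl.mem_nhds ?_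
    simp
  obtain ⟨ε, hε, h2⟩ := Metric.mem_nhds_iff.1 h1
  refine ⟨ε, hε, fun s hs h3 h4 => ?_⟩
  by_contra h5
  have h6 : s ∈ Metric.ball x ε := by
    rw [Metric.mem_ball, Real.dist_eq, abs_lt]
    constructor <;> linarith
  exact h2 h6 (Finset.mem_coe.2 (Finset.mem_erase.2 ⟨h5, hs⟩))

theorem germ_r (f : ℝ ≃o ℝ) (hf : PProj f) (x : ℝ) : ∃ w, Gm (𝓝[>] 0) f x w := by
  obtain ⟨S, hS⟩ := hf
  obtain ⟨ε, hε, h1⟩ := exists_eps S x
  obtain ⟨a, b, c, d, h2⟩ := hS (Set.Ioo x (x + ε)) Set.ordConnected_Ioo fun s hs h3 =>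
    h3.1.ne' (h1 s hs (by linarith [h3.1]) h3.2)
  have hl : (𝓝[>] (0 : ℝ)) ≤ 𝓝[≠] 0 := nhdsWithin_mono _ fun t ht => ne_of_gt ht
  refine germ_exists hl f x a b c d ?_
  filter_upwards [Ioo_mem_nhdsGT hε] with t ht
  exact h2 _ ⟨by linarith [ht.1], by linarith [ht.2]⟩

theorem germ_l (f : ℝ ≃o ℝ) (hf : PProj f) (x : ℝ) : ∃ w, Gm (𝓝[<] 0) f x w := by
  obtain ⟨S, hS⟩ := hf
  obtain ⟨ε, hε, h1⟩ := exists_eps S x
  obtain ⟨a, b, c, d, h2⟩ := hS (Set.Ioo (x - ε) x) Set.ordConnected_Ioo fun s hs h3 =>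
    h3.2.ne (h1 s hs h3.1 (by linarith [h3.2]))
  have hl : (𝓝[<] (0 : ℝ)) ≤ 𝓝[≠] 0 := nhdsWithin_mono _ fun t ht => ne_of_lt ht
  refine germ_exists hl f x a b c d ?_
  filter_upwards [Ioo_mem_nhdsLT (neg_lt_zero.2 hε)] with t ht
  exact h2 _ ⟨by linarith [ht.1], by linarith [ht.2]⟩

theorem germ_b (f : ℝ ≃o ℝ) (hf : PProj f) :
    ∃ S : Finset ℝ, ∀ x ∉ S, ∃ w, Gm (𝓝[≠] 0) f x w := by
  obtain ⟨S, hS⟩ := hf
  refine ⟨S, fun x hx => ?_⟩
  obtain ⟨ε, hε, h1⟩ := exists_eps S x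
  obtain ⟨a, b, c, d, h2⟩ := hS (Set.Ioo (x - ε) (x + ε)) Set.ordConnected_Ioo fun s hs h3 =>
    hx ((h1 s hs h3.1 h3.2) ▸ hs)
  refine germ_exists le_rfl f x a b c d ?_
  have h3 : Set.Ioo (-ε) ε ∈ 𝓝 (0 : ℝ) := Ioo_mem_nhds (neg_lt_zero.2 hε) hε
  filter_upwards [mem_nhdsWithin_of_mem_nhds h3] with t ht
  exact h2 _ ⟨by linarith [ht.1], by linarith [ht.2]⟩

theorem germ_top (f : ℝ ≃o ℝ) (hf : PProj f) : ∃ w : Af, ∀ᶠ t in atTop, f t = w.d * t + w.c := by
  obtain ⟨S, hS⟩ := hf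
  obtain ⟨M, hM⟩ : ∃ M : ℝ, ∀ s ∈ S, s ≤ M := by
    obtain ⟨M, hM⟩ := S.bddAbove
    exact ⟨M, fun s hs => hM hs⟩
  obtain ⟨a, b, c, d, h1⟩ := hS (Set.Ioi M) Set.ordConnected_Ioi fun s hs h2 =>
    absurd (hM s hs) (not_le.2 h2)
  have hft : Tendsto f atTop atTop := f.tendsto_atTop
  have hM' : ∀ᶠ t in (atTop : Filter ℝ), M < t := eventually_gt_atTop M
  have h2 : ∀ᶠ t in atTop, c - a / f t = b / (t * f t) - d / t := by
    filter_upwards [hM', eventually_gt_atTop (0 : ℝ), hft.eventually_gt_atTop 0] with t h3 h4 h5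
    obtain ⟨h6, h7⟩ := h1 t h3
    have h8 : f t * (c * t + d) = a * t + b := by rw [h7, div_mul_cancel₀ _ h6]
    have h9 : f t ≠ 0 := ne_of_gt h5
    field_simp
    linear_combination h8
  have h3 : Tendsto (fun t => c - a / f t) atTop (𝓝 (c - 0)) :=
    tendsto_const_nhds.sub (tendsto_const_nhds.div_atTop hft)
  have h4 : Tendsto (fun t => b / (t * f t) - d / t) atTop (𝓝 (0 - 0)) :=
    (tendsto_const_nhds.div_atTop (tendsto_id.atTop_mul_atTop₀ hft)).sub
      (tendsto_const_nhds.div_atTop tendsto_id)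
  have hc : c = 0 := by
    have h5 := tendsto_nhds_unique (h3.congr' h2) h4
    rwa [sub_zero, sub_zero] at h5
  subst hc
  have h5 : ∀ t, M < t → d ≠ 0 ∧ f t = a / d * t + b / d := by
    intro t ht
    obtain ⟨h6, h7⟩ := h1 t ht
    rw [zero_mul, zero_add] at h6 h7
    exact ⟨h6, by rw [h7]; ring⟩
  have hpos : 0 < a / d := by
    have h6 := (h5 (M + 1) (by linarith)).2
    have h7 := (h5 (M + 2) (by linarith)).2
    have h8 : f (M + 1) < f (M + 2) := f.lt_iff_lt.2 (by linarith)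
    rw [h6, h7] at h8
    linarith
  exact ⟨⟨a / d, b / d, hpos⟩, hM'.mono fun t ht => (h5 t ht).2⟩

theorem aff_unique {w w' : Af} (h : ∀ᶠ t : ℝ in atTop, w.d * t + w.c = w'.d * t + w'.c) :
    w = w' := by
  obtain ⟨N, hN⟩ := eventually_atTop.1 h
  have h1 := hN N le_rfl
  have h2 := hN (N + 1) (by linarith)
  have h3 : w.d = w'.d := by linarith
  rw [h3] at h1
  exact Af.ext h3 (by linarith)

section Act

variable {G : Type*} [Group G] (ρ : G →* (ℝ ≃o ℝ)) (hρ : ∀ g, PProj (ρ g))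

theorem rho_mul (g h : G) (x : ℝ) : ρ (g * h) x = ρ g (ρ h x) := by
  rw [map_mul]
  rfl

theorem rho_one (x : ℝ) : ρ 1 x = x := by
  rw [map_one]
  rfl

/-- the action -/
@[reducible]
def lact : MulAction G ℝ where
  smul g x := ρ g x
  one_smul x := rho_one ρ x
  mul_smul g h x := rho_mul ρ g h x

/-- a cocycle of germs -/
def gcoc (l : Filter ℝ) [l.NeBot] (hl : l ≤ 𝓝[≠] 0)
    (hex : ∀ g x, ∃ w, Gm l (ρ g) x w)
    (ht : ∀ g x, Tendsto (fun t => ρ g (x + t) - ρ g x) l l) :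
    @LCoc G ℝ Af _ (lact ρ) _ :=
  letI := lact ρ
  { fn := fun g x => (hex g x).choose
    mul' := fun g h x => by
      have h1 := (hex g (ρ h x)).choose_spec
      have h2 := (hex h x).choose_spec
      have h3 := Gm.comp h1 h2 (ht h x)
      have h4 := (hex (g * h) x).choose_spec
      have h5 : (fun y => ρ g (ρ h y)) = ρ (g * h) := by
        funext y
        rw [rho_mul]
      rw [h5] at h3
      exact Gm.unique hl h4 h3 }

theorem gcoc_spec (l : Filter ℝ) [l.NeBot] (hl : l ≤ 𝓝[≠] 0)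
    (hex : ∀ g x, ∃ w, Gm l (ρ g) x w)
    (ht : ∀ g x, Tendsto (fun t => ρ g (x + t) - ρ g x) l l) (g : G) (x : ℝ) :
    Gm l (ρ g) x (@LCoc.fn G ℝ Af _ (lact ρ) _ (gcoc ρ l hl hex ht) g x) :=
  (hex g x).choose_spec

include hρ

/-- fixed points with different germs -/
theorem fix_vanish (g : G) (x : ℝ) (hx : ρ g x = x) (w w' : Af) (hw : Gm (𝓝[>] 0) (ρ g) x w)
    (hw' : Gm (𝓝[<] 0) (ρ g) x w') (hne : ¬ IsConj w w') : VanishesAt g := by
  let _ := lact ρ
  have hlr : (𝓝[>] (0 : ℝ)) ≤ 𝓝[≠] 0 := nhdsWithin_mono _ fun t ht => ne_of_gt ht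
  have hll : (𝓝[<] (0 : ℝ)) ≤ 𝓝[≠] 0 := nhdsWithin_mono _ fun t ht => ne_of_lt ht
  let α := gcoc ρ (𝓝[>] 0) hlr (fun g x => germ_r (ρ g) (hρ g) x)
    (fun g x => oi_tendsto_r (ρ g) x)
  let β := gcoc ρ (𝓝[<] 0) hll (fun g x => germ_l (ρ g) (hρ g) x)
    (fun g x => oi_tendsto_l (ρ g) x)
  have hα : ∀ g x, Gm (𝓝[>] 0) (ρ g) x (α.fn g x) := fun g x => gcoc_spec ρ _ hlr _ _ g x
  have hβ : ∀ g x, Gm (𝓝[<] 0) (ρ g) x (β.fn g x) := fun g x => gcoc_spec ρ _ hll _ _ g x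
  have hfin : ∀ h, {x | α.fn h x ≠ β.fn h x}.Finite := by
    intro h
    obtain ⟨S, hS⟩ := germ_b (ρ h) (hρ h)
    refine S.finite_toSet.subset fun y hy => ?_
    by_contra h1
    obtain ⟨v, hv⟩ := hS y h1
    exact hy ((Gm.unique hlr (hα h y) (hv.mono hlr)).trans
      (Gm.unique hll (hv.mono hll) (hβ h y)))
  have h1 : α.fn g x = w := Gm.unique hlr (hα g x) hw
  have h2 : β.fn g x = w' := Gm.unique hll (hβ g x) hw'
  by_cases hw1 : w = 1
  · refine vanish_pt β α (fun h => ?_) x g hx ?_ ?_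
    · exact (hfin h).subset fun y hy h3 => hy h3.symm
    · rw [h1, h2]
      exact fun h3 => hne h3.symm
    · rw [h2]
      refine Af.md fun h3 => hne ?_
      rw [hw1, h3]
  · refine vanish_pt α β hfin x g hx ?_ ?_
    · rw [h1, h2]
      exact hne
    · rw [h1]
      exact Af.md hw1

/-- the germ at infinity -/
theorem top_vanish (g : G) (w : Af) (hw : ∀ᶠ t in atTop, ρ g t = w.d * t + w.c) (hw1 : w ≠ 1) :
    VanishesAt g := by
  choose θ hθ using fun g => germ_top (ρ g) (hρ g)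
  let φ : G →* Af := MonoidHom.mk' θ fun g h => by
    refine aff_unique ?_
    have h1 : Tendsto (ρ h) atTop atTop := (ρ h).tendsto_atTop
    filter_upwards [hθ (g * h), hθ h, h1.eventually (hθ g)] with t h2 h3 h4
    rw [← h2, rho_mul, h4, h3, Af.mul_d, Af.mul_c]
    ring
  have h1 : φ g = w := by
    refine aff_unique ?_
    filter_upwards [hθ g, hw] with t h2 h3
    exact h2.symm.trans h3
  refine (Md.hom φ (x := g) ?_).vanish
  rw [h1]
  exact Af.md hw1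

/-- **Groups of piecewise projective homeomorphisms of the line.** -/
theorem line_vanish (g : G) (hg : ρ g ≠ 1) : VanishesAt g := by
  obtain ⟨w, hw⟩ := germ_top (ρ g) (hρ g)
  by_cases hw1 : w = 1
  · subst hw1
    obtain ⟨M, hM⟩ := eventually_atTop.1 hw
    simp only [Af.one_d, Af.one_c, one_mul, add_zero] at hM
    set A : Set ℝ := {x | ∀ t, x ≤ t → ρ g t = t} with hA
    have hMA : M ∈ A := fun t ht => hM t ht
    obtain ⟨y, hy⟩ : ∃ y, ρ g y ≠ y := by
      by_contra h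
      push Not at h
      exact hg (RelIso.ext h)
    have hbdd : BddBelow A := ⟨y, fun x hx => by
      by_contra h
      exact hy (hx y (not_le.1 h).le)⟩
    set x := sInf A with hx
    have h1 : ∀ t, x < t → ρ g t = t := by
      intro t ht
      obtain ⟨z, hz, hzt⟩ := exists_lt_of_csInf_lt ⟨M, hMA⟩ ht
      exact hz t hzt.le
    have h2 : ρ g x = x := by
      have h3 : Tendsto (ρ g) (𝓝[>] x) (𝓝 (ρ g x)) :=
        ((ρ g).continuous.tendsto x).mono_left nhdsWithin_le_nhds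
      have h4 : Tendsto (fun t : ℝ => t) (𝓝[>] x) (𝓝 x) := nhdsWithin_le_nhds
      refine tendsto_nhds_unique h3 (h4.congr' ?_)
      filter_upwards [self_mem_nhdsWithin] with t ht
      exact (h1 t ht).symm
    obtain ⟨w', hw'⟩ := germ_l (ρ g) (hρ g) x
    have h3 : Gm (𝓝[>] 0) (ρ g) x 1 := by
      filter_upwards [self_mem_nhdsWithin] with t ht
      rw [h1 (x + t) (lt_add_of_pos_right x ht), h2, Af.one_d, Af.one_c]
      ring
    refine fix_vanish ρ hρ g x h2 1 w' h3 hw' fun h4 => ?_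
    have h5 : w' = 1 := eq_one_of_conj h4.symm
    subst h5
    obtain ⟨l, hl, h6⟩ := mem_nhdsLT_iff_exists_Ioo_subset.1 hw'
    have h7 : x + l / 2 ∈ A := by
      intro t ht
      rcases lt_trichotomy t x with h8 | h8 | h8
      · have hl' : l < 0 := hl
        have h9 := h6 (show t - x ∈ Set.Ioo l 0 from ⟨by linarith, by linarith⟩)
        have h10 : (ρ g (x + (t - x)) - ρ g x) * ((1 : Af).d + (1 : Af).c * (t - x)) = t - x := h9
        rw [add_sub_cancel, h2, Af.one_d, Af.one_c] at h10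
        linarith
      · rw [h8, h2]
      · exact h1 t h8
    have h8 : x ≤ x + l / 2 := csInf_le hbdd h7
    have hl' : l < 0 := hl
    linarith
  · exact top_vanish ρ hρ g w hw hw1

theorem line_bass (hinj : Function.Injective ρ) : L1Bass G :=
  l1Bass_of_vanish fun g hg => line_vanish ρ hρ g fun h => hg (hinj (h.trans (map_one ρ).symm))

end Act

end Vale.Agent.P184.H444
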