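import Vale.Agent.P184.H444.GitW

/-!
# Triangular matrices form an amenable group
-/

noncomputable section

open Filter Topology

namespace Vale.Agent.P184.H444

theorem Fol.isAmenable_of_equiv {G G' : Type*} [Group G] [Group G'] (e : G ≃* G')
    (h : Fol.IsAmenable G) : Fol.IsAmenable G' := by
  classical
  rw [Fol.isAmenable_iff_bd] at h ⊢
  intro K ε hε
  obtain ⟨D, hD, hF⟩ := h (K.image e.symm) ε hε
  refine ⟨D.image e, hD.image _, fun g hg => ?_⟩
  have h1 := hF (e.symm g) (Finset.mem_image_of_mem _ hg)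
  have h2 : Fol.bd g (D.image e) = Fol.bd (e.symm g) D := by
    rw [Fol.bd_eq, Fol.bd_eq,
      ← Finset.card_image_of_injective (D.filter fun x => e.symm g * x ∉ D) e.injective]
    congr 1
    ext y
    simp only [Finset.mem_filter, Finset.mem_image]
    constructor
    · rintro ⟨⟨x, hx, rfl⟩, h3⟩
      refine ⟨x, ⟨hx, fun h4 => h3 ⟨_, h4, by simp⟩⟩, rfl⟩
    · rintro ⟨x, ⟨hx, h3⟩, rfl⟩
      refine ⟨⟨x, hx, rfl⟩, ?_⟩
      rintro ⟨z, hz, h4⟩
      apply h3
      have h5 : e.symm g * x = z := e.injective (by simp [h4])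
      rwa [h5]
  rw [h2, Finset.card_image_of_injective _ e.injective]
  exact h1

theorem amen_step {Γ : Type*} [Group Γ] {K E : Subgroup Γ} (hKE : K ≤ E)
    (hc : ∀ a ∈ E, ∀ b ∈ E, (a * b)⁻¹ * (b * a) ∈ K) (hK : Fol.IsAmenable K) :
    Fol.IsAmenable E := by
  have : (K.subgroupOf E).Normal := by
    refine ⟨fun n hn g => ?_⟩
    rw [Subgroup.mem_subgroupOf] at hn ⊢
    have h1 := hc _ (E.inv_mem g.2) _ n.2
    have h2 := K.mul_mem hn h1
    have h3 : (n : Γ) * (((g : Γ)⁻¹ * (n : Γ))⁻¹ * ((n : Γ) * (g : Γ)⁻¹)) =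
        (g : Γ) * n * (g : Γ)⁻¹ := by group
    rw [h3] at h2
    exact h2
  refine Fol.isAmenable_of_ext (K.subgroupOf E)
    (Fol.isAmenable_of_equiv (Subgroup.subgroupOfEquivOfLe hKE).symm hK)
    (Fol.isAmenable_of_comm _ ?_)
  intro a b
  induction a using QuotientGroup.induction_on with
  | H a =>
  induction b using QuotientGroup.induction_on with
  | H b =>
  change ((a * b : E) : E ⧸ K.subgroupOf E) = ((b * a : E) : E ⧸ K.subgroupOf E)
  rw [QuotientGroup.eq, Subgroup.mem_subgroupOf]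
  exact hc _ a.2 _ b.2

section Mat

variable (k : ℕ)

/-- triangular matrices -/
def Tri : Subgroup (Matrix (Fin k) (Fin k) ℝ)ˣ where
  carrier := {u | (∀ i j, j < i → u.val i j = 0) ∧ ∀ i j, j < i → u.inv i j = 0}
  mul_mem' := by
    rintro a b ⟨ha, ha'⟩ ⟨hb, hb'⟩
    refine ⟨fun i j hij => ?_, fun i j hij => ?_⟩
    · change (a.val * b.val) i j = 0
      rw [Matrix.mul_apply]
      refine Finset.sum_eq_zero fun l _ => ?_
      rcases lt_or_ge l i with h | h
      · rw [ha i l h, zero_mul]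
      · rw [hb l j (hij.trans_le h), mul_zero]
    · change (b.inv * a.inv) i j = 0
      rw [Matrix.mul_apply]
      refine Finset.sum_eq_zero fun l _ => ?_
      rcases lt_or_ge l i with h | h
      · rw [hb' i l h, zero_mul]
      · rw [ha' l j (hij.trans_le h), mul_zero]
  one_mem' := by
    refine ⟨fun i j hij => ?_, fun i j hij => ?_⟩
    · change (1 : Matrix (Fin k) (Fin k) ℝ) i j = 0
      exact Matrix.one_apply_ne hij.ne'
    · change (1 : Matrix (Fin k) (Fin k) ℝ) i j = 0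
      exact Matrix.one_apply_ne hij.ne'
  inv_mem' := by
    rintro a ⟨ha, ha'⟩
    exact ⟨ha', ha⟩

/-- the rows from `r` on are trivial -/
def Rw (r : ℕ) : Subgroup (Matrix (Fin k) (Fin k) ℝ)ˣ where
  carrier := {u | u ∈ Tri k ∧
    ∀ i j : Fin k, r ≤ (i : ℕ) → u.val i j = (1 : Matrix (Fin k) (Fin k) ℝ) i j}
  mul_mem' := by
    rintro a b ⟨ha, ha'⟩ ⟨hb, hb'⟩
    refine ⟨(Tri k).mul_mem ha hb, fun i j hi => ?_⟩
    change (a.val * b.val) i j = _
    rw [Matrix.mul_apply]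
    simp only [ha' i _ hi]
    rw [← Matrix.mul_apply, one_mul, hb' i j hi]
  one_mem' := ⟨(Tri k).one_mem, fun i j _ => rfl⟩
  inv_mem' := by
    rintro a ⟨ha, ha'⟩
    refine ⟨(Tri k).inv_mem ha, fun i j hi => ?_⟩
    change a.inv i j = _
    have h1 : (a.val * a.inv) i j = (1 : Matrix (Fin k) (Fin k) ℝ) i j := by rw [a.val_inv]
    rw [Matrix.mul_apply] at h1
    simp only [ha' i _ hi] at h1
    rw [← Matrix.mul_apply, one_mul] at h1
    exact h1

variable {k}

theorem row_ne {r : ℕ} {a b : (Matrix (Fin k) (Fin k) ℝ)ˣ} (ha : a ∈ Rw k (r + 1))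
    (hb : b ∈ Rw k (r + 1)) {i j : Fin k} (hi : (i : ℕ) = r) (hij : i < j) :
    (a * b).val i j = a.val i i * b.val i j + a.val i j := by
  change (a.val * b.val) i j = _
  rw [Matrix.mul_apply, Finset.sum_eq_add i j hij.ne]
  · congr 1
    rw [hb.2 j j (by have := hij; omega), Matrix.one_apply_eq, mul_one]
  · rintro l _ ⟨h1, h2⟩
    rcases lt_or_gt_of_ne h1 with h | h
    · rw [ha.1.1 i l h, zero_mul]
    · rw [hb.2 l j (by have := h; omega), Matrix.one_apply_ne h2, mul_zero]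
  · intro h
    exact absurd (Finset.mem_univ _) h
  · intro h
    exact absurd (Finset.mem_univ _) h

theorem row_eq {a b : (Matrix (Fin k) (Fin k) ℝ)ˣ} (ha : a ∈ Tri k)
    (hb : b ∈ Tri k) (i : Fin k) : (a * b).val i i = a.val i i * b.val i i := by
  change (a.val * b.val) i i = _
  rw [Matrix.mul_apply, Finset.sum_eq_single i]
  · intro l _ h1
    rcases lt_or_gt_of_ne h1 with h | h
    · rw [ha.1 i l h, zero_mul]
    · rw [hb.1 l i h, mul_zero]
  · intro h
    exact absurd (Finset.mem_univ _) h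

theorem diag_ne {a : (Matrix (Fin k) (Fin k) ℝ)ˣ} (ha : a ∈ Tri k) (i : Fin k) :
    a.val i i ≠ 0 := by
  intro h
  have h1 := row_eq ha ((Tri k).inv_mem ha) i
  rw [mul_inv_cancel, h, zero_mul] at h1
  exact one_ne_zero ((Matrix.one_apply_eq i).symm.trans h1)

/-- also the diagonal entry in row `i` -/
def Rs (i₀ : Fin k) : Subgroup (Matrix (Fin k) (Fin k) ℝ)ˣ where
  carrier := {u | u ∈ Rw k ((i₀ : ℕ) + 1) ∧ u.val i₀ i₀ = 1}
  mul_mem' := by
    rintro a b ⟨ha, ha'⟩ ⟨hb, hb'⟩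
    exact ⟨Subgroup.mul_mem _ ha hb, by rw [row_eq ha.1 hb.1, ha', hb', one_mul]⟩
  one_mem' := ⟨Subgroup.one_mem _, Matrix.one_apply_eq _⟩
  inv_mem' := by
    rintro a ⟨ha, ha'⟩
    refine ⟨Subgroup.inv_mem _ ha, ?_⟩
    have h1 := row_eq ha.1 ((Tri k).inv_mem ha.1) i₀
    rw [mul_inv_cancel, ha', one_mul] at h1
    exact h1.symm.trans (Matrix.one_apply_eq i₀)

theorem rw_amen (r : ℕ) (hr : r ≤ k) : Fol.IsAmenable (Rw k r) := by
  induction r with
  | zero =>
    refine Fol.isAmenable_of_comm _ fun a b => ?_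
    have h : ∀ c : Rw k 0, c = 1 := by
      rintro ⟨c, hc⟩
      refine Subtype.ext (Units.ext (Matrix.ext fun i j => ?_))
      exact hc.2 i j (Nat.zero_le _)
    rw [h a, h b]
  | succ r ih =>
    have ih' := ih (by omega)
    obtain ⟨i₀, rfl⟩ : ∃ i₀ : Fin k, (i₀ : ℕ) = r := ⟨⟨r, by omega⟩, rfl⟩
    have h1 : Rw k (i₀ : ℕ) ≤ Rs i₀ := by
      intro u hu
      refine ⟨⟨hu.1, fun i j hi => hu.2 i j (by omega)⟩, ?_⟩
      rw [hu.2 i₀ i₀ le_rfl, Matrix.one_apply_eq]
    have h2 : Rs i₀ ≤ Rw k ((i₀ : ℕ) + 1) := fun u hu => hu.1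
    have h3 : Fol.IsAmenable (Rs i₀) := by
      refine amen_step h1 (fun a ha b hb => ?_) ih'
      have hab := (Rs i₀).mul_mem ha hb
      have hba := (Rs i₀).mul_mem hb ha
      set c := (a * b)⁻¹ * (b * a) with hc
      have hcm : c ∈ Rs i₀ := (Rs i₀).mul_mem ((Rs i₀).inv_mem hab) hba
      have he : (a * b) * c = b * a := by rw [hc, mul_inv_cancel_left]
      refine ⟨hcm.1.1, fun i j hi => ?_⟩
      rcases Nat.eq_or_lt_of_le hi with h4 | h4
      · have hi0 : i = i₀ := Fin.ext h4.symm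
        rw [hi0]
        rcases lt_trichotomy i₀ j with h5 | h5 | h5
        · have h6 := row_ne (r := (i₀ : ℕ)) hab.1 hcm.1 rfl h5
          rw [he, row_ne (r := (i₀ : ℕ)) hb.1 ha.1 rfl h5,
            row_ne (r := (i₀ : ℕ)) ha.1 hb.1 rfl h5,
            ha.2, hb.2, hab.2] at h6
          rw [Matrix.one_apply_ne h5.ne]
          linarith
        · rw [← h5, hcm.2, Matrix.one_apply_eq]
        · rw [hcm.1.1.1 _ _ h5, Matrix.one_apply_ne h5.ne']
      · exact hcm.1.2 i j h4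
    refine amen_step h2 (fun a ha b hb => ?_) h3
    have hab := (Rw k ((i₀ : ℕ) + 1)).mul_mem ha hb
    have hba := (Rw k ((i₀ : ℕ) + 1)).mul_mem hb ha
    set c := (a * b)⁻¹ * (b * a) with hc
    have hcm : c ∈ Rw k ((i₀ : ℕ) + 1) := Subgroup.mul_mem _ (Subgroup.inv_mem _ hab) hba
    have he : (a * b) * c = b * a := by rw [hc, mul_inv_cancel_left]
    refine ⟨hcm, ?_⟩
    have h6 := row_eq hab.1 hcm.1 i₀
    rw [he, row_eq hb.1 ha.1, row_eq ha.1 hb.1] at h6
    have h7 := diag_ne hab.1 i₀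
    rw [row_eq ha.1 hb.1] at h7
    refine mul_left_cancel₀ h7 ?_
    rw [← h6, mul_one, mul_comm]

theorem tri_amen : Amen (Tri k) := by
  refine Fol.amen_of_folner ?_
  have h1 : Rw k k = Tri k := by
    ext u
    exact ⟨fun h => h.1, fun h => ⟨h, fun i j hi => absurd i.2 (not_lt.2 hi)⟩⟩
  rw [← h1]
  exact rw_amen k le_rfl

end Mat

end Vale.Agent.P184.H444
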