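import Vale.Agent.P184.H444.GitX

/-!
# Jets
-/

noncomputable section

open Filter Topology Asymptotics

namespace Vale.Agent.P184.H444

theorem pow_isBigO {l : Filter ℝ} (hl : l ≤ 𝓝 0) {a b : ℕ} (h : b ≤ a) :
    (fun t : ℝ => t ^ a) =O[l] fun t => t ^ b := by
  have h1 : (fun t : ℝ => t ^ (a - b)) =O[l] fun _ => (1 : ℝ) := by
    have h2 : Tendsto (fun t : ℝ => t ^ (a - b)) (𝓝 0) (𝓝 ((0 : ℝ) ^ (a - b))) :=
      (continuous_pow _).tendsto 0
    exact (h2.mono_left hl).isBigO_one ℝ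
  have h3 := (isBigO_refl (fun t : ℝ => t ^ b) l).mul h1
  refine (h3.congr' ?_ ?_)
  · refine Eventually.of_forall fun t => ?_
    change t ^ b * t ^ (a - b) = t ^ a
    rw [← pow_add, Nat.add_sub_cancel' h]
  · exact Eventually.of_forall fun t => mul_one _

theorem const_zero {l : Filter ℝ} [l.NeBot] (hl : l ≤ 𝓝[≠] 0) {c : ℝ} {n : ℕ}
    (h : (fun t : ℝ => c * t ^ n) =O[l] fun t => t ^ (n + 1)) : c = 0 := by
  obtain ⟨C, hC⟩ := h.bound
  have h0 : ∀ᶠ t in l, t ≠ 0 := hl self_mem_nhdsWithin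
  have h1 : ∀ᶠ t in l, |c| ≤ C * |t| := by
    filter_upwards [hC, h0] with t h2 h3
    rw [norm_mul, norm_pow, norm_pow, Real.norm_eq_abs, Real.norm_eq_abs, pow_succ] at h2
    have h4 : 0 < |t| ^ n := pow_pos (abs_pos.2 h3) n
    refine le_of_mul_le_mul_right ?_ h4
    calc |c| * |t| ^ n ≤ C * (|t| ^ n * |t|) := h2
      _ = C * |t| * |t| ^ n := by ring
  have h2 : Tendsto (fun t : ℝ => C * |t|) l (𝓝 0) := by
    have h3 : Tendsto (fun t : ℝ => C * |t|) (𝓝 0) (𝓝 (C * |0|)) := by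
      apply Continuous.tendsto
      fun_prop
    rw [abs_zero, mul_zero] at h3
    exact h3.mono_left (hl.trans nhdsWithin_le_nhds)
  have h3 : |c| ≤ 0 := ge_of_tendsto h2 h1
  exact abs_nonpos_iff.1 h3

theorem coeff_zero {l : Filter ℝ} [l.NeBot] (hl : l ≤ 𝓝[≠] 0) {k : ℕ} {c : Fin k → ℝ} {m : ℕ}
    (h : (fun t : ℝ => ∑ j, c j * t ^ ((j : ℕ) + 1)) =O[l] fun t => t ^ (m + 1)) :
    ∀ n : ℕ, n < m → ∀ j : Fin k, (j : ℕ) = n → c j = 0 := by
  have hl' : l ≤ 𝓝 0 := hl.trans nhdsWithin_le_nhds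
  intro n
  induction n using Nat.strong_induction_on with
  | _ n ih =>
  intro hn j hj
  refine const_zero (n := n + 1) hl ?_
  have h1 : (fun t : ℝ => ∑ i ∈ Finset.univ.erase j, c i * t ^ ((i : ℕ) + 1)) =O[l]
      fun t => t ^ (n + 1 + 1) := by
    refine IsBigO.fun_sum fun i hi => ?_
    have hij : i ≠ j := (Finset.mem_erase.1 hi).1
    have hij' : (i : ℕ) ≠ n := fun h2 => hij (Fin.ext (h2.trans hj.symm))
    rcases lt_or_gt_of_ne hij' with h2 | h2
    · rw [ih i h2 (h2.trans hn) i rfl]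
      simp only [zero_mul]
      exact isBigO_zero _ _
    · exact (pow_isBigO hl' (by omega)).const_mul_left _
  have h2 := (h.trans (pow_isBigO hl' (show n + 1 + 1 ≤ m + 1 by omega))).sub h1
  refine h2.congr_left fun t => ?_
  rw [← Finset.add_sum_erase Finset.univ _ (Finset.mem_univ j), add_sub_cancel_right, hj]

variable {k : ℕ}

/-- `M` is the matrix of the jet of `f` at `x` along the filter `l` at zero -/
def Jt (l : Filter ℝ) (f : ℝ → ℝ) (x : ℝ) (M : Matrix (Fin k) (Fin k) ℝ) : Prop :=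
  ((fun t => f (x + t) - f x) =O[l] fun t => t) ∧
  ∀ i : Fin k, (fun t => (f (x + t) - f x) ^ ((i : ℕ) + 1) - ∑ j, M i j * t ^ ((j : ℕ) + 1)) =O[l]
    fun t => t ^ (k + 1)

theorem Jt.mono {l l' : Filter ℝ} (h : l ≤ l') {f : ℝ → ℝ} {x : ℝ}
    {M : Matrix (Fin k) (Fin k) ℝ} (hM : Jt l' f x M) : Jt l f x M :=
  ⟨hM.1.mono h, fun i => (hM.2 i).mono h⟩

theorem Jt.unique {l : Filter ℝ} [l.NeBot] (hl : l ≤ 𝓝[≠] 0) {f : ℝ → ℝ} {x : ℝ}
    {M N : Matrix (Fin k) (Fin k) ℝ} (hM : Jt l f x M) (hN : Jt l f x N) : M = N := by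
  ext i j
  have h1 := (hN.2 i).sub (hM.2 i)
  have h2 : (fun t : ℝ => ∑ j, (M i j - N i j) * t ^ ((j : ℕ) + 1)) =O[l]
      fun t => t ^ (k + 1) := by
    refine h1.congr_left fun t => ?_
    simp only [sub_mul, Finset.sum_sub_distrib]
    ring
  exact sub_eq_zero.1 (coeff_zero hl h2 j j.2 j rfl)

theorem Jt.comp {l : Filter ℝ} {f g : ℝ → ℝ} {x : ℝ} {M N : Matrix (Fin k) (Fin k) ℝ}
    (hf : Jt l f (g x) M) (hg : Jt l g x N)
    (ht : Tendsto (fun t => g (x + t) - g x) l l) : Jt l (fun y => f (g y)) x (M * N) := by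
  have hgx : ∀ t, g x + (g (x + t) - g x) = g (x + t) := fun t => by ring
  refine ⟨?_, fun i => ?_⟩
  · have h1 := (hf.1.comp_tendsto ht).trans hg.1
    refine h1.congr_left fun t => ?_
    change f (g x + (g (x + t) - g x)) - f (g x) = _
    rw [hgx]
  · have h1 : (fun t => (f (g (x + t)) - f (g x)) ^ ((i : ℕ) + 1) -
        ∑ j, M i j * (g (x + t) - g x) ^ ((j : ℕ) + 1)) =O[l] fun t => t ^ (k + 1) := by
      have h2 := ((hf.2 i).comp_tendsto ht).trans (hg.1.pow (k + 1))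
      refine h2.congr_left fun t => ?_
      change (f (g x + (g (x + t) - g x)) - f (g x)) ^ ((i : ℕ) + 1) - _ = _
      rw [hgx]
    have h3 : (fun t => ∑ j, M i j * ((g (x + t) - g x) ^ ((j : ℕ) + 1) -
        ∑ n, N j n * t ^ ((n : ℕ) + 1))) =O[l] fun t => t ^ (k + 1) :=
      IsBigO.fun_sum fun j _ => (hg.2 j).const_mul_left _
    refine (h1.add h3).congr_left fun t => ?_
    have h4 : ∑ n, (M * N) i n * t ^ ((n : ℕ) + 1) =
        ∑ j, M i j * ∑ n, N j n * t ^ ((n : ℕ) + 1) := by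
      simp only [Matrix.mul_apply, Finset.sum_mul, Finset.mul_sum]
      rw [Finset.sum_comm]
      refine Finset.sum_congr rfl fun j _ => Finset.sum_congr rfl fun n _ => ?_
      ring
    rw [h4]
    simp only [mul_sub, Finset.sum_sub_distrib]
    ring

theorem Jt.tri {l : Filter ℝ} [l.NeBot] (hl : l ≤ 𝓝[≠] 0) {f : ℝ → ℝ} {x : ℝ}
    {M : Matrix (Fin k) (Fin k) ℝ} (hM : Jt l f x M) (i j : Fin k) (hij : j < i) : M i j = 0 := by
  have hl' : l ≤ 𝓝 0 := hl.trans nhdsWithin_le_nhds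
  have h1 := (hM.1.pow ((i : ℕ) + 1)).sub
    ((hM.2 i).trans (pow_isBigO hl' (show (i : ℕ) + 1 ≤ k + 1 by have := i.2; omega)))
  have h2 : (fun t : ℝ => ∑ j, M i j * t ^ ((j : ℕ) + 1)) =O[l] fun t => t ^ ((i : ℕ) + 1) := by
    refine h1.congr_left fun t => ?_
    ring
  exact coeff_zero hl h2 j hij j rfl

theorem jt_id {l : Filter ℝ} {x : ℝ} {f : ℝ → ℝ} (hf : ∀ᶠ t in l, f (x + t) = x + t)
    (hx : f x = x) : Jt l f x (1 : Matrix (Fin k) (Fin k) ℝ) := by
  refine ⟨?_, fun i => ?_⟩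
  · refine (isBigO_refl (fun t : ℝ => t) l).congr' ?_ (EventuallyEq.refl _ _)
    filter_upwards [hf] with t ht
    rw [ht, hx]
    ring
  · refine (isBigO_zero (fun t : ℝ => t ^ (k + 1)) l).congr' ?_ (EventuallyEq.refl _ _)
    filter_upwards [hf] with t ht
    rw [ht, hx]
    simp only [Matrix.one_apply, ite_mul, one_mul, zero_mul, Finset.sum_ite_eq,
      Finset.mem_univ, if_true]
    ring

theorem jt_exists {l : Filter ℝ} (hl : l ≤ 𝓝 0) {f φ : ℝ → ℝ} {x : ℝ}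
    (hφ : AnalyticAt ℝ φ x) (hf : ∀ᶠ t in l, f (x + t) = φ (x + t)) (hx : f x = φ x) :
    ∃ M : Matrix (Fin k) (Fin k) ℝ, Jt l f x M := by
  have hΦ : AnalyticAt ℝ (fun t => φ (x + t) - φ x) 0 := by
    refine AnalyticAt.sub ?_ analyticAt_const
    refine AnalyticAt.fun_comp ?_ (analyticAt_const.add analyticAt_id)
    simpa using hφ
  have hΦ0 : (fun t => φ (x + t) - φ x) 0 = 0 := by
    change φ (x + 0) - φ x = 0
    rw [add_zero, sub_self]
  have h1 : ∀ i : Fin k, ∃ c : Fin k → ℝ,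
      (fun t => (φ (x + t) - φ x) ^ ((i : ℕ) + 1) - ∑ j, c j * t ^ ((j : ℕ) + 1)) =O[𝓝 0]
        fun t => t ^ (k + 1) := by
    intro i
    obtain ⟨p, hp⟩ := hΦ.pow ((i : ℕ) + 1)
    have h2 := hp.isBigO_sub_partialSum_pow (k + 1)
    have hp0 : p.coeff 0 = 0 := by
      have h3 := hp.coeff_zero (fun _ => 0)
      have h4 : p.coeff 0 = p 0 (fun _ => 0) := by
        rw [FormalMultilinearSeries.apply_eq_pow_smul_coeff, pow_zero, one_smul]
      rw [h4, h3]
      change (φ (x + 0) - φ x) ^ ((i : ℕ) + 1) = 0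
      rw [add_zero, sub_self]
      exact zero_pow (Nat.succ_ne_zero _)
    refine ⟨fun j => p.coeff ((j : ℕ) + 1), ?_⟩
    have h3 : (fun t : ℝ => t ^ (k + 1)) =O[𝓝 0] fun t => t ^ (k + 1) := isBigO_refl _ _
    refine (h2.trans (h3.norm_left.congr_left fun t => norm_pow t (k + 1))).congr_left fun t => ?_
    unfold FormalMultilinearSeries.partialSum
    rw [Finset.sum_range_succ']
    rw [FormalMultilinearSeries.apply_eq_pow_smul_coeff, hp0, smul_zero, add_zero, zero_add,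
      Finset.sum_range]
    refine congrArg₂ (· - ·) rfl (Finset.sum_congr rfl fun j _ => ?_)
    rw [FormalMultilinearSeries.apply_eq_pow_smul_coeff, smul_eq_mul, mul_comm]
  choose c hc using h1
  refine ⟨fun i j => c i j, ?_, fun i => ?_⟩
  · have h2 : (fun t => φ (x + t) - φ x) =O[𝓝 0] fun t => t := by
      have h3 := hΦ.differentiableAt.isBigO_sub
      refine h3.congr (fun t => ?_) fun t => sub_zero t
      rw [add_zero, sub_self, sub_zero]
    refine (h2.mono hl).congr' ?_ (EventuallyEq.refl _ _)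
    filter_upwards [hf] with t ht
    rw [ht, hx]
  · refine ((hc i).mono hl).congr' ?_ (EventuallyEq.refl _ _)
    filter_upwards [hf] with t ht
    rw [ht, hx]

end Vale.Agent.P184.H444
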