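import Vale.Agent.P184.H444.GitY

/-!
# Groups of piecewise analytic homeomorphisms of the line
-/

noncomputable section

open Filter Topology Asymptotics

namespace Vale.Agent.P184.H444

theorem tend_r (x : ℝ) : Tendsto (fun t => x + t) (𝓝[>] 0) (𝓝[>] x) := by
  refine tendsto_nhdsWithin_iff.2 ⟨?_, ?_⟩
  · have h : Tendsto (fun t => x + t) (𝓝 0) (𝓝 (x + 0)) := by
      apply Continuous.tendsto
      fun_prop
    rw [add_zero] at h
    exact h.mono_left nhdsWithin_le_nhds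
  · filter_upwards [self_mem_nhdsWithin] with t ht
    exact lt_add_of_pos_right x ht

theorem tend_l (x : ℝ) : Tendsto (fun t => x + t) (𝓝[<] 0) (𝓝[<] x) := by
  refine tendsto_nhdsWithin_iff.2 ⟨?_, ?_⟩
  · have h : Tendsto (fun t => x + t) (𝓝 0) (𝓝 (x + 0)) := by
      apply Continuous.tendsto
      fun_prop
    rw [add_zero] at h
    exact h.mono_left nhdsWithin_le_nhds
  · filter_upwards [self_mem_nhdsWithin] with t ht
    exact add_lt_of_neg_right x ht

theorem tend_0 {l : Filter ℝ} (hl : l ≤ 𝓝 0) (x : ℝ) : Tendsto (fun t => x + t) l (𝓝 x) := by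
  have h : Tendsto (fun t => x + t) (𝓝 0) (𝓝 (x + 0)) := by
    apply Continuous.tendsto
    fun_prop
  rw [add_zero] at h
  exact h.mono_left hl

theorem val_eq {l : Filter ℝ} [l.NeBot] (hl : l ≤ 𝓝 0) {f : ℝ ≃o ℝ} {φ : ℝ → ℝ} {x : ℝ}
    (hφ : AnalyticAt ℝ φ x) (hf : ∀ᶠ t in l, f (x + t) = φ (x + t)) : f x = φ x := by
  have h1 : Tendsto (fun t => f (x + t)) l (𝓝 (f x)) :=
    (f.continuous.tendsto x).comp (tend_0 hl x)
  have h2 : Tendsto (fun t => φ (x + t)) l (𝓝 (φ x)) :=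
    (hφ.continuousAt.tendsto).comp (tend_0 hl x)
  exact tendsto_nhds_unique (h1.congr' hf) h2

/-- the germs along `l` are analytic -/
def Ex (l : Filter ℝ) (f : ℝ → ℝ) : Prop :=
  ∀ x, ∃ φ : ℝ → ℝ, AnalyticAt ℝ φ x ∧ ∀ᶠ t in l, f (x + t) = φ (x + t)

theorem PAn.ex_r {f : ℝ → ℝ} (hf : PAn f) : Ex (𝓝[>] 0) f := fun x =>
  let ⟨φ, h1, h2⟩ := (hf.2 x).1
  ⟨φ, h1, (tend_r x).eventually h2⟩

theorem PAn.ex_l {f : ℝ → ℝ} (hf : PAn f) : Ex (𝓝[<] 0) f := fun x =>
  let ⟨φ, h1, h2⟩ := (hf.2 x).2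
  ⟨φ, h1, (tend_l x).eventually h2⟩

theorem Ex.jt {l : Filter ℝ} [l.NeBot] (hl : l ≤ 𝓝 0) {f : ℝ ≃o ℝ} (hf : Ex l f) (k : ℕ)
    (x : ℝ) : ∃ M : Matrix (Fin k) (Fin k) ℝ, Jt l f x M := by
  obtain ⟨φ, h1, h2⟩ := hf x
  exact jt_exists hl h1 h2 (val_eq hl h1 h2)

/-- nontrivial germs have nontrivial jets -/
theorem jet_ne {l : Filter ℝ} [l.NeBot] (hl : l ≤ 𝓝[≠] 0) {f : ℝ ≃o ℝ} (hf : Ex l f) {x : ℝ}
    (hx : f x = x) (hne : ¬ ∀ᶠ t in l, f (x + t) = x + t) :
    ∃ k : ℕ, 0 < k ∧ ¬ Jt l f x (1 : Matrix (Fin k) (Fin k) ℝ) := by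
  have hl' : l ≤ 𝓝 0 := hl.trans nhdsWithin_le_nhds
  obtain ⟨φ, h1, h2⟩ := hf x
  have hψ : AnalyticAt ℝ (fun t => φ (x + t) - (x + t)) 0 := by
    refine AnalyticAt.sub ?_ (analyticAt_const.add analyticAt_id)
    refine AnalyticAt.fun_comp ?_ (analyticAt_const.add analyticAt_id)
    simpa using h1
  have hn : ¬ ∀ᶠ t in 𝓝 (0 : ℝ), φ (x + t) - (x + t) = 0 := by
    intro h3
    apply hne
    filter_upwards [h2, hl' h3] with t h4 h5
    rw [h4]
    exact sub_eq_zero.1 h5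
  obtain ⟨n, h, hh, hh0, h3⟩ := hψ.exists_eventuallyEq_pow_smul_nonzero_iff.2 hn
  refine ⟨n + 1, Nat.succ_pos n, fun hJ => hh0 ?_⟩
  have h4 := hJ.2 ⟨0, Nat.succ_pos n⟩
  simp only [Matrix.one_apply, ite_mul, one_mul, zero_mul, Finset.sum_ite_eq,
    Finset.mem_univ, if_true, zero_add, pow_one] at h4
  obtain ⟨C, hC⟩ := h4.bound
  have h0 : ∀ᶠ t in l, t ≠ 0 := hl self_mem_nhdsWithin
  have h5 : ∀ᶠ t in l, |h t| ≤ C * |t| ^ 2 := by
    filter_upwards [hC, h0, h2, hl' h3] with t h6 h7 h8 h9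
    rw [h8, hx, sub_sub, h9, sub_zero, smul_eq_mul, norm_mul, norm_pow, norm_pow,
      Real.norm_eq_abs, Real.norm_eq_abs, show n + 1 + 1 = n + 2 from rfl, pow_add] at h6
    have h10 : 0 < |t| ^ n := pow_pos (abs_pos.2 h7) n
    refine le_of_mul_le_mul_left ?_ h10
    calc |t| ^ n * |h t| ≤ C * (|t| ^ n * |t| ^ 2) := h6
      _ = |t| ^ n * (C * |t| ^ 2) := by ring
  have h6 : Tendsto (fun t : ℝ => C * |t| ^ 2) l (𝓝 0) := by
    have h7 : Tendsto (fun t : ℝ => C * |t| ^ 2) (𝓝 0) (𝓝 (C * |0| ^ 2)) := by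
      apply Continuous.tendsto
      fun_prop
    rw [abs_zero, zero_pow two_ne_zero, mul_zero] at h7
    exact h7.mono_left hl'
  have h7 : Tendsto (fun t => |h t|) l (𝓝 |h 0|) := (hh.continuousAt.tendsto.mono_left hl').abs
  have h8 : |h 0| ≤ 0 := le_of_tendsto_of_tendsto h7 h6 h5
  exact abs_nonpos_iff.1 h8

/-- the identity to order `k` -/
theorem jt_one {l : Filter ℝ} (hl : l ≤ 𝓝 0) {f : ℝ → ℝ} {x : ℝ} {k : ℕ}
    (h : (fun t => f (x + t) - f x - t) =O[l] fun t => t ^ (k + 1)) :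
    Jt l f x (1 : Matrix (Fin k) (Fin k) ℝ) := by
  have ht1 : (fun t : ℝ => t) =O[l] fun _ => (1 : ℝ) := by
    have h2 : Tendsto (fun t : ℝ => t) (𝓝 0) (𝓝 (0 : ℝ)) := tendsto_id
    exact (h2.mono_left hl).isBigO_one ℝ
  have hF : (fun t => f (x + t) - f x) =O[l] fun t => t := by
    have h1 : (fun t : ℝ => t ^ (k + 1)) =O[l] fun t => t := by
      refine (pow_isBigO hl (show 1 ≤ k + 1 by omega)).congr_right fun t => pow_one t
    refine ((h.trans h1).add (isBigO_refl (fun t : ℝ => t) l)).congr_left fun t => ?_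
    ring
  refine ⟨hF, fun i => ?_⟩
  have h1 : ∀ m : ℕ, (fun t => (f (x + t) - f x) ^ m - t ^ m) =O[l] fun t => t ^ (k + 1) := by
    intro m
    induction m with
    | zero =>
      refine (isBigO_zero (fun t : ℝ => t ^ (k + 1)) l).congr_left fun t => ?_
      rw [pow_zero, pow_zero, sub_self]
    | succ m ih =>
      have h2 : (fun t => (f (x + t) - f x) ^ m) =O[l] fun _ => (1 : ℝ) :=
        ((hF.trans ht1).pow m).congr_right fun t => one_pow m
      have h3 := h2.mul h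
      have h4 := ht1.mul ih
      refine (h3.add (h4.congr_right fun t => rfl)).congr (fun t => ?_) fun t => ?_
      · ring
      · ring
  refine (h1 ((i : ℕ) + 1)).congr_left fun t => ?_
  simp only [Matrix.one_apply, ite_mul, one_mul, zero_mul, Finset.sum_ite_eq,
    Finset.mem_univ, if_true]

theorem iter_le (f : ℝ ≃o ℝ) (y : ℝ) (n : ℕ) (hn : 0 < n) : |f y - y| ≤ |(f ^ n) y - y| := by
  obtain ⟨m, rfl⟩ : ∃ m, n = m + 1 := ⟨n - 1, by omega⟩
  rcases le_total y (f y) with h | h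
  · have h1 : ∀ m : ℕ, f y ≤ (f ^ (m + 1)) y := by
      intro m
      induction m with
      | zero => rw [zero_add, pow_one]
      | succ m ih =>
        rw [pow_succ']
        change f y ≤ f ((f ^ (m + 1)) y)
        exact f.le_iff_le.2 (h.trans ih)
    rw [abs_of_nonneg (sub_nonneg.2 h), abs_of_nonneg (sub_nonneg.2 (h.trans (h1 m)))]
    linarith [h1 m]
  · have h1 : ∀ m : ℕ, (f ^ (m + 1)) y ≤ f y := by
      intro m
      induction m with
      | zero => rw [zero_add, pow_one]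
      | succ m ih =>
        rw [pow_succ']
        change f ((f ^ (m + 1)) y) ≤ f y
        exact f.le_iff_le.2 (ih.trans h)
    rw [abs_of_nonpos (sub_nonpos.2 h), abs_of_nonpos (sub_nonpos.2 ((h1 m).trans h))]
    linarith [h1 m]

section Act

variable {G : Type*} [Group G] (ρ : G →* (ℝ ≃o ℝ))

/-- a cocycle of jets -/
def jcoc (k : ℕ) (l : Filter ℝ) [l.NeBot] (hl : l ≤ 𝓝[≠] 0)
    (J : G → ℝ → Matrix (Fin k) (Fin k) ℝ) (hJ : ∀ g x, Jt l (ρ g) x (J g x))
    (ht : ∀ g x, Tendsto (fun t => ρ g (x + t) - ρ g x) l l) :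
    @LCoc G ℝ (Tri k) _ (lact ρ) _ :=
  letI := lact ρ
  have hmul : ∀ g h x, J (g * h) x = J g (ρ h x) * J h x := fun g h x => by
    have h3 := Jt.comp (hJ g (ρ h x)) (hJ h x) (ht h x)
    have h5 : (fun y => ρ g (ρ h y)) = ρ (g * h) := by
      funext y
      rw [rho_mul]
    rw [h5] at h3
    exact Jt.unique hl (hJ (g * h) x) h3
  have hone : ∀ x, J 1 x = 1 := fun x =>
    Jt.unique hl (hJ 1 x) (jt_id (Eventually.of_forall fun t => rho_one ρ _) (rho_one ρ x))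
  { fn := fun g x => ⟨⟨J g x, J g⁻¹ (ρ g x), by
        have h1 := hmul g g⁻¹ (ρ g x)
        rw [mul_inv_cancel, hone, ← rho_mul, inv_mul_cancel, rho_one] at h1
        exact h1.symm, by
        rw [← hmul, inv_mul_cancel, hone]⟩,
      fun i j hij => (hJ g x).tri hl i j hij, fun i j hij => (hJ g⁻¹ _).tri hl i j hij⟩
    mul' := fun g h x => by
      refine Subtype.ext (Units.ext ?_)
      exact hmul g h x }

theorem jcoc_val (k : ℕ) (l : Filter ℝ) [l.NeBot] (hl : l ≤ 𝓝[≠] 0)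
    (J : G → ℝ → Matrix (Fin k) (Fin k) ℝ) (hJ : ∀ g x, Jt l (ρ g) x (J g x))
    (ht : ∀ g x, Tendsto (fun t => ρ g (x + t) - ρ g x) l l) (g : G) (x : ℝ) :
    (@LCoc.fn G ℝ (Tri k) _ (lact ρ) _ (jcoc ρ k l hl J hJ ht) g x).1.val = J g x := rfl

variable (hρ : ∀ g, PAn (ρ g))

include hρ

/-- fixed points with different germs -/
theorem an_vanish (g : G) (x : ℝ) (hx : ρ g x = x) (hr : ∀ᶠ t in 𝓝[>] (0 : ℝ), ρ g (x + t) = x + t)
    (hl : ¬ ∀ᶠ t in 𝓝[<] (0 : ℝ), ρ g (x + t) = x + t) : VanishesAt g := by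
  let _ := lact ρ
  have hlr : (𝓝[>] (0 : ℝ)) ≤ 𝓝[≠] 0 := nhdsWithin_mono _ fun t ht => ne_of_gt ht
  have hll : (𝓝[<] (0 : ℝ)) ≤ 𝓝[≠] 0 := nhdsWithin_mono _ fun t ht => ne_of_lt ht
  obtain ⟨k, hk, hk1⟩ := jet_ne hll (hρ g).ex_l hx hl
  choose J hJ using fun g x => Ex.jt (hlr.trans nhdsWithin_le_nhds) (hρ g).ex_r k x
  choose J' hJ' using fun g x => Ex.jt (hll.trans nhdsWithin_le_nhds) (hρ g).ex_l k x
  let α := jcoc ρ k (𝓝[>] 0) hlr J hJ (fun g x => oi_tendsto_r (ρ g) x)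
  let β := jcoc ρ k (𝓝[<] 0) hll J' hJ' (fun g x => oi_tendsto_l (ρ g) x)
  have hfin : ∀ h, {x | β.fn h x ≠ α.fn h x}.Finite := by
    intro h
    obtain ⟨S, hS⟩ := (hρ h).1
    refine S.finite_toSet.subset fun y hy => ?_
    by_contra h1
    obtain ⟨M, hM⟩ := jt_exists (k := k) (l := 𝓝[≠] 0) nhdsWithin_le_nhds (hS y h1)
      (Eventually.of_forall fun t => rfl) rfl
    refine hy (Subtype.ext (Units.ext ?_))
    change J' h y = J h y
    exact (Jt.unique hll (hJ' h y) (hM.mono hll)).trans (Jt.unique hlr (hM.mono hlr) (hJ h y))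
  have h1 : α.fn g x = 1 := by
    refine Subtype.ext (Units.ext ?_)
    change J g x = 1
    exact Jt.unique hlr (hJ g x) (jt_id hr hx)
  have h2 : β.fn g x ≠ 1 := by
    intro h3
    have h4 : J' g x = 1 := congrArg (fun u : Tri k => u.1.val) h3
    apply hk1
    rw [← h4]
    exact hJ' g x
  refine vanish_pt β α hfin x g hx (fun h3 => h2 ?_) (md_of_amen tri_amen _ fun h3 => h2 ?_)
  · rw [h1] at h3
    exact eq_one_of_conj h3
  · obtain ⟨n, hn, h4⟩ := isOfFinOrder_iff_pow_eq_one.1 h3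
    have h5 : β.fn (g ^ n) x = 1 := (LCoc.pow β hx n).trans h4
    have h6 : J' (g ^ n) x = 1 := congrArg (fun u : Tri k => u.1.val) h5
    have h7 := (hJ' (g ^ n) x).2 ⟨0, hk⟩
    rw [h6] at h7
    simp only [Matrix.one_apply, ite_mul, one_mul, zero_mul, Finset.sum_ite_eq,
      Finset.mem_univ, if_true, zero_add, pow_one] at h7
    have hxn : ρ (g ^ n) x = x := by
      clear h4 h5 h6 h7 hn
      induction n with
      | zero => rw [pow_zero, rho_one]
      | succ n ih => rw [pow_succ, rho_mul, hx, ih]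
    have h8 : (fun t => ρ g (x + t) - ρ g x - t) =O[𝓝[<] 0] fun t => t ^ (k + 1) := by
      refine (IsBigO.of_bound 1 (Eventually.of_forall fun t => ?_)).trans h7
      rw [one_mul, Real.norm_eq_abs, Real.norm_eq_abs, hx, hxn, sub_sub, sub_sub]
      have h9 := iter_le (ρ g) (x + t) n hn
      rw [← map_pow] at h9
      exact h9
    have h9 : β.fn g x = 1 := by
      refine Subtype.ext (Units.ext ?_)
      change J' g x = 1
      exact Jt.unique hll (hJ' g x) (jt_one (hll.trans nhdsWithin_le_nhds) h8)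
    exact h9

/-- elements which are trivial near infinity -/
theorem an_trivial (g : G) (hg : ρ g ≠ 1) (htop : ∀ᶠ t in atTop, ρ g t = t) : VanishesAt g := by
  obtain ⟨M, hM⟩ := eventually_atTop.1 htop
  set A : Set ℝ := {x | ∀ t, x ≤ t → ρ g t = t} with hA
  have hMA : M ∈ A := fun t ht => hM t ht
  obtain ⟨y, hy⟩ : ∃ y, ρ g y ≠ y := by
    by_contra h
    push Not at h
    exact hg (RelIso.ext h)
  have hbdd : BddBelow A := ⟨y, fun x hx => by
    by_contra h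
    exact hy (hx y (not_le.1 h).le)⟩
  set x := sInf A with hx
  have h1 : ∀ t, x < t → ρ g t = t := by
    intro t ht
    obtain ⟨z, hz, hzt⟩ := exists_lt_of_csInf_lt ⟨M, hMA⟩ ht
    exact hz t hzt.le
  have h2 : ρ g x = x := by
    have h3 : Tendsto (ρ g) (𝓝[>] x) (𝓝 (ρ g x)) :=
      ((ρ g).continuous.tendsto x).mono_left nhdsWithin_le_nhds
    have h4 : Tendsto (fun t : ℝ => t) (𝓝[>] x) (𝓝 x) := nhdsWithin_le_nhds
    refine tendsto_nhds_unique h3 (h4.congr' ?_)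
    filter_upwards [self_mem_nhdsWithin] with t ht
    exact (h1 t ht).symm
  refine an_vanish ρ hρ g x h2 ?_ fun h4 => ?_
  · filter_upwards [self_mem_nhdsWithin] with t ht
    exact h1 (x + t) (lt_add_of_pos_right x ht)
  · obtain ⟨l, hl, h6⟩ := mem_nhdsLT_iff_exists_Ioo_subset.1 h4
    have hl' : l < 0 := hl
    have h7 : x + l / 2 ∈ A := by
      intro t ht
      rcases lt_trichotomy t x with h8 | h8 | h8
      · have h9 : ρ g (x + (t - x)) = x + (t - x) :=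
          h6 (show t - x ∈ Set.Ioo l 0 from ⟨by linarith, by linarith⟩)
        rw [add_sub_cancel] at h9
        exact h9
      · rw [h8, h2]
      · exact h1 t h8
    have h8 : x ≤ x + l / 2 := csInf_le hbdd h7
    linarith

omit hρ in
/-- the germ at infinity -/
theorem aff_vanish (htop : ∀ g, ∃ a b : ℝ, ∀ᶠ t in atTop, ρ g t = a * t + b) (g : G)
    (hg : ¬ ∀ᶠ t in atTop, ρ g t = t) : VanishesAt g := by
  have h0 : ∀ g, ∃ w : Af, ∀ᶠ t in atTop, ρ g t = w.d * t + w.c := by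
    intro g
    obtain ⟨a, b, h⟩ := htop g
    obtain ⟨N, hN⟩ := eventually_atTop.1 h
    have hpos : 0 < a := by
      have h6 := hN N le_rfl
      have h7 := hN (N + 1) (by linarith)
      have h8 : ρ g N < ρ g (N + 1) := (ρ g).lt_iff_lt.2 (by linarith)
      rw [h6, h7] at h8
      linarith
    exact ⟨⟨a, b, hpos⟩, h⟩
  choose θ hθ using h0
  let φ : G →* Af := MonoidHom.mk' θ fun g h => by
    refine aff_unique ?_
    have h1 : Tendsto (ρ h) atTop atTop := (ρ h).tendsto_atTop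
    filter_upwards [hθ (g * h), hθ h, h1.eventually (hθ g)] with t h2 h3 h4
    rw [← h2, rho_mul, h4, h3, Af.mul_d, Af.mul_c]
    ring
  refine (Md.hom φ (x := g) (Af.md fun h => hg ?_)).vanish
  have h1 : θ g = 1 := h
  filter_upwards [hθ g] with t h2
  rw [h2, h1, Af.one_d, Af.one_c]
  ring

/-- **Groups of piecewise analytic homeomorphisms of the line.** -/
theorem an_all (htop : ∀ g, ∃ a b : ℝ, ∀ᶠ t in atTop, ρ g t = a * t + b) (g : G)
    (hg : ρ g ≠ 1) : VanishesAt g := by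
  by_cases h : ∀ᶠ t in atTop, ρ g t = t
  · exact an_trivial ρ hρ g hg h
  · exact aff_vanish ρ htop g h

theorem an_bass (htop : ∀ g, ∃ a b : ℝ, ∀ᶠ t in atTop, ρ g t = a * t + b)
    (hinj : Function.Injective ρ) : L1Bass G :=
  l1Bass_of_vanish fun g hg => an_all ρ hρ htop g fun h => hg (hinj (h.trans (map_one ρ).symm))

end Act

end Vale.Agent.P184.H444
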