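import Mathlib
import Vale.Agent.P184.Bdl.B1

/-!
# Traces of differences of idempotent operators on `ℓ¹(I)`

If `E` and `F` are idempotent bounded operators on `ℓ¹(I)` and `∑ ‖(E - F) δ_i‖ < ∞` then the
trace `∑ ((E - F) δ_i)_i` is an integer.
-/

noncomputable section

open Filter Topology

namespace Vale.Agent.P184.H444

/-- The Banach space `ℓ¹(I)`. -/
abbrev V (I : Type*) := lp (fun _ : I => ℂ) 1

variable {I : Type*}

theorem v_summable (v : V I) : Summable fun i => ‖v i‖ := by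
  have h := (memℓp_gen_iff (p := 1) (by norm_num)).1 (lp.memℓp v)
  simpa using h

theorem v_norm (v : V I) : ‖v‖ = ∑' i, ‖v i‖ := by
  rw [lp.norm_eq_tsum_rpow (by norm_num)]
  simp

open Classical in
/-- basis vectors -/
def dl (i : I) : V I := lp.single 1 i (1 : ℂ)

theorem dl_same (i : I) : (dl i : V I) i = 1 := by
  classical
  rw [dl, lp.single_apply, Pi.single_eq_same]

theorem dl_ne {i j : I} (h : j ≠ i) : (dl i : V I) j = 0 := by
  classical
  rw [dl, lp.single_apply, Pi.single_eq_of_ne h]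

theorem dl_norm (i : I) : ‖(dl i : V I)‖ = 1 := by
  classical
  rw [dl, lp.norm_single (by norm_num), norm_one]

theorem v_apply_le (v : V I) (i : I) : ‖v i‖ ≤ ‖v‖ := lp.norm_apply_le_norm (by norm_num) v i

theorem v_hasSum (v : V I) : HasSum (fun i => v i • dl i) v := by
  classical
  have h := lp.hasSum_single (p := 1) (by norm_num) v
  have e : (fun i => v i • dl i) = fun i => lp.single 1 i (v i) := by
    funext i
    refine lp.ext (funext fun j => ?_)
    rw [lp.coeFn_smul, Pi.smul_apply]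
    by_cases hj : j = i
    · subst hj
      rw [dl_same, lp.single_apply, Pi.single_eq_same, smul_eq_mul, mul_one]
    · rw [dl_ne hj, lp.single_apply, Pi.single_eq_of_ne hj, smul_zero]
  rw [e]
  exact h

/-- coordinate functionals -/
def cf (i : I) : V I →L[ℂ] ℂ :=
  LinearMap.mkContinuous
    { toFun := fun v => v i
      map_add' := fun _ _ => rfl
      map_smul' := fun _ _ => rfl } 1 fun v => by
    rw [one_mul]
    exact v_apply_le v i

theorem cf_apply (i : I) (v : V I) : cf i v = v i := rfl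

theorem op_hasSum {W : Type*} [NormedAddCommGroup W] [NormedSpace ℂ W] (A : V I →L[ℂ] W)
    (v : V I) : HasSum (fun i => v i • A (dl i)) (A v) := by
  have h := (v_hasSum v).mapL A
  simpa only [map_smul] using h

theorem op_ext {W : Type*} [NormedAddCommGroup W] [NormedSpace ℂ W] {A B : V I →L[ℂ] W}
    (h : ∀ i, A (dl i) = B (dl i)) : A = B := by
  refine ContinuousLinearMap.ext fun v => ?_
  have h1 := op_hasSum A v
  have h2 := op_hasSum B v
  simp only [h] at h1
  exact h1.unique h2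

theorem op_norm_le {W : Type*} [NormedAddCommGroup W] [NormedSpace ℂ W]
    (A : V I →L[ℂ] W) {K : ℝ} (hK : 0 ≤ K)
    (h : ∀ i, ‖A (dl i)‖ ≤ K) : ‖A‖ ≤ K := by
  refine ContinuousLinearMap.opNorm_le_bound _ hK fun v => ?_
  have h1 : ∀ i, ‖v i • A (dl i)‖ ≤ K * ‖v i‖ := fun i => by
    rw [norm_smul, mul_comm]
    exact mul_le_mul_of_nonneg_right (h i) (norm_nonneg _)
  have h2 := tsum_of_norm_bounded ((v_summable v).hasSum.mul_left K) h1
  rw [(op_hasSum A v).tsum_eq] at h2
  rw [v_norm v]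
  exact h2

/-- The operator with given bounded columns. -/
def cols {W : Type*} [NormedAddCommGroup W] [NormedSpace ℂ W] [CompleteSpace W]
    (c : I → W) (K : ℝ) (h : ∀ i, ‖c i‖ ≤ K) : V I →L[ℂ] W :=
  have hb : ∀ (v : V I) (i : I), ‖v i • c i‖ ≤ K * ‖v i‖ := fun v i => by
    rw [norm_smul, mul_comm]
    exact mul_le_mul_of_nonneg_right (h i) (norm_nonneg _)
  have hs : ∀ v : V I, Summable fun i => v i • c i := fun v =>
    Summable.of_norm_bounded ((v_summable v).mul_left K) (hb v)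
  LinearMap.mkContinuous
    { toFun := fun v => ∑' i, v i • c i
      map_add' := fun v w => by
        rw [← (hs v).tsum_add (hs w)]
        refine tsum_congr fun i => ?_
        rw [lp.coeFn_add, Pi.add_apply, add_smul]
      map_smul' := fun a v => by
        rw [RingHom.id_apply, ← (hs v).tsum_const_smul a]
        refine tsum_congr fun i => ?_
        rw [lp.coeFn_smul, Pi.smul_apply, smul_smul, smul_eq_mul] } K fun v => by
    have h2 := tsum_of_norm_bounded ((v_summable v).hasSum.mul_left K) (hb v)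
    rw [v_norm v]
    exact h2

theorem cols_dl {W : Type*} [NormedAddCommGroup W] [NormedSpace ℂ W] [CompleteSpace W]
    (c : I → W) (K : ℝ) (h : ∀ i, ‖c i‖ ≤ K) (i : I) : cols c K h (dl i) = c i := by
  change ∑' j, (dl i : V I) j • c j = c i
  rw [tsum_eq_single i]
  · rw [dl_same, one_smul]
  · intro j hj
    rw [dl_ne hj, zero_smul]

/-- The diagonal of `T` is absolutely summable, with sum at most `c`. -/
def TrS (T : V I →L[ℂ] V I) (c : ℝ) : Prop :=
  (Summable fun i => ‖T (dl i) i‖) ∧ ∑' i, ‖T (dl i) i‖ ≤ c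

/-- The trace. -/
def tr (T : V I →L[ℂ] V I) : ℂ := ∑' i, T (dl i) i

theorem TrS.add {T T' : V I →L[ℂ] V I} {c c' : ℝ} (h : TrS T c) (h' : TrS T' c') :
    TrS (T + T') (c + c') := by
  have hb : ∀ i, ‖(T + T') (dl i) i‖ ≤ ‖T (dl i) i‖ + ‖T' (dl i) i‖ := fun i => norm_add_le _ _
  have hs := Summable.of_nonneg_of_le (fun _ => norm_nonneg _) hb (h.1.add h'.1)
  refine ⟨hs, (hs.tsum_le_tsum hb (h.1.add h'.1)).trans ?_⟩
  rw [h.1.tsum_add h'.1]
  exact add_le_add h.2 h'.2

theorem TrS.neg {T : V I →L[ℂ] V I} {c : ℝ} (h : TrS T c) : TrS (-T) c := by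
  have e : ∀ i, ‖(-T) (dl i) i‖ = ‖T (dl i) i‖ := fun i => norm_neg _
  refine ⟨?_, ?_⟩
  · simp only [e]
    exact h.1
  · simp only [e]
    exact h.2

theorem TrS.norm_tr_le {T : V I →L[ℂ] V I} {c : ℝ} (h : TrS T c) : ‖tr T‖ ≤ c :=
  (norm_tsum_le_tsum_norm h.1).trans h.2

theorem TrS.tr_add {T T' : V I →L[ℂ] V I} {c c' : ℝ} (h : TrS T c) (h' : TrS T' c') :
    tr (T + T') = tr T + tr T' := by
  unfold tr
  rw [← h.1.of_norm.tsum_add h'.1.of_norm]
  rfl

theorem tr_neg (T : V I →L[ℂ] V I) : tr (-T) = -tr T := by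
  unfold tr
  rw [← tsum_neg]
  rfl

theorem coord_hasSum (A : V I →L[ℂ] V I) (w : V I) (i : I) :
    HasSum (fun l => w l * A (dl l) i) (A w i) := by
  have h := (op_hasSum A w).mapL (cf i)
  have e : (fun l => cf i (w l • A (dl l))) = fun l => w l * A (dl l) i := by
    funext l
    rw [map_smul, smul_eq_mul]
    rfl
  rw [e] at h
  exact h

theorem dbl (m : I → V I) (hm : Summable fun l => ‖m l‖) :
    (∀ i, Summable fun l => ‖m l i‖) ∧ (Summable fun i => ∑' l, ‖m l i‖) ∧
      ∑' i, ∑' l, ‖m l i‖ = ∑' l, ‖m l‖ := by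
  have h0 : (0 : I × I → ℝ) ≤ fun z : I × I => ‖m z.1 z.2‖ := fun z => norm_nonneg (m z.1 z.2)
  have h1 : Summable fun z : I × I => ‖m z.1 z.2‖ := by
    refine (summable_prod_of_nonneg h0).2 ⟨fun l => v_summable (m l), ?_⟩
    have e : (fun l => ∑' i, ‖m l i‖) = fun l => ‖m l‖ := funext fun l => (v_norm (m l)).symm
    rw [e]
    exact hm
  have h0' : (0 : I × I → ℝ) ≤ fun z : I × I => ‖m z.2 z.1‖ := fun z => norm_nonneg (m z.2 z.1)
  have h2 : Summable fun z : I × I => ‖m z.2 z.1‖ := (Equiv.prodComm I I).summable_iff.2 h1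
  have h3 := (summable_prod_of_nonneg h0').1 h2
  refine ⟨h3.1, h3.2, ?_⟩
  have h4 := h2.tsum_prod' h3.1
  have h5 := h1.tsum_prod' fun l => v_summable (m l)
  rw [← h4, ← (Equiv.prodComm I I).tsum_eq]
  change ∑' z : I × I, ‖m z.1 z.2‖ = _
  rw [h5]
  exact tsum_congr fun l => (v_norm (m l)).symm

theorem diag_le (A D B : V I →L[ℂ] V I) (i : I) (h : Summable fun l => ‖A (D (dl l)) i‖) :
    ‖(A * D * B) (dl i) i‖ ≤ ‖B‖ * ∑' l, ‖A (D (dl l)) i‖ := by
  have h1 : HasSum (fun l => (B (dl i)) l * A (D (dl l)) i) (A (D (B (dl i))) i) :=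
    coord_hasSum (A.comp D) (B (dl i)) i
  have h2 : ∀ l, ‖(B (dl i)) l * A (D (dl l)) i‖ ≤ ‖B‖ * ‖A (D (dl l)) i‖ := by
    intro l
    rw [norm_mul]
    refine mul_le_mul_of_nonneg_right ?_ (norm_nonneg _)
    refine (v_apply_le _ _).trans ((B.le_opNorm _).trans ?_)
    rw [dl_norm, mul_one]
  have h3 := tsum_of_norm_bounded (h.hasSum.mul_left ‖B‖) h2
  rw [h1.tsum_eq] at h3
  exact h3

/-- The trace bound for `A Δ B` where the columns of `Δ` are summable. -/
theorem trS_mul {D : V I →L[ℂ] V I} (hD : Summable fun i => ‖D (dl i)‖) (A B : V I →L[ℂ] V I) :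
    TrS (A * D * B) (‖A‖ * ‖B‖ * ∑' i, ‖D (dl i)‖) := by
  have hAD : ∀ l, ‖A (D (dl l))‖ ≤ ‖A‖ * ‖D (dl l)‖ := fun l => A.le_opNorm _
  have hADs : Summable fun l => ‖A (D (dl l))‖ :=
    Summable.of_nonneg_of_le (fun _ => norm_nonneg _) hAD (hD.mul_left ‖A‖)
  obtain ⟨hcol, hrow, hsum⟩ := dbl (fun l => A (D (dl l))) hADs
  have hb : ∀ i, ‖(A * D * B) (dl i) i‖ ≤ ‖B‖ * ∑' l, ‖A (D (dl l)) i‖ := fun i =>
    diag_le A D B i (hcol i)
  have hs : Summable fun i => ‖(A * D * B) (dl i) i‖ :=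
    Summable.of_nonneg_of_le (fun _ => norm_nonneg _) hb (hrow.mul_left ‖B‖)
  refine ⟨hs, ?_⟩
  have h5 := hs.tsum_le_tsum hb (hrow.mul_left ‖B‖)
  rw [tsum_mul_left, hsum] at h5
  have h4 := hADs.tsum_le_tsum hAD (hD.mul_left ‖A‖)
  rw [tsum_mul_left] at h4
  have h6 := mul_le_mul_of_nonneg_left h4 (norm_nonneg B)
  refine h5.trans (h6.trans (le_of_eq ?_))
  ring

/-! ### The Newton iteration with a cofactor -/

section Newton

variable {R : Type*} [NormedRing R] [NormOneClass R]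

/-- cofactors: `x_n² - x_n = (x_0² - x_0) b_n` -/
def bs (x : R) : ℕ → R
  | 0 => 1
  | n + 1 => bs x n * ((newtonSeq x n * newtonSeq x n - newtonSeq x n) *
      (4 * (newtonSeq x n * newtonSeq x n - newtonSeq x n) - 3))

omit [NormOneClass R] in
theorem defect_eq (x : R) (n : ℕ) :
    newtonSeq x n * newtonSeq x n - newtonSeq x n = (x * x - x) * bs x n := by
  induction n with
  | zero => rw [bs, mul_one]; rfl
  | succ n ih =>
    have h := newton_defect (newtonSeq x n)
    change newton (newtonSeq x n) * newton (newtonSeq x n) - newton (newtonSeq x n) = _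
    rw [h, bs, ← mul_assoc (x * x - x), ← ih, mul_assoc]

theorem bs_norm (x : R) (h : ‖x * x - x‖ ≤ 1 / 16) (n : ℕ) : ‖bs x n‖ ≤ (1 / 4) ^ n := by
  induction n with
  | zero => rw [bs, norm_one, pow_zero]
  | succ n ih =>
    have h1 : ‖newtonSeq x n * newtonSeq x n - newtonSeq x n‖ ≤ 1 / 16 := by
      refine (newtonSeq_defect x h n).trans ?_
      have : (1 / 4 : ℝ) ^ n ≤ 1 := pow_le_one₀ (by norm_num) (by norm_num)
      nlinarith [norm_nonneg (x * x - x)]
    rw [bs]
    set y := newtonSeq x n * newtonSeq x n - newtonSeq x n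
    have h0 := norm_nonneg y
    have h2 : ‖4 * y - 3‖ ≤ 4 * ‖y‖ + 3 := by
      refine (norm_sub_le _ _).trans (add_le_add ?_ norm_three_le)
      exact (norm_mul_le _ _).trans (mul_le_mul_of_nonneg_right norm_four_le h0)
    have h3 : ‖y * (4 * y - 3)‖ ≤ 1 / 4 := by
      refine (norm_mul_le _ _).trans ?_
      have : ‖y‖ * ‖4 * y - 3‖ ≤ 1 / 16 * (4 * (1 / 16) + 3) :=
        mul_le_mul h1 (h2.trans (by linarith)) (norm_nonneg _) (by norm_num)
      refine this.trans (by norm_num)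
    refine (norm_mul_le _ _).trans ?_
    rw [pow_succ]
    exact mul_le_mul ih h3 (norm_nonneg _) (by positivity)

theorem newton_corr [CompleteSpace R] (x : R) (h : ‖x * x - x‖ ≤ 1 / 16) :
    ∃ f B : R, f * f = f ∧ f = x + (x * x - x) * B ∧ ‖B‖ ≤ 4 * (2 * ‖x‖ + 1) ∧
      ∀ S : Set R, IsClosed S → x ∈ S → (∀ y ∈ S, newton y ∈ S) → f ∈ S := by
  set c : ℕ → R := fun n => -(bs x n * (2 * newtonSeq x n - 1)) with hc
  have hx0 : (0 : ℝ) ≤ 2 * ‖x‖ + 1 := by positivity
  have hcn : ∀ n, ‖c n‖ ≤ 2 * (2 * ‖x‖ + 1) * (1 / 4) ^ n := by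
    intro n
    have h1 := bs_norm x h n
    have h2 := newtonSeq_bound x h n
    have h3 : ‖2 * newtonSeq x n - 1‖ ≤ 2 * (2 * ‖x‖ + 1) := by
      refine (norm_sub_le _ _).trans ?_
      rw [norm_one]
      have h4 := (norm_mul_le (2 : R) (newtonSeq x n)).trans
        (mul_le_mul_of_nonneg_right norm_two_le (norm_nonneg _))
      have hq0 : (0 : ℝ) < (1 / 4) ^ n := by positivity
      nlinarith [mul_nonneg hx0 hq0.le]
    rw [hc]
    simp only [norm_neg]
    refine (norm_mul_le _ _).trans ?_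
    rw [mul_comm (2 * (2 * ‖x‖ + 1))]
    exact mul_le_mul h1 h3 (norm_nonneg _) (by positivity)
  have hgeo : HasSum (fun n : ℕ => 2 * (2 * ‖x‖ + 1) * (1 / 4 : ℝ) ^ n)
      (2 * (2 * ‖x‖ + 1) * (1 - 1 / 4)⁻¹) :=
    (hasSum_geometric_of_lt_one (by norm_num) (by norm_num)).mul_left _
  have hcs : Summable c := Summable.of_norm_bounded hgeo.summable hcn
  set B := ∑' n, c n with hB
  have hxn : ∀ n, newtonSeq x n = x + (x * x - x) * ∑ k ∈ Finset.range n, c k := by
    intro n
    induction n with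
    | zero => rw [Finset.sum_range_zero, mul_zero, add_zero]; rfl
    | succ n ih =>
      have h1 := newton_sub (newtonSeq x n)
      have h2 : (2 * newtonSeq x n - 1) * (newtonSeq x n * newtonSeq x n - newtonSeq x n) =
          (newtonSeq x n * newtonSeq x n - newtonSeq x n) * (2 * newtonSeq x n - 1) := by
        noncomm_ring
      rw [h2, defect_eq, mul_assoc] at h1
      rw [Finset.sum_range_succ, mul_add, ← add_assoc, ← ih]
      change newton (newtonSeq x n) = _
      rw [hc]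
      simp only [mul_neg]
      rw [← h1]
      abel
  have hlim : Tendsto (newtonSeq x) atTop (𝓝 (x + (x * x - x) * B)) := by
    have h1 : Tendsto (fun n => x + (x * x - x) * ∑ k ∈ Finset.range n, c k) atTop
        (𝓝 (x + (x * x - x) * B)) :=
      tendsto_const_nhds.add (hcs.hasSum.tendsto_sum_nat.const_mul _)
    exact h1.congr fun n => (hxn n).symm
  refine ⟨_, B, ?_, rfl, ?_, fun S hS hx hnew => ?_⟩
  · have h1 := (hlim.mul hlim).sub hlim
    have h2 : Tendsto (fun n => newtonSeq x n * newtonSeq x n - newtonSeq x n) atTop (𝓝 0) := by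
      apply squeeze_zero_norm (newtonSeq_defect x h)
      have : Tendsto (fun n : ℕ => (1 / 4 : ℝ) ^ n * ‖x * x - x‖) atTop
          (𝓝 (0 * ‖x * x - x‖)) :=
        (tendsto_pow_atTop_nhds_zero_of_lt_one (by norm_num) (by norm_num)).mul_const _
      simpa only [one_div, inv_pow, zero_mul] using this
    exact sub_eq_zero.mp (tendsto_nhds_unique h1 h2)
  · have h1 := tsum_of_norm_bounded hgeo hcn
    refine h1.trans ?_
    have : (1 - 1 / 4 : ℝ)⁻¹ = 4 / 3 := by norm_num
    rw [this]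
    nlinarith
  · refine hS.mem_of_tendsto hlim (Eventually.of_forall fun n => ?_)
    induction n with
    | zero => exact hx
    | succ n ih => exact hnew _ ih

end Newton

end Vale.Agent.P184.H444
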