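import Vale.Agent.P184.H444.Gen

/-!
# Vanishing of traces from crossed homomorphisms to free abelian-like modules
-/

noncomputable section

open Filter Topology

namespace Vale.Agent.P184.H444

/-! ### Conjugacy in cyclic extensions of abelian groups -/

section Metab

variable {K : Type*} [Group K] (N : Subgroup K) [N.Normal]

theorem comm_mul (hN : ∀ m ∈ N, ∀ n ∈ N, m * n = n * m) (g : K) {n m : K} (hn : n ∈ N)
    (hm : m ∈ N) : n * g * n⁻¹ * g⁻¹ * (m * g * m⁻¹ * g⁻¹) = n * m * g * (n * m)⁻¹ * g⁻¹ := by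
  have hD : ∀ n ∈ N, n * g * n⁻¹ * g⁻¹ ∈ N := fun n hn => by
    have h1 : n * g * n⁻¹ * g⁻¹ = n * (g * n⁻¹ * g⁻¹) := by group
    rw [h1]
    exact N.mul_mem hn (Subgroup.Normal.conj_mem ‹_› _ (N.inv_mem hn) g)
  have h1 := hN _ (hD n hn) _ (hD m hm)
  have h2 := hN _ hn _ (hD m hm)
  rw [h1]
  calc m * g * m⁻¹ * g⁻¹ * (n * g * n⁻¹ * g⁻¹) = m * g * m⁻¹ * g⁻¹ * n * (g * n⁻¹ * g⁻¹) := by
        group
    _ = n * (m * g * m⁻¹ * g⁻¹) * (g * n⁻¹ * g⁻¹) := by rw [h2]
    _ = n * m * g * (n * m)⁻¹ * g⁻¹ := by group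

/-- the commutators of `g` with the abelian normal subgroup `N` -/
def cmm (hN : ∀ m ∈ N, ∀ n ∈ N, m * n = n * m) (g : K) : Subgroup K where
  carrier := {c | ∃ n ∈ N, n * g * n⁻¹ * g⁻¹ = c}
  one_mem' := ⟨1, N.one_mem, by group⟩
  mul_mem' := by
    rintro _ _ ⟨n, hn, rfl⟩ ⟨m, hm, rfl⟩
    exact ⟨n * m, N.mul_mem hn hm, (comm_mul N hN g hn hm).symm⟩
  inv_mem' := by
    rintro _ ⟨n, hn, rfl⟩
    refine ⟨n⁻¹, N.inv_mem hn, ?_⟩
    refine eq_inv_of_mul_eq_one_left ?_
    rw [comm_mul N hN g (N.inv_mem hn) hn]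
    group

theorem isConj_of_ab (hN : ∀ m ∈ N, ∀ n ∈ N, m * n = n * m) (g : K)
    (hgen : ∀ k : K, ∃ n ∈ N, ∃ i : ℤ, k = n * g ^ i) {v : K}
    (hv : Abelianization.of v = Abelianization.of g) : IsConj g v := by
  have hnorm : (cmm N hN g).Normal := by
    refine ⟨?_⟩
    rintro _ ⟨m, hm, rfl⟩ k
    obtain ⟨n, hn, i, rfl⟩ := hgen k
    have hm' : g ^ i * m * (g ^ i)⁻¹ ∈ N := Subgroup.Normal.conj_mem ‹_› _ hm _
    have hc : g ^ i * (m * g * m⁻¹ * g⁻¹) * (g ^ i)⁻¹ =
        (g ^ i * m * (g ^ i)⁻¹) * g * (g ^ i * m * (g ^ i)⁻¹)⁻¹ * g⁻¹ := by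
      have h1 : (g ^ i)⁻¹ * g = g * (g ^ i)⁻¹ := by group
      calc g ^ i * (m * g * m⁻¹ * g⁻¹) * (g ^ i)⁻¹ =
            g ^ i * m * (g * (g ^ i)⁻¹) * g ^ i * m⁻¹ * (g ^ i)⁻¹ * g⁻¹ := by group
        _ = g ^ i * m * ((g ^ i)⁻¹ * g) * g ^ i * m⁻¹ * (g ^ i)⁻¹ * g⁻¹ := by rw [h1]
        _ = _ := by group
    have hcN : g ^ i * (m * g * m⁻¹ * g⁻¹) * (g ^ i)⁻¹ ∈ N := by
      refine Subgroup.Normal.conj_mem ‹_› _ ?_ _
      have h1 : m * g * m⁻¹ * g⁻¹ = m * (g * m⁻¹ * g⁻¹) := by group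
      rw [h1]
      exact N.mul_mem hm (Subgroup.Normal.conj_mem ‹_› _ (N.inv_mem hm) g)
    have h2 := hN _ hn _ hcN
    refine ⟨g ^ i * m * (g ^ i)⁻¹, hm', ?_⟩
    rw [← hc]
    calc g ^ i * (m * g * m⁻¹ * g⁻¹) * (g ^ i)⁻¹ =
          g ^ i * (m * g * m⁻¹ * g⁻¹) * (g ^ i)⁻¹ * n * n⁻¹ := by rw [mul_inv_cancel_right]
      _ = n * (g ^ i * (m * g * m⁻¹ * g⁻¹) * (g ^ i)⁻¹) * n⁻¹ := by rw [h2]
      _ = _ := by group
  have hcomm : ∀ x y : K ⧸ cmm N hN g, x * y = y * x := by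
    have hng : ∀ n ∈ N, Commute ((n : K) : K ⧸ cmm N hN g) ((g : K) : K ⧸ cmm N hN g) := by
      intro n hn
      change ((n * g : K) : K ⧸ cmm N hN g) = ((g * n : K) : K ⧸ cmm N hN g)
      rw [QuotientGroup.eq]
      have h1 : (n * g)⁻¹ * (g * n) = (n * g)⁻¹ * (n * g * n⁻¹ * g⁻¹)⁻¹ * (n * g) := by group
      have h2 : (n * g * n⁻¹ * g⁻¹)⁻¹ ∈ cmm N hN g := (cmm N hN g).inv_mem ⟨n, hn, rfl⟩
      have h3 := hnorm.conj_mem _ h2 (n * g)⁻¹
      rw [inv_inv] at h3
      rw [h1]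
      exact h3
    intro x y
    induction x using QuotientGroup.induction_on with
    | H x =>
    induction y using QuotientGroup.induction_on with
    | H y =>
    obtain ⟨n, hn, i, rfl⟩ := hgen x
    obtain ⟨m, hm, j, rfl⟩ := hgen y
    have h1 : Commute ((n : K) : K ⧸ cmm N hN g) ((m : K) : K ⧸ cmm N hN g) := by
      change ((n * m : K) : K ⧸ cmm N hN g) = ((m * n : K) : K ⧸ cmm N hN g)
      rw [hN n hn m hm]
    have h2 := (hng n hn).zpow_right j
    have h3 := ((hng m hm).zpow_right i).symm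
    have h4 : Commute (((g : K) : K ⧸ cmm N hN g) ^ i) (((g : K) : K ⧸ cmm N hN g) ^ j) :=
      (Commute.refl _).zpow_zpow i j
    exact ((h1.mul_right h2).mul_left (h3.mul_right h4)).eq
  have hle : commutator K ≤ cmm N hN g :=
    Subgroup.Normal.quotient_commutative_iff_commutator_le.1 ⟨⟨hcomm⟩⟩
  have h1 : g⁻¹ * v ∈ commutator K := by
    have h2 : ((g : K) : K ⧸ commutator K) = ((v : K) : K ⧸ commutator K) := hv.symm
    exact QuotientGroup.eq.1 h2
  have h2 : g * (g⁻¹ * v) * g⁻¹ ∈ commutator K := Subgroup.Normal.conj_mem inferInstance _ h1 g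
  obtain ⟨n, _, h3⟩ := hle h2
  refine isConj_iff.2 ⟨n, ?_⟩
  have h4 : n * g * n⁻¹ * g⁻¹ * g = g * (g⁻¹ * v) * g⁻¹ * g := by rw [h3]
  rw [inv_mul_cancel_right, inv_mul_cancel_right, mul_inv_cancel_left] at h4
  exact h4

end Metab

/-! ### Sums over subsets -/

section Mu

variable {Q A : Type*} [AddCommGroup A]

open Classical in
/-- the sum of the values on `W` -/
def mu (W : Set Q) : (Q →₀ A) →+ A :=
  Finsupp.liftAddHom fun u => if u ∈ W then AddMonoidHom.id A else 0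

open Classical in
theorem mu_apply (W : Set Q) (f : Q →₀ A) :
    mu W f = f.sum fun u c => if u ∈ W then c else 0 := by
  unfold mu
  rw [Finsupp.liftAddHom_apply]
  refine Finset.sum_congr rfl fun u _ => ?_
  dsimp only
  split_ifs <;> rfl

theorem mu_eq_zero {W : Set Q} {f : Q →₀ A} (h : ∀ u ∈ f.support, u ∉ W) : mu W f = 0 := by
  classical
  rw [mu_apply]
  refine Finset.sum_eq_zero fun u hu => ?_
  exact if_neg (h u hu)

theorem mu_mapDomain {Q' : Type*} (W : Set Q') (p : Q → Q') (f : Q →₀ A) :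
    mu W (f.mapDomain p) = mu (p ⁻¹' W) f := by
  classical
  rw [mu_apply, mu_apply, Finsupp.sum_mapDomain_index]
  · rfl
  · intro u
    split_ifs <;> rfl
  · intro u c d
    split_ifs
    · rfl
    · rw [add_zero]

end Mu

/-! ### The theorem -/

section Crossed

variable {G Q A : Type*} [Group G] [Group Q] [AddCommGroup A] (π : G →* Q)

/-- the inverse image of the cyclic group generated by the image -/
abbrev cycH (g : G) : Subgroup G := (Subgroup.zpowers (π g)).comap π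

/-- the subset of `Q` corresponding to a coset -/
def cosW (g : G) (u₀ : Q) (x : G ⧸ cycH π g) : Set Q :=
  {u | (π (sec _ x))⁻¹ * u * u₀⁻¹ ∈ Subgroup.zpowers (π g)}

theorem cosW_iff (g : G) (u₀ : Q) (r : G) (u : Q) :
    u ∈ cosW π g u₀ (r : G ⧸ cycH π g) ↔ (π r)⁻¹ * u * u₀⁻¹ ∈ Subgroup.zpowers (π g) := by
  have h1 : (sec (cycH π g) (r : G ⧸ cycH π g))⁻¹ * r ∈ cycH π g := by
    rw [← QuotientGroup.eq, sec_mk]
  have h2 : π ((sec (cycH π g) (r : G ⧸ cycH π g))⁻¹ * r) ∈ Subgroup.zpowers (π g) := h1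
  rw [map_mul, map_inv] at h2
  have h3 : (π (sec (cycH π g) (r : G ⧸ cycH π g)))⁻¹ * u * u₀⁻¹ =
      (π (sec (cycH π g) (r : G ⧸ cycH π g)))⁻¹ * π r * ((π r)⁻¹ * u * u₀⁻¹) := by group
  change (π (sec (cycH π g) (r : G ⧸ cycH π g)))⁻¹ * u * u₀⁻¹ ∈ Subgroup.zpowers (π g) ↔ _
  rw [h3]
  exact Subgroup.mul_mem_cancel_left _ h2

theorem cosW_smul (g : G) (u₀ : Q) (h : G) (x : G ⧸ cycH π g) :
    (fun u => π h * u) ⁻¹' cosW π g u₀ (h • x) = cosW π g u₀ x := by
  ext u
  have h1 : h • x = ((h * sec _ x : G) : G ⧸ cycH π g) := by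
    change _ = h • ((sec _ x : G) : G ⧸ cycH π g)
    rw [sec_mk]
  rw [Set.mem_preimage, h1, cosW_iff, map_mul]
  have h2 : (π h * π (sec _ x))⁻¹ * (π h * u) * u₀⁻¹ = (π (sec _ x))⁻¹ * u * u₀⁻¹ := by group
  rw [h2]
  rfl

theorem cosW_inj {g : G} {u₀ : Q} {u : Q} {x x' : G ⧸ cycH π g} (h : u ∈ cosW π g u₀ x)
    (h' : u ∈ cosW π g u₀ x') : x = x' := by
  change (π (sec _ x))⁻¹ * u * u₀⁻¹ ∈ Subgroup.zpowers (π g) at h
  change (π (sec _ x'))⁻¹ * u * u₀⁻¹ ∈ Subgroup.zpowers (π g) at h'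
  rw [← sec_mk _ x, ← sec_mk _ x', QuotientGroup.eq]
  change π ((sec _ x)⁻¹ * sec _ x') ∈ Subgroup.zpowers (π g)
  rw [map_mul, map_inv]
  have h1 := Subgroup.mul_mem _ h (Subgroup.inv_mem _ h')
  have h2 : (π (sec _ x))⁻¹ * u * u₀⁻¹ * ((π (sec _ x'))⁻¹ * u * u₀⁻¹)⁻¹ =
      (π (sec _ x))⁻¹ * π (sec _ x') := by group
  rwa [h2] at h1

variable (a : G → Q →₀ A) (ha : ∀ h k, a (h * k) = a h + (a k).mapDomain (π h * ·))

include ha in
theorem mu_cross (g : G) (u₀ : Q) (h k : G) (x : G ⧸ cycH π g) :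
    mu (cosW π g u₀ ((h * k) • x)) (a (h * k)) =
      mu (cosW π g u₀ (h • k • x)) (a h) + mu (cosW π g u₀ (k • x)) (a k) := by
  rw [ha, map_add, mul_smul, mu_mapDomain, cosW_smul]

/-- the cocycle -/
def crossCoc (g : G) (u₀ : Q) (y : Multiplicative A →* Circle) : Coc G (G ⧸ cycH π g) where
  fn h x := (y (Multiplicative.ofAdd (mu (cosW π g u₀ (h • x)) (a h))) : ℂ)
  mul' h k x := by
    rw [mu_cross π a ha, ofAdd_add, map_mul, Circle.coe_mul]
  norm' h x := Circle.norm_coe _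

theorem crossCoc_fin (g : G) (u₀ : Q) (y : Multiplicative A →* Circle) (h : G) :
    {x | (crossCoc π a ha g u₀ y).fn h x ≠ 1}.Finite := by
  have h1 : {x | (crossCoc π a ha g u₀ y).fn h x ≠ 1} ⊆
      ⋃ u ∈ (a h).support, {x | u ∈ cosW π g u₀ (h • x)} := by
    intro x hx
    by_contra h2
    apply hx
    have h3 : mu (cosW π g u₀ (h • x)) (a h) = 0 := by
      refine mu_eq_zero fun u hu hu' => h2 ?_
      rw [Set.mem_iUnion₂]
      exact ⟨u, hu, hu'⟩
    change (y (Multiplicative.ofAdd (mu (cosW π g u₀ (h • x)) (a h))) : ℂ) = 1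
    rw [h3, ofAdd_zero, map_one, Circle.coe_one]
  refine Set.Finite.subset (Set.Finite.biUnion (a h).support.finite_toSet fun u _ => ?_) h1
  refine Set.Subsingleton.finite fun x hx x' hx' => ?_
  exact smul_left_cancel h (cosW_inj π hx hx')

theorem cosW_one {g : G} {u₀ : Q} {h : G} (hh : h ∈ cycH π g) :
    cosW π g u₀ (h • ((1 : G) : G ⧸ cycH π g)) = {u | u * u₀⁻¹ ∈ Subgroup.zpowers (π g)} := by
  ext u
  change u ∈ cosW π g u₀ ((h * 1 : G) : G ⧸ cycH π g) ↔ _
  rw [cosW_iff, mul_one, mul_assoc]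
  have h1 : π h ∈ Subgroup.zpowers (π g) := hh
  exact Subgroup.mul_mem_cancel_left _ (Subgroup.inv_mem _ h1)

include ha in
/-- Vanishing of traces from a crossed homomorphism. -/
theorem vanish_of_crossed (hker : ∀ m n : G, π m = 1 → π n = 1 → m * n = n * m)
    (g : G) (u₀ : Q) (hs : mu {u | u * u₀⁻¹ ∈ Subgroup.zpowers (π g)} (a g) ≠ 0)
    (hord : ¬ IsOfFinOrder (π g) ∨
      ¬ IsOfFinAddOrder (mu {u | u * u₀⁻¹ ∈ Subgroup.zpowers (π g)} (a g))) :
    VanishesAt g := by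
  have hg : g ∈ cycH π g := Subgroup.mem_zpowers (π g)
  set W₀ : Set Q := {u | u * u₀⁻¹ ∈ Subgroup.zpowers (π g)} with hW₀
  have hs' : Multiplicative.ofAdd (mu W₀ (a g)) ≠ 1 := hs
  obtain ⟨y, hy⟩ := exists_char hs'
  refine vanish_of_twist (Abelianization.of : cycH π g →* Abelianization (cycH π g))
    (crossCoc π a ha g u₀ y) (crossCoc_fin π a ha g u₀ y) ⟨g, hg⟩ ?_ ?_ ?_
  · intro h
    apply hy
    apply Circle.ext
    rw [Circle.coe_one]
    change (y (Multiplicative.ofAdd (mu (cosW π g u₀ (g • ((1 : G) : G ⧸ cycH π g))) (a g))) : ℂ) =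
      1 at h
    rw [cosW_one π hg] at h
    exact h
  · intro h
    rcases hord with h1 | h1
    · apply h1
      let _ : CommGroup (Subgroup.zpowers (π g)) :=
        { (Subgroup.zpowers (π g)).toGroup with
          mul_comm := fun x y => by
            obtain ⟨i, hi⟩ := Subgroup.mem_zpowers_iff.1 x.2
            obtain ⟨j, hj⟩ := Subgroup.mem_zpowers_iff.1 y.2
            refine Subtype.ext ?_
            change (x : Q) * y = y * x
            rw [← hi, ← hj, ← zpow_add, ← zpow_add, add_comm] }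
      let f : cycH π g →* Subgroup.zpowers (π g) := π.subgroupComap (Subgroup.zpowers (π g))
      have h2 := MonoidHom.isOfFinOrder (Abelianization.lift f) h
      rw [Abelianization.lift_apply_of] at h2
      exact MonoidHom.isOfFinOrder (Subgroup.zpowers (π g)).subtype h2
    · apply h1
      let f : cycH π g →* Multiplicative A :=
        { toFun := fun h => Multiplicative.ofAdd (mu W₀ (a h))
          map_one' := by
            have h2 := ha 1 1
            have h3 : (a 1).mapDomain (π 1 * ·) = a 1 := by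
              have h4 : (fun u : Q => π 1 * u) = id := by
                funext u
                rw [map_one, one_mul]
                rfl
              rw [h4]
              exact Finsupp.mapDomain_id
            rw [mul_one, h3] at h2
            have h4 : a 1 = 0 := by
              have h5 : a 1 + 0 = a 1 + a 1 := by rw [add_zero]; exact h2
              exact (add_left_cancel h5).symm
            change Multiplicative.ofAdd (mu W₀ (a 1)) = 1
            rw [h4, map_zero]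
            rfl
          map_mul' := fun h k => by
            have h2 := mu_cross π a ha g u₀ h k ((1 : G) : G ⧸ cycH π g)
            have h3 : (k : G) • ((1 : G) : G ⧸ cycH π g) = ((1 : G) : G ⧸ cycH π g) := by
              change ((k * 1 : G) : G ⧸ cycH π g) = ((1 : G) : G ⧸ cycH π g)
              rw [QuotientGroup.eq, mul_one, mul_one]
              exact Subgroup.inv_mem _ k.2
            rw [h3, cosW_one π h.2, ← hW₀, cosW_one π (Subgroup.mul_mem _ h.2 k.2)] at h2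
            have h4 : cosW π g u₀ ((1 : G) : G ⧸ cycH π g) = W₀ := by
              have h5 := cosW_one π (g := g) (u₀ := u₀) (Subgroup.one_mem (cycH π g))
              rw [one_smul] at h5
              exact h5
            rw [h4] at h2
            change Multiplicative.ofAdd (mu W₀ (a (h * k : G))) = _
            rw [← hW₀] at h2
            rw [h2]
            rfl }
      have h2 := MonoidHom.isOfFinOrder (Abelianization.lift f) h
      rw [Abelianization.lift_apply_of] at h2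
      exact isOfFinOrder_ofAdd_iff.1 h2
  · intro v hv
    refine isConj_of_ab (π.ker.comap (cycH π g).subtype) ?_ ⟨g, hg⟩ ?_ hv
    · intro m hm n hn
      exact Subtype.ext (hker m n hm hn)
    · intro k
      obtain ⟨i, hi⟩ := Subgroup.mem_zpowers_iff.1 (show π k ∈ Subgroup.zpowers (π g) from k.2)
      refine ⟨k * (⟨g, hg⟩ ^ i)⁻¹, ?_, i, (inv_mul_cancel_right _ _).symm⟩
      change π ((k * (⟨g, hg⟩ ^ i)⁻¹ : cycH π g) : G) = 1
      rw [Subgroup.coe_mul, Subgroup.coe_inv, Subgroup.coe_zpow, map_mul, map_inv, map_zpow, hi,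
        mul_inv_cancel]

end Crossed

end Vale.Agent.P184.H444
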