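import Vale.Agent.P184.H444.Free
import Vale.Agent.P184.H444.Push

/-!
# Wreath products `A ≀ Q` with `A` abelian
-/

noncomputable section

open Filter Topology

namespace Vale.Agent.P184.H444

/-- The restricted wreath product of the abelian group `A` by `Q`. -/
abbrev Wreath (A Q : Type*) [AddCommGroup A] [Group Q] :=
  Multiplicative (Q →₀ A) ⋊[shiftHom] Q

section Wr

variable {A Q : Type*} [AddCommGroup A] [Group Q]

/-- the base component -/
def wa (g : Wreath A Q) : Q →₀ A := Multiplicative.toAdd g.left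

theorem wa_mul (h k : Wreath A Q) : wa (h * k) = wa h + (wa k).mapDomain (h.right * ·) := by
  unfold wa
  rw [SemidirectProduct.mul_left]
  have h1 := shiftHom_apply h.right (Multiplicative.toAdd k.left)
  exact congrArg (fun z : Multiplicative (Q →₀ A) =>
    Multiplicative.toAdd h.left + Multiplicative.toAdd z) h1

/-- elements of the wreath product -/
def wmk (f : Q →₀ A) (q : Q) : Wreath A Q := ⟨Multiplicative.ofAdd f, q⟩

theorem wmk_eq (g : Wreath A Q) : wmk (wa g) g.right = g := rfl

theorem wa_wmk (f : Q →₀ A) (q : Q) : wa (wmk f q) = f := rfl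

theorem wmk_mul (f f' : Q →₀ A) (q q' : Q) :
    wmk f q * wmk f' q' = wmk (f + f'.mapDomain (q * ·)) (q * q') := by
  refine SemidirectProduct.ext ?_ rfl
  exact wa_mul (wmk f q) (wmk f' q')

/-- the sum over a coset -/
def wS (g : Wreath A Q) (u : Q) : A := mu {v | v * u⁻¹ ∈ Subgroup.zpowers g.right} (wa g)

theorem wreath_vanish (g : Wreath A Q) (u : Q) (h0 : wS g u ≠ 0)
    (h1 : ¬ IsOfFinOrder g.right ∨ ¬ IsOfFinAddOrder (wS g u)) : VanishesAt g := by
  refine vanish_of_crossed (SemidirectProduct.rightHom : Wreath A Q →* Q) wa wa_mul ?_ g u h0 h1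
  intro m n hm hn
  have hm' : m.right = 1 := hm
  have hn' : n.right = 1 := hn
  refine SemidirectProduct.ext ?_ ?_
  · rw [SemidirectProduct.mul_left, SemidirectProduct.mul_left, hm', hn', map_one]
    exact mul_comm _ _
  · rw [SemidirectProduct.mul_right, SemidirectProduct.mul_right, hm', hn']

/-- the image of `1 - q` -/
def imq (A : Type*) [AddCommGroup A] (q : Q) : AddSubgroup (Q →₀ A) :=
  (AddMonoidHom.id (Q →₀ A) - Finsupp.mapDomain.addMonoidHom (q * ·)).range

theorem mem_imq (q : Q) (m : Q →₀ A) : m - m.mapDomain (q * ·) ∈ imq A q := ⟨m, rfl⟩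

theorem single_imq (q : Q) (u : Q) (c : A) (k : ℤ) :
    Finsupp.single u c - Finsupp.single (q ^ k * u) c ∈ imq A q := by
  have hstep : ∀ v : Q, Finsupp.single v c - Finsupp.single (q * v) c ∈ imq A q := by
    intro v
    have h := mem_imq q (Finsupp.single v c)
    rwa [Finsupp.mapDomain_single] at h
  induction k using Int.induction_on with
  | zero =>
    rw [zpow_zero, one_mul, sub_self]
    exact AddSubgroup.zero_mem _
  | succ n ih =>
    have h1 := (imq A q).add_mem ih (hstep (q ^ (n : ℤ) * u))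
    rw [sub_add_sub_cancel, ← mul_assoc] at h1
    have h2 : q * q ^ (n : ℤ) = q ^ ((n : ℤ) + 1) := by
      rw [add_comm, zpow_add, zpow_one]
    rwa [h2] at h1
  | pred n ih =>
    have h3 := hstep (q ^ (-(n : ℤ) - 1) * u)
    have h2 : q * (q ^ (-(n : ℤ) - 1) * u) = q ^ (-(n : ℤ)) * u := by
      rw [← mul_assoc]
      congr 1
      have h4 : -(n : ℤ) = 1 + (-(n : ℤ) - 1) := by ring
      conv_rhs => rw [h4, zpow_add, zpow_one]
    rw [h2] at h3
    have h1 := (imq A q).sub_mem ih h3
    rwa [sub_sub_sub_cancel_right] at h1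

/-- coset representatives -/
def wrep (q : Q) (u : Q) : Q :=
  (Quotient.mk (QuotientGroup.rightRel (Subgroup.zpowers q)) u).out

theorem wrep_iff (q : Q) (u v : Q) : wrep q u = wrep q v ↔ v * u⁻¹ ∈ Subgroup.zpowers q := by
  unfold wrep
  rw [Quotient.out_inj, Quotient.eq]
  exact QuotientGroup.rightRel_apply

theorem wrep_mem (q : Q) (u : Q) : wrep q u * u⁻¹ ∈ Subgroup.zpowers q := by
  have h1 : Quotient.mk (QuotientGroup.rightRel (Subgroup.zpowers q)) (wrep q u) =
      Quotient.mk (QuotientGroup.rightRel (Subgroup.zpowers q)) u := Quotient.out_eq _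
  have h2 : wrep q (wrep q u) = wrep q u := by
    unfold wrep at h1 ⊢
    rw [h1]
  have h3 := (wrep_iff q _ _).1 h2
  have h4 := Subgroup.inv_mem _ h3
  rwa [mul_inv_rev, inv_inv] at h4

theorem sub_wrep (q : Q) (f : Q →₀ A) : f - f.mapDomain (wrep q) ∈ imq A q := by
  induction f using Finsupp.induction_linear with
  | zero =>
    rw [Finsupp.mapDomain_zero, sub_zero]
    exact AddSubgroup.zero_mem _
  | add f g hf hg =>
    have h1 := (imq A q).add_mem hf hg
    rw [Finsupp.mapDomain_add, add_sub_add_comm]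
    exact h1
  | single u c =>
    rw [Finsupp.mapDomain_single]
    obtain ⟨k, hk⟩ := Subgroup.mem_zpowers_iff.1 (wrep_mem q u)
    have h1 : wrep q u = q ^ k * u := by rw [hk, inv_mul_cancel_right]
    rw [h1]
    exact single_imq q u c k

theorem wreath_conj (g : Wreath A Q) :
    IsConj g (wmk ((wa g).mapDomain (wrep g.right)) g.right) := by
  obtain ⟨m, hm⟩ := sub_wrep g.right (wa g)
  have hm' : m - m.mapDomain (g.right * ·) = wa g - (wa g).mapDomain (wrep g.right) := hm
  refine isConj_iff.2 ⟨wmk (-m) 1, ?_⟩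
  have h1 : wmk m 1 * wmk (-m) 1 = (1 : Wreath A Q) := by
    rw [wmk_mul]
    have h2 : (fun u : Q => 1 * u) = id := funext fun u => one_mul u
    rw [h2, Finsupp.mapDomain_id, add_neg_cancel, mul_one]
    rfl
  have h3 : (wmk (-m) 1 : Wreath A Q)⁻¹ = wmk m 1 := inv_eq_of_mul_eq_one_left h1
  rw [h3]
  conv_lhs => rw [← wmk_eq g, wmk_mul, wmk_mul]
  rw [one_mul, mul_one]
  have h2 : (fun u : Q => 1 * u) = id := funext fun u => one_mul u
  rw [h2, Finsupp.mapDomain_id]
  congr 1
  have h4 : (wa g).mapDomain (wrep g.right) = wa g - (m - m.mapDomain (g.right * ·)) := by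
    rw [hm']
    abel
  rw [h4]
  abel

open Classical in
theorem wS_rep (g : Wreath A Q) (u : Q) :
    (wa g).mapDomain (wrep g.right) u = if wrep g.right u = u then wS g u else 0 := by
  have h1 : (wa g).mapDomain (wrep g.right) u = mu {u} ((wa g).mapDomain (wrep g.right)) := by
    rw [mu_apply, Finsupp.sum]
    by_cases h5 : u ∈ ((wa g).mapDomain (wrep g.right)).support
    · rw [Finset.sum_eq_single_of_mem u h5]
      · exact (if_pos rfl).symm
      · intro b _ hb
        exact if_neg hb
    · rw [Finset.sum_eq_zero]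
      · exact Finsupp.notMem_support_iff.1 h5
      · intro b hb
        refine if_neg fun h6 => h5 ?_
        have h7 : b = u := h6
        rwa [h7] at hb
  rw [h1, mu_mapDomain]
  split_ifs with h2
  · unfold wS
    congr 2
    ext v
    change wrep g.right v = u ↔ v * u⁻¹ ∈ Subgroup.zpowers g.right
    constructor
    · intro h
      rw [← h2] at h
      exact (wrep_iff _ _ _).1 h.symm
    · intro h
      rw [← (wrep_iff _ _ _).2 h, h2]
  · refine mu_eq_zero fun v _ hv => h2 ?_
    have hv' : wrep g.right v = u := hv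
    have h3 := wrep_mem g.right v
    have h4 : wrep g.right v = wrep g.right (wrep g.right v) := (wrep_iff _ _ _).2 h3
    rw [hv'] at h4
    exact h4.symm

theorem wreath_conj_right (g : Wreath A Q) (h : ∀ u, wS g u = 0) :
    IsConj g (SemidirectProduct.inr g.right) := by
  have h1 := wreath_conj g
  have h2 : (wa g).mapDomain (wrep g.right) = 0 := by
    refine Finsupp.ext fun u => ?_
    rw [wS_rep, h u, ite_self]
    rfl
  rw [h2] at h1
  exact h1

theorem wreath_torsion (g : Wreath A Q) (hq : IsOfFinOrder g.right)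
    (h : ∀ u, IsOfFinAddOrder (wS g u)) : IsOfFinOrder g := by
  have h1 := wreath_conj g
  refine h1.symm.isOfFinOrder ?_
  set f := (wa g).mapDomain (wrep g.right) with hf
  obtain ⟨E, hE, hEf⟩ : ∃ E : ℕ, 0 < E ∧ E • f = 0 := by
    have h2 : ∀ u, IsOfFinAddOrder (f u) := by
      intro u
      rw [hf, wS_rep]
      split_ifs
      · exact h u
      · exact IsOfFinAddOrder.zero
    refine ⟨∏ u ∈ f.support, addOrderOf (f u), Finset.prod_pos fun u _ => (h2 u).addOrderOf_pos, ?_⟩
    refine Finsupp.ext fun u => ?_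
    rw [Finsupp.smul_apply, Finsupp.zero_apply]
    by_cases hu : u ∈ f.support
    · rw [← addOrderOf_dvd_iff_nsmul_eq_zero]
      exact Finset.dvd_prod_of_mem _ hu
    · rw [Finsupp.notMem_support_iff.1 hu, smul_zero]
  have h2 : ∀ n : ℕ, E • wa ((wmk f g.right) ^ n) = 0 := by
    intro n
    induction n with
    | zero =>
      rw [pow_zero]
      exact smul_zero E
    | succ n ih =>
      rw [pow_succ, wa_mul, smul_add, ih, zero_add]
      have h3 := (Finsupp.mapDomain.addMonoidHom (M := A)
        (((wmk f g.right) ^ n).right * ·)).map_nsmul E (wa (wmk f g.right))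
      have h4 : E • wa (wmk f g.right) = 0 := hEf
      rw [h4, map_zero] at h3
      exact h3.symm
  obtain ⟨n, hn, hn1⟩ := isOfFinOrder_iff_pow_eq_one.1 hq
  refine isOfFinOrder_iff_pow_eq_one.2 ⟨n * E, Nat.mul_pos hn hE, ?_⟩
  rw [pow_mul]
  have h3 : ((wmk f g.right) ^ n).right = 1 := by
    have h4 := map_pow (SemidirectProduct.rightHom : Wreath A Q →* Q) (wmk f g.right) n
    change ((wmk f g.right) ^ n).right = g.right ^ n at h4
    rw [h4, hn1]
  have h5 : (wmk f g.right) ^ n = wmk (wa ((wmk f g.right) ^ n)) 1 := by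
    conv_lhs => rw [← wmk_eq ((wmk f g.right) ^ n), h3]
  have h6 : ∀ (b : Q →₀ A) (k : ℕ), (wmk b 1 : Wreath A Q) ^ k = wmk (k • b) 1 := by
    intro b k
    induction k with
    | zero =>
      rw [pow_zero, zero_smul]
      rfl
    | succ k ih =>
      rw [pow_succ, ih, wmk_mul]
      have h2 : (fun u : Q => 1 * u) = id := funext fun u => one_mul u
      rw [h2, Finsupp.mapDomain_id, mul_one, succ_nsmul]
  rw [h5, h6, h2]
  rfl

/-- Elements of infinite order which are not conjugate to elements of `Q`. -/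
theorem wreath_vanish_of (g : Wreath A Q) (hg : ¬ IsOfFinOrder g)
    (hc : IsOfFinOrder g.right ∨ ¬ IsConj g (SemidirectProduct.inr g.right)) : VanishesAt g := by
  by_cases hq : IsOfFinOrder g.right
  · have h1 : ∃ u, ¬ IsOfFinAddOrder (wS g u) := by
      by_contra h
      push Not at h
      exact hg (wreath_torsion g hq h)
    obtain ⟨u, hu⟩ := h1
    refine wreath_vanish g u (fun h => hu ?_) (Or.inr hu)
    rw [h]
    exact IsOfFinAddOrder.zero
  · have h1 : ∃ u, wS g u ≠ 0 := by
      by_contra h
      push Not at h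
      exact (hc.resolve_left hq) (wreath_conj_right g h)
    obtain ⟨u, hu⟩ := h1
    exact wreath_vanish g u hu (Or.inl hq)

theorem inr_conj {x y : Q} (h : IsConj x y) :
    IsConj (SemidirectProduct.inr x : Wreath A Q) (SemidirectProduct.inr y) := by
  obtain ⟨c, hc⟩ := isConj_iff.1 h
  refine isConj_iff.2 ⟨SemidirectProduct.inr c, ?_⟩
  rw [← map_mul, ← map_inv, ← map_mul, hc]

/-- Classes of infinite order of `A ≀ Q`. -/
theorem wreath_all (hQ : ∀ x : Q, ¬ IsOfFinOrder x → VanishesAt x) (g : Wreath A Q)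
    (hg : ¬ IsOfFinOrder g) : VanishesAt g := by
  by_cases hq : IsOfFinOrder g.right
  · exact wreath_vanish_of g hg (Or.inl hq)
  by_cases hc : IsConj g (SemidirectProduct.inr g.right)
  · intro n e he
    have h1 := tau_push (SemidirectProduct.rightHom : Wreath A Q →* Q) he g ?_
    · rw [h1]
      exact hQ _ hq n _ (push_idem _ he)
    · intro y hy hgy
      have hy' : IsConj g.right y.right := hy
      have hyq : ¬ IsOfFinOrder y.right := fun h => hq (hy'.symm.isOfFinOrder h)
      have hy2 : ¬ IsOfFinOrder y := fun h =>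
        hyq (MonoidHom.isOfFinOrder (SemidirectProduct.rightHom : Wreath A Q →* Q) h)
      refine wreath_vanish_of y hy2 (Or.inr fun h => hgy ?_)
      exact hc.trans ((inr_conj hy').trans h.symm)
  · exact wreath_vanish_of g hg (Or.inr hc)

/-- The `ℓ¹`-Bass conjecture passes from `Q` to `A ≀ Q` for torsion-free `A`. -/
theorem wreath_bass (hA : ∀ c : A, IsOfFinAddOrder c → c = 0) (hQ : L1Bass Q) :
    L1Bass (Wreath A Q) := by
  classical
  intro n e he
  obtain ⟨F, hF1, hF2⟩ := hQ n _ (push_idem (SemidirectProduct.rightHom : Wreath A Q →* Q) he)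
  have hvan : ∀ g : Wreath A Q, ¬ IsConj g (SemidirectProduct.inr g.right) → VanishesAt g := by
    intro g hg
    have h1 : ∃ u, wS g u ≠ 0 := by
      by_contra h
      push Not at h
      exact hg (wreath_conj_right g h)
    obtain ⟨u, hu⟩ := h1
    exact wreath_vanish g u hu (Or.inr fun h => hu (hA _ h))
  refine ⟨F.image (ConjClasses.map (SemidirectProduct.inr : Q →* Wreath A Q)), ?_, ?_⟩
  · intro C hC g hg
    obtain ⟨D, hD, rfl⟩ := Finset.mem_image.1 hC
    obtain ⟨x, rfl⟩ := ConjClasses.mk_surjective D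
    have h1 : IsOfFinOrder x := hF1 _ hD x ConjClasses.mem_carrier_mk
    have h2 : ConjClasses.mk g = ConjClasses.mk (SemidirectProduct.inr x : Wreath A Q) :=
      ConjClasses.mem_carrier_iff_mk_eq.1 hg
    have h3 := ConjClasses.mk_eq_mk_iff_isConj.1 h2
    exact h3.symm.isOfFinOrder
      (MonoidHom.isOfFinOrder (SemidirectProduct.inr : Q →* Wreath A Q) h1)
  · intro C hC
    obtain ⟨g, rfl⟩ := ConjClasses.mk_surjective C
    by_cases hg : IsConj g (SemidirectProduct.inr g.right)
    · have h1 := tau_push (SemidirectProduct.rightHom : Wreath A Q →* Q) he g ?_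
      · rw [h1]
        refine hF2 _ fun h2 => hC ?_
        refine Finset.mem_image.2 ⟨_, h2, ?_⟩
        exact ConjClasses.mk_eq_mk_iff_isConj.2 hg.symm
      · intro y hy hgy
        have hy' : IsConj g.right y.right := hy
        refine hvan y fun h => hgy ?_
        exact hg.trans ((inr_conj hy').trans h.symm)
    · exact hvan g hg n e he

end Wr

end Vale.Agent.P184.H444
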