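import Vale.Agent.P184.H444.Wre
import Vale.Agent.P184.H444.Fin2

/-!
# Permanence of the `ℓ¹`-Bass conjecture
-/

noncomputable section

open Filter Topology

namespace Vale.Agent.P184.H444

section General

variable {G Q A : Type*} [Group G] [Group Q] [AddCommGroup A] (π : G →* Q)
  (a : G → Q →₀ A) (ha : ∀ h k, a (h * k) = a h + (a k).mapDomain (π h * ·))

/-- the homomorphism to the wreath product -/
def toWreath : G →* Wreath A Q where
  toFun g := wmk (a g) (π g)
  map_one' := by
    have h1 : a 1 = 0 := by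
      have h2 := ha 1 1
      have h3 : (a 1).mapDomain (π 1 * ·) = a 1 := by
        have h4 : (fun u : Q => π 1 * u) = id := by
          funext u
          rw [map_one, one_mul]
          rfl
        rw [h4]
        exact Finsupp.mapDomain_id
      rw [mul_one, h3] at h2
      have h5 : a 1 + 0 = a 1 + a 1 := by rw [add_zero]; exact h2
      exact (add_left_cancel h5).symm
    rw [h1, map_one]
    rfl
  map_mul' h k := by rw [wmk_mul, ha, map_mul]

include ha in
theorem cS_conj (g r : G) (u : Q) : cS π a (r * g * r⁻¹) (π r * u) = cS π a g u := by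
  have h5 := (crossA π a ha g u).conj (g := g) (x := ((1 : G) : G ⧸ cycH π g)) ?_ r
  · have h6 : r • ((1 : G) : G ⧸ cycH π g) = (r : G ⧸ cycH π g) := by
      change ((r * 1 : G) : G ⧸ cycH π g) = (r : G ⧸ cycH π g)
      rw [mul_one]
    rw [h6, crossA_one π a ha (self_mem_cycH π g)] at h5
    have h7 : (r * g * r⁻¹) • (r : G ⧸ cycH π g) = (r : G ⧸ cycH π g) := by
      change ((r * g * r⁻¹ * r : G) : G ⧸ cycH π g) = (r : G ⧸ cycH π g)
      rw [inv_mul_cancel_right, QuotientGroup.mk_mul_of_mem _ (self_mem_cycH π g)]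
    have h8 : cosW π g u (r : G ⧸ cycH π g) =
        {w | w * (π r * u)⁻¹ ∈ Subgroup.zpowers (π (r * g * r⁻¹))} := by
      ext w
      rw [cosW_iff]
      change (π r)⁻¹ * w * u⁻¹ ∈ Subgroup.zpowers (π g) ↔
        w * (π r * u)⁻¹ ∈ Subgroup.zpowers (π (r * g * r⁻¹))
      rw [map_mul, map_mul, map_inv]
      constructor
      · intro h10
        obtain ⟨i, hi⟩ := Subgroup.mem_zpowers_iff.1 h10
        refine Subgroup.mem_zpowers_iff.2 ⟨i, ?_⟩
        rw [conj_zpow, hi]
        group
      · intro h10
        obtain ⟨i, hi⟩ := Subgroup.mem_zpowers_iff.1 h10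
        refine Subgroup.mem_zpowers_iff.2 ⟨i, ?_⟩
        rw [conj_zpow] at hi
        have h11 : π g ^ i = (π r)⁻¹ * (π r * π g ^ i * (π r)⁻¹) * π r := by group
        rw [h11, hi]
        group
    change mu (cosW π g u ((r * g * r⁻¹) • (r : G ⧸ cycH π g))) (a (r * g * r⁻¹)) = _ at h5
    rw [h7, h8] at h5
    exact h5
  · change ((g * 1 : G) : G ⧸ cycH π g) = ((1 : G) : G ⧸ cycH π g)
    rw [QuotientGroup.eq, mul_one, mul_one]
    exact Subgroup.inv_mem _ (self_mem_cycH π g)

include ha in
/-- Permanence of the `ℓ¹`-Bass conjecture for extensions by abelian groups inside wreath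
products. -/
theorem ext_bass (hπ : Function.Surjective π)
    (hker : ∀ m n : G, π m = 1 → π n = 1 → m * n = n * m)
    (huniq : ∀ g g' : G, π g = π g' → (∀ u, cS π a g u = 0) → (∀ u, cS π a g' u = 0) →
      IsConj g g') (hQ : L1Bass Q) : L1Bass G := by
  classical
  have huniq' : ∀ g g' : G, IsConj (π g) (π g') → (∀ u, cS π a g u = 0) →
      (∀ u, cS π a g' u = 0) → IsConj g g' := by
    intro g g' hgg h1 h2
    obtain ⟨c, hc⟩ := isConj_iff.1 hgg
    obtain ⟨r, rfl⟩ := hπ c
    have h3 : IsConj g (r * g * r⁻¹) := isConj_iff.2 ⟨r, rfl⟩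
    refine h3.trans (huniq _ _ ?_ (fun u => ?_) h2)
    · rw [map_mul, map_mul, map_inv, hc]
    · have h4 := cS_conj π a ha g r ((π r)⁻¹ * u)
      rw [mul_inv_cancel_left, h1] at h4
      exact h4
  have htors : ∀ g : G, IsOfFinOrder (π g) → (∀ u, IsOfFinAddOrder (cS π a g u)) →
      IsOfFinOrder g := by
    intro g h1 h2
    have hinj : Function.Injective (toWreath π a ha) := by
      rw [injective_iff_map_eq_one]
      intro k hk
      have h3 : a k = 0 := congrArg wa hk
      have h4 : π k = 1 := congrArg SemidirectProduct.right hk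
      have h5 := huniq k 1 (by rw [h4, map_one]) (fun u => by unfold cS; rw [h3, map_zero])
        (fun u => by
          have h6 : a 1 = 0 := congrArg wa (map_one (toWreath π a ha))
          unfold cS
          rw [h6, map_zero])
      obtain ⟨c, hc⟩ := isConj_iff.1 h5.symm
      rw [mul_one, mul_inv_cancel] at hc
      exact hc.symm
    rw [← hinj.isOfFinOrder_iff]
    exact wreath_torsion _ h1 h2
  intro q e he
  obtain ⟨F, hF1, hF2⟩ := hQ q _ (push_idem π he)
  have hfin := fin_classes π a ha hker he
  set T : Finset (ConjClasses G) := hfin.toFinset with hT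
  -- classes of elements with zero sums
  have hcl : Set.Finite {C : ConjClasses G | (∃ g, C = ConjClasses.mk g ∧
      (∀ u, cS π a g u = 0) ∧ IsOfFinOrder (π g)) ∧
        C.map π ∈ F ∪ T.image (ConjClasses.map π)} := by
    refine Set.Finite.of_finite_image (f := ConjClasses.map π)
      ((F ∪ T.image (ConjClasses.map π)).finite_toSet.subset ?_) ?_
    · rintro _ ⟨C, ⟨_, hC⟩, rfl⟩
      exact hC
    · rintro C ⟨⟨g, rfl, h1, _⟩, _⟩ C' ⟨⟨g', rfl, h2, _⟩, _⟩ hCC
      have h3 : IsConj (π g) (π g') := ConjClasses.mk_eq_mk_iff_isConj.1 hCC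
      exact ConjClasses.mk_eq_mk_iff_isConj.2 (huniq' g g' h3 h1 h2)
  refine ⟨T ∪ hcl.toFinset, fun C hC => ?_, fun C hC => ?_⟩
  · have htorC : ∀ g : G, IsOfFinOrder g → IsTorsionClass (ConjClasses.mk g) := by
      intro g hg g' hg'
      have h2 : ConjClasses.mk g' = ConjClasses.mk g := ConjClasses.mem_carrier_iff_mk_eq.1 hg'
      exact (ConjClasses.mk_eq_mk_iff_isConj.1 h2).symm.isOfFinOrder hg
    rcases Finset.mem_union.1 hC with hC | hC
    · have hC' : C ∈ {C : ConjClasses G | ∃ g u, C = ConjClasses.mk g ∧ cS π a g u ≠ 0 ∧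
          tau C e ≠ 0} := hfin.mem_toFinset.1 hC
      obtain ⟨g, u, rfl, hu, htau⟩ := hC'
      refine htorC g (htors g ?_ fun v => ?_)
      · by_contra h
        exact htau (vanish_of_crossed π a ha hker g u hu (Or.inl h) q e he)
      · by_contra h
        refine htau (vanish_of_crossed π a ha hker g v (fun h0 => h ?_) (Or.inr h) q e he)
        rw [show cS π a g v = 0 from h0]
        exact IsOfFinAddOrder.zero
    · have hC' := hcl.mem_toFinset.1 hC
      obtain ⟨⟨g, rfl, h1, h2⟩, _⟩ := hC'
      refine htorC g (htors g h2 fun v => ?_)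
      rw [h1 v]
      exact IsOfFinAddOrder.zero
  · rw [Finset.mem_union, not_or] at hC
    obtain ⟨hC1, hC2⟩ := hC
    obtain ⟨g, rfl⟩ := ConjClasses.mk_surjective C
    by_contra htau
    by_cases hS : ∃ u, cS π a g u ≠ 0
    · obtain ⟨u, hu⟩ := hS
      exact hC1 (hfin.mem_toFinset.2 ⟨g, u, rfl, hu, htau⟩)
    · push Not at hS
      -- other classes over the same class
      by_cases hother : ∃ D : ConjClasses G, D.map π = (ConjClasses.mk g).map π ∧
          D ≠ ConjClasses.mk g ∧ tau D e ≠ 0
      · obtain ⟨D, hD1, hD2, hD3⟩ := hother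
        obtain ⟨y, rfl⟩ := ConjClasses.mk_surjective D
        have h3 : IsConj (π y) (π g) := ConjClasses.mk_eq_mk_iff_isConj.1 hD1
        have h4 : ∃ u, cS π a y u ≠ 0 := by
          by_contra h
          push Not at h
          exact hD2 (ConjClasses.mk_eq_mk_iff_isConj.2 (huniq' y g h3 h hS))
        obtain ⟨u, hu⟩ := h4
        have h5 : IsOfFinOrder (π y) := by
          by_contra h
          exact hD3 (vanish_of_crossed π a ha hker y u hu (Or.inl h) q e he)
        refine hC2 (hcl.mem_toFinset.2 ⟨⟨g, rfl, hS, h3.isOfFinOrder h5⟩, ?_⟩)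
        rw [Finset.mem_union]
        right
        exact Finset.mem_image.2 ⟨_, hfin.mem_toFinset.2 ⟨y, u, rfl, hu, hD3⟩, hD1⟩
      · push Not at hother
        have h6 := tsum_classes_single he π ((ConjClasses.mk g).map π) (ConjClasses.mk g) rfl
          (fun D hD hne => by
            by_contra h7
            exact h7 (hother D hD hne))
        have h7 := push_tau π he ((ConjClasses.mk g).map π)
        rw [h6] at h7
        have h8 : (ConjClasses.mk g).map π ∈ F := by
          by_contra h9
          exact htau (h7 ▸ hF2 _ h9)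
        have h9 : IsOfFinOrder (π g) := hF1 _ h8 (π g) ConjClasses.mem_carrier_mk
        exact hC2 (hcl.mem_toFinset.2 ⟨⟨g, rfl, hS, h9⟩, Finset.mem_union_left _ h8⟩)

end General

section Wr2

variable {A Q : Type*} [AddCommGroup A] [Group Q]

theorem cS_wreath (g : Wreath A Q) (u : Q) :
    cS (SemidirectProduct.rightHom : Wreath A Q →* Q) wa g u = wS g u := rfl

/-- The `ℓ¹`-Bass conjecture passes from `Q` to `A ≀ Q` for all abelian groups `A`. -/
theorem wreath_bass_all (hQ : L1Bass Q) : L1Bass (Wreath A Q) := by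
  refine ext_bass (SemidirectProduct.rightHom : Wreath A Q →* Q) wa wa_mul
    SemidirectProduct.rightHom_surjective ?_ ?_ hQ
  · intro m n hm hn
    have hm' : m.right = 1 := hm
    have hn' : n.right = 1 := hn
    refine SemidirectProduct.ext ?_ ?_
    · rw [SemidirectProduct.mul_left, SemidirectProduct.mul_left, hm', hn', map_one]
      exact mul_comm _ _
    · rw [SemidirectProduct.mul_right, SemidirectProduct.mul_right, hm', hn']
  · intro g g' hgg h1 h2
    have h3 := wreath_conj_right g h1
    have h4 := wreath_conj_right g' h2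
    have hgg' : g.right = g'.right := hgg
    rw [← hgg'] at h4
    exact h3.trans h4.symm

end Wr2

end Vale.Agent.P184.H444
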